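import Crest.Agent.SRFactor.Core

/-! From a sequence of events which is Cauchy in probability to an almost sure limit bit, in a form
that is measurable in parameters and equivariant. -/

set_option autoImplicit false

open MeasureTheory ProbabilityTheory

namespace Crest.Agent.SRFactor

section abstract
variable {Ω : Type*} [MeasurableSpace Ω]

/-- A radius after which all disagreement probabilities are below `4^{-k}`. -/
noncomputable def rkOf (P : Measure Ω) (R : ℕ → Ω → Bool) (k : ℕ) : ℕ :=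
  sInf {r0 | ∀ r r', r0 ≤ r → r0 ≤ r' →
    P {ω | R r ω ≠ R r' ω} ≤ ENNReal.ofReal ((1 / 4 : ℝ) ^ k)}

open scoped Classical in
/-- The limit bit. -/
noncomputable def limBit (P : Measure Ω) (R : ℕ → Ω → Bool) (ω : Ω) : Bool :=
  decide (∃ᶠ k in Filter.atTop, R (rkOf P R k) ω = true)

omit [MeasurableSpace Ω] in
lemma rkOf_set_nonempty' {Ω : Type*} [MeasurableSpace Ω] (P : Measure Ω) (R : ℕ → Ω → Bool)
    (hC : ∀ ε : ℝ, 0 < ε → ∃ r0, ∀ r r', r0 ≤ r → r0 ≤ r' →
      P {ω | R r ω ≠ R r' ω} ≤ ENNReal.ofReal ε) (k : ℕ) :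
    {r0 | ∀ r r', r0 ≤ r → r0 ≤ r' →
      P {ω | R r ω ≠ R r' ω} ≤ ENNReal.ofReal ((1 / 4 : ℝ) ^ k)}.Nonempty :=
  hC _ (by positivity)

lemma rkOf_mem (P : Measure Ω) (R : ℕ → Ω → Bool)
    (hC : ∀ ε : ℝ, 0 < ε → ∃ r0, ∀ r r', r0 ≤ r → r0 ≤ r' →
      P {ω | R r ω ≠ R r' ω} ≤ ENNReal.ofReal ε) (k : ℕ) :
    ∀ r r', rkOf P R k ≤ r → rkOf P R k ≤ r' →
      P {ω | R r ω ≠ R r' ω} ≤ ENNReal.ofReal ((1 / 4 : ℝ) ^ k) :=
  Nat.sInf_mem (rkOf_set_nonempty' P R hC k)

lemma rkOf_mono (P : Measure Ω) (R : ℕ → Ω → Bool)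
    (hC : ∀ ε : ℝ, 0 < ε → ∃ r0, ∀ r r', r0 ≤ r → r0 ≤ r' →
      P {ω | R r ω ≠ R r' ω} ≤ ENNReal.ofReal ε) : Monotone (rkOf P R) := by
  intro k k' hk
  apply Nat.sInf_le
  intro r r' hr hr'
  refine (rkOf_mem P R hC k' r r' hr hr').trans (ENNReal.ofReal_le_ofReal ?_)
  exact pow_le_pow_of_le_one (by norm_num) (by norm_num) hk

lemma geom_tsum_le (k : ℕ) :
    ∑' j : ℕ, ENNReal.ofReal ((1 / 4 : ℝ) ^ (k + j)) ≤ ENNReal.ofReal (2 * (1 / 4 : ℝ) ^ k) := by
  have hs : Summable fun j : ℕ => (1 / 4 : ℝ) ^ (k + j) := by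
    simp_rw [pow_add]
    exact (summable_geometric_of_lt_one (by norm_num) (by norm_num)).mul_left _
  rw [← ENNReal.ofReal_tsum_of_nonneg (fun j => by positivity) hs]
  apply ENNReal.ofReal_le_ofReal
  simp_rw [pow_add]
  rw [tsum_mul_left, tsum_geometric_of_lt_one (by norm_num) (by norm_num)]
  have : (0 : ℝ) ≤ (1 / 4 : ℝ) ^ k := by positivity
  nlinarith

/-- Core of `limBit_spec`: no measurability is needed. -/
lemma limBit_spec_core (P : Measure Ω) (R : ℕ → Ω → Bool)
    (hC : ∀ ε : ℝ, 0 < ε → ∃ r0, ∀ r r', r0 ≤ r → r0 ≤ r' →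
      P {ω | R r ω ≠ R r' ω} ≤ ENNReal.ofReal ε) {ε : ℝ} (hε : 0 < ε) :
    ∃ r0, ∀ r, r0 ≤ r → P {ω | limBit P R ω ≠ R r ω} ≤ ENNReal.ofReal ε := by
  classical
  obtain ⟨k, hk⟩ : ∃ k : ℕ, 3 * (1 / 4 : ℝ) ^ k ≤ ε := by
    have : Filter.Tendsto (fun k : ℕ => 3 * (1 / 4 : ℝ) ^ k) Filter.atTop (nhds (3 * 0)) :=
      (tendsto_pow_atTop_nhds_zero_of_lt_one (by norm_num) (by norm_num)).const_mul 3
    rw [mul_zero] at this
    exact ((this.eventually (ge_mem_nhds hε))).exists
  refine ⟨rkOf P R k, fun r hr => ?_⟩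
  set B : ℕ → Set Ω := fun j => {ω | R (rkOf P R (k + j)) ω ≠ R (rkOf P R (k + j + 1)) ω} with hB
  have hmono := rkOf_mono P R hC
  have hBj : ∀ j, P (B j) ≤ ENNReal.ofReal ((1 / 4 : ℝ) ^ (k + j)) := fun j =>
    rkOf_mem P R hC (k + j) _ _ le_rfl (hmono (Nat.le_succ _))
  -- off the union of `B j`, the sequence is constant from `k` on
  have hconst : ∀ ω, ω ∉ ⋃ j, B j → ∀ j, R (rkOf P R (k + j)) ω = R (rkOf P R k) ω := by
    intro ω hω j
    induction j with
    | zero => rfl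
    | succ j ih =>
      have : ¬ (R (rkOf P R (k + j)) ω ≠ R (rkOf P R (k + j + 1)) ω) := fun h =>
        hω (Set.mem_iUnion.2 ⟨j, h⟩)
      rw [not_not] at this
      rw [← ih, this]; rfl
  have hlim : ∀ ω, ω ∉ ⋃ j, B j → limBit P R ω = R (rkOf P R k) ω := by
    intro ω hω
    have hiff : (∃ᶠ j in Filter.atTop, R (rkOf P R j) ω = true) ↔ R (rkOf P R k) ω = true := by
      constructor
      · intro h
        obtain ⟨j, hj, hj'⟩ := (Filter.frequently_atTop.1 h) k
        obtain ⟨i, rfl⟩ := Nat.exists_eq_add_of_le hj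
        rw [hconst ω hω i] at hj'
        exact hj'
      · intro h
        refine Filter.frequently_atTop.2 fun a => ⟨k + a, by omega, ?_⟩
        rw [hconst ω hω a]; exact h
    unfold limBit
    by_cases h : R (rkOf P R k) ω = true
    · rw [h]; simpa using hiff.2 h
    · have h' : R (rkOf P R k) ω = false := by simpa using h
      rw [h']
      simp only [decide_eq_false_iff_not]
      exact fun hh => h (hiff.1 hh)
  have hsub : {ω | limBit P R ω ≠ R r ω} ⊆ (⋃ j, B j) ∪ {ω | R (rkOf P R k) ω ≠ R r ω} := by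
    intro ω hω
    by_cases hb : ω ∈ ⋃ j, B j
    · exact Or.inl hb
    · refine Or.inr ?_
      simp only [Set.mem_setOf_eq] at hω ⊢
      rwa [hlim ω hb] at hω
  calc P {ω | limBit P R ω ≠ R r ω}
      ≤ P (⋃ j, B j) + P {ω | R (rkOf P R k) ω ≠ R r ω} :=
        (measure_mono hsub).trans (measure_union_le _ _)
    _ ≤ ENNReal.ofReal (2 * (1 / 4 : ℝ) ^ k) + ENNReal.ofReal ((1 / 4 : ℝ) ^ k) := by
        gcongr
        · exact (measure_iUnion_le _).trans ((ENNReal.tsum_le_tsum hBj).trans (geom_tsum_le k))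
        · exact rkOf_mem P R hC k _ _ le_rfl hr
    _ = ENNReal.ofReal (3 * (1 / 4 : ℝ) ^ k) := by
        rw [← ENNReal.ofReal_add (by positivity) (by positivity)]; congr 1; ring
    _ ≤ ENNReal.ofReal ε := ENNReal.ofReal_le_ofReal hk

/-- The limit bit is a limit in probability. -/
theorem limBit_spec (P : Measure Ω) [IsProbabilityMeasure P] (R : ℕ → Ω → Bool)
    (hR : ∀ r, Measurable (R r))
    (hC : ∀ ε : ℝ, 0 < ε → ∃ r0, ∀ r r', r0 ≤ r → r0 ≤ r' →
      P {ω | R r ω ≠ R r' ω} ≤ ENNReal.ofReal ε) {ε : ℝ} (hε : 0 < ε) :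
    ∃ r0, ∀ r, r0 ≤ r → P {ω | limBit P R ω ≠ R r ω} ≤ ENNReal.ofReal ε :=
  limBit_spec_core P R hC hε

lemma measurable_sInf_nat {Θ : Type*} [MeasurableSpace Θ] (S : Θ → Set ℕ)
    (hS : ∀ n, MeasurableSet {θ | n ∈ S θ}) : Measurable (fun θ => sInf (S θ)) := by
  classical
  refine measurable_to_countable' fun n => ?_
  have e : (fun θ => sInf (S θ)) ⁻¹' {n} =
      ({θ | n ∈ S θ} ∩ ⋂ m ∈ Finset.range n, {θ | m ∈ S θ}ᶜ) ∪
        ({θ | n = 0} ∩ ⋂ m : ℕ, {θ | m ∈ S θ}ᶜ) := by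
    ext θ
    simp only [Set.mem_preimage, Set.mem_singleton_iff, Set.mem_union, Set.mem_inter_iff,
      Set.mem_setOf_eq, Set.mem_iInter, Set.mem_compl_iff, Finset.mem_range]
    constructor
    · intro h
      by_cases hne : (S θ).Nonempty
      · left
        refine ⟨h ▸ Nat.sInf_mem hne, fun m hm => ?_⟩
        exact Nat.notMem_of_lt_sInf (h ▸ hm)
      · right
        rw [Set.not_nonempty_iff_eq_empty] at hne
        rw [hne, Nat.sInf_empty] at h
        exact ⟨h.symm, fun m => by simp [hne]⟩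
    · rintro (⟨h1, h2⟩ | ⟨h1, h2⟩)
      · apply le_antisymm (Nat.sInf_le h1)
        by_contra hlt
        exact h2 _ (not_le.1 hlt) (Nat.sInf_mem ⟨n, h1⟩)
      · have : S θ = ∅ := Set.eq_empty_of_forall_notMem h2
        rw [this, Nat.sInf_empty, h1]
  rw [e]
  refine MeasurableSet.union ((hS n).inter ?_) ((MeasurableSet.const _).inter ?_)
  · exact Finset.measurableSet_biInter _ fun m _ => (hS m).compl
  · exact MeasurableSet.iInter fun m => (hS m).compl

/-- Measurability of the limit bit jointly in a parameter. -/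
theorem measurable_limBit {Θ : Type*} [MeasurableSpace Θ] (P : Measure Ω) [SFinite P]
    (R : Θ → ℕ → Ω → Bool) (hR : ∀ r, Measurable (fun q : Θ × Ω => R q.1 r q.2)) :
    Measurable (fun q : Θ × Ω => limBit P (R q.1) q.2) := by
  classical
  -- disagreement probabilities are measurable in the parameter
  have hD : ∀ r r', Measurable fun θ : Θ => P {ω | R θ r ω ≠ R θ r' ω} := by
    intro r r'
    have hset : MeasurableSet {q : Θ × Ω | R q.1 r q.2 ≠ R q.1 r' q.2} :=
      (measurableSet_eq_fun (hR r) (hR r')).compl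
    exact measurable_measure_prodMk_left hset
  -- the radius is measurable in the parameter
  have hrk : ∀ k, Measurable fun θ : Θ => rkOf P (R θ) k := by
    intro k
    refine measurable_sInf_nat _ fun r0 => ?_
    have : {θ : Θ | r0 ∈ {r0 | ∀ r r', r0 ≤ r → r0 ≤ r' →
        P {ω | R θ r ω ≠ R θ r' ω} ≤ ENNReal.ofReal ((1 / 4 : ℝ) ^ k)}} =
        ⋂ r : ℕ, ⋂ r' : ℕ, ⋂ (_ : r0 ≤ r), ⋂ (_ : r0 ≤ r'),
          {θ | P {ω | R θ r ω ≠ R θ r' ω} ≤ ENNReal.ofReal ((1 / 4 : ℝ) ^ k)} := by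
      ext θ; simp
    rw [this]
    refine MeasurableSet.iInter fun r => MeasurableSet.iInter fun r' =>
      MeasurableSet.iInter fun _ => MeasurableSet.iInter fun _ => ?_
    exact measurableSet_le (hD r r') measurable_const
  -- evaluation at the radius
  have hX : ∀ k, Measurable fun q : Θ × Ω => R q.1 (rkOf P (R q.1) k) q.2 := by
    intro k
    have h1 : Measurable fun p : (Θ × Ω) × ℕ => R p.1.1 p.2 p.1.2 :=
      measurable_from_prod_countable_left fun r => hR r
    exact h1.comp (measurable_id.prodMk ((hrk k).comp measurable_fst))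
  refine measurable_to_bool ?_
  have : (fun q : Θ × Ω => limBit P (R q.1) q.2) ⁻¹' {true} =
      ⋂ a : ℕ, ⋃ k : ℕ, ⋃ (_ : a ≤ k), {q : Θ × Ω | R q.1 (rkOf P (R q.1) k) q.2 = true} := by
    ext q
    simp [limBit, Filter.frequently_atTop]
  rw [this]
  refine MeasurableSet.iInter fun a => MeasurableSet.iUnion fun k => MeasurableSet.iUnion fun _ => ?_
  exact (hX k) (measurableSet_singleton true)

/-- Equivariance of the limit bit: precomposition with a measure preserving map. -/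
theorem limBit_comp (P : Measure Ω) (τ : Ω → Ω) (hτ : MeasurePreserving τ P P)
    (hinj : MeasurableEmbedding τ) (R R' : ℕ → Ω → Bool) (hRR : ∀ r ω, R' r ω = R r (τ ω))
    (ω : Ω) : limBit P R' ω = limBit P R (τ ω) := by
  classical
  have hset : ∀ r r', P {ω | R' r ω ≠ R' r' ω} = P {ω | R r ω ≠ R r' ω} := by
    intro r r'
    have : {ω | R' r ω ≠ R' r' ω} = τ ⁻¹' {ω | R r ω ≠ R r' ω} := by
      ext x; simp [hRR]
    rw [this, hτ.measure_preimage_emb hinj]
  have hrk : ∀ k, rkOf P R' k = rkOf P R k := by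
    intro k
    simp only [rkOf, hset]
  unfold limBit
  simp only [hrk, hRR]

end abstract

variable {E : Type*} [DecidableEq E]

section
variable {Ω : Type*} [MeasurableSpace Ω] {P : Measure Ω} {ξ : Ω → Noise E} {Dom : Set E}
  {W : E → ℕ → Finset E} {ν : Family E} {κ : ℝ}

/-- The law of the limit bits is `ν`: main output of the core. -/
theorem limit_pattern (hκ : 0 < κ) (hL : ν.Lip κ) (hW : IsWindows Dom W)
    (hξ : IsDyadicNoise P ξ Dom) {F : Finset E} (hF : (F : Set E) ⊆ Dom) {S : Finset E}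
    (hS : S ⊆ F) :
    (P {ω | ∀ g ∈ F, (limBit P (fun r ω => Rbit ν κ W r (ξ ω) g) ω = true ↔ g ∈ S)}).toReal
      = ν.mass F S := by
  classical
  have := hξ.prob
  set L : E → Ω → Bool := fun g ω => limBit P (fun r ω => Rbit ν κ W r (ξ ω) g) ω with hLdef
  refine eq_of_abs_sub_le_all ?_
  intro ε hε
  -- choose the radii site by site
  set δ : ℝ := (ε / 2) / (F.card + 1) with hδ
  have hδpos : 0 < δ := by positivity
  have hclose : ∀ g ∈ F, ∃ r0, ∀ r, r0 ≤ r →
      P {ω | L g ω ≠ Rbit ν κ W r (ξ ω) g} ≤ ENNReal.ofReal δ := by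
    intro g hg
    exact limBit_spec_core P (fun r ω => Rbit ν κ W r (ξ ω) g)
      (fun ε hε => core_cauchy hκ hL hW hξ (hF hg) hε) hδpos
  choose! r1 hr1 using hclose
  obtain ⟨r0, hr0⟩ := core_pattern hκ hL hW hξ hF hS (half_pos hε)
  set r : E → ℕ := fun g => max r0 (r1 g) with hr
  have hpat := hr0 r (fun g _ => le_max_left _ _)
  set A : Set Ω := {ω | ∀ g ∈ F, (L g ω = true ↔ g ∈ S)} with hA
  set A' : Set Ω := {ω | ∀ g ∈ F, (Rbit ν κ W (r g) (ξ ω) g = true ↔ g ∈ S)} with hA'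
  set D : Set Ω := ⋃ g ∈ F, {ω | L g ω ≠ Rbit ν κ W (r g) (ξ ω) g} with hD
  have hDle : P D ≤ ENNReal.ofReal (ε / 2) := by
    calc P D ≤ ∑ g ∈ F, P {ω | L g ω ≠ Rbit ν κ W (r g) (ξ ω) g} :=
          measure_biUnion_finset_le _ _
      _ ≤ ∑ _g ∈ F, ENNReal.ofReal δ :=
          Finset.sum_le_sum fun g hg => hr1 g hg _ (le_max_right _ _)
      _ = ENNReal.ofReal (F.card * δ) := by
          rw [Finset.sum_const, nsmul_eq_mul, ENNReal.ofReal_mul (by positivity)]
          simp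
      _ ≤ ENNReal.ofReal (ε / 2) := by
          apply ENNReal.ofReal_le_ofReal
          rw [hδ]
          have hc : (0 : ℝ) ≤ F.card := by positivity
          rw [mul_div_assoc', div_le_iff₀ (by positivity)]
          nlinarith
  have hsub1 : A ⊆ A' ∪ D := by
    intro ω hω
    by_cases hb : ω ∈ D
    · exact Or.inr hb
    · refine Or.inl fun g hg => ?_
      have : ¬ (L g ω ≠ Rbit ν κ W (r g) (ξ ω) g) := fun h =>
        hb (Set.mem_biUnion hg h)
      rw [not_not] at this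
      rw [← this]
      exact hω g hg
  have hsub2 : A' ⊆ A ∪ D := by
    intro ω hω
    by_cases hb : ω ∈ D
    · exact Or.inr hb
    · refine Or.inl fun g hg => ?_
      have : ¬ (L g ω ≠ Rbit ν κ W (r g) (ξ ω) g) := fun h =>
        hb (Set.mem_biUnion hg h)
      rw [not_not] at this
      rw [this]
      exact hω g hg
  have hD' : (P D).toReal ≤ ε / 2 := by
    have := ENNReal.toReal_mono ENNReal.ofReal_ne_top hDle
    rwa [ENNReal.toReal_ofReal (half_pos hε).le] at this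
  have h1 : (P A).toReal ≤ (P A').toReal + (P D).toReal := by
    rw [← ENNReal.toReal_add (measure_ne_top _ _) (measure_ne_top _ _)]
    exact ENNReal.toReal_mono (ENNReal.add_ne_top.2 ⟨measure_ne_top _ _, measure_ne_top _ _⟩)
      ((measure_mono hsub1).trans (measure_union_le _ _))
  have h2 : (P A').toReal ≤ (P A).toReal + (P D).toReal := by
    rw [← ENNReal.toReal_add (measure_ne_top _ _) (measure_ne_top _ _)]
    exact ENNReal.toReal_mono (ENNReal.add_ne_top.2 ⟨measure_ne_top _ _, measure_ne_top _ _⟩)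
      ((measure_mono hsub2).trans (measure_union_le _ _))
  have h3 := abs_le.1 hpat
  rw [abs_le]
  constructor <;> linarith [h3.1, h3.2]

end

end Crest.Agent.SRFactor
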