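import Mathlib
import Crest.Prelude.Def_Labels

/-! Basic facts on the label measure. -/

set_option autoImplicit false

open MeasureTheory ProbabilityTheory
open Crest.ProbabilityR.Labels

namespace Crest.Agent.SRFactor

instance instProbLabelMeasure (V : Type*) : IsProbabilityMeasure (labelMeasure V) := by
  unfold labelMeasure; infer_instance

/-- Relabelling of the sites preserves the label measure. -/
lemma labelMeasure_map_comp {V : Type*} (τ : V ≃ V) :
    (labelMeasure V).map (fun x => x ∘ τ) = labelMeasure V := by
  have h := Measure.infinitePi_map_piCongrLeft (fun _ : V => (volume : Measure unitInterval)) τ.symm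
  unfold labelMeasure
  convert h using 2
  funext x i
  simp only [MeasurableEquiv.coe_piCongrLeft, Function.comp_apply]
  rw [Equiv.piCongrLeft_apply]
  simp

lemma measurable_comp_perm {V : Type*} (τ : V → V) :
    Measurable (fun x : V → unitInterval => x ∘ τ) :=
  measurable_pi_lambda _ fun i => measurable_pi_apply (τ i)

lemma measurePreserving_comp_perm {V : Type*} (τ : V ≃ V) :
    MeasurePreserving (fun x : V → unitInterval => x ∘ τ) (labelMeasure V) (labelMeasure V) :=
  ⟨measurable_comp_perm τ, labelMeasure_map_comp τ⟩

/-- The reindexing as a measurable equivalence, hence a measurable embedding. -/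
lemma measurableEmbedding_comp_perm {V : Type*} (τ : V ≃ V) :
    MeasurableEmbedding (fun x : V → unitInterval => x ∘ τ) := by
  have : (fun x : V → unitInterval => x ∘ τ) =
      ⇑(MeasurableEquiv.mk ⟨fun x : V → unitInterval => x ∘ τ, fun x => x ∘ τ.symm,
        fun x => by funext i; simp, fun x => by funext i; simp⟩
        (measurable_comp_perm τ) (measurable_comp_perm τ.symm)) := rfl
  rw [this]
  exact MeasurableEquiv.measurableEmbedding _

/-- Marginals of the label measure on a finite set of sites, after a measurable map. -/
lemma labelMeasure_map_finite {V Y : Type*} [MeasurableSpace Y] (f : unitInterval → Y)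
    (hf : Measurable f) [IsProbabilityMeasure ((volume : Measure unitInterval).map f)]
    (B : Finset V) :
    (labelMeasure V).map (fun x (e : B) => f (x e)) =
      Measure.pi (fun _ : B => (volume : Measure unitInterval).map f) := by
  have h1 : (fun x : V → unitInterval => fun (e : B) => f (x e)) =
      (fun v : B → unitInterval => fun e => f (v e)) ∘ B.restrict := rfl
  have hm : Measurable (fun v : B → unitInterval => fun e => f (v e)) :=
    measurable_pi_lambda _ fun e => hf.comp (measurable_pi_apply e)
  rw [h1, ← Measure.map_map hm (Finset.measurable_restrict B)]
  unfold labelMeasure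
  rw [Measure.infinitePi_map_restrict]
  exact Measure.pi_map_pi (fun _ => hf.aemeasurable)

end Crest.Agent.SRFactor
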