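import Crest.Agent.SRFactor.Defs

/-! Elementary facts on `post` and `euler`. -/

set_option autoImplicit false

open MeasureTheory ProbabilityTheory

namespace Crest.Agent.SRFactor

variable {E : Type*} [DecidableEq E]

lemma wt_nonneg (ν : Family E) (B : Finset E) (lam : E → ℝ) (S : Finset E) : 0 ≤ wt ν B lam S :=
  mul_nonneg (ν.nonneg B S) (Real.exp_pos _).le

lemma zfun_pos (ν : Family E) (B : Finset E) (lam : E → ℝ) : 0 < zfun ν B lam := by
  have h1 : ∃ S ∈ B.powerset, 0 < ν.mass B S := by
    by_contra hcon
    push Not at hcon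
    have : ∑ S ∈ B.powerset, ν.mass B S ≤ 0 := Finset.sum_nonpos hcon
    rw [ν.sum_one] at this
    linarith
  obtain ⟨S, hS, hpos⟩ := h1
  refine Finset.sum_pos' (fun T _ => wt_nonneg ν B lam T) ⟨S, hS, ?_⟩
  exact mul_pos hpos (Real.exp_pos _)

lemma numer_nonneg (ν : Family E) (B : Finset E) (lam : E → ℝ) (e : E) : 0 ≤ numer ν B lam e :=
  Finset.sum_nonneg fun S _ => wt_nonneg ν B lam S

lemma numer_le_zfun (ν : Family E) (B : Finset E) (lam : E → ℝ) (e : E) :
    numer ν B lam e ≤ zfun ν B lam :=
  Finset.sum_le_sum_of_subset_of_nonneg (Finset.filter_subset _ _)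
    fun S _ _ => wt_nonneg ν B lam S

lemma post_nonneg (ν : Family E) (B : Finset E) (lam : E → ℝ) (e : E) : 0 ≤ post ν B lam e :=
  div_nonneg (numer_nonneg ν B lam e) (zfun_pos ν B lam).le

lemma post_le_one (ν : Family E) (B : Finset E) (lam : E → ℝ) (e : E) : post ν B lam e ≤ 1 :=
  (div_le_one (zfun_pos ν B lam)).2 (numer_le_zfun ν B lam e)

lemma abs_post_le_one (ν : Family E) (B : Finset E) (lam : E → ℝ) (e : E) :
    |post ν B lam e| ≤ 1 := by
  rw [abs_of_nonneg (post_nonneg ν B lam e)]
  exact post_le_one ν B lam e

lemma abs_post_sub_le_one (ν ν' : Family E) (B B' : Finset E) (lam lam' : E → ℝ) (e e' : E) :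
    |post ν B lam e - post ν' B' lam' e'| ≤ 1 := by
  have h1 := post_nonneg ν B lam e
  have h2 := post_le_one ν B lam e
  have h3 := post_nonneg ν' B' lam' e'
  have h4 := post_le_one ν' B' lam' e'
  rw [abs_le]; constructor <;> linarith

lemma wt_congr (ν : Family E) (B : Finset E) {lam lam' : E → ℝ} (h : ∀ g ∈ B, lam g = lam' g)
    {S : Finset E} (hS : S ∈ B.powerset) : wt ν B lam S = wt ν B lam' S := by
  unfold wt
  congr 2
  exact Finset.sum_congr rfl fun i hi => h i (Finset.mem_powerset.1 hS hi)

lemma zfun_congr (ν : Family E) (B : Finset E) {lam lam' : E → ℝ} (h : ∀ g ∈ B, lam g = lam' g) :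
    zfun ν B lam = zfun ν B lam' :=
  Finset.sum_congr rfl fun _ hS => wt_congr ν B h hS

lemma numer_congr (ν : Family E) (B : Finset E) {lam lam' : E → ℝ} (h : ∀ g ∈ B, lam g = lam' g)
    (e : E) : numer ν B lam e = numer ν B lam' e :=
  Finset.sum_congr rfl fun _ hS => wt_congr ν B h (Finset.mem_of_mem_filter _ hS)

/-- `post` depends only on the field on the window. -/
lemma post_congr (ν : Family E) (B : Finset E) {lam lam' : E → ℝ} (h : ∀ g ∈ B, lam g = lam' g)
    (e : E) : post ν B lam e = post ν B lam' e := by
  unfold post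
  rw [numer_congr ν B h, zfun_congr ν B h]

lemma measurable_wt (ν : Family E) (B S : Finset E) : Measurable fun lam : E → ℝ => wt ν B lam S := by
  unfold wt
  refine measurable_const.mul (Real.measurable_exp.comp ?_)
  exact Finset.measurable_sum _ fun i _ => measurable_pi_apply i

lemma measurable_zfun (ν : Family E) (B : Finset E) : Measurable fun lam : E → ℝ => zfun ν B lam :=
  Finset.measurable_sum _ fun S _ => measurable_wt ν B S

lemma measurable_numer (ν : Family E) (B : Finset E) (e : E) :
    Measurable fun lam : E → ℝ => numer ν B lam e :=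
  Finset.measurable_sum _ fun S _ => measurable_wt ν B S

/-- `post` is measurable in the field. -/
lemma measurable_post (ν : Family E) (B : Finset E) (e : E) :
    Measurable fun lam : E → ℝ => post ν B lam e :=
  (measurable_numer ν B e).div (measurable_zfun ν B)

@[simp] lemma euler_zero (ν : Family E) (B : Finset E) (h : ℝ) (y : ℕ → E → ℝ) (e : E) :
    euler ν B h y 0 e = 0 := rfl

lemma euler_succ (ν : Family E) (B : Finset E) (h : ℝ) (y : ℕ → E → ℝ) (k : ℕ) (e : E) :
    euler ν B h y (k + 1) e =
      if e ∈ B then
        euler ν B h y k e + h * post ν B (fun g => euler ν B h y k g - k * h / 2) e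
          + Real.sqrt h * y k e
      else 0 := rfl

lemma euler_of_not_mem (ν : Family E) (B : Finset E) (h : ℝ) (y : ℕ → E → ℝ) (k : ℕ) {e : E}
    (he : e ∉ B) : euler ν B h y k e = 0 := by
  cases k with
  | zero => rfl
  | succ k => rw [euler_succ, if_neg he]

lemma euler_succ_of_mem (ν : Family E) (B : Finset E) (h : ℝ) (y : ℕ → E → ℝ) (k : ℕ) {e : E}
    (he : e ∈ B) : euler ν B h y (k + 1) e =
        euler ν B h y k e + h * post ν B (fun g => euler ν B h y k g - k * h / 2) e
          + Real.sqrt h * y k e := by
  rw [euler_succ, if_pos he]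

/-- The Euler path up to step `k` only depends on the noise before `k` on the window. -/
lemma euler_congr (ν : Family E) (B : Finset E) (h : ℝ) {y y' : ℕ → E → ℝ} (k : ℕ)
    (hy : ∀ l < k, ∀ e ∈ B, y l e = y' l e) : ∀ e, euler ν B h y k e = euler ν B h y' k e := by
  induction k with
  | zero => intro e; rfl
  | succ k ih =>
    intro e
    have ih' := ih fun l hl => hy l (Nat.lt_succ_of_lt hl)
    rw [euler_succ, euler_succ]
    by_cases he : e ∈ B
    · rw [if_pos he, if_pos he, hy k (Nat.lt_succ_self k) e he, ih' e]
      have : (fun g => euler ν B h y k g - (k : ℝ) * h / 2)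
          = fun g => euler ν B h y' k g - (k : ℝ) * h / 2 := by
        funext g
        rw [ih' g]
      rw [this]
    · rw [if_neg he, if_neg he]

/-- The Euler scheme is measurable in the noise. -/
lemma measurable_euler (ν : Family E) (B : Finset E) (h : ℝ) (k : ℕ) (e : E) :
    Measurable fun y : ℕ → E → ℝ => euler ν B h y k e := by
  induction k generalizing e with
  | zero => exact measurable_const
  | succ k ih =>
    simp only [euler_succ]
    by_cases he : e ∈ B
    · simp only [if_pos he]
      refine ((ih e).add (measurable_const.mul ?_)).add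
        (measurable_const.mul ((measurable_pi_apply e).comp (measurable_pi_apply k)))
      have : Measurable fun y : ℕ → E → ℝ => fun g => euler ν B h y k g - (k : ℝ) * h / 2 :=
        measurable_pi_lambda _ fun g => (ih g).sub_const _
      exact (measurable_post ν B e).comp this
    · simp only [if_neg he]
      exact measurable_const

/-- The Euler path as a noise part plus a drift part. -/
lemma euler_eq_sum (ν : Family E) (B : Finset E) (h : ℝ) (y : ℕ → E → ℝ) (k : ℕ) {e : E}
    (he : e ∈ B) : euler ν B h y k e =
      h * ∑ l ∈ Finset.range k, post ν B (fun g => euler ν B h y l g - l * h / 2) e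
        + Real.sqrt h * ∑ l ∈ Finset.range k, y l e := by
  induction k with
  | zero => simp
  | succ k ih =>
    rw [euler_succ_of_mem ν B h y k he, ih, Finset.sum_range_succ, Finset.sum_range_succ]
    ring

lemma measurable_truePath (B : Finset E) (h : ℝ) (S : Finset E) (k : ℕ) (e : E) :
    Measurable fun y : ℕ → E → ℝ => truePath B h S y k e := by
  unfold truePath
  by_cases he : e ∈ B
  · simp only [if_pos he]
    refine measurable_const.add (measurable_const.mul ?_)
    exact Finset.measurable_sum _ fun l _ => (measurable_pi_apply e).comp (measurable_pi_apply l)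
  · simp only [if_neg he]
    exact measurable_const

/-- Measurability of `pos` and `bit` in the noise. -/
lemma measurable_pos (ν : Family E) (B : Finset E) (T n : ℕ) (e : E) :
    Measurable fun ξ : Noise E => pos ν B T n ξ e := by
  have h1 : Measurable fun ξ : Noise E => levelNoise ξ n :=
    measurable_pi_lambda _ fun j => measurable_pi_lambda _ fun g =>
      (measurable_pi_apply j).comp ((measurable_pi_apply n).comp (measurable_pi_apply g))
  exact (measurable_euler ν B (hh n) (T * 2 ^ n) e).comp h1

lemma measurable_bit (ν : Family E) (B : Finset E) (T n : ℕ) (e : E) :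
    Measurable fun ξ : Noise E => bit ν B T n ξ e := by
  unfold bit
  exact measurable_to_bool (by
    have : (fun ξ : Noise E => decide ((T : ℝ) / 2 < pos ν B T n ξ e)) ⁻¹' {true}
        = {ξ | (T : ℝ) / 2 < pos ν B T n ξ e} := by
      ext ξ; simp
    rw [this]
    exact measurableSet_lt measurable_const (measurable_pos ν B T n e))

lemma measurable_extY (B : Finset E) (K : ℕ) :
    Measurable fun y : Fin K → B → ℝ => extY B K y := by
  refine measurable_pi_lambda _ fun k => measurable_pi_lambda _ fun e => ?_
  unfold extY
  by_cases hk : k < K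
  · simp only [dif_pos hk]
    by_cases he : e ∈ B
    · simp only [dif_pos he]
      exact (measurable_pi_apply (⟨e, he⟩ : B)).comp (measurable_pi_apply (⟨k, hk⟩ : Fin K))
    · simp only [dif_neg he]
      exact measurable_const
  · simp only [dif_neg hk]
    exact measurable_const

lemma hh_pos (n : ℕ) : 0 < hh n := by unfold hh; positivity

lemma hh_succ (n : ℕ) : hh (n + 1) = hh n / 2 := by unfold hh; rw [pow_succ]; ring

end Crest.Agent.SRFactor
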