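import Crest.Agent.SRFactor.PostBasic

/-! Gaussian toolkit: Cameron-Martin shift, moment generating function, peeling the last row of a
Gaussian array, marginals, law of partial sums. Statements may be added; do not change existing
ones without telling the owner of the modules using them. -/

set_option autoImplicit false

open MeasureTheory ProbabilityTheory

namespace Crest.Agent.SRFactor

variable {ι : Type*} [Fintype ι]

instance instProbGaussVec : IsProbabilityMeasure (gaussVec ι) := by
  unfold gaussVec; infer_instance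

instance instProbGaussMat (K : ℕ) : IsProbabilityMeasure (gaussMat ι K) := by
  unfold gaussMat; infer_instance

/-- One dimensional Cameron-Martin. -/
lemma gaussianReal_shift_eq_withDensity (a : ℝ) :
    gaussianReal a 1 =
      (gaussianReal 0 1).withDensity
        (fun y => ENNReal.ofReal (Real.exp (a * y - a ^ 2 / 2))) := by
  have hm : Measurable (fun y : ℝ => ENNReal.ofReal (Real.exp (a * y - a ^ 2 / 2))) := by
    fun_prop
  rw [gaussianReal_of_var_ne_zero a one_ne_zero, gaussianReal_of_var_ne_zero 0 one_ne_zero]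
  rw [← withDensity_mul _ (measurable_gaussianPDF _ _) hm]
  congr 1
  ext y
  simp only [gaussianPDF_def, Pi.mul_apply]
  rw [← ENNReal.ofReal_mul (gaussianPDFReal_nonneg _ _ _)]
  congr 1
  simp only [gaussianPDFReal_def]
  have he : Real.exp (-(y - a) ^ 2 / (2 * ((1 : NNReal) : ℝ))) =
      Real.exp (-(y - 0) ^ 2 / (2 * ((1 : NNReal) : ℝ))) * Real.exp (a * y - a ^ 2 / 2) := by
    rw [← Real.exp_add]
    congr 1
    norm_num
    ring
  rw [he]; ring

/-- Product of densities for `Measure.pi`. -/
lemma pi_withDensity_eq {α : Type*} [MeasurableSpace α] (μ : Measure α) [IsProbabilityMeasure μ]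
    (f : ι → α → ENNReal) (hf : ∀ i, Measurable (f i))
    (hone : ∀ i, ∫⁻ x, f i x ∂μ = 1) :
    Measure.pi (fun i => μ.withDensity (f i)) =
      (Measure.pi (fun _ : ι => μ)).withDensity (fun x => ∏ i, f i (x i)) := by
  classical
  have hp : ∀ i, IsProbabilityMeasure (μ.withDensity (f i)) := fun i =>
    ⟨by rw [withDensity_apply _ MeasurableSet.univ, Measure.restrict_univ, hone]⟩
  refine Measure.pi_eq fun s hs => ?_
  rw [withDensity_apply _ (MeasurableSet.univ_pi hs)]
  have h1 : ∀ x : ι → α, (Set.univ.pi s).indicator (fun x => ∏ i, f i (x i)) x =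
      ∏ i, (s i).indicator (f i) (x i) := by
    intro x
    by_cases hx : x ∈ Set.univ.pi s
    · rw [Set.indicator_of_mem hx]
      refine Finset.prod_congr rfl fun i _ => ?_
      rw [Set.indicator_of_mem (hx i (Set.mem_univ i))]
    · rw [Set.indicator_of_notMem hx]
      simp only [Set.mem_pi, Set.mem_univ, true_implies, not_forall] at hx
      obtain ⟨i, hi⟩ := hx
      symm
      exact Finset.prod_eq_zero (Finset.mem_univ i) (Set.indicator_of_notMem hi _)
  rw [← lintegral_indicator (MeasurableSet.univ_pi hs)]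
  simp_rw [h1]
  have hind : iIndepFun (fun (i : ι) (ω : ι → α) => (s i).indicator (f i) (ω i))
      (Measure.pi (fun _ : ι => μ)) :=
    iIndepFun_pi (X := fun i => (s i).indicator (f i))
      (fun i => ((hf i).indicator (hs i)).aemeasurable)
  rw [lintegral_prod_eq_prod_lintegral_of_indepFun Finset.univ _ hind
    (fun i => ((hf i).indicator (hs i)).comp (measurable_pi_apply i))]
  refine Finset.prod_congr rfl fun i _ => ?_
  rw [withDensity_apply _ (hs i), ← lintegral_indicator (hs i)]
  exact (measurePreserving_eval (fun _ : ι => μ) i).lintegral_comp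
    ((hf i).indicator (hs i))

lemma lintegral_density_one (a : ℝ) :
    ∫⁻ y, ENNReal.ofReal (Real.exp (a * y - a ^ 2 / 2)) ∂gaussianReal 0 1 = 1 := by
  have h := gaussianReal_shift_eq_withDensity a
  have h2 : (gaussianReal a 1) Set.univ = 1 := measure_univ
  rw [h, withDensity_apply _ MeasurableSet.univ, Measure.restrict_univ] at h2
  exact h2

/-- Cameron-Martin, measure form. -/
theorem gaussVec_map_add (a : ι → ℝ) :
    (gaussVec ι).map (fun y => y + a) =
      (gaussVec ι).withDensity
        (fun y => ENNReal.ofReal (Real.exp (∑ i, a i * y i - ∑ i, a i ^ 2 / 2))) := by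
  classical
  have h1 : (gaussVec ι).map (fun y => y + a) = Measure.pi (fun i => gaussianReal (a i) 1) := by
    have hm : ∀ i, AEMeasurable (fun x : ℝ => x + a i) (gaussianReal 0 1) :=
      fun i => (measurable_add_const _).aemeasurable
    have := Measure.pi_map_pi (μ := fun _ : ι => gaussianReal 0 1) hm
    unfold gaussVec
    change (Measure.pi fun _ : ι => gaussianReal 0 1).map (fun y i => y i + a i) = _
    rw [this]
    congr 1
    ext1 i
    rw [gaussianReal_map_add_const]
    simp
  rw [h1]
  simp_rw [gaussianReal_shift_eq_withDensity (a _)]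
  rw [pi_withDensity_eq (gaussianReal 0 1)
    (fun i y => ENNReal.ofReal (Real.exp (a i * y - a i ^ 2 / 2)))
    (fun i => by fun_prop) (fun i => lintegral_density_one (a i))]
  unfold gaussVec
  congr 1
  ext1 y
  rw [← ENNReal.ofReal_prod_of_nonneg (fun i _ => (Real.exp_pos _).le), ← Real.exp_sum,
    Finset.sum_sub_distrib]

/-- Cameron-Martin, lintegral form. -/
theorem lintegral_gaussVec_add (a : ι → ℝ) (f : (ι → ℝ) → ENNReal) (hf : Measurable f) :
    ∫⁻ y, f (y + a) ∂gaussVec ι =
      ∫⁻ y, f y * ENNReal.ofReal (Real.exp (∑ i, a i * y i - ∑ i, a i ^ 2 / 2)) ∂gaussVec ι := by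
  have hm : Measurable (fun y : ι → ℝ => y + a) := by fun_prop
  rw [← lintegral_map hf hm, gaussVec_map_add, lintegral_withDensity_eq_lintegral_mul _ (by fun_prop) hf]
  refine lintegral_congr fun y => ?_
  simp only [Pi.mul_apply]
  rw [mul_comm]

/-- Cameron-Martin, integral form (no integrability needed). -/
theorem integral_gaussVec_add (a : ι → ℝ) (f : (ι → ℝ) → ℝ) (hf : Measurable f) :
    ∫ y, f (y + a) ∂gaussVec ι =
      ∫ y, f y * Real.exp (∑ i, a i * y i - ∑ i, a i ^ 2 / 2) ∂gaussVec ι := by
  have hm : Measurable (fun y : ι → ℝ => y + a) := by fun_prop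
  have hmdens : Measurable (fun y : ι → ℝ => Real.exp (∑ i, a i * y i - ∑ i, a i ^ 2 / 2)) := by
    fun_prop
  have h1 : ∫ y, f (y + a) ∂gaussVec ι = ∫ y, f y ∂((gaussVec ι).map (fun y => y + a)) :=
    (integral_map hm.aemeasurable hf.aestronglyMeasurable).symm
  rw [h1, gaussVec_map_add]
  rw [integral_withDensity_eq_integral_toReal_smul (by fun_prop)
    (Filter.Eventually.of_forall fun _ => ENNReal.ofReal_lt_top)]
  refine integral_congr_ae (Filter.Eventually.of_forall fun y => ?_)
  simp only [smul_eq_mul]
  rw [ENNReal.toReal_ofReal (Real.exp_pos _).le, mul_comm]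

/-- Exponentials of linear forms are integrable. -/
theorem integrable_exp_dot (a : ι → ℝ) :
    Integrable (fun y : ι → ℝ => Real.exp (∑ i, a i * y i)) (gaussVec ι) := by
  have h := Integrable.fintype_prod (f := fun i (x : ℝ) => Real.exp (a i * x))
    (μ := fun _ : ι => gaussianReal 0 1) (fun i => ?_)
  · unfold gaussVec
    refine h.congr (Filter.Eventually.of_forall fun y => ?_)
    simp only [Real.exp_sum]
  · have := integrable_exp_mul_gaussianReal (μ := 0) (v := 1) (a i)
    exact this

/-- Gaussian moment generating function. -/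
theorem integral_exp_dot (a : ι → ℝ) :
    ∫ y, Real.exp (∑ i, a i * y i) ∂gaussVec ι = Real.exp (∑ i, a i ^ 2 / 2) := by
  unfold gaussVec
  simp_rw [Real.exp_sum]
  rw [integral_fintype_prod_eq_prod (f := fun i (x : ℝ) => Real.exp (a i * x))]
  refine Finset.prod_congr rfl fun i _ => ?_
  have := congrFun (mgf_fun_id_gaussianReal (μ := 0) (v := 1)) (a i)
  simp only [mgf] at this
  simp only [mul_comm (a i)] at *
  rw [this]
  simp

/-- Coordinates are integrable, with first absolute moment at most one. -/
theorem integrable_coord (i : ι) : Integrable (fun y : ι → ℝ => y i) (gaussVec ι) := by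
  have hm := measurePreserving_eval (fun _ : ι => gaussianReal 0 1) i
  have h1 : Integrable (fun x : ℝ => x) (gaussianReal 0 1) :=
    (memLp_id_gaussianReal (μ := 0) (v := 1) 1).integrable le_rfl
  exact hm.integrable_comp_of_integrable h1

lemma integrable_sq_coord (i : ι) : Integrable (fun y : ι → ℝ => (y i) ^ 2) (gaussVec ι) := by
  have hm := measurePreserving_eval (fun _ : ι => gaussianReal 0 1) i
  have h1 : Integrable (fun x : ℝ => x ^ 2) (gaussianReal 0 1) := by
    have := (memLp_id_gaussianReal (μ := 0) (v := 1) 2).integrable_sq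
    simpa using this
  exact hm.integrable_comp_of_integrable h1

lemma integral_sq_coord (i : ι) : ∫ y, (y i) ^ 2 ∂gaussVec ι = 1 := by
  have hm := measurePreserving_eval (fun _ : ι => gaussianReal 0 1) i
  have h1 : ∫ y, (y i) ^ 2 ∂gaussVec ι = ∫ x, x ^ 2 ∂(gaussianReal 0 1) := by
    rw [← hm.map_eq, integral_map hm.measurable.aemeasurable (by fun_prop)]
    rfl
  rw [h1]
  have h2 := variance_eq_sub (X := id) (μ := gaussianReal 0 1)
    (memLp_id_gaussianReal (μ := 0) (v := 1) 2)
  rw [variance_id_gaussianReal] at h2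
  simp only [id, Pi.pow_apply, integral_id_gaussianReal] at h2
  norm_num at h2
  linarith

theorem integral_abs_coord_le (i : ι) : ∫ y, |y i| ∂gaussVec ι ≤ 1 := by
  have hi1 : Integrable (fun y : ι → ℝ => |y i|) (gaussVec ι) := (integrable_coord i).abs
  have hi2 : Integrable (fun y : ι → ℝ => (1 + (y i) ^ 2) / 2) (gaussVec ι) :=
    ((integrable_const (1 : ℝ)).add (integrable_sq_coord i)).div_const 2
  have h := integral_mono hi1 hi2 (fun y => by
    have := sq_nonneg (|y i| - 1)
    have h2 : |y i| ^ 2 = y i ^ 2 := sq_abs _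
    show |y i| ≤ (1 + y i ^ 2) / 2
    nlinarith)
  refine h.trans (le_of_eq ?_)
  rw [integral_div, integral_add (integrable_const _) (integrable_sq_coord i), integral_sq_coord]
  simp
  
/-- Tail bound for the coordinate of a standard Gaussian (Chebyshev). -/
theorem gaussVec_abs_coord_ge (i : ι) {a : ℝ} (ha : 0 < a) :
    (gaussVec ι {y | a ≤ |y i|}).toReal ≤ 1 / a ^ 2 := by
  have h := mul_meas_ge_le_integral_of_nonneg (μ := gaussVec ι) (f := fun y => (y i) ^ 2)
    (Filter.Eventually.of_forall fun y => sq_nonneg _) (integrable_sq_coord i) (a ^ 2)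
  rw [integral_sq_coord] at h
  have hsub : {y : ι → ℝ | a ≤ |y i|} = {y | a ^ 2 ≤ (y i) ^ 2} := by
    ext y
    show a ≤ |y i| ↔ a ^ 2 ≤ y i ^ 2
    rw [← sq_abs (y i)]
    exact (pow_le_pow_iff_left₀ ha.le (abs_nonneg _) two_ne_zero).symm
  rw [hsub]
  rw [le_div_iff₀ (by positivity), mul_comm]
  exact h

/-- Marginal of a product of probability measures under an injection of indices. -/
theorem pi_map_comp_injective {α : Type*} [MeasurableSpace α] (μ : Measure α)
    [IsProbabilityMeasure μ] {ι₁ ι₂ : Type*} [Fintype ι₁] [Fintype ι₂] (f : ι₂ → ι₁)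
    (hf : Function.Injective f) :
    (Measure.pi (fun _ : ι₁ => μ)).map (fun y => y ∘ f) = Measure.pi (fun _ : ι₂ => μ) := by
  classical
  refine (Measure.pi_eq ?_).symm
  intro s hs
  have hm : Measurable (fun y : ι₁ → α => y ∘ f) :=
    measurable_pi_lambda _ (fun i => measurable_pi_apply (f i))
  rw [Measure.map_apply hm (MeasurableSet.univ_pi hs)]
  let s' : ι₁ → Set α := fun i => if h : ∃ j, f j = i then s h.choose else Set.univ
  have hs' : ∀ j, s' (f j) = s j := by
    intro j
    have h : ∃ j', f j' = f j := ⟨j, rfl⟩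
    simp only [s', dif_pos h]
    rw [hf h.choose_spec]
  have hpre : (fun y : ι₁ → α => y ∘ f) ⁻¹' Set.univ.pi s = Set.univ.pi s' := by
    ext y
    simp only [Set.mem_preimage, Set.mem_pi, Set.mem_univ, forall_true_left, Function.comp]
    constructor
    · intro h i
      by_cases hi : ∃ j, f j = i
      · obtain ⟨j, rfl⟩ := hi
        rw [hs']; exact h j
      · simp [s', hi]
    · intro h j
      have := h (f j)
      rwa [hs'] at this
  rw [hpre, Measure.pi_pi]
  have h1 : ∏ i, μ (s' i) = ∏ i ∈ Finset.univ.image f, μ (s' i) := by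
    symm
    apply Finset.prod_subset (Finset.subset_univ _)
    intro i _ hi
    have : ¬ ∃ j, f j = i := by
      rintro ⟨j, rfl⟩
      exact hi (Finset.mem_image_of_mem _ (Finset.mem_univ _))
    simp [s', this]
  rw [h1, Finset.prod_image (fun a _ b _ h => hf h)]
  exact Finset.prod_congr rfl (fun j _ => by rw [hs'])

theorem gaussVec_map_comp {ι' : Type*} [Fintype ι'] (f : ι' → ι) (hf : Function.Injective f) :
    (gaussVec ι).map (fun y => y ∘ f) = gaussVec ι' :=
  pi_map_comp_injective (gaussianReal 0 1) f hf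

theorem gaussMat_map_comp {ι' : Type*} [Fintype ι'] (f : ι' → ι) (hf : Function.Injective f)
    (K : ℕ) : (gaussMat ι K).map (fun y k => y k ∘ f) = gaussMat ι' K := by
  unfold gaussMat
  have := Measure.pi_map_pi (μ := fun _ : Fin K => gaussVec ι) (f := fun _ (y : ι → ℝ) => y ∘ f)
    (hμ := by intro i; rw [gaussVec_map_comp f hf]; infer_instance)
    (fun _ => (measurable_pi_lambda _ (fun i => measurable_pi_apply (f i))).aemeasurable)
  rw [this]
  simp only [gaussVec_map_comp f hf]

theorem gaussMat_map_row {K K' : ℕ} (f : Fin K' → Fin K) (hf : Function.Injective f) :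
    (gaussMat ι K).map (fun y k => y (f k)) = gaussMat ι K' :=
  pi_map_comp_injective (gaussVec ι) f hf

/-- Peeling off the last row of a Gaussian array, lintegral form. -/
theorem lintegral_gaussMat_succ (K : ℕ) (f : (Fin (K + 1) → ι → ℝ) → ENNReal) (hf : Measurable f) :
    ∫⁻ y, f y ∂gaussMat ι (K + 1) =
      ∫⁻ y, ∫⁻ g, f (Fin.snoc y g) ∂gaussVec ι ∂gaussMat ι K := by
  have hmp := measurePreserving_piFinSuccAbove (fun _ : Fin (K + 1) => gaussVec ι) (Fin.last K)
  have hsymm := hmp.symm
  unfold gaussMat
  have hfm : Measurable (fun z : (ι → ℝ) × (Fin K → ι → ℝ) =>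
      f ((MeasurableEquiv.piFinSuccAbove (fun _ : Fin (K + 1) => ι → ℝ) (Fin.last K)).symm z)) :=
    hf.comp (MeasurableEquiv.measurable _)
  rw [← hsymm.lintegral_comp hf]
  have h1 := lintegral_prod_symm _ hfm.aemeasurable (μ := gaussVec ι)
    (ν := Measure.pi fun j : Fin K => gaussVec ι)
  refine h1.trans ?_
  refine lintegral_congr (fun y => lintegral_congr (fun g => ?_))
  congr 1
  simp [MeasurableEquiv.piFinSuccAbove, Fin.insertNthEquiv, Fin.insertNth_last']

/-- Peeling off the last row of a Gaussian array, integral form. -/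
theorem integral_gaussMat_succ (K : ℕ) (f : (Fin (K + 1) → ι → ℝ) → ℝ)
    (hf : Integrable f (gaussMat ι (K + 1))) :
    ∫ y, f y ∂gaussMat ι (K + 1) =
      ∫ y, ∫ g, f (Fin.snoc y g) ∂gaussVec ι ∂gaussMat ι K := by
  have hmp := measurePreserving_piFinSuccAbove (fun _ : Fin (K + 1) => gaussVec ι) (Fin.last K)
  have hsymm := hmp.symm
  unfold gaussMat at hf ⊢
  have hint : Integrable
      (fun z : (ι → ℝ) × (Fin K → ι → ℝ) =>
        f ((MeasurableEquiv.piFinSuccAbove (fun _ : Fin (K + 1) => ι → ℝ) (Fin.last K)).symm z))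
      ((gaussVec ι).prod (Measure.pi fun j : Fin K => gaussVec ι)) :=
    hsymm.integrable_comp_of_integrable hf
  rw [← hsymm.integral_comp (MeasurableEquiv.measurableEmbedding _) f]
  refine (integral_prod_symm _ hint).trans ?_
  refine integral_congr_ae (Filter.Eventually.of_forall fun y => ?_)
  refine integral_congr_ae (Filter.Eventually.of_forall fun g => ?_)
  simp only
  congr 1
  simp [MeasurableEquiv.piFinSuccAbove, Fin.insertNthEquiv, Fin.insertNth_last']

omit [Fintype ι] in
theorem measurable_snoc_uncurry (K : ℕ) :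
    Measurable (fun p : (Fin K → ι → ℝ) × (ι → ℝ) =>
      (Fin.snoc p.1 p.2 : Fin (K + 1) → ι → ℝ)) := by
  refine measurable_pi_lambda _ (fun k => ?_)
  refine Fin.lastCases ?_ (fun k => ?_) k
  · simpa using measurable_snd
  · simp only [Fin.snoc_castSucc]
    exact (measurable_pi_apply k).comp measurable_fst

/-- Cameron-Martin for arrays, lintegral form. -/
theorem lintegral_gaussMat_add (K : ℕ) (a : Fin K → ι → ℝ) (f : (Fin K → ι → ℝ) → ENNReal)
    (hf : Measurable f) :
    ∫⁻ y, f (y + a) ∂gaussMat ι K =
      ∫⁻ y, f y * ENNReal.ofReal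
        (Real.exp (∑ k, ∑ i, a k i * y k i - ∑ k, ∑ i, a k i ^ 2 / 2)) ∂gaussMat ι K := by
  induction K with
  | zero =>
    have h0 : ∀ y : Fin 0 → ι → ℝ, y + a = y := fun y => Subsingleton.elim _ _
    simp [h0]
  | succ K ih =>
    set a' : Fin K → ι → ℝ := fun k => a (Fin.castSucc k) with ha'
    set b : ι → ℝ := a (Fin.last K) with hb
    have hsn : ∀ (y : Fin K → ι → ℝ) (g : ι → ℝ),
        (Fin.snoc y g : Fin (K + 1) → ι → ℝ) + a = Fin.snoc (y + a') (g + b) := by
      intro y g
      funext k
      refine Fin.lastCases ?_ (fun k => ?_) k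
      · simp [hb]
      · simp [ha']
    have hadd : Measurable (fun y : Fin (K + 1) → ι → ℝ => y + a) := measurable_add_const a
    rw [lintegral_gaussMat_succ K (fun y => f (y + a)) (hf.comp hadd)]
    have hD : Measurable (fun p : ((Fin (K + 1) → ι → ℝ)) => ENNReal.ofReal
        (Real.exp (∑ k, ∑ i, a k i * p k i - ∑ k, ∑ i, a k i ^ 2 / 2))) := by
      refine ENNReal.measurable_ofReal.comp (Real.measurable_exp.comp ?_)
      refine Measurable.sub ?_ measurable_const
      refine Finset.measurable_sum _ (fun k _ => Finset.measurable_sum _ (fun i _ => ?_))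
      exact measurable_const.mul ((measurable_pi_apply i).comp (measurable_pi_apply k))
    rw [lintegral_gaussMat_succ K (fun p => f p * ENNReal.ofReal
        (Real.exp (∑ k, ∑ i, a k i * p k i - ∑ k, ∑ i, a k i ^ 2 / 2))) (hf.mul hD)]
    have hsnm := measurable_snoc_uncurry (ι := ι) K
    have hsl : ∀ y : Fin K → ι → ℝ, Measurable (fun g : ι → ℝ =>
        (Fin.snoc y g : Fin (K + 1) → ι → ℝ)) := fun y =>
      hsnm.comp (measurable_const.prodMk measurable_id)
    let Db : (ι → ℝ) → ENNReal := fun g => ENNReal.ofReal (Real.exp (∑ i, b i * g i - ∑ i, b i ^ 2 / 2))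
    have hDb : Measurable Db := by
      refine ENNReal.measurable_ofReal.comp (Real.measurable_exp.comp ?_)
      refine Measurable.sub ?_ measurable_const
      exact Finset.measurable_sum _ (fun i _ => measurable_const.mul (measurable_pi_apply i))
    let F : (Fin K → ι → ℝ) → ENNReal := fun y => ∫⁻ g, f (Fin.snoc y g) * Db g ∂gaussVec ι
    have hF : Measurable F := by
      refine Measurable.lintegral_prod_right' (f := fun p : (Fin K → ι → ℝ) × (ι → ℝ) =>
        f (Fin.snoc p.1 p.2) * Db p.2) ?_
      exact (hf.comp hsnm).mul (hDb.comp measurable_snd)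
    have hin : ∀ y : Fin K → ι → ℝ,
        ∫⁻ g, f (Fin.snoc y g + a) ∂gaussVec ι = F (y + a') := by
      intro y
      simp only [hsn]
      exact lintegral_gaussVec_add b (fun g => f (Fin.snoc (y + a') g)) (hf.comp (hsl _))
    simp only [hin]
    rw [ih a' F hF]
    refine lintegral_congr (fun y => ?_)
    simp only [F]
    have hmm : Measurable (fun g : ι → ℝ => f (Fin.snoc y g) * Db g) :=
      (hf.comp (hsl y)).mul hDb
    rw [← lintegral_mul_const _ hmm]
    refine lintegral_congr (fun g => ?_)
    rw [mul_assoc]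
    congr 1
    simp only [Db]
    rw [← ENNReal.ofReal_mul (Real.exp_nonneg _), ← Real.exp_add]
    congr 2
    simp only [Fin.sum_univ_castSucc, Fin.snoc_castSucc, Fin.snoc_last, ha', hb]
    ring

theorem gaussMat_map_add (K : ℕ) (a : Fin K → ι → ℝ) :
    (gaussMat ι K).map (fun y => y + a) =
      (gaussMat ι K).withDensity (fun y => ENNReal.ofReal
        (Real.exp (∑ k, ∑ i, a k i * y k i - ∑ k, ∑ i, a k i ^ 2 / 2))) := by
  refine Measure.ext_of_lintegral _ (fun f hf => ?_)
  rw [lintegral_map hf (measurable_add_const a), lintegral_gaussMat_add K a f hf]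
  have hD : Measurable (fun p : ((Fin K → ι → ℝ)) => ENNReal.ofReal
        (Real.exp (∑ k, ∑ i, a k i * p k i - ∑ k, ∑ i, a k i ^ 2 / 2))) := by
    refine ENNReal.measurable_ofReal.comp (Real.measurable_exp.comp ?_)
    refine Measurable.sub ?_ measurable_const
    refine Finset.measurable_sum _ (fun k _ => Finset.measurable_sum _ (fun i _ => ?_))
    exact measurable_const.mul ((measurable_pi_apply i).comp (measurable_pi_apply k))
  rw [lintegral_withDensity_eq_lintegral_mul _ hD hf]
  refine lintegral_congr (fun y => ?_)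
  simp [mul_comm]

/-- Cameron-Martin for arrays, integral form. -/
theorem integral_gaussMat_add (K : ℕ) (a : Fin K → ι → ℝ) (f : (Fin K → ι → ℝ) → ℝ)
    (hf : Measurable f) :
    ∫ y, f (y + a) ∂gaussMat ι K =
      ∫ y, f y * Real.exp (∑ k, ∑ i, a k i * y k i - ∑ k, ∑ i, a k i ^ 2 / 2) ∂gaussMat ι K := by
  have h1 := integral_map (μ := gaussMat ι K) (measurable_add_const a).aemeasurable
    (f := f) hf.aestronglyMeasurable
  rw [← h1, gaussMat_map_add]
  have hD : Measurable (fun p : ((Fin K → ι → ℝ)) => ENNReal.ofReal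
        (Real.exp (∑ k, ∑ i, a k i * p k i - ∑ k, ∑ i, a k i ^ 2 / 2))) := by
    refine ENNReal.measurable_ofReal.comp (Real.measurable_exp.comp ?_)
    refine Measurable.sub ?_ measurable_const
    refine Finset.measurable_sum _ (fun k _ => Finset.measurable_sum _ (fun i _ => ?_))
    exact measurable_const.mul ((measurable_pi_apply i).comp (measurable_pi_apply k))
  rw [integral_withDensity_eq_integral_toReal_smul hD (Filter.Eventually.of_forall fun y => by simp)]
  refine integral_congr_ae (Filter.Eventually.of_forall fun y => ?_)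
  simp only [smul_eq_mul]
  rw [ENNReal.toReal_ofReal (Real.exp_nonneg _), mul_comm]

theorem gaussianReal_map_sqrt_mul (v : NNReal) :
    (gaussianReal 0 1).map (Real.sqrt v * ·) = gaussianReal 0 v := by
  rw [gaussianReal_map_const_mul]
  congr 1
  · simp
  · ext; simp

theorem gaussVec_map_sqrt_mul (v : NNReal) :
    (gaussVec ι).map (fun G i => Real.sqrt v * G i) =
      Measure.pi (fun _ : ι => gaussianReal 0 v) := by
  unfold gaussVec
  have hm : ∀ i : ι, Measurable ((fun _ : ι => fun x : ℝ => Real.sqrt v * x) i) :=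
    fun _ => measurable_const.mul measurable_id
  have := Measure.pi_map_pi (μ := fun _ : ι => gaussianReal 0 1)
    (f := fun _ (x : ℝ) => Real.sqrt v * x)
    (hμ := by intro i; simp only [gaussianReal_map_sqrt_mul v]; infer_instance)
    (fun i => (hm i).aemeasurable)
  rw [this]
  simp only [gaussianReal_map_sqrt_mul v]

/-- Two independent Gaussian vectors summed with variances `s` and `t` give variance `s + t`. -/
theorem gaussVec_prod_map_add {s t : ℝ} (hs : 0 ≤ s) (ht : 0 ≤ t) :
    ((gaussVec ι).prod (gaussVec ι)).map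
        (fun p i => Real.sqrt s * p.1 i + Real.sqrt t * p.2 i) =
      (gaussVec ι).map (fun G i => Real.sqrt (s + t) * G i) := by
  lift s to NNReal using hs
  lift t to NNReal using ht
  rw [← NNReal.coe_add, gaussVec_map_sqrt_mul (s + t)]
  unfold gaussVec
  have hmp := measurePreserving_arrowProdEquivProdArrow ℝ ℝ ι (fun _ => gaussianReal 0 1)
    (fun _ => gaussianReal 0 1)
  rw [← hmp.map_eq]
  have hm : Measurable (fun (p : (ι → ℝ) × (ι → ℝ)) (i : ι) =>
      Real.sqrt s * p.1 i + Real.sqrt t * p.2 i) := by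
    refine measurable_pi_lambda _ (fun i => ?_)
    exact (measurable_const.mul ((measurable_pi_apply i).comp measurable_fst)).add
      (measurable_const.mul ((measurable_pi_apply i).comp measurable_snd))
  rw [Measure.map_map hm hmp.measurable]
  have hF : (((gaussianReal 0 1).prod (gaussianReal 0 1)).map
      (fun p : ℝ × ℝ => Real.sqrt s * p.1 + Real.sqrt t * p.2)) =
      gaussianReal 0 (s + t) := by
    have h1 := gaussianReal_conv_gaussianReal (m₁ := 0) (m₂ := 0) (v₁ := s) (v₂ := t)
    rw [add_zero] at h1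
    rw [← h1, ← gaussianReal_map_sqrt_mul s, ← gaussianReal_map_sqrt_mul t, Measure.conv,
      Measure.map_prod_map _ _ (f := fun x => Real.sqrt s * x) (g := fun x => Real.sqrt t * x)
        (by fun_prop) (by fun_prop),
      Measure.map_map (by fun_prop) (by fun_prop)]
    rfl
  have hpm := Measure.pi_map_pi (μ := fun _ : ι => (gaussianReal 0 1).prod (gaussianReal 0 1))
    (f := fun _ (p : ℝ × ℝ) => Real.sqrt s * p.1 + Real.sqrt t * p.2)
    (hμ := by intro i; simp only [hF]; infer_instance)
    (fun i => by fun_prop)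
  simp only [hF] at hpm
  rw [← hpm]
  rfl

theorem gaussMat_succ_eq_map (K : ℕ) :
    gaussMat ι (K + 1) =
      ((gaussMat ι K).prod (gaussVec ι)).map (fun p => Fin.snoc p.1 p.2) := by
  refine Measure.ext_of_lintegral _ (fun f hf => ?_)
  have hm := measurable_snoc_uncurry (ι := ι) K
  rw [lintegral_gaussMat_succ K f hf, lintegral_map hf hm]
  exact (lintegral_prod (fun p : (Fin K → ι → ℝ) × (ι → ℝ) => f (Fin.snoc p.1 p.2))
    (hf.comp hm).aemeasurable).symm

theorem gaussMat_map_total_sum (K : ℕ) {h : ℝ} (h0 : 0 ≤ h) :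
    (gaussMat ι K).map (fun y i => Real.sqrt h * ∑ l, y l i) =
      (gaussVec ι).map (fun G i => Real.sqrt (K * h) * G i) := by
  induction K with
  | zero =>
    simp
  | succ K ih =>
    rw [gaussMat_succ_eq_map K]
    have hT : Measurable (fun (y : Fin (K + 1) → ι → ℝ) (i : ι) => Real.sqrt h * ∑ l, y l i) := by
      refine measurable_pi_lambda _ (fun i => measurable_const.mul ?_)
      exact Finset.measurable_sum _ (fun l _ => (measurable_pi_apply i).comp (measurable_pi_apply l))
    have hT0 : Measurable (fun (y : Fin K → ι → ℝ) (i : ι) => Real.sqrt h * ∑ l, y l i) := by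
      refine measurable_pi_lambda _ (fun i => measurable_const.mul ?_)
      exact Finset.measurable_sum _ (fun l _ => (measurable_pi_apply i).comp (measurable_pi_apply l))
    rw [Measure.map_map hT (measurable_snoc_uncurry K)]
    have hK0 : (0 : ℝ) ≤ K * h := mul_nonneg (Nat.cast_nonneg _) h0
    have hadd : Measurable (fun (p : (ι → ℝ) × (ι → ℝ)) (i : ι) => p.1 i + Real.sqrt h * p.2 i) := by
      refine measurable_pi_lambda _ (fun i => ?_)
      exact ((measurable_pi_apply i).comp measurable_fst).add
        (measurable_const.mul ((measurable_pi_apply i).comp measurable_snd))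
    have hfac : ((fun (y : Fin (K + 1) → ι → ℝ) (i : ι) => Real.sqrt h * ∑ l, y l i) ∘
        fun p : (Fin K → ι → ℝ) × (ι → ℝ) => (Fin.snoc p.1 p.2 : Fin (K + 1) → ι → ℝ)) =
        (fun (p : (ι → ℝ) × (ι → ℝ)) (i : ι) => p.1 i + Real.sqrt h * p.2 i) ∘
          Prod.map (fun (y : Fin K → ι → ℝ) (i : ι) => Real.sqrt h * ∑ l, y l i) id := by
      funext p i
      simp [Fin.sum_univ_castSucc, mul_add]
    rw [hfac, ← Measure.map_map hadd (hT0.prodMap measurable_id)]
    have hprod : ((gaussMat ι K).prod (gaussVec ι)).map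
        (Prod.map (fun (y : Fin K → ι → ℝ) (i : ι) => Real.sqrt h * ∑ l, y l i) id) =
        ((gaussVec ι).map (fun G i => Real.sqrt (K * h) * G i)).prod (gaussVec ι) := by
      have hsf : SFinite ((gaussMat ι K).map
          (fun (y : Fin K → ι → ℝ) (i : ι) => Real.sqrt h * ∑ l, y l i)) := by
        rw [ih]; infer_instance
      rw [← ih, ← Measure.map_prod_map _ _ hT0 measurable_id, Measure.map_id]
    rw [hprod]
    have hm1 : Measurable (fun (G : ι → ℝ) (i : ι) => Real.sqrt (K * h) * G i) :=
      measurable_pi_lambda _ (fun i => measurable_const.mul (measurable_pi_apply i))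
    have hprod2 : ((gaussVec ι).map (fun G i => Real.sqrt (K * h) * G i)).prod (gaussVec ι) =
        ((gaussVec ι).prod (gaussVec ι)).map
          (Prod.map (fun (G : ι → ℝ) (i : ι) => Real.sqrt (K * h) * G i) id) := by
      rw [← Measure.map_prod_map _ _ hm1 measurable_id, Measure.map_id]
    rw [hprod2, Measure.map_map hadd (hm1.prodMap measurable_id)]
    have hfin := gaussVec_prod_map_add (ι := ι) hK0 h0
    have hcast : ((K + 1 : ℕ) : ℝ) * h = K * h + h := by push_cast; ring
    rw [hcast, ← hfin]
    rfl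

/-- Law of partial sums of rows: `√h Σ_{l<k} y_l` is a centred Gaussian of variance `k h`. -/
theorem gaussMat_map_partial_sum (K k : ℕ) (hk : k ≤ K) {h : ℝ} (h0 : 0 ≤ h) :
    (gaussMat ι K).map
        (fun y i => Real.sqrt h * ∑ l ∈ Finset.univ.filter (fun l : Fin K => (l : ℕ) < k), y l i) =
      (gaussVec ι).map (fun G i => Real.sqrt (k * h) * G i) := by
  have hfil : Finset.univ.filter (fun l : Fin K => (l : ℕ) < k) =
      Finset.univ.map (Fin.castLEEmb hk) := by
    ext l
    simp only [Finset.mem_filter, Finset.mem_univ, true_and, Finset.mem_map]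
    constructor
    · intro hl
      exact ⟨⟨l, hl⟩, by ext; simp⟩
    · rintro ⟨m, -, rfl⟩
      simp
  have hfun : (fun (y : Fin K → ι → ℝ) (i : ι) =>
      Real.sqrt h * ∑ l ∈ Finset.univ.filter (fun l : Fin K => (l : ℕ) < k), y l i) =
      (fun (y : Fin k → ι → ℝ) (i : ι) => Real.sqrt h * ∑ l, y l i) ∘
        (fun (y : Fin K → ι → ℝ) (m : Fin k) => y (Fin.castLEEmb hk m)) := by
    funext y i
    simp only [Function.comp, hfil, Finset.sum_map]
  have hT0 : Measurable (fun (y : Fin k → ι → ℝ) (i : ι) => Real.sqrt h * ∑ l, y l i) := by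
    refine measurable_pi_lambda _ (fun i => measurable_const.mul ?_)
    exact Finset.measurable_sum _ (fun l _ => (measurable_pi_apply i).comp (measurable_pi_apply l))
  have hr : Measurable (fun (y : Fin K → ι → ℝ) (m : Fin k) => y (Fin.castLEEmb hk m)) :=
    measurable_pi_lambda _ (fun m => measurable_pi_apply _)
  rw [hfun, ← Measure.map_map hT0 hr,
    gaussMat_map_row (fun m => Fin.castLEEmb hk m) (Fin.castLEEmb hk).injective,
    gaussMat_map_total_sum k h0]

end Crest.Agent.SRFactor
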