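import Crest.Agent.SRFactor.Gauss

/-! Comparison of two meshes on one window, with nested noise (blueprint (E)). -/

set_option autoImplicit false

open MeasureTheory ProbabilityTheory

namespace Crest.Agent.SRFactor

variable {E : Type*} [DecidableEq E]

namespace MeshAux

/-- Error contributed by one coarse step. -/
noncomputable def stepErr (κ h' : ℝ) (B : Finset E) (y' : ℕ → E → ℝ) (l : ℕ) : ℝ :=
  κ * h' * (3 * h' / 2 + Real.sqrt h' * ∑ i ∈ B, |y' (2 * l) i|)

/-- The solution of the discrete Gronwall recursion. -/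
noncomputable def bd (κ h : ℝ) (c : ℕ → ℝ) : ℕ → ℝ
  | 0 => 0
  | k + 1 => (1 + κ * h) * bd κ h c k + c k

lemma stepErr_nonneg {κ h' : ℝ} (hκ : 0 ≤ κ) (hh' : 0 ≤ h') (B : Finset E) (y' : ℕ → E → ℝ)
    (l : ℕ) : 0 ≤ stepErr κ h' B y' l := by
  unfold stepErr
  have : 0 ≤ ∑ i ∈ B, |y' (2 * l) i| := Finset.sum_nonneg fun _ _ => abs_nonneg _
  positivity

/-- Pathwise comparison of the coarse and the fine scheme with nested noise. -/
lemma euler_two_level (ν : Family E) {κ : ℝ} (hκ : 0 ≤ κ) (hL : ν.Lip κ) (B : Finset E) {h : ℝ}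
    (hh0 : 0 < h) (y y' : ℕ → E → ℝ)
    (hy : ∀ e ∈ B, ∀ k, Real.sqrt h * y k e = Real.sqrt (h / 2) * (y' (2 * k) e + y' (2 * k + 1) e)) :
    ∀ k, ∀ e ∈ B, |euler ν B h y k e - euler ν B (h / 2) y' (2 * k) e|
      ≤ bd κ h (stepErr κ (h / 2) B y') k := by
  intro k
  induction k with
  | zero =>
    intro e _
    simp [bd]
  | succ k ih =>
    intro e he
    set Z := euler ν B h y k with hZ
    set Z0 := euler ν B (h / 2) y' (2 * k) with hZ0
    set Z1 := euler ν B (h / 2) y' (2 * k + 1) with hZ1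
    set A := ∑ i ∈ B, |y' (2 * k) i| with hA
    set lam : E → ℝ := fun g => Z g - k * h / 2 with hlam
    set lam0 : E → ℝ := fun g => Z0 g - ((2 * k : ℕ) : ℝ) * (h / 2) / 2 with hlam0
    set lam1 : E → ℝ := fun g => Z1 g - ((2 * k + 1 : ℕ) : ℝ) * (h / 2) / 2 with hlam1
    have h1 : ∀ g ∈ B, Z1 g = Z0 g + (h / 2) * post ν B lam0 g + Real.sqrt (h / 2) * y' (2 * k) g := by
      intro g hg
      exact euler_succ_of_mem ν B (h / 2) y' (2 * k) hg
    have e0 : euler ν B h y (k + 1) e = Z e + h * post ν B lam e + Real.sqrt h * y k e :=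
      euler_succ_of_mem ν B h y k he
    have e1 : euler ν B (h / 2) y' (2 * (k + 1)) e
        = Z1 e + (h / 2) * post ν B lam1 e + Real.sqrt (h / 2) * y' (2 * k + 1) e := by
      have : 2 * (k + 1) = (2 * k + 1) + 1 := by ring
      rw [this]
      exact euler_succ_of_mem ν B (h / 2) y' (2 * k + 1) he
    -- first difference of drifts
    have d0 : |post ν B lam e - post ν B lam0 e| ≤ κ * bd κ h (stepErr κ (h / 2) B y') k := by
      refine hL B lam lam0 e _ (fun g hg => ?_) he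
      have : lam g - lam0 g = Z g - Z0 g := by
        simp only [hlam, hlam0]
        push_cast
        ring
      rw [this]
      exact ih g hg
    -- second difference of drifts
    have d1 : |post ν B lam e - post ν B lam1 e| ≤
        κ * (bd κ h (stepErr κ (h / 2) B y') k
          + (3 * (h / 2) / 2 + Real.sqrt (h / 2) * A)) := by
      refine hL B lam lam1 e _ (fun g hg => ?_) he
      have hrw : lam g - lam1 g = (Z g - Z0 g) - (h / 2) * post ν B lam0 g
          - Real.sqrt (h / 2) * y' (2 * k) g + h / 4 := by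
        simp only [hlam, hlam1]
        rw [h1 g hg]
        push_cast
        ring
      rw [hrw]
      have a1 := ih g hg
      have a2 : |post ν B lam0 g| ≤ 1 := abs_post_le_one ν B lam0 g
      have a3 : |y' (2 * k) g| ≤ A :=
        Finset.single_le_sum (f := fun i => |y' (2 * k) i|) (fun _ _ => abs_nonneg _) hg
      have s0 : 0 ≤ Real.sqrt (h / 2) := Real.sqrt_nonneg _
      have a4 : |(h / 2) * post ν B lam0 g| ≤ h / 2 := by
        rw [abs_mul, abs_of_pos (by positivity : 0 < h / 2)]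
        nlinarith
      have a5 : |Real.sqrt (h / 2) * y' (2 * k) g| ≤ Real.sqrt (h / 2) * A := by
        rw [abs_mul, abs_of_nonneg s0]
        exact mul_le_mul_of_nonneg_left a3 s0
      have a6 : |h / 4| = h / 4 := abs_of_pos (by positivity)
      calc |Z g - Z0 g - h / 2 * post ν B lam0 g - Real.sqrt (h / 2) * y' (2 * k) g + h / 4|
          ≤ |Z g - Z0 g - h / 2 * post ν B lam0 g - Real.sqrt (h / 2) * y' (2 * k) g| + |h / 4| :=
            abs_add_le _ _
        _ ≤ |Z g - Z0 g - h / 2 * post ν B lam0 g| + |Real.sqrt (h / 2) * y' (2 * k) g| + |h / 4| := by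
            gcongr; exact abs_sub _ _
        _ ≤ |Z g - Z0 g| + |h / 2 * post ν B lam0 g| + |Real.sqrt (h / 2) * y' (2 * k) g| + |h / 4| := by
            gcongr; exact abs_sub _ _
        _ ≤ _ := by rw [a6]; linarith
    -- assemble
    have hnoise := hy e he k
    have hD : euler ν B h y (k + 1) e - euler ν B (h / 2) y' (2 * (k + 1)) e
        = (Z e - Z0 e) + (h / 2) * (post ν B lam e - post ν B lam0 e)
          + (h / 2) * (post ν B lam e - post ν B lam1 e) := by
      rw [e0, e1, h1 e he, hnoise]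
      ring
    rw [hD]
    have hbd : bd κ h (stepErr κ (h / 2) B y') (k + 1)
        = (1 + κ * h) * bd κ h (stepErr κ (h / 2) B y') k + stepErr κ (h / 2) B y' k := rfl
    rw [hbd]
    have i0 := ih e he
    have hpos : 0 < h / 2 := by positivity
    have t0 : |(h / 2) * (post ν B lam e - post ν B lam0 e)|
        ≤ (h / 2) * (κ * bd κ h (stepErr κ (h / 2) B y') k) := by
      rw [abs_mul, abs_of_pos hpos]
      exact mul_le_mul_of_nonneg_left d0 hpos.le
    have t1 : |(h / 2) * (post ν B lam e - post ν B lam1 e)|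
        ≤ (h / 2) * (κ * (bd κ h (stepErr κ (h / 2) B y') k
          + (3 * (h / 2) / 2 + Real.sqrt (h / 2) * A))) := by
      rw [abs_mul, abs_of_pos hpos]
      exact mul_le_mul_of_nonneg_left d1 hpos.le
    have hstep : stepErr κ (h / 2) B y' k
        = κ * (h / 2) * (3 * (h / 2) / 2 + Real.sqrt (h / 2) * A) := rfl
    rw [hstep]
    calc |(Z e - Z0 e) + (h / 2) * (post ν B lam e - post ν B lam0 e)
            + (h / 2) * (post ν B lam e - post ν B lam1 e)|
        ≤ |(Z e - Z0 e) + (h / 2) * (post ν B lam e - post ν B lam0 e)|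
            + |(h / 2) * (post ν B lam e - post ν B lam1 e)| := abs_add_le _ _
      _ ≤ |Z e - Z0 e| + |(h / 2) * (post ν B lam e - post ν B lam0 e)|
            + |(h / 2) * (post ν B lam e - post ν B lam1 e)| := by
          gcongr; exact abs_add_le _ _
      _ ≤ _ := by nlinarith

lemma bd_le {κ h : ℝ} (hκh : 0 ≤ κ * h) {c : ℕ → ℝ} (hc : ∀ l, 0 ≤ c l) (K : ℕ) :
    bd κ h c K ≤ (1 + κ * h) ^ K * ∑ l ∈ Finset.range K, c l := by
  induction K with
  | zero => simp [bd]
  | succ K ih =>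
    have hb : bd κ h c (K + 1) = (1 + κ * h) * bd κ h c K + c K := rfl
    rw [hb, Finset.sum_range_succ, pow_succ]
    have h1 : (1 : ℝ) ≤ (1 + κ * h) ^ K * (1 + κ * h) := by
      have : (1 : ℝ) ≤ (1 + κ * h) ^ (K + 1) := one_le_pow₀ (by linarith)
      rwa [pow_succ] at this
    have h2 : 0 ≤ c K := hc K
    have h3 : (1 + κ * h) * bd κ h c K ≤ (1 + κ * h) * ((1 + κ * h) ^ K * ∑ l ∈ Finset.range K, c l) :=
      mul_le_mul_of_nonneg_left ih (by linarith)
    nlinarith

lemma one_add_pow_le_exp {x : ℝ} (hx : 0 ≤ x) (K : ℕ) : (1 + x) ^ K ≤ Real.exp (K * x) := by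
  have h1 : 1 + x ≤ Real.exp x := by linarith [Real.add_one_le_exp x]
  calc (1 + x) ^ K ≤ (Real.exp x) ^ K := pow_le_pow_left₀ (by linarith) h1 K
    _ = Real.exp (K * x) := by rw [← Real.exp_nat_mul]

/-- Pathwise bound for consecutive levels, with the error function as a function of the noise. -/
noncomputable def levelErr (κ : ℝ) (B : Finset E) (T m : ℕ) (ξ : Noise E) : ℝ :=
  Real.exp (κ * T) * ∑ l ∈ Finset.range (T * 2 ^ m),
    stepErr κ (hh m / 2) B (levelNoise ξ (m + 1)) l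

lemma hh_mul (T m : ℕ) : ((T * 2 ^ m : ℕ) : ℝ) * hh m = T := by
  unfold hh
  push_cast
  rw [mul_assoc, ← mul_pow]
  norm_num

lemma pos_consecutive (ν : Family E) {κ : ℝ} (hκ : 0 ≤ κ) (hL : ν.Lip κ) (B : Finset E) (T m : ℕ)
    (ξ : Noise E)
    (href : ∀ e ∈ B, ∀ j, ξ e m j = (ξ e (m + 1) (2 * j) + ξ e (m + 1) (2 * j + 1)) / Real.sqrt 2)
    {e : E} (he : e ∈ B) :
    |pos ν B T m ξ e - pos ν B T (m + 1) ξ e| ≤ levelErr κ B T m ξ := by
  have hpos : 0 < hh m := hh_pos m
  have hy : ∀ e ∈ B, ∀ k, Real.sqrt (hh m) * levelNoise ξ m k e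
      = Real.sqrt (hh m / 2) * (levelNoise ξ (m + 1) (2 * k) e + levelNoise ξ (m + 1) (2 * k + 1) e) := by
    intro e he k
    simp only [levelNoise]
    rw [href e he k, Real.sqrt_div hpos.le]
    have h2 : Real.sqrt 2 ≠ 0 := by positivity
    field_simp
  have main := euler_two_level ν hκ hL B hpos (levelNoise ξ m) (levelNoise ξ (m + 1)) hy
    (T * 2 ^ m) e he
  have hK : T * 2 ^ (m + 1) = 2 * (T * 2 ^ m) := by ring
  have hp1 : pos ν B T (m + 1) ξ e
      = euler ν B (hh m / 2) (levelNoise ξ (m + 1)) (2 * (T * 2 ^ m)) e := by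
    unfold pos
    rw [hh_succ, hK]
  have hp0 : pos ν B T m ξ e = euler ν B (hh m) (levelNoise ξ m) (T * 2 ^ m) e := rfl
  rw [hp0, hp1]
  refine main.trans ?_
  have hκh : 0 ≤ κ * hh m := mul_nonneg hκ hpos.le
  refine (bd_le hκh (fun l => stepErr_nonneg hκ (by positivity) B _ l) _).trans ?_
  unfold levelErr
  have hsum : 0 ≤ ∑ l ∈ Finset.range (T * 2 ^ m),
      stepErr κ (hh m / 2) B (levelNoise ξ (m + 1)) l :=
    Finset.sum_nonneg fun l _ => stepErr_nonneg hκ (by positivity) B _ l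
  refine mul_le_mul_of_nonneg_right ?_ hsum
  refine (one_add_pow_le_exp hκh _).trans ?_
  apply le_of_eq
  congr 1
  have := hh_mul T m
  calc ((T * 2 ^ m : ℕ) : ℝ) * (κ * hh m) = κ * (((T * 2 ^ m : ℕ) : ℝ) * hh m) := by ring
    _ = κ * T := by rw [this]

lemma hh_le_one (m : ℕ) : hh m ≤ 1 := by
  unfold hh
  exact pow_le_one₀ (by norm_num) (by norm_num)

lemma sqrt_hh_succ (m : ℕ) : Real.sqrt (hh (m + 1)) ≤ (3 / 4) * Real.sqrt (hh m) := by
  rw [hh_succ]
  have h0 := hh_pos m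
  have : Real.sqrt (hh m / 2) = Real.sqrt (hh m) / Real.sqrt 2 := Real.sqrt_div h0.le 2
  rw [this]
  have h2 : (4 / 3 : ℝ) ≤ Real.sqrt 2 := by
    apply Real.le_sqrt_of_sq_le
    norm_num
  have h3 : 0 ≤ Real.sqrt (hh m) := Real.sqrt_nonneg _
  rw [div_le_iff₀ (by positivity)]
  nlinarith

/-- Summation of the consecutive errors. -/
lemma sum_hh_le {b : ℕ} {n n' : ℕ} (hn : n ≤ n') :
    ∑ m ∈ Finset.Ico n n', (hh m + b * Real.sqrt (hh m)) ≤ (2 + 4 * b) * Real.sqrt (hh n) := by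
  have key : ∑ m ∈ Finset.Ico n n', (hh m + b * Real.sqrt (hh m))
      ≤ (2 * hh n - 2 * hh n') + 4 * b * (Real.sqrt (hh n) - Real.sqrt (hh n')) := by
    induction n', hn using Nat.le_induction with
    | base => simp
    | succ p hp ih =>
      rw [Finset.sum_Ico_succ_top hp]
      have h1 := sqrt_hh_succ p
      have hb : (0 : ℝ) ≤ b := Nat.cast_nonneg b
      have h2 : hh (p + 1) = hh p / 2 := hh_succ p
      have h3 : 0 ≤ Real.sqrt (hh p) := Real.sqrt_nonneg _
      have h4 : b * (Real.sqrt (hh (p + 1))) ≤ b * ((3 / 4) * Real.sqrt (hh p)) :=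
        mul_le_mul_of_nonneg_left h1 hb
      nlinarith
  have h0 : hh n ≤ Real.sqrt (hh n) := by
    apply Real.le_sqrt_of_sq_le
    have h := hh_pos n
    have h1 := hh_le_one n
    nlinarith
  have hb : (0 : ℝ) ≤ b := Nat.cast_nonneg b
  have h5 : 0 ≤ hh n' := (hh_pos n').le
  have h6 : 0 ≤ Real.sqrt (hh n') := Real.sqrt_nonneg _
  have h7 : 0 ≤ b * Real.sqrt (hh n') := by positivity
  nlinarith

end MeshAux

open MeshAux

section Level

variable {Ω : Type*} [MeasurableSpace Ω] {P : Measure Ω} {ξ : Ω → Noise E} {Dom : Set E}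

lemma level_abs (hξ : IsDyadicNoise P ξ Dom) {B : Finset E} (hB : (B : Set E) ⊆ Dom) {i : E}
    (hi : i ∈ B) (n j : ℕ) :
    Integrable (fun ω => |ξ ω i n j|) P ∧ ∫ ω, |ξ ω i n j| ∂P ≤ 1 := by
  have hlaw := hξ.level B hB n (j + 1)
  set F : Ω → Fin (j + 1) → B → ℝ := fun ω (k : Fin (j + 1)) (e : B) => ξ ω e n k with hF
  have hFm : Measurable F :=
    measurable_pi_lambda _ fun k => measurable_pi_lambda _ fun e => hξ.meas _ _ _
  set j' : Fin (j + 1) := ⟨j, Nat.lt_succ_self j⟩ with hj'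
  set i' : B := ⟨i, hi⟩ with hi'
  have hev : MeasurePreserving (Function.eval j') (gaussMat B (j + 1)) (gaussVec B) :=
    measurePreserving_eval (fun _ : Fin (j + 1) => gaussVec B) j'
  have g0m : Measurable fun v : B → ℝ => |v i'| := (measurable_pi_apply i').abs
  have g0i : Integrable (fun v : B → ℝ => |v i'|) (gaussVec B) := (integrable_coord i').abs
  have hcomp : (fun ω => |ξ ω i n j|)
      = (fun v : B → ℝ => |v i'|) ∘ (Function.eval j') ∘ F := by
    funext ω
    rfl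
  have hmap : MeasurePreserving (Function.eval j' ∘ F) P (gaussVec B) :=
    hev.comp ⟨hFm, hlaw⟩
  constructor
  · rw [hcomp]
    exact hmap.integrable_comp_of_integrable g0i
  · have : ∫ ω, |ξ ω i n j| ∂P = ∫ v, |v i'| ∂gaussVec B := by
      have hc2 : (fun ω => |ξ ω i n j|) = (fun v : B → ℝ => |v i'|) ∘ (Function.eval j' ∘ F) := hcomp
      rw [hc2, ← hmap.map_eq]
      exact (integral_map hmap.measurable.aemeasurable g0m.aestronglyMeasurable).symm
    rw [this]
    exact integral_abs_coord_le i'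

/-- Integrability and mean of the error of a coarse step. -/
lemma stepErr_integral (hξ : IsDyadicNoise P ξ Dom) {B : Finset E} (hB : (B : Set E) ⊆ Dom)
    {κ h' : ℝ} (hκ : 0 ≤ κ) (hh' : 0 ≤ h') (m l : ℕ) :
    Integrable (fun ω => stepErr κ h' B (levelNoise (ξ ω) (m + 1)) l) P ∧
      ∫ ω, stepErr κ h' B (levelNoise (ξ ω) (m + 1)) l ∂P
        ≤ κ * h' * (3 * h' / 2 + Real.sqrt h' * B.card) := by
  haveI := hξ.prob
  have hint : ∀ i ∈ B, Integrable (fun ω => |ξ ω i (m + 1) (2 * l)|) P :=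
    fun i hi => (level_abs hξ hB hi _ _).1
  have hsumI : Integrable (fun ω => ∑ i ∈ B, |ξ ω i (m + 1) (2 * l)|) P :=
    integrable_finset_sum _ hint
  have hsum : ∫ ω, ∑ i ∈ B, |ξ ω i (m + 1) (2 * l)| ∂P ≤ B.card := by
    rw [integral_finset_sum _ hint]
    calc ∑ i ∈ B, ∫ ω, |ξ ω i (m + 1) (2 * l)| ∂P ≤ ∑ _i ∈ B, (1 : ℝ) :=
          Finset.sum_le_sum fun i hi => (level_abs hξ hB hi _ _).2
      _ = B.card := by simp
  have hform : (fun ω => stepErr κ h' B (levelNoise (ξ ω) (m + 1)) l)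
      = fun ω => κ * h' * (3 * h' / 2 + Real.sqrt h' * ∑ i ∈ B, |ξ ω i (m + 1) (2 * l)|) := rfl
  have hI2 : Integrable
      (fun ω => 3 * h' / 2 + Real.sqrt h' * ∑ i ∈ B, |ξ ω i (m + 1) (2 * l)|) P :=
    (integrable_const _).add (hsumI.const_mul _)
  rw [hform]
  refine ⟨hI2.const_mul _, ?_⟩
  rw [integral_const_mul, integral_add (integrable_const _) (hsumI.const_mul _),
    integral_const_mul]
  have : ∫ _ω, 3 * h' / 2 ∂P = 3 * h' / 2 := by simp
  rw [this]
  have hs0 : 0 ≤ Real.sqrt h' := Real.sqrt_nonneg _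
  gcongr

/-- Integrability and mean of the pathwise bound for two consecutive levels. -/
lemma levelErr_integral (hξ : IsDyadicNoise P ξ Dom) {B : Finset E} (hB : (B : Set E) ⊆ Dom)
    {κ : ℝ} (hκ : 0 ≤ κ) (T m : ℕ) :
    Integrable (fun ω => levelErr κ B T m (ξ ω)) P ∧
      ∫ ω, levelErr κ B T m (ξ ω) ∂P
        ≤ Real.exp (κ * T) * T * κ * (hh m + B.card * Real.sqrt (hh m)) := by
  have hpos : 0 < hh m := hh_pos m
  have hh' : 0 ≤ hh m / 2 := by positivity
  have hI : ∀ l ∈ Finset.range (T * 2 ^ m),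
      Integrable (fun ω => stepErr κ (hh m / 2) B (levelNoise (ξ ω) (m + 1)) l) P :=
    fun l _ => (stepErr_integral hξ hB hκ hh' m l).1
  have hsI : Integrable
      (fun ω => ∑ l ∈ Finset.range (T * 2 ^ m),
        stepErr κ (hh m / 2) B (levelNoise (ξ ω) (m + 1)) l) P :=
    integrable_finset_sum _ hI
  refine ⟨hsI.const_mul _, ?_⟩
  have hform : ∫ ω, levelErr κ B T m (ξ ω) ∂P
      = Real.exp (κ * T) * ∑ l ∈ Finset.range (T * 2 ^ m),
          ∫ ω, stepErr κ (hh m / 2) B (levelNoise (ξ ω) (m + 1)) l ∂P := by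
    unfold levelErr
    rw [integral_const_mul, integral_finset_sum _ hI]
  rw [hform]
  have hsum : ∑ l ∈ Finset.range (T * 2 ^ m),
      ∫ ω, stepErr κ (hh m / 2) B (levelNoise (ξ ω) (m + 1)) l ∂P
      ≤ ((T * 2 ^ m : ℕ) : ℝ) * (κ * (hh m / 2) * (3 * (hh m / 2) / 2
          + Real.sqrt (hh m / 2) * B.card)) := by
    calc _ ≤ ∑ _l ∈ Finset.range (T * 2 ^ m), (κ * (hh m / 2) * (3 * (hh m / 2) / 2
          + Real.sqrt (hh m / 2) * B.card)) :=
          Finset.sum_le_sum fun l _ => (stepErr_integral hξ hB hκ hh' m l).2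
      _ = _ := by simp
  have hmain : ((T * 2 ^ m : ℕ) : ℝ) * (κ * (hh m / 2) * (3 * (hh m / 2) / 2
          + Real.sqrt (hh m / 2) * B.card))
      ≤ T * κ * (hh m + B.card * Real.sqrt (hh m)) := by
    have h1 := hh_mul T m
    have h2 : ((T * 2 ^ m : ℕ) : ℝ) * (κ * (hh m / 2) * (3 * (hh m / 2) / 2
          + Real.sqrt (hh m / 2) * B.card))
        = (((T * 2 ^ m : ℕ) : ℝ) * hh m) * κ * ((1 / 2) * (3 * (hh m / 2) / 2
          + Real.sqrt (hh m / 2) * B.card)) := by ring
    rw [h2, h1]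
    have h3 : Real.sqrt (hh m / 2) ≤ Real.sqrt (hh m) := Real.sqrt_le_sqrt (by linarith)
    have hT : (0 : ℝ) ≤ T := Nat.cast_nonneg T
    have hb : (0 : ℝ) ≤ B.card := Nat.cast_nonneg _
    have hs : 0 ≤ Real.sqrt (hh m / 2) := Real.sqrt_nonneg _
    have h4 : (1 / 2) * (3 * (hh m / 2) / 2 + Real.sqrt (hh m / 2) * B.card)
        ≤ hh m + B.card * Real.sqrt (hh m) := by
      have : Real.sqrt (hh m / 2) * B.card ≤ Real.sqrt (hh m) * B.card :=
        mul_le_mul_of_nonneg_right h3 hb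
      have h5 : 0 ≤ Real.sqrt (hh m / 2) * B.card := by positivity
      nlinarith
    exact mul_le_mul_of_nonneg_left h4 (mul_nonneg hT hκ)
  have hexp : 0 ≤ Real.exp (κ * T) := (Real.exp_pos _).le
  calc Real.exp (κ * T) * _ ≤ Real.exp (κ * T) * (T * κ * (hh m + B.card * Real.sqrt (hh m))) :=
        mul_le_mul_of_nonneg_left (hsum.trans hmain) hexp
    _ = _ := by ring

end Level

/-- (E) Mesh comparison: at nested dyadic noise the positions at levels `n ≤ n'` are close. -/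
theorem mesh_compare {Ω : Type*} [MeasurableSpace Ω] {P : Measure Ω} {ξ : Ω → Noise E} {Dom : Set E}
    (hξ : IsDyadicNoise P ξ Dom) (ν : Family E) {κ : ℝ} (hκ : 0 ≤ κ) (hL : ν.Lip κ)
    {B : Finset E} (hB : (B : Set E) ⊆ Dom) (T : ℕ) {e : E} (he : e ∈ B) {n n' : ℕ} (hn : n ≤ n') :
    ∫ ω, |pos ν B T n (ξ ω) e - pos ν B T n' (ξ ω) e| ∂P ≤ meshErr κ B.card T n := by
  haveI := hξ.prob
  -- pathwise telescoping
  have hpath : ∀ᵐ ω ∂P, |pos ν B T n (ξ ω) e - pos ν B T n' (ξ ω) e|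
      ≤ ∑ m ∈ Finset.Ico n n', levelErr κ B T m (ξ ω) := by
    filter_upwards [hξ.refine] with ω hω
    induction n', hn using Nat.le_induction with
    | base => simp
    | succ p hp ih =>
      rw [Finset.sum_Ico_succ_top hp]
      have hstep := pos_consecutive ν hκ hL B T p (ξ ω)
        (fun g hg j => hω g (hB hg) p j) he
      calc |pos ν B T n (ξ ω) e - pos ν B T (p + 1) (ξ ω) e|
          ≤ |pos ν B T n (ξ ω) e - pos ν B T p (ξ ω) e|
            + |pos ν B T p (ξ ω) e - pos ν B T (p + 1) (ξ ω) e| := abs_sub_le _ _ _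
        _ ≤ _ := add_le_add ih hstep
  have hI : ∀ m ∈ Finset.Ico n n', Integrable (fun ω => levelErr κ B T m (ξ ω)) P :=
    fun m _ => (levelErr_integral hξ hB hκ T m).1
  have hsI : Integrable (fun ω => ∑ m ∈ Finset.Ico n n', levelErr κ B T m (ξ ω)) P :=
    integrable_finset_sum _ hI
  have h1 : ∫ ω, |pos ν B T n (ξ ω) e - pos ν B T n' (ξ ω) e| ∂P
      ≤ ∫ ω, ∑ m ∈ Finset.Ico n n', levelErr κ B T m (ξ ω) ∂P :=
    integral_mono_of_nonneg (Filter.Eventually.of_forall fun _ => abs_nonneg _) hsI hpath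
  refine h1.trans ?_
  rw [integral_finset_sum _ hI]
  have h2 : ∑ m ∈ Finset.Ico n n', ∫ ω, levelErr κ B T m (ξ ω) ∂P
      ≤ ∑ m ∈ Finset.Ico n n',
          Real.exp (κ * T) * T * κ * (hh m + B.card * Real.sqrt (hh m)) :=
    Finset.sum_le_sum fun m _ => (levelErr_integral hξ hB hκ T m).2
  refine h2.trans ?_
  rw [← Finset.mul_sum]
  unfold meshErr
  have hC : 0 ≤ Real.exp (κ * T) * T * κ := by positivity
  have h3 := sum_hh_le (b := B.card) hn
  have h4 : Real.sqrt ((1 / 2 : ℝ) ^ n) = Real.sqrt (hh n) := rfl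
  rw [h4, mul_assoc (Real.exp (κ * T) * T * κ)]
  exact mul_le_mul_of_nonneg_left h3 hC

/-- The error bound tends to zero with the mesh level. -/
theorem tendsto_meshErr (κ : ℝ) (b T : ℕ) :
    Filter.Tendsto (fun n : ℕ => meshErr κ b T n) Filter.atTop (nhds 0) := by
  unfold meshErr
  have h0 : Filter.Tendsto (fun n : ℕ => ((1 / 2 : ℝ)) ^ n) Filter.atTop (nhds 0) :=
    tendsto_pow_atTop_nhds_zero_of_lt_one (by norm_num) (by norm_num)
  have h1 : Filter.Tendsto (fun n : ℕ => Real.sqrt ((1 / 2 : ℝ) ^ n)) Filter.atTop (nhds 0) := by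
    have := h0.sqrt
    simpa using this
  have := h1.const_mul (Real.exp (κ * T) * T * κ * (2 + 4 * b))
  simpa using this

end Crest.Agent.SRFactor
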