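import Crest.Agent.SRFactor.Window
import Crest.Agent.SRFactor.Mesh

/-! Combination of the estimates: Cauchy property in the radius and the law of the limit
(blueprint (F)). -/

set_option autoImplicit false
set_option linter.unusedSectionVars false

open MeasureTheory ProbabilityTheory

namespace Crest.Agent.SRFactor

variable {E : Type*} [DecidableEq E]

/-- The defining property of `meshOf`. -/
lemma meshOf_spec (κ : ℝ) (b T : ℕ) {n : ℕ} (hn : meshOf κ b T ≤ n) :
    meshErr κ b T n ≤ (1 / 2 : ℝ) ^ T ∧ tvB (hh n) (T * 2 ^ n) b ≤ (1 / 2 : ℝ) ^ T := by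
  have hpos : (0 : ℝ) < (1 / 2 : ℝ) ^ T := by positivity
  have h1 := (tendsto_meshErr κ b T).eventually (gt_mem_nhds hpos)
  have h2 := (tendsto_tvB b T).eventually (gt_mem_nhds hpos)
  have hne : {n0 | ∀ n, n0 ≤ n → meshErr κ b T n ≤ (1 / 2 : ℝ) ^ T ∧
      tvB (hh n) (T * 2 ^ n) b ≤ (1 / 2 : ℝ) ^ T}.Nonempty := by
    obtain ⟨n0, hn0⟩ := Filter.eventually_atTop.1 (h1.and h2)
    exact ⟨n0, fun n hn => ⟨(hn0 n hn).1.le, (hn0 n hn).2.le⟩⟩
  exact Nat.sInf_mem hne n hn

section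
variable {Ω : Type*} [MeasurableSpace Ω] {P : Measure Ω} {ξ : Ω → Noise E} {Dom : Set E}
  {W : E → ℕ → Finset E} {ν : Family E} {κ : ℝ}

/-- The noise array of level `n` on the window `B`. -/
def noiseOn (B : Finset E) (n K : ℕ) (ξ : Noise E) : Fin K → B → ℝ :=
  fun j e => ξ e n j

lemma measurable_noiseOn (hξ : IsDyadicNoise P ξ Dom) (B : Finset E) (n K : ℕ) :
    Measurable fun ω => noiseOn B n K (ξ ω) :=
  measurable_pi_lambda _ fun j => measurable_pi_lambda _ fun e => hξ.meas e n j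

lemma map_noiseOn (hξ : IsDyadicNoise P ξ Dom) {B : Finset E} (hB : (B : Set E) ⊆ Dom) (n K : ℕ) :
    P.map (fun ω => noiseOn B n K (ξ ω)) = gaussMat B K :=
  hξ.level B hB n K

/-- Integrals of functions of the noise array are Gaussian integrals. -/
lemma integral_noiseOn (hξ : IsDyadicNoise P ξ Dom) {B : Finset E} (hB : (B : Set E) ⊆ Dom)
    (n K : ℕ) (f : (Fin K → B → ℝ) → ℝ) (hf : Measurable f) :
    ∫ ω, f (noiseOn B n K (ξ ω)) ∂P = ∫ y, f y ∂gaussMat B K := by
  rw [← map_noiseOn hξ hB n K,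
    integral_map (measurable_noiseOn hξ B n K).aemeasurable hf.aestronglyMeasurable]

/-- Measures of events of the noise array are Gaussian measures. -/
lemma real_noiseOn (hξ : IsDyadicNoise P ξ Dom) {B : Finset E} (hB : (B : Set E) ⊆ Dom)
    (n K : ℕ) {A : Set (Fin K → B → ℝ)} (hA : MeasurableSet A) :
    P.real {ω | noiseOn B n K (ξ ω) ∈ A} = (gaussMat B K).real A := by
  have : {ω | noiseOn B n K (ξ ω) ∈ A} = (fun ω => noiseOn B n K (ξ ω)) ⁻¹' A := rfl
  rw [this, ← map_noiseOn hξ hB n K, map_measureReal_apply (measurable_noiseOn hξ B n K) hA]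

/-- On the window the level noise coincides with the extension of the noise array. -/
lemma euler_levelNoise (ν : Family E) {B0 B : Finset E} (hB : B0 ⊆ B) (h : ℝ) {n K k : ℕ}
    (hk : k ≤ K) (ξ : Noise E) (e : E) :
    euler ν B0 h (levelNoise ξ n) k e = euler ν B0 h (extY B K (noiseOn B n K ξ)) k e := by
  refine euler_congr ν B0 h k (fun l hl g hg => ?_) e
  have hlK : l < K := lt_of_lt_of_le hl hk
  simp [extY, hlK, hB hg, noiseOn, levelNoise]

/-! ### Path maps -/

/-- The Euler path of the array `y` as a vector of `K + 1` fields. -/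
noncomputable def pathE (ν : Family E) (B : Finset E) (h : ℝ) (K : ℕ) (y : Fin K → B → ℝ) :
    Fin (K + 1) → E → ℝ :=
  fun k e => euler ν B h (extY B K y) k e

/-- The true path of the array `y` as a vector of `K + 1` fields. -/
noncomputable def pathT (B : Finset E) (h : ℝ) (S : Finset E) (K : ℕ) (y : Fin K → B → ℝ) :
    Fin (K + 1) → E → ℝ :=
  fun k e => truePath B h S (extY B K y) k e

lemma measurable_pathE (ν : Family E) (B : Finset E) (h : ℝ) (K : ℕ) :
    Measurable (pathE ν B h K) :=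
  measurable_pi_lambda _ fun k => measurable_pi_lambda _ fun e =>
    (measurable_euler ν B h k e).comp (measurable_extY B K)

lemma measurable_pathT (B : Finset E) (h : ℝ) (S : Finset E) (K : ℕ) :
    Measurable (pathT B h S K) :=
  measurable_pi_lambda _ fun k => measurable_pi_lambda _ fun e =>
    (measurable_truePath B h S k e).comp (measurable_extY B K)

/-- Events form of `tv_path`. -/
lemma tv_event (ν : Family E) (B : Finset E) {h : ℝ} (h0 : 0 < h) (K : ℕ)
    {A : Set (Fin (K + 1) → E → ℝ)} (hA : MeasurableSet A) :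
    |(gaussMat B K).real (pathE ν B h K ⁻¹' A)
      - ∑ S ∈ B.powerset, ν.mass B S * (gaussMat B K).real (pathT B h S K ⁻¹' A)|
      ≤ tvB h K B.card := by
  have key := tv_path ν B h0 K (A.indicator 1) (measurable_one.indicator hA) (by
    intro z
    by_cases hz : z ∈ A <;> simp [hz])
  have h1 : ∀ (f : (Fin K → B → ℝ) → (Fin (K + 1) → E → ℝ)), Measurable f →
      ∫ y, (A.indicator (1 : (Fin (K + 1) → E → ℝ) → ℝ)) (f y) ∂gaussMat B K
        = (gaussMat B K).real (f ⁻¹' A) := by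
    intro f hf
    have : (fun y => (A.indicator (1 : (Fin (K + 1) → E → ℝ) → ℝ)) (f y))
        = (f ⁻¹' A).indicator 1 := by
      funext y
      by_cases hy : f y ∈ A <;> simp [Set.indicator, hy]
    rw [this, integral_indicator_one (hf hA)]
  have h2 := h1 _ (measurable_pathE ν B h K)
  have h3 : ∀ S, ∫ y, (A.indicator (1 : (Fin (K + 1) → E → ℝ) → ℝ)) (pathT B h S K y) ∂gaussMat B K
      = (gaussMat B K).real (pathT B h S K ⁻¹' A) := fun S => h1 _ (measurable_pathT B h S K)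
  rw [← h2]
  simp only [← h3]
  exact key

/-- Upper bound form of `tv_event`. -/
lemma tv_event_le (ν : Family E) (B : Finset E) {h : ℝ} (h0 : 0 < h) (K : ℕ)
    {A : Set (Fin (K + 1) → E → ℝ)} (hA : MeasurableSet A) {c : ℝ}
    (hc : ∀ S ∈ B.powerset, (gaussMat B K).real (pathT B h S K ⁻¹' A) ≤ c) :
    (gaussMat B K).real (pathE ν B h K ⁻¹' A) ≤ tvB h K B.card + c := by
  have h1 := abs_le.1 (tv_event ν B h0 K hA)
  have h2 : ∑ S ∈ B.powerset, ν.mass B S * (gaussMat B K).real (pathT B h S K ⁻¹' A) ≤ c := by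
    calc ∑ S ∈ B.powerset, ν.mass B S * (gaussMat B K).real (pathT B h S K ⁻¹' A)
        ≤ ∑ S ∈ B.powerset, ν.mass B S * c :=
          Finset.sum_le_sum fun S hS => mul_le_mul_of_nonneg_left (hc S hS) (ν.nonneg B S)
      _ = c := by rw [← Finset.sum_mul, ν.sum_one, one_mul]
  linarith [h1.2]

/-- Law of the true position at one time, events form. -/
lemma real_truePath (B S : Finset E) {h : ℝ} (h0 : 0 < h) {K k : ℕ} (hk : k ≤ K)
    {A : Set (E → ℝ)} (hA : MeasurableSet A) :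
    (gaussMat B K).real {y | truePath B h S (extY B K y) k ∈ A} =
      (gaussVec B).real {G | Zt B (k * h) S G ∈ A} := by
  have key := law_truePath B S h0 hk (A.indicator 1) (measurable_one.indicator hA)
  have m1 : Measurable fun y : Fin K → B → ℝ => truePath B h S (extY B K y) k :=
    measurable_pi_lambda _ fun e => (measurable_truePath B h S k e).comp (measurable_extY B K)
  have m2 : Measurable fun G : B → ℝ => Zt B (k * h) S G := by
    refine measurable_pi_lambda _ fun e => ?_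
    unfold Zt
    by_cases he : e ∈ B
    · simp only [dif_pos he]
      exact measurable_const.add (measurable_const.mul (measurable_pi_apply _))
    · simp only [dif_neg he]
      exact measurable_const
  have h1 : (fun y : Fin K → B → ℝ =>
      (A.indicator (1 : (E → ℝ) → ℝ)) (truePath B h S (extY B K y) k))
      = ((fun y : Fin K → B → ℝ => truePath B h S (extY B K y) k) ⁻¹' A).indicator 1 := by
    funext y
    by_cases hy : truePath B h S (extY B K y) k ∈ A <;> simp [Set.indicator, hy]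
  have h2 : (fun G : B → ℝ => (A.indicator (1 : (E → ℝ) → ℝ)) (Zt B (k * h) S G))
      = ((fun G : B → ℝ => Zt B (k * h) S G) ⁻¹' A).indicator 1 := by
    funext y
    by_cases hy : Zt B (k * h) S y ∈ A <;> simp [Set.indicator, hy]
  simp only [h1, h2] at key
  rw [integral_indicator_one (m1 hA), integral_indicator_one (m2 hA)] at key
  exact key

/-- The time of step `T 2^n` at mesh `hh n`. -/
lemma time_eq (T n : ℕ) : ((T * 2 ^ n : ℕ) : ℝ) * hh n = T := by
  unfold hh
  push_cast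
  rw [mul_assoc, ← mul_pow]
  norm_num

/-- Under the true law at horizon `T` the bit is the hidden bit, except for an event of small
probability. -/
lemma true_bit_err (B S : Finset E) {h : ℝ} (h0 : 0 < h) {K k : ℕ} (hk : k ≤ K) {T : ℕ}
    (hT : 0 < T) (htime : (k : ℝ) * h = T) {e : E} (he : e ∈ B) :
    (gaussMat B K).real {y | ¬ (((T : ℝ) / 2 < truePath B h S (extY B K y) k e) ↔ e ∈ S)}
      ≤ 4 / T := by
  have hA : MeasurableSet {z : E → ℝ | ¬ (((T : ℝ) / 2 < z e) ↔ e ∈ S)} := by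
    by_cases heS : e ∈ S
    · simp only [heS, iff_true]
      exact (measurableSet_lt measurable_const (measurable_pi_apply e)).compl
    · simp only [heS, iff_false, not_not]
      exact measurableSet_lt measurable_const (measurable_pi_apply e)
  have h1 := real_truePath B S h0 hk hA
  simp only [Set.mem_ofPred_eq] at h1
  rw [h1, htime]
  have hTr : (0 : ℝ) < T := by exact_mod_cast hT
  have hs : 0 < Real.sqrt T := Real.sqrt_pos.2 hTr
  have hss : Real.sqrt T * Real.sqrt T = T := Real.mul_self_sqrt hTr.le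
  have hsub : {G : B → ℝ | ¬ (((T : ℝ) / 2 < Zt B (T : ℝ) S G e) ↔ e ∈ S)}
      ⊆ {G : B → ℝ | Real.sqrt T / 2 ≤ |G ⟨e, he⟩|} := by
    intro G hG
    simp only [Set.mem_ofPred_eq] at hG ⊢
    have hZ : Zt B (T : ℝ) S G e = T * ind S e + Real.sqrt T * G ⟨e, he⟩ := by
      simp [Zt, he]
    rw [hZ] at hG
    by_cases heS : e ∈ S
    · simp only [heS, iff_true, ind, if_true, mul_one, not_lt] at hG
      -- T + √T G ≤ T / 2
      have : Real.sqrt T / 2 ≤ - G ⟨e, he⟩ := by
        have : Real.sqrt T * (Real.sqrt T / 2 + G ⟨e, he⟩) ≤ 0 := by nlinarith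
        have h3 : Real.sqrt T / 2 + G ⟨e, he⟩ ≤ 0 := by
          by_contra hcon
          push Not at hcon
          have := mul_pos hs hcon
          linarith
        linarith
      exact this.trans (neg_le_abs _)
    · simp only [heS, iff_false, not_not, ind, if_false, mul_zero, zero_add] at hG
      have : Real.sqrt T / 2 ≤ G ⟨e, he⟩ := by
        by_contra hcon
        push Not at hcon
        have := mul_lt_mul_of_pos_left hcon hs
        nlinarith
      exact this.trans (le_abs_self _)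
  calc (gaussVec B).real {G | ¬ (((T : ℝ) / 2 < Zt B (T : ℝ) S G e) ↔ e ∈ S)}
      ≤ (gaussVec B).real {G : B → ℝ | Real.sqrt T / 2 ≤ |G ⟨e, he⟩|} := measureReal_mono hsub
    _ ≤ 1 / (Real.sqrt T / 2) ^ 2 := gaussVec_abs_coord_ge _ (by positivity)
    _ = 4 / T := by
        have : (Real.sqrt T / 2) ^ 2 = T / 4 := by nlinarith
        rw [this]; field_simp

/-- Under the true law at horizon `T` the position is not close to the threshold. -/
lemma true_near (B S : Finset E) {h : ℝ} (h0 : 0 < h) {K k : ℕ} (hk : k ≤ K) {T : ℕ}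
    (hT : 4 ≤ T) (htime : (k : ℝ) * h = T) {e : E} (he : e ∈ B) :
    (gaussMat B K).real {y | |truePath B h S (extY B K y) k e - (T : ℝ) / 2| ≤ 1} ≤ 16 / T := by
  have hA : MeasurableSet {z : E → ℝ | |z e - (T : ℝ) / 2| ≤ 1} :=
    measurableSet_le (((measurable_pi_apply e).sub_const _).abs) measurable_const
  have h1 := real_truePath B S h0 hk hA
  simp only [Set.mem_ofPred_eq] at h1
  rw [h1, htime]
  have hT4 : (4 : ℝ) ≤ T := by exact_mod_cast hT
  have hTr : (0 : ℝ) < T := by linarith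
  have hs : 0 < Real.sqrt T := Real.sqrt_pos.2 hTr
  have hss : Real.sqrt T * Real.sqrt T = T := Real.mul_self_sqrt hTr.le
  have hsub : {G : B → ℝ | |Zt B (T : ℝ) S G e - (T : ℝ) / 2| ≤ 1}
      ⊆ {G : B → ℝ | Real.sqrt T / 4 ≤ |G ⟨e, he⟩|} := by
    intro G hG
    simp only [Set.mem_ofPred_eq] at hG ⊢
    have hZ : Zt B (T : ℝ) S G e = T * ind S e + Real.sqrt T * G ⟨e, he⟩ := by
      simp [Zt, he]
    rw [hZ] at hG
    by_contra hcon
    push Not at hcon
    have hg1 := abs_lt.1 hcon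
    have hb1 : Real.sqrt T * |G ⟨e, he⟩| < Real.sqrt T * (Real.sqrt T / 4) :=
      mul_lt_mul_of_pos_left hcon hs
    have hb2 : Real.sqrt T * (Real.sqrt T / 4) = T / 4 := by nlinarith
    rw [hb2] at hb1
    have hb3 : |Real.sqrt T * G ⟨e, he⟩| < T / 4 := by
      rw [abs_mul, abs_of_pos hs]; exact hb1
    have hb4 := abs_lt.1 hb3
    have hb5 := abs_le.1 hG
    by_cases heS : e ∈ S
    · simp only [ind, heS, if_true, mul_one] at hb5
      linarith [hb5.2, hb4.1]
    · simp only [ind, heS, if_false, mul_zero, zero_add] at hb5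
      linarith [hb5.1, hb4.2]
  calc (gaussVec B).real {G | |Zt B (T : ℝ) S G e - (T : ℝ) / 2| ≤ 1}
      ≤ (gaussVec B).real {G : B → ℝ | Real.sqrt T / 4 ≤ |G ⟨e, he⟩|} := measureReal_mono hsub
    _ ≤ 1 / (Real.sqrt T / 4) ^ 2 := gaussVec_abs_coord_ge _ (by positivity)
    _ = 16 / T := by
        have : (Real.sqrt T / 4) ^ 2 = T / 16 := by nlinarith
        rw [this]; field_simp

/-! ### Integrability of the Euler scheme -/

lemma euler_abs_le (ν : Family E) (B : Finset E) {h : ℝ} (h0 : 0 ≤ h) (y : ℕ → E → ℝ) (k : ℕ)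
    (e : E) : |euler ν B h y k e| ≤ k * h + Real.sqrt h * ∑ l ∈ Finset.range k, |y l e| := by
  have hnn : 0 ≤ k * h + Real.sqrt h * ∑ l ∈ Finset.range k, |y l e| :=
    add_nonneg (mul_nonneg (Nat.cast_nonneg _) h0)
      (mul_nonneg (Real.sqrt_nonneg _) (Finset.sum_nonneg fun _ _ => abs_nonneg _))
  by_cases he : e ∈ B
  · rw [euler_eq_sum ν B h y k he]
    refine (abs_add_le _ _).trans (add_le_add ?_ ?_)
    · rw [abs_mul, abs_of_nonneg h0, mul_comm (k : ℝ)]
      refine mul_le_mul_of_nonneg_left ?_ h0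
      refine (Finset.abs_sum_le_sum_abs _ _).trans ?_
      calc ∑ l ∈ Finset.range k, |post ν B (fun g => euler ν B h y l g - l * h / 2) e|
          ≤ ∑ l ∈ Finset.range k, (1 : ℝ) :=
            Finset.sum_le_sum fun _ _ => abs_post_le_one _ _ _ _
        _ = k := by simp
    · rw [abs_mul, abs_of_nonneg (Real.sqrt_nonneg h)]
      exact mul_le_mul_of_nonneg_left (Finset.abs_sum_le_sum_abs _ _) (Real.sqrt_nonneg _)
  · rw [euler_of_not_mem ν B h y k he, abs_zero]
    exact hnn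

lemma integrable_extY (B : Finset E) (K l : ℕ) (e : E) :
    Integrable (fun y : Fin K → B → ℝ => extY B K y l e) (gaussMat B K) := by
  unfold extY
  by_cases hl : l < K
  · by_cases he : e ∈ B
    · simp only [dif_pos hl, dif_pos he]
      have h1 : MeasurePreserving (Function.eval (⟨l, hl⟩ : Fin K))
          (gaussMat B K) (gaussVec B) :=
        measurePreserving_eval (fun _ : Fin K => gaussVec B) ⟨l, hl⟩
      exact (h1.integrable_comp (integrable_coord (⟨e, he⟩ : B)).aestronglyMeasurable).2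
        (integrable_coord (⟨e, he⟩ : B))
    · simp only [dif_pos hl, dif_neg he]
      exact integrable_zero _ _ _
  · simp only [dif_neg hl]
    exact integrable_zero _ _ _

lemma integrable_euler_gauss (ν : Family E) (B0 B : Finset E) {h : ℝ} (h0 : 0 ≤ h) (K k : ℕ)
    (e : E) :
    Integrable (fun y : Fin K → B → ℝ => euler ν B0 h (extY B K y) k e) (gaussMat B K) := by
  have hb : Integrable (fun y : Fin K → B → ℝ =>
      (k : ℝ) * h + Real.sqrt h * ∑ l ∈ Finset.range k, |extY B K y l e|) (gaussMat B K) := by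
    refine (integrable_const _).add (Integrable.const_mul ?_ _)
    exact integrable_finsetSum _ fun l _ => (integrable_extY B K l e).abs
  refine hb.mono' ?_ (Filter.Eventually.of_forall fun y => ?_)
  · exact ((measurable_euler ν B0 h k e).comp (measurable_extY B K)).aestronglyMeasurable
  · have := euler_abs_le ν B0 h0 (extY B K y) k e
    simpa [Real.norm_eq_abs] using this

lemma pos_eq_euler (ν : Family E) {B0 B : Finset E} (hB : B0 ⊆ B) {T n K : ℕ} (hK : T * 2 ^ n ≤ K)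
    (ξ : Noise E) (e : E) :
    pos ν B0 T n ξ e = euler ν B0 (hh n) (extY B K (noiseOn B n K ξ)) (T * 2 ^ n) e :=
  euler_levelNoise ν hB (hh n) hK ξ e

lemma integrable_pos (ν : Family E) (hξ : IsDyadicNoise P ξ Dom) {B : Finset E}
    (hB : (B : Set E) ⊆ Dom) (T n : ℕ) (e : E) :
    Integrable (fun ω => pos ν B T n (ξ ω) e) P := by
  have h1 : Integrable (fun y : Fin (T * 2 ^ n) → B → ℝ =>
      euler ν B (hh n) (extY B (T * 2 ^ n) y) (T * 2 ^ n) e)
      (P.map (fun ω => noiseOn B n (T * 2 ^ n) (ξ ω))) := by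
    rw [map_noiseOn hξ hB]
    exact integrable_euler_gauss ν B B (hh_pos n).le _ _ e
  have h2 := h1.comp_measurable (measurable_noiseOn hξ B n (T * 2 ^ n))
  refine h2.congr (Filter.Eventually.of_forall fun ω => ?_)
  exact (pos_eq_euler ν (subset_refl B) le_rfl (ξ ω) e).symm

lemma markov_real [IsFiniteMeasure P] {f : Ω → ℝ} (hf : Integrable f P) (h0 : ∀ ω, 0 ≤ f ω) :
    P.real {ω | 1 ≤ f ω} ≤ ∫ ω, f ω ∂P := by
  have := mul_meas_ge_le_integral_of_nonneg (μ := P) (Filter.Eventually.of_forall h0) hf 1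
  simpa using this

/-! ### The four estimates at the level of `P` -/

/-- (b) The position at a fine mesh is not close to the threshold. -/
lemma near_bound (ν : Family E) (hξ : IsDyadicNoise P ξ Dom) {B : Finset E}
    (hB : (B : Set E) ⊆ Dom) {T : ℕ} (hT : 4 ≤ T) (n : ℕ) {e : E} (he : e ∈ B) :
    P.real {ω | |pos ν B T n (ξ ω) e - (T : ℝ) / 2| ≤ 1}
      ≤ tvB (hh n) (T * 2 ^ n) B.card + 16 / T := by
  have hA : MeasurableSet {z : Fin (T * 2 ^ n + 1) → E → ℝ |
      |z (Fin.last _) e - (T : ℝ) / 2| ≤ 1} :=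
    measurableSet_le ((((measurable_pi_apply e).comp (measurable_pi_apply _)).sub_const _).abs)
      measurable_const
  have h1 : {ω | |pos ν B T n (ξ ω) e - (T : ℝ) / 2| ≤ 1} = {ω | noiseOn B n (T * 2 ^ n) (ξ ω) ∈
      pathE ν B (hh n) (T * 2 ^ n) ⁻¹' {z : Fin (T * 2 ^ n + 1) → E → ℝ |
        |z (Fin.last _) e - (T : ℝ) / 2| ≤ 1}} := by
    ext ω
    have := pos_eq_euler ν (subset_refl B) (le_refl (T * 2 ^ n)) (ξ ω) e
    simp only [Set.mem_ofPred_eq, Set.mem_preimage, this]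
    rfl
  rw [h1, real_noiseOn hξ hB n _ (measurable_pathE ν B (hh n) _ hA)]
  refine tv_event_le ν B (hh_pos n) _ hA fun S _ => ?_
  exact true_near B S (hh_pos n) le_rfl hT (time_eq T n) he

/-- (c) Comparison of two horizons on the same window and mesh. -/
lemma horizon_bound (ν : Family E) (hξ : IsDyadicNoise P ξ Dom) {B : Finset E}
    (hB : (B : Set E) ⊆ Dom) {T1 T2 : ℕ} (hT1 : 0 < T1) (hT12 : T1 ≤ T2) (n : ℕ) {e : E}
    (he : e ∈ B) :
    P.real {ω | bit ν B T1 n (ξ ω) e ≠ bit ν B T2 n (ξ ω) e}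
      ≤ tvB (hh n) (T2 * 2 ^ n) B.card + (4 / T1 + 4 / T2) := by
  set K := T2 * 2 ^ n with hKdef
  have hk1 : T1 * 2 ^ n ≤ K := Nat.mul_le_mul_right _ hT12
  let i1 : Fin (K + 1) := ⟨T1 * 2 ^ n, Nat.lt_succ_of_le hk1⟩
  let i2 : Fin (K + 1) := Fin.last K
  let A : Set (Fin (K + 1) → E → ℝ) := {z | ¬ (((T1 : ℝ) / 2 < z i1 e) ↔ ((T2 : ℝ) / 2 < z i2 e))}
  have hA : MeasurableSet A := by
    refine MeasurableSet.compl (MeasurableSet.iff ?_ ?_)
    · exact measurableSet_lt measurable_const ((measurable_pi_apply e).comp (measurable_pi_apply _))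
    · exact measurableSet_lt measurable_const ((measurable_pi_apply e).comp (measurable_pi_apply _))
  have h1 : {ω | bit ν B T1 n (ξ ω) e ≠ bit ν B T2 n (ξ ω) e} = {ω | noiseOn B n K (ξ ω) ∈
      pathE ν B (hh n) K ⁻¹' A} := by
    ext ω
    have e1 := pos_eq_euler ν (subset_refl B) hk1 (ξ ω) e
    have e2 := pos_eq_euler ν (subset_refl B) (le_refl K) (ξ ω) e
    simp only [Set.mem_ofPred_eq, Set.mem_preimage, bit, ne_eq, decide_eq_decide, e1]
    rw [show pos ν B T2 n (ξ ω) e = _ from e2]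
    rfl
  rw [h1, real_noiseOn hξ hB n _ (measurable_pathE ν B (hh n) _ hA)]
  refine tv_event_le ν B (hh_pos n) _ hA fun S _ => ?_
  have hsub : pathT B (hh n) S K ⁻¹' A ⊆
      {y | ¬ (((T1 : ℝ) / 2 < truePath B (hh n) S (extY B K y) (T1 * 2 ^ n) e) ↔ e ∈ S)} ∪
      {y | ¬ (((T2 : ℝ) / 2 < truePath B (hh n) S (extY B K y) K e) ↔ e ∈ S)} := by
    intro y hy
    simp only [Set.mem_preimage] at hy
    by_contra hcon
    simp only [Set.mem_union, Set.mem_ofPred_eq, not_or, not_not] at hcon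
    apply hy
    have a1 : pathT B (hh n) S K y i1 e = truePath B (hh n) S (extY B K y) (T1 * 2 ^ n) e := rfl
    have a2 : pathT B (hh n) S K y i2 e = truePath B (hh n) S (extY B K y) K e := rfl
    rw [a1, a2]
    exact hcon.1.trans hcon.2.symm
  have hT2 : 0 < T2 := lt_of_lt_of_le hT1 hT12
  refine (measureReal_mono hsub).trans ((measureReal_union_le _ _).trans (add_le_add ?_ ?_))
  · exact true_bit_err B S (hh_pos n) hk1 hT1 (time_eq T1 n) he
  · exact true_bit_err B S (hh_pos n) le_rfl hT2 (time_eq T2 n) he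

/-- (d) Bits which differ force the position to be near the threshold or a large displacement. -/
lemma bit_ne_subset (ν : Family E) (B B' : Finset E) (T n n' : ℕ) (ξ ξ' : Noise E) (e : E)
    (hne : bit ν B T n ξ e ≠ bit ν B' T n' ξ' e) :
    |pos ν B T n ξ e - (T : ℝ) / 2| ≤ 1 ∨ 1 ≤ |pos ν B T n ξ e - pos ν B' T n' ξ' e| := by
  simp only [bit, ne_eq, decide_eq_decide] at hne
  by_contra hcon
  push Not at hcon
  obtain ⟨h1, h2⟩ := hcon
  have h3 := abs_lt.1 h2
  apply hne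
  have h4 := lt_abs.1 h1
  rcases h4 with h4 | h4
  · constructor
    · intro _; linarith [h3.1]
    · intro _; linarith
  · constructor
    · intro h5; linarith
    · intro h5; linarith [h3.2]

/-- (d') Comparison of two meshes on the same window. -/
lemma mesh_bit (ν : Family E) (hκ : 0 ≤ κ) (hL : ν.Lip κ) (hξ : IsDyadicNoise P ξ Dom)
    {B : Finset E} (hB : (B : Set E) ⊆ Dom) {T : ℕ} (hT : 4 ≤ T) {n n' : ℕ} (hn : n ≤ n')
    {e : E} (he : e ∈ B) :
    P.real {ω | bit ν B T n (ξ ω) e ≠ bit ν B T n' (ξ ω) e}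
      ≤ tvB (hh n) (T * 2 ^ n) B.card + 16 / T + meshErr κ B.card T n := by
  have := hξ.prob
  have hsub : {ω | bit ν B T n (ξ ω) e ≠ bit ν B T n' (ξ ω) e} ⊆
      {ω | |pos ν B T n (ξ ω) e - (T : ℝ) / 2| ≤ 1} ∪
      {ω | 1 ≤ |pos ν B T n (ξ ω) e - pos ν B T n' (ξ ω) e|} := fun ω hω =>
    bit_ne_subset ν B B T n n' (ξ ω) (ξ ω) e hω
  refine (measureReal_mono hsub).trans ((measureReal_union_le _ _).trans (add_le_add
    (near_bound ν hξ hB hT n he) ?_))
  refine (markov_real (((integrable_pos ν hξ hB T n e).sub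
    (integrable_pos ν hξ hB T n' e)).abs) fun _ => abs_nonneg _).trans ?_
  exact mesh_compare hξ ν hκ hL hB T he hn

/-- (d'') Comparison of two windows at the same mesh. -/
lemma window_bit (ν : Family E) (hξ : IsDyadicNoise P ξ Dom)
    {B0 B : Finset E} (hB0 : B0 ⊆ B) (hB : (B : Set E) ⊆ Dom) {T : ℕ} (hT : 4 ≤ T) (n : ℕ)
    {e : E} (he : e ∈ B0) {δ : ℝ}
    (hδ : ∫ y, |euler ν B0 (hh n) (extY B (T * 2 ^ n) y) (T * 2 ^ n) e
            - euler ν B (hh n) (extY B (T * 2 ^ n) y) (T * 2 ^ n) e|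
          ∂gaussMat B (T * 2 ^ n) ≤ δ) :
    P.real {ω | bit ν B0 T n (ξ ω) e ≠ bit ν B T n (ξ ω) e}
      ≤ tvB (hh n) (T * 2 ^ n) B0.card + 16 / T + δ := by
  have := hξ.prob
  have hsub : {ω | bit ν B0 T n (ξ ω) e ≠ bit ν B T n (ξ ω) e} ⊆
      {ω | |pos ν B0 T n (ξ ω) e - (T : ℝ) / 2| ≤ 1} ∪
      {ω | 1 ≤ |pos ν B0 T n (ξ ω) e - pos ν B T n (ξ ω) e|} := fun ω hω =>
    bit_ne_subset ν B0 B T n n (ξ ω) (ξ ω) e hω
  refine (measureReal_mono hsub).trans ((measureReal_union_le _ _).trans (add_le_add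
    (near_bound ν hξ ((Finset.coe_subset.2 hB0).trans hB) hT n he) ?_))
  have hm : Measurable fun y : Fin (T * 2 ^ n) → B → ℝ =>
      |euler ν B0 (hh n) (extY B (T * 2 ^ n) y) (T * 2 ^ n) e
            - euler ν B (hh n) (extY B (T * 2 ^ n) y) (T * 2 ^ n) e| :=
    (((measurable_euler ν B0 (hh n) _ e).comp (measurable_extY B _)).sub
      ((measurable_euler ν B (hh n) _ e).comp (measurable_extY B _))).abs
  have h1 : {ω | 1 ≤ |pos ν B0 T n (ξ ω) e - pos ν B T n (ξ ω) e|} =
      {ω | noiseOn B n (T * 2 ^ n) (ξ ω) ∈ {y : Fin (T * 2 ^ n) → B → ℝ |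
        1 ≤ |euler ν B0 (hh n) (extY B (T * 2 ^ n) y) (T * 2 ^ n) e
            - euler ν B (hh n) (extY B (T * 2 ^ n) y) (T * 2 ^ n) e|}} := by
    ext ω
    have e1 := pos_eq_euler ν hB0 (le_refl (T * 2 ^ n)) (ξ ω) e
    have e2 := pos_eq_euler ν (subset_refl B) (le_refl (T * 2 ^ n)) (ξ ω) e
    simp only [Set.mem_ofPred_eq, e1, e2]
  rw [h1, real_noiseOn hξ hB n _ (measurableSet_le measurable_const hm)]
  refine (markov_real (((integrable_euler_gauss ν B0 B (hh_pos n).le _ _ e).sub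
    (integrable_euler_gauss ν B B (hh_pos n).le _ _ e)).abs) fun _ => abs_nonneg _).trans hδ

/-- (f) The law of the bits at a fixed window, mesh and horizon. -/
lemma pattern_bound (ν : Family E) (hξ : IsDyadicNoise P ξ Dom) {B : Finset E}
    (hB : (B : Set E) ⊆ Dom) {T : ℕ} (hT : 0 < T) (n : ℕ) {F S0 : Finset E} (hFB : F ⊆ B)
    (hS0 : S0 ⊆ F) :
    |P.real {ω | ∀ g ∈ F, (bit ν B T n (ξ ω) g = true ↔ g ∈ S0)} - ν.mass F S0|
      ≤ tvB (hh n) (T * 2 ^ n) B.card + F.card * (4 / T) := by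
  set K := T * 2 ^ n with hKdef
  let A : Set (Fin (K + 1) → E → ℝ) := {z | ∀ g ∈ F, (((T : ℝ) / 2 < z (Fin.last K) g) ↔ g ∈ S0)}
  have hA : MeasurableSet A := by
    have : A = ⋂ g ∈ F, {z : Fin (K + 1) → E → ℝ | (((T : ℝ) / 2 < z (Fin.last K) g) ↔ g ∈ S0)} := by
      ext z; simp [A]
    rw [this]
    refine Finset.measurableSet_biInter _ fun g _ => ?_
    exact MeasurableSet.iff
      (measurableSet_lt measurable_const ((measurable_pi_apply g).comp (measurable_pi_apply _)))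
      (MeasurableSet.const _)
  have h1 : {ω | ∀ g ∈ F, (bit ν B T n (ξ ω) g = true ↔ g ∈ S0)} = {ω | noiseOn B n K (ξ ω) ∈
      pathE ν B (hh n) K ⁻¹' A} := by
    ext ω
    simp only [Set.mem_ofPred_eq, Set.mem_preimage, bit, decide_eq_true_eq]
    have e2 : ∀ g, pos ν B T n (ξ ω) g = _ := fun g =>
      pos_eq_euler ν (subset_refl B) (le_refl K) (ξ ω) g
    simp only [e2]
    rfl
  rw [h1, real_noiseOn hξ hB n _ (measurable_pathE ν B (hh n) _ hA)]
  have hTv := tv_event ν B (hh_pos n) K hA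
  have hbd : ∀ S ∈ B.powerset, |(gaussMat B K).real (pathT B (hh n) S K ⁻¹' A)
      - (if S ∩ F = S0 then (1 : ℝ) else 0)| ≤ F.card * (4 / T) := by
    intro S _
    have herr : ∀ g ∈ F, (gaussMat B K).real
        {y | ¬ (((T : ℝ) / 2 < truePath B (hh n) S (extY B K y) K g) ↔ g ∈ S)} ≤ 4 / T :=
      fun g hg => true_bit_err B S (hh_pos n) le_rfl hT (time_eq T n) (hFB hg)
    have hpos : (0 : ℝ) ≤ 4 / T := by positivity
    by_cases hS : S ∩ F = S0
    · rw [if_pos hS]
      have hcompl : (pathT B (hh n) S K ⁻¹' A)ᶜ ⊆ ⋃ g ∈ F,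
          {y | ¬ (((T : ℝ) / 2 < truePath B (hh n) S (extY B K y) K g) ↔ g ∈ S)} := by
        intro y hy
        simp only [Set.mem_compl_iff, Set.mem_preimage] at hy
        by_contra hcon
        simp only [Set.mem_iUnion, Set.mem_ofPred_eq, not_exists, not_not] at hcon
        apply hy
        intro g hg
        have : g ∈ S0 ↔ g ∈ S := by
          rw [← hS]; simp [hg]
        rw [this]
        exact hcon g hg
      have h3 : (gaussMat B K).real (pathT B (hh n) S K ⁻¹' A)ᶜ ≤ F.card * (4 / T) := by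
        refine (measureReal_mono hcompl (measure_ne_top _ _)).trans
          ((measureReal_biUnion_finset_le _ _).trans ?_)
        refine (Finset.sum_le_sum herr).trans ?_
        simp
      rw [measureReal_compl (measurable_pathT B (hh n) S K hA)] at h3
      simp only [probReal_univ] at h3
      have h4 : (gaussMat B K).real (pathT B (hh n) S K ⁻¹' A) ≤ 1 := measureReal_le_one
      rw [abs_le]
      constructor <;> linarith [measureReal_nonneg (μ := gaussMat B K)
        (s := pathT B (hh n) S K ⁻¹' A), mul_nonneg (Nat.cast_nonneg F.card) hpos]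
    · rw [if_neg hS, sub_zero, abs_of_nonneg measureReal_nonneg]
      -- a site of `F` on which `S` and `S0` differ
      have hex : ∃ g ∈ F, ¬ (g ∈ S ↔ g ∈ S0) := by
        by_contra hcon
        push Not at hcon
        apply hS
        ext g
        simp only [Finset.mem_inter]
        constructor
        · rintro ⟨h1, h2⟩
          exact (hcon g h2).1 h1
        · intro h1
          have h2 := hS0 h1
          exact ⟨(hcon g h2).2 h1, h2⟩
      obtain ⟨g, hg, hgne⟩ := hex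
      have hsub : pathT B (hh n) S K ⁻¹' A ⊆
          {y | ¬ (((T : ℝ) / 2 < truePath B (hh n) S (extY B K y) K g) ↔ g ∈ S)} := by
        intro y hy hcon
        exact hgne (hcon.symm.trans (hy g hg))
      refine (measureReal_mono hsub).trans ((herr g hg).trans ?_)
      have hc : (1 : ℝ) ≤ F.card := by exact_mod_cast Finset.card_pos.2 ⟨g, hg⟩
      nlinarith
  have hmass : ∑ S ∈ B.powerset, ν.mass B S * (if S ∩ F = S0 then (1 : ℝ) else 0)
      = ν.mass F S0 := by
    rw [ν.consistent F B hFB S0 hS0, Finset.sum_filter]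
    refine Finset.sum_congr rfl fun S _ => ?_
    by_cases hS : S ∩ F = S0 <;> simp [hS]
  have hcomp : |∑ S ∈ B.powerset, ν.mass B S * (gaussMat B K).real (pathT B (hh n) S K ⁻¹' A)
      - ν.mass F S0| ≤ F.card * (4 / T) := by
    rw [← hmass, ← Finset.sum_sub_distrib]
    refine (Finset.abs_sum_le_sum_abs _ _).trans ?_
    calc ∑ S ∈ B.powerset, |ν.mass B S * (gaussMat B K).real (pathT B (hh n) S K ⁻¹' A)
          - ν.mass B S * (if S ∩ F = S0 then (1 : ℝ) else 0)|
        ≤ ∑ S ∈ B.powerset, ν.mass B S * (F.card * (4 / T)) := by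
          refine Finset.sum_le_sum fun S hS => ?_
          rw [← mul_sub, abs_mul, abs_of_nonneg (ν.nonneg B S)]
          exact mul_le_mul_of_nonneg_left (hbd S hS) (ν.nonneg B S)
      _ = F.card * (4 / T) := by rw [← Finset.sum_mul, ν.sum_one, one_mul]
  calc |(gaussMat B K).real (pathE ν B (hh n) K ⁻¹' A) - ν.mass F S0|
      ≤ |(gaussMat B K).real (pathE ν B (hh n) K ⁻¹' A)
          - ∑ S ∈ B.powerset, ν.mass B S * (gaussMat B K).real (pathT B (hh n) S K ⁻¹' A)|
        + |∑ S ∈ B.powerset, ν.mass B S * (gaussMat B K).real (pathT B (hh n) S K ⁻¹' A)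
            - ν.mass F S0| := abs_sub_le _ _ _
    _ ≤ _ := add_le_add hTv hcomp

/-- (e) The key comparison: the bit at radius `r` and any finer computation on a larger window and
larger horizon. -/
theorem cmp (hκ : 0 < κ) (hL : ν.Lip κ) (hW : IsWindows Dom W) (hξ : IsDyadicNoise P ξ Dom)
    {e : E} (he : e ∈ Dom) {ε : ℝ} (hε : 0 < ε) :
    ∃ r0 : ℕ, ∀ r T, r0 ≤ r → r0 ≤ T → ∀ B : Finset E, W e r ⊆ B → (B : Set E) ⊆ Dom →
      ∃ n0 : ℕ, ∀ n, n0 ≤ n →
        P.real {ω | Rbit ν κ W r (ξ ω) e ≠ bit ν B T n (ξ ω) e} ≤ ε := by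
  have := hξ.prob
  -- the fixed horizon
  obtain ⟨T1, hT1a, hT1b⟩ : ∃ T1 : ℕ, 4 ≤ T1 ∧ 66 / (T1 : ℝ) ≤ ε / 3 := by
    obtain ⟨N, hN⟩ := exists_nat_gt (198 / ε)
    refine ⟨max 4 N, le_max_left _ _, ?_⟩
    have hN' : (N : ℝ) ≤ ((max 4 N : ℕ) : ℝ) := by exact_mod_cast le_max_right _ _
    have hm : (0 : ℝ) < ((max 4 N : ℕ) : ℝ) := by
      have : 0 < max 4 N := lt_of_lt_of_le (by norm_num) (le_max_left 4 N)
      exact_mod_cast this
    have h198 : 198 < ε * ((max 4 N : ℕ) : ℝ) := by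
      have := (div_lt_iff₀ hε).1 (lt_of_lt_of_le hN hN')
      linarith
    rw [div_le_iff₀ hm]
    linarith
  have hT1pos : (0 : ℝ) < T1 := by
    have : 0 < T1 := by omega
    exact_mod_cast this
  have hδ : 0 < ε / 3 := by positivity
  obtain ⟨W0, hW0Dom, heW0, hW0⟩ := window_compare ν hκ.le hL Dom he T1 hδ
  -- the radius
  have hr0' : ∃ r0' : ℕ, ∀ r, r0' ≤ r → W0 ⊆ W e r := by
    have hex : ∀ g ∈ W0, ∃ r, g ∈ W e r := fun g hg => hW.exhaust e he g (hW0Dom hg)
    choose! rg hrg using hex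
    refine ⟨W0.sup rg, fun r hr g hg => ?_⟩
    exact hW.mono e he ((Finset.le_sup hg).trans hr) (hrg g hg)
  obtain ⟨r0', hr0'⟩ := hr0'
  refine ⟨max T1 r0', fun r T hr hT B hB hBDom => ?_⟩
  have hrT1 : T1 ≤ r := (le_max_left _ _).trans hr
  have hTT1 : T1 ≤ T := (le_max_left _ _).trans hT
  have hr4 : 4 ≤ r := hT1a.trans hrT1
  have hT4 : 4 ≤ T := hT1a.trans hTT1
  have hB0 : W e r ⊆ B := hB
  have hB0Dom : ((W e r : Finset E) : Set E) ⊆ Dom := hW.sub e he r
  have heB0 : e ∈ W e r := hW.self e he r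
  have heB : e ∈ B := hB heB0
  obtain ⟨n1, hn1⟩ := hW0 (W e r) B (hr0' r ((le_max_right _ _).trans hr)) hB hBDom
  set n0 := meshOf κ (W e r).card r with hn0def
  -- the fine level
  have hη : 0 < ε / 15 := by positivity
  have t1 := (tendsto_tvB (W e r).card r).eventually (gt_mem_nhds hη)
  have t2 := (tendsto_tvB (W e r).card T1).eventually (gt_mem_nhds hη)
  have t3 := (tendsto_tvB B.card T).eventually (gt_mem_nhds hη)
  have t4 := (tendsto_meshErr κ B.card T).eventually (gt_mem_nhds hη)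
  obtain ⟨n', h1, h2, h3, h4, h5, h6⟩ := (t1.and (t2.and (t3.and (t4.and
    ((Filter.eventually_ge_atTop n0).and (Filter.eventually_ge_atTop n1)))))).exists
  refine ⟨n', fun n hn => ?_⟩
  -- the five steps
  have s1 := mesh_bit ν hκ.le hL hξ hB0Dom hr4 h5 heB0
  have s2 := horizon_bound ν hξ hB0Dom (by omega : 0 < T1) hrT1 n' heB0
  have s3 := window_bit ν hξ hB hBDom hT1a n' heB0 (hn1 n' h6)
  have s4 := horizon_bound ν hξ hBDom (by omega : 0 < T1) hTT1 n' heB
  have s5 := mesh_bit ν hκ.le hL hξ hBDom hT4 hn heB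
  have hspec := meshOf_spec κ (W e r).card r (le_refl n0)
  -- inclusion
  have hsub : {ω | Rbit ν κ W r (ξ ω) e ≠ bit ν B T n (ξ ω) e} ⊆
      {ω | bit ν (W e r) r n0 (ξ ω) e ≠ bit ν (W e r) r n' (ξ ω) e} ∪
      {ω | bit ν (W e r) T1 n' (ξ ω) e ≠ bit ν (W e r) r n' (ξ ω) e} ∪
      {ω | bit ν (W e r) T1 n' (ξ ω) e ≠ bit ν B T1 n' (ξ ω) e} ∪
      {ω | bit ν B T1 n' (ξ ω) e ≠ bit ν B T n' (ξ ω) e} ∪
      {ω | bit ν B T n' (ξ ω) e ≠ bit ν B T n (ξ ω) e} := by
    intro ω hω
    simp only [Set.mem_union, Set.mem_ofPred_eq] at hω ⊢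
    by_contra hcon
    push Not at hcon
    obtain ⟨⟨⟨⟨a1, a2⟩, a3⟩, a4⟩, a5⟩ := hcon
    apply hω
    show bit ν (W e r) r n0 (ξ ω) e = _
    rw [a1, ← a2, a3, a4, a5]
  have hsum : P.real {ω | Rbit ν κ W r (ξ ω) e ≠ bit ν B T n (ξ ω) e} ≤
      P.real {ω | bit ν (W e r) r n0 (ξ ω) e ≠ bit ν (W e r) r n' (ξ ω) e} +
      P.real {ω | bit ν (W e r) T1 n' (ξ ω) e ≠ bit ν (W e r) r n' (ξ ω) e} +
      P.real {ω | bit ν (W e r) T1 n' (ξ ω) e ≠ bit ν B T1 n' (ξ ω) e} +
      P.real {ω | bit ν B T1 n' (ξ ω) e ≠ bit ν B T n' (ξ ω) e} +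
      P.real {ω | bit ν B T n' (ξ ω) e ≠ bit ν B T n (ξ ω) e} := by
    refine (measureReal_mono hsub).trans ?_
    refine (measureReal_union_le _ _).trans (add_le_add_left ?_ _)
    refine (measureReal_union_le _ _).trans (add_le_add_left ?_ _)
    refine (measureReal_union_le _ _).trans (add_le_add_left ?_ _)
    exact measureReal_union_le _ _
  -- numerics
  have hr1 : (T1 : ℝ) ≤ r := by exact_mod_cast hrT1
  have hT1' : (T1 : ℝ) ≤ T := by exact_mod_cast hTT1
  have i1 : 1 / (r : ℝ) ≤ 1 / T1 := one_div_le_one_div_of_le hT1pos hr1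
  have i2 : 1 / (T : ℝ) ≤ 1 / T1 := one_div_le_one_div_of_le hT1pos hT1'
  have i3 : (1 / 2 : ℝ) ^ r ≤ 1 / T1 := by
    rw [one_div_pow]
    refine one_div_le_one_div_of_le hT1pos ?_
    have : T1 ≤ 2 ^ r := hrT1.trans Nat.lt_two_pow_self.le
    exact_mod_cast this
  have i4 : 66 * (1 / (T1 : ℝ)) ≤ ε / 3 := by
    calc 66 * (1 / (T1 : ℝ)) = 66 / T1 := by ring
      _ ≤ ε / 3 := hT1b
  have e1 : 16 / (r : ℝ) = 16 * (1 / r) := by ring
  have e2 : 4 / (r : ℝ) = 4 * (1 / r) := by ring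
  have e3 : 16 / (T : ℝ) = 16 * (1 / T) := by ring
  have e4 : 4 / (T : ℝ) = 4 * (1 / T) := by ring
  have e5 : 16 / (T1 : ℝ) = 16 * (1 / T1) := by ring
  have e6 : 4 / (T1 : ℝ) = 4 * (1 / T1) := by ring
  rw [e1] at s1
  rw [e2, e6] at s2
  rw [e5] at s3
  rw [e4, e6] at s4
  rw [e3] at s5
  have hspec1 := hspec.1
  have hspec2 := hspec.2
  linarith

/-- The bits computed on windows of growing radius are Cauchy in probability. -/
theorem core_cauchy (hκ : 0 < κ) (hL : ν.Lip κ) (hW : IsWindows Dom W)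
    (hξ : IsDyadicNoise P ξ Dom) {e : E} (he : e ∈ Dom) {ε : ℝ} (hε : 0 < ε) :
    ∃ r0 : ℕ, ∀ r r', r0 ≤ r → r0 ≤ r' →
      P {ω | Rbit ν κ W r (ξ ω) e ≠ Rbit ν κ W r' (ξ ω) e} ≤ ENNReal.ofReal ε := by
  have := hξ.prob
  obtain ⟨r0, h⟩ := cmp hκ hL hW hξ he (half_pos hε)
  refine ⟨r0, fun r r' hr hr' => ?_⟩
  have hBDom : ((W e r ∪ W e r' : Finset E) : Set E) ⊆ Dom := by
    rw [Finset.coe_union]
    exact Set.union_subset (hW.sub e he r) (hW.sub e he r')
  obtain ⟨n0, hn0⟩ := h r (max r r') hr (hr.trans (le_max_left _ _)) _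
    Finset.subset_union_left hBDom
  obtain ⟨n0', hn0'⟩ := h r' (max r r') hr' (hr'.trans (le_max_right _ _)) _
    Finset.subset_union_right hBDom
  have a := hn0 (max n0 n0') (le_max_left _ _)
  have b := hn0' (max n0 n0') (le_max_right _ _)
  rw [ENNReal.le_ofReal_iff_toReal_le (measure_ne_top _ _) hε.le]
  have hsub : {ω | Rbit ν κ W r (ξ ω) e ≠ Rbit ν κ W r' (ξ ω) e} ⊆
      {ω | Rbit ν κ W r (ξ ω) e ≠ bit ν (W e r ∪ W e r') (max r r') (max n0 n0') (ξ ω) e} ∪
      {ω | Rbit ν κ W r' (ξ ω) e ≠ bit ν (W e r ∪ W e r') (max r r') (max n0 n0') (ξ ω) e} := by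
    intro ω hω
    simp only [Set.mem_union, Set.mem_ofPred_eq] at hω ⊢
    by_contra hcon
    push Not at hcon
    exact hω (hcon.1.trans hcon.2.symm)
  have := (measureReal_mono hsub).trans (measureReal_union_le (μ := P) _ _)
  show P.real _ ≤ ε
  linarith

/-- The joint law of the bits at large radii (possibly different at different sites)
approaches `ν`. -/
theorem core_pattern (hκ : 0 < κ) (hL : ν.Lip κ) (hW : IsWindows Dom W)
    (hξ : IsDyadicNoise P ξ Dom) {F : Finset E} (hF : (F : Set E) ⊆ Dom) {S : Finset E}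
    (hS : S ⊆ F) {ε : ℝ} (hε : 0 < ε) :
    ∃ r0 : ℕ, ∀ r : E → ℕ, (∀ g ∈ F, r0 ≤ r g) →
      |(P {ω | ∀ g ∈ F, (Rbit ν κ W (r g) (ξ ω) g = true ↔ g ∈ S)}).toReal - ν.mass F S| ≤ ε := by
  have := hξ.prob
  have hc : (0 : ℝ) < (F.card : ℝ) + 1 := by positivity
  have hε' : 0 < ε / (2 * ((F.card : ℝ) + 1)) := by positivity
  have hcmp : ∀ g ∈ F, _ := fun g (hg : g ∈ F) => cmp (κ := κ) (ν := ν) hκ hL hW hξ (hF hg) hε'
  choose! r0f hr0f using hcmp
  refine ⟨F.sup r0f, fun r hr => ?_⟩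
  -- the common window
  set B : Finset E := F ∪ F.biUnion (fun g => W g (r g)) with hBdef
  have hFB : F ⊆ B := Finset.subset_union_left
  have hWB : ∀ g ∈ F, W g (r g) ⊆ B := fun g hg =>
    (Finset.subset_biUnion_of_mem (fun g => W g (r g)) hg).trans Finset.subset_union_right
  have hBDom : (B : Set E) ⊆ Dom := by
    intro x hx
    rcases Finset.mem_union.1 hx with hx | hx
    · exact hF hx
    · obtain ⟨g, hg, hxg⟩ := Finset.mem_biUnion.1 hx
      exact hW.sub g (hF hg) (r g) hxg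
  -- the horizon
  obtain ⟨T, hTr0, hTpos, hTc⟩ : ∃ T : ℕ, F.sup r0f ≤ T ∧ 0 < T ∧
      (F.card : ℝ) * (4 / T) ≤ ε / 4 := by
    obtain ⟨N, hN⟩ := exists_nat_gt (16 * (F.card : ℝ) / ε)
    refine ⟨max (max (F.sup r0f) 1) N, (le_max_left _ _).trans (le_max_left _ _),
      lt_of_lt_of_le (by norm_num) ((le_max_right _ _).trans (le_max_left _ _)), ?_⟩
    have hN' : (N : ℝ) ≤ ((max (max (F.sup r0f) 1) N : ℕ) : ℝ) := by
      exact_mod_cast le_max_right _ _
    have hm : (0 : ℝ) < ((max (max (F.sup r0f) 1) N : ℕ) : ℝ) := by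
      have : 0 < max (max (F.sup r0f) 1) N :=
        lt_of_lt_of_le (by norm_num) ((le_max_right _ _).trans (le_max_left _ _))
      exact_mod_cast this
    have h16 : 16 * (F.card : ℝ) < ε * ((max (max (F.sup r0f) 1) N : ℕ) : ℝ) := by
      have := (div_lt_iff₀ hε).1 (lt_of_lt_of_le hN hN')
      linarith
    rw [← mul_div_assoc, div_le_iff₀ hm]
    linarith
  -- the mesh
  have hnex : ∀ g ∈ F, ∃ n0 : ℕ, ∀ n, n0 ≤ n →
      P.real {ω | Rbit ν κ W (r g) (ξ ω) g ≠ bit ν B T n (ξ ω) g}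
        ≤ ε / (2 * ((F.card : ℝ) + 1)) := fun g hg =>
    hr0f g hg (r g) T ((Finset.le_sup hg).trans (hr g hg)) ((Finset.le_sup hg).trans hTr0) B
      (hWB g hg) hBDom
  choose! n0f hn0f using hnex
  have t1 := (tendsto_tvB B.card T).eventually (gt_mem_nhds (show 0 < ε / 4 by positivity))
  obtain ⟨n, hn1, hn2⟩ := (t1.and (Filter.eventually_ge_atTop (F.sup n0f))).exists
  have hp := pattern_bound ν hξ hBDom hTpos n hFB hS
  -- comparison
  set D : Set Ω := ⋃ g ∈ F, {ω | Rbit ν κ W (r g) (ξ ω) g ≠ bit ν B T n (ξ ω) g} with hDdef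
  have hDle : P.real D ≤ ε / 2 := by
    refine (measureReal_biUnion_finset_le _ _).trans ?_
    calc ∑ g ∈ F, P.real {ω | Rbit ν κ W (r g) (ξ ω) g ≠ bit ν B T n (ξ ω) g}
        ≤ ∑ _g ∈ F, ε / (2 * ((F.card : ℝ) + 1)) :=
          Finset.sum_le_sum fun g hg => hn0f g hg n ((Finset.le_sup hg).trans hn2)
      _ = F.card * (ε / (2 * ((F.card : ℝ) + 1))) := by simp
      _ ≤ ε / 2 := by
          rw [← mul_div_assoc, div_le_iff₀ (by positivity)]
          nlinarith
  have h1 : {ω | ∀ g ∈ F, (Rbit ν κ W (r g) (ξ ω) g = true ↔ g ∈ S)} ⊆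
      {ω | ∀ g ∈ F, (bit ν B T n (ξ ω) g = true ↔ g ∈ S)} ∪ D := by
    intro ω hω
    by_cases hD : ω ∈ D
    · exact Or.inr hD
    · refine Or.inl fun g hg => ?_
      simp only [hDdef, Set.mem_iUnion, Set.mem_ofPred_eq, not_exists, not_not] at hD
      rw [← hD g hg]
      exact hω g hg
  have h2 : {ω | ∀ g ∈ F, (bit ν B T n (ξ ω) g = true ↔ g ∈ S)} ⊆
      {ω | ∀ g ∈ F, (Rbit ν κ W (r g) (ξ ω) g = true ↔ g ∈ S)} ∪ D := by
    intro ω hω
    by_cases hD : ω ∈ D
    · exact Or.inr hD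
    · refine Or.inl fun g hg => ?_
      simp only [hDdef, Set.mem_iUnion, Set.mem_ofPred_eq, not_exists, not_not] at hD
      rw [hD g hg]
      exact hω g hg
  have h3 := (measureReal_mono h1).trans (measureReal_union_le (μ := P) _ _)
  have h4 := (measureReal_mono h2).trans (measureReal_union_le (μ := P) _ _)
  have hp' := abs_le.1 hp
  show |P.real _ - _| ≤ ε
  rw [abs_le]
  constructor <;> linarith [hp'.1, hp'.2]

end

end Crest.Agent.SRFactor
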