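import Crest.Agent.SRFactor.TV

/-! Bayes identities for the true model (blueprint (C2)). -/

set_option autoImplicit false

open MeasureTheory ProbabilityTheory

namespace Crest.Agent.SRFactor

variable {E : Type*} [DecidableEq E]

/-! ### Measurability and bounds -/

lemma measurable_Zt (A : Finset E) (t : ℝ) (S : Finset E) :
    Measurable fun G : A → ℝ => Zt A t S G := by
  refine measurable_pi_lambda _ fun e => ?_
  unfold Zt
  by_cases he : e ∈ A
  · simp only [dif_pos he]
    exact measurable_const.add (measurable_const.mul (measurable_pi_apply _))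
  · simp only [dif_neg he]
    exact measurable_const

/-- `post` of a shifted field, as a function of the position. -/
noncomputable def phiP (ν : Family E) (A : Finset E) (g : E) (t : ℝ) (x : E → ℝ) : ℝ :=
  post ν A (fun i => x i - t / 2) g

lemma measurable_phiP (ν : Family E) (A : Finset E) (g : E) (t : ℝ) :
    Measurable (phiP ν A g t) := by
  unfold phiP
  refine (measurable_post ν A g).comp ?_
  exact measurable_pi_lambda _ fun i => (measurable_pi_apply i).sub_const _

lemma abs_phiP_le (ν : Family E) (A : Finset E) (g : E) (t : ℝ) (x : E → ℝ) :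
    |phiP ν A g t x| ≤ 1 := abs_post_le_one _ _ _ _

lemma phiP_congr (ν : Family E) (A : Finset E) (g : E) (t : ℝ) {x x' : E → ℝ}
    (h : ∀ i ∈ A, x i = x' i) : phiP ν A g t x = phiP ν A g t x' := by
  unfold phiP
  apply post_congr
  intro i hi
  rw [h i hi]

/-- bounded measurable functions of the position are integrable. -/
lemma integrable_of_bdd {ι : Type*} [Fintype ι] {f : (ι → ℝ) → ℝ} (hf : Measurable f) {C : ℝ}
    (hC : ∀ y, |f y| ≤ C) : Integrable f (gaussVec ι) := by
  refine Integrable.of_bound hf.aestronglyMeasurable C (Filter.Eventually.of_forall fun y => ?_)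
  simpa using hC y

lemma Zt_empty_of_mem (A : Finset E) (t : ℝ) (y : A → ℝ) {e : E} (he : e ∈ A) :
    Zt A t ∅ y e = Real.sqrt t * y ⟨e, he⟩ := by
  simp [Zt, he, ind]

/-- `Zt` at hidden set `S` is `Zt` at hidden set `∅` shifted. -/
lemma Zt_shift (A S : Finset E) {t : ℝ} (ht : 0 ≤ t) (G : A → ℝ) :
    Zt A t S G = Zt A t ∅ (G + fun i : A => Real.sqrt t * ind S i) := by
  funext e
  by_cases he : e ∈ A
  · simp only [Zt, he, dif_pos, ind, Finset.notMem_empty, if_false, mul_zero, zero_add,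
      Pi.add_apply]
    rw [mul_add, ← mul_assoc, Real.mul_self_sqrt ht]
    ring
  · simp [Zt, he]

/-- the exponent of the tilt is linear. -/
lemma exponent_eq (A S : Finset E) (hS : S ⊆ A) {t : ℝ} (ht : 0 ≤ t) (y : A → ℝ) :
    ∑ i : A, (Real.sqrt t * ind S i) * y i - ∑ i : A, (Real.sqrt t * ind S i) ^ 2 / 2
      = ∑ i ∈ S, (Zt A t ∅ y i - t / 2) := by
  rw [← Finset.sum_sub_distrib]
  have h1 : ∀ i : A, (Real.sqrt t * ind S i) * y i - (Real.sqrt t * ind S i) ^ 2 / 2
      = if (i : E) ∈ S then Zt A t ∅ y i - t / 2 else 0 := by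
    intro i
    rw [Zt_empty_of_mem A t y i.2]
    by_cases hi : (i : E) ∈ S
    · simp only [ind, if_pos hi, mul_one, Subtype.coe_eta]
      rw [Real.sq_sqrt ht]
    · simp [ind, hi]
  rw [Finset.sum_congr rfl fun i _ => h1 i]
  rw [Finset.sum_coe_sort A (fun e => if e ∈ S then Zt A t ∅ y e - t / 2 else 0)]
  rw [Finset.sum_ite_mem, Finset.inter_eq_right.2 hS]

/-- The tilt formula. -/
lemma integral_Zt_tilt (A S : Finset E) (hS : S ⊆ A) {t : ℝ} (ht : 0 ≤ t) (f : (E → ℝ) → ℝ)
    (hf : Measurable f) :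
    ∫ G, f (Zt A t S G) ∂gaussVec A
      = ∫ y, f (Zt A t ∅ y) * Real.exp (∑ i ∈ S, (Zt A t ∅ y i - t / 2)) ∂gaussVec A := by
  have h1 := integral_gaussVec_add (fun i : A => Real.sqrt t * ind S i)
    (fun y => f (Zt A t ∅ y)) (hf.comp (measurable_Zt A t ∅))
  simp only [exponent_eq A S hS ht] at h1
  rw [← h1]
  apply integral_congr_ae
  exact Filter.Eventually.of_forall fun G => by
    show f (Zt A t S G) = f (Zt A t ∅ (G + fun i : A => Real.sqrt t * ind S i))
    rw [Zt_shift A S ht G]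

lemma integrable_tilt (A S : Finset E) (hS : S ⊆ A) {t : ℝ} (ht : 0 ≤ t) :
    Integrable (fun y : A → ℝ => Real.exp (∑ i ∈ S, (Zt A t ∅ y i - t / 2))) (gaussVec A) := by
  have h1 := (integrable_exp_dot (ι := A) (fun i : A => Real.sqrt t * ind S i)).mul_const
    (Real.exp (- ∑ i : A, (Real.sqrt t * ind S i) ^ 2 / 2))
  refine h1.congr (Filter.Eventually.of_forall fun y => ?_)
  show Real.exp (∑ i : A, Real.sqrt t * ind S i * y i)
      * Real.exp (- ∑ i : A, (Real.sqrt t * ind S i) ^ 2 / 2)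
      = Real.exp (∑ i ∈ S, (Zt A t ∅ y i - t / 2))
  rw [← Real.exp_add, ← sub_eq_add_neg, exponent_eq A S hS ht]

lemma measurable_tilt (A S : Finset E) (t : ℝ) :
    Measurable (fun y : A → ℝ => Real.exp (∑ i ∈ S, (Zt A t ∅ y i - t / 2))) := by
  refine Real.measurable_exp.comp (Finset.measurable_sum _ fun i _ => ?_)
  exact ((measurable_pi_apply i).comp (measurable_Zt A t ∅)).sub_const _

/-- Bounded function times tilt is integrable. -/
lemma integrable_bdd_tilt (A S : Finset E) (hS : S ⊆ A) {t : ℝ} (ht : 0 ≤ t) {F : (E → ℝ) → ℝ}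
    (hF : Measurable F) {C : ℝ} (hC : ∀ x, |F x| ≤ C) :
    Integrable (fun y : A → ℝ => F (Zt A t ∅ y) * Real.exp (∑ i ∈ S, (Zt A t ∅ y i - t / 2)))
      (gaussVec A) := by
  refine (integrable_tilt A S hS ht).bdd_mul (c := C)
    (hF.comp (measurable_Zt A t ∅)).aestronglyMeasurable
    (Filter.Eventually.of_forall fun y => ?_)
  simpa using hC _

/-- Mixture formula: hidden set averaged out. -/
lemma mix (ν : Family E) (A : Finset E) {t : ℝ} (ht : 0 ≤ t) {F : (E → ℝ) → ℝ}
    (hF : Measurable F) {C : ℝ} (hC : ∀ x, |F x| ≤ C) (ψ : Finset E → ℝ) :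
    ∑ S ∈ A.powerset, ν.mass A S * ψ S * ∫ G, F (Zt A t S G) ∂gaussVec A
      = ∫ y, F (Zt A t ∅ y) *
          ∑ S ∈ A.powerset, ψ S * wt ν A (fun i => Zt A t ∅ y i - t / 2) S ∂gaussVec A := by
  have h1 : ∀ y : A → ℝ, F (Zt A t ∅ y) *
      ∑ S ∈ A.powerset, ψ S * wt ν A (fun i => Zt A t ∅ y i - t / 2) S
      = ∑ S ∈ A.powerset, (ν.mass A S * ψ S) *
          (F (Zt A t ∅ y) * Real.exp (∑ i ∈ S, (Zt A t ∅ y i - t / 2))) := by
    intro y
    rw [Finset.mul_sum]
    apply Finset.sum_congr rfl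
    intro S _
    unfold wt
    ring
  simp only [h1]
  rw [integral_finsetSum]
  · apply Finset.sum_congr rfl
    intro S hS
    rw [integral_const_mul, integral_Zt_tilt A S (Finset.mem_powerset.1 hS) ht F hF]
  · intro S hS
    exact (integrable_bdd_tilt A S (Finset.mem_powerset.1 hS) ht hF hC).const_mul _

lemma post_mul_zfun (ν : Family E) (B : Finset E) (lam : E → ℝ) (e : E) :
    post ν B lam e * zfun ν B lam = numer ν B lam e := by
  unfold post
  exact div_mul_cancel₀ _ (zfun_pos ν B lam).ne'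

lemma numer_eq_sum_ind (ν : Family E) (B : Finset E) (lam : E → ℝ) (e : E) :
    numer ν B lam e = ∑ S ∈ B.powerset, ind S e * wt ν B lam S := by
  unfold numer
  rw [Finset.sum_filter]
  apply Finset.sum_congr rfl
  intro S _
  unfold ind
  split_ifs <;> simp

/-- **Bayes** at a single time. -/
theorem bayes_single (ν : Family E) (A : Finset E) {t : ℝ} (ht : 0 ≤ t) (g : E) {Φ : (E → ℝ) → ℝ}
    (hΦ : Measurable Φ) {C : ℝ} (hC : ∀ x, |Φ x| ≤ C) :
    ∑ S ∈ A.powerset, ν.mass A S * ind S g * ∫ G, Φ (Zt A t S G) ∂gaussVec A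
      = ∑ S ∈ A.powerset, ν.mass A S *
          ∫ G, phiP ν A g t (Zt A t S G) * Φ (Zt A t S G) ∂gaussVec A := by
  have h1 := mix ν A ht hΦ hC (fun S => ind S g)
  have hm : Measurable (fun x => phiP ν A g t x * Φ x) := (measurable_phiP ν A g t).mul hΦ
  have hb : ∀ x, |phiP ν A g t x * Φ x| ≤ 1 * C := by
    intro x
    rw [abs_mul]
    exact mul_le_mul (abs_phiP_le ν A g t x) (hC x) (abs_nonneg _) zero_le_one
  have h2 := mix ν A ht hm hb (fun _ => 1)
  simp only [mul_one, one_mul] at h2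
  rw [h1, h2]
  apply integral_congr_ae
  refine Filter.Eventually.of_forall fun y => ?_
  show Φ (Zt A t ∅ y) * ∑ S ∈ A.powerset, ind S g * wt ν A (fun i => Zt A t ∅ y i - t / 2) S
    = phiP ν A g t (Zt A t ∅ y) * Φ (Zt A t ∅ y) *
      ∑ S ∈ A.powerset, wt ν A (fun i => Zt A t ∅ y i - t / 2) S
  rw [← numer_eq_sum_ind]
  show Φ (Zt A t ∅ y) * numer ν A (fun i => Zt A t ∅ y i - t / 2) g
    = post ν A (fun i => Zt A t ∅ y i - t / 2) g * Φ (Zt A t ∅ y) *
      zfun ν A (fun i => Zt A t ∅ y i - t / 2)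
  rw [← post_mul_zfun ν A _ g]
  ring

/-- Restriction of `Zt` to a smaller window. -/
lemma integral_Zt_restrict {A B : Finset E} (hAB : A ⊆ B) (S : Finset E) (t : ℝ) {φ : (E → ℝ) → ℝ}
    (hφ : Measurable φ) (hdep : ∀ x x', (∀ i ∈ A, x i = x' i) → φ x = φ x') :
    ∫ G, φ (Zt B t S G) ∂gaussVec B = ∫ G, φ (Zt A t (S ∩ A) G) ∂gaussVec A := by
  let incl : A → B := fun i => ⟨i.1, hAB i.2⟩
  have hinj : Function.Injective incl := fun i j h =>
    Subtype.ext (congrArg (fun x : B => (x : E)) h)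
  have hmap := gaussVec_map_comp (ι := B) incl hinj
  have hmeas : Measurable fun y : B → ℝ => y ∘ incl :=
    measurable_pi_lambda _ fun i => measurable_pi_apply _
  have hmapi := integral_map (μ := gaussVec B) hmeas.aemeasurable
    (f := fun G => φ (Zt A t (S ∩ A) G))
    (hφ.comp (measurable_Zt A t (S ∩ A))).aestronglyMeasurable
  rw [← hmap, hmapi]
  apply integral_congr_ae
  refine Filter.Eventually.of_forall fun G => ?_
  apply hdep
  intro i hi
  have hiB := hAB hi
  simp only [Zt, dif_pos hi, dif_pos hiB, Function.comp]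
  congr 2
  unfold ind
  simp [hi]

/-- Marginalisation to a smaller window. -/
theorem marginal_window (ν : Family E) {A B : Finset E} (hAB : A ⊆ B) (t : ℝ) {φ : (E → ℝ) → ℝ}
    (hφ : Measurable φ) (hdep : ∀ x x', (∀ i ∈ A, x i = x' i) → φ x = φ x') (ψ : Finset E → ℝ) :
    ∑ S ∈ B.powerset, ν.mass B S * ψ (S ∩ A) * ∫ G, φ (Zt B t S G) ∂gaussVec B
      = ∑ T ∈ A.powerset, ν.mass A T * ψ T * ∫ G, φ (Zt A t T G) ∂gaussVec A := by
  have hmaps : ∀ S ∈ B.powerset, S ∩ A ∈ A.powerset := fun S _ =>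
    Finset.mem_powerset.2 Finset.inter_subset_right
  rw [← Finset.sum_fiberwise_of_maps_to hmaps]
  apply Finset.sum_congr rfl
  intro T hT
  rw [ν.consistent A B hAB T (Finset.mem_powerset.1 hT), Finset.sum_mul, Finset.sum_mul]
  apply Finset.sum_congr rfl
  intro S hS
  obtain ⟨_, hST⟩ := Finset.mem_filter.1 hS
  rw [integral_Zt_restrict hAB S t hφ hdep, hST]

theorem Qv_nonneg (ν : Family E) (A : Finset E) (g : E) (t : ℝ) : 0 ≤ Qv ν A g t := by
  unfold Qv
  refine Finset.sum_nonneg fun S _ => mul_nonneg (ν.nonneg _ _) ?_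
  exact integral_nonneg fun G => sq_nonneg _

/-- The Qv integrand. -/
lemma Qv_eq (ν : Family E) (A : Finset E) (g : E) (t : ℝ) :
    Qv ν A g t = ∑ S ∈ A.powerset, ν.mass A S *
      ∫ G, (phiP ν A g t (Zt A t S G)) ^ 2 ∂gaussVec A := rfl

theorem Qv_le_one (ν : Family E) (A : Finset E) (g : E) (t : ℝ) : Qv ν A g t ≤ 1 := by
  rw [Qv_eq, ← ν.sum_one A]
  apply Finset.sum_le_sum
  intro S _
  have hm : Measurable fun G : A → ℝ => (phiP ν A g t (Zt A t S G)) ^ 2 :=
    ((measurable_phiP ν A g t).comp (measurable_Zt A t S)).pow_const 2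
  have hb : ∀ G : A → ℝ, |(phiP ν A g t (Zt A t S G)) ^ 2| ≤ 1 := by
    intro G
    rw [abs_pow]
    exact pow_le_one₀ (abs_nonneg _) (abs_phiP_le ν A g t _)
  have h1 : ∫ G, (phiP ν A g t (Zt A t S G)) ^ 2 ∂gaussVec A ≤ ∫ _G, (1 : ℝ) ∂gaussVec A := by
    apply integral_mono (integrable_of_bdd hm hb) (integrable_const _)
    intro G
    exact le_trans (le_abs_self _) (hb G)
  rw [integral_const] at h1
  simp only [probReal_univ, smul_eq_mul, mul_one] at h1
  calc ν.mass A S * _ ≤ ν.mass A S * 1 := mul_le_mul_of_nonneg_left h1 (ν.nonneg _ _)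
    _ = ν.mass A S := mul_one _

/-- The window martingale identity at a single time. -/
theorem true_sq_diff (ν : Family E) {A B : Finset E} (hAB : A ⊆ B) {g : E} (hg : g ∈ A) {t : ℝ}
    (ht : 0 ≤ t) :
    ∑ S ∈ B.powerset, ν.mass B S *
        ∫ G, (post ν B (fun i => Zt B t S G i - t / 2) g
          - post ν A (fun i => Zt B t S G i - t / 2) g) ^ 2 ∂gaussVec B
      = Qv ν B g t - Qv ν A g t := by
  have hmA := measurable_phiP ν A g t
  have hmB := measurable_phiP ν B g t
  have hdep : ∀ x x', (∀ i ∈ A, x i = x' i) → phiP ν A g t x = phiP ν A g t x' :=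
    fun x x' h => phiP_congr ν A g t h
  have hb1 : ∀ x, |phiP ν A g t x| ≤ 1 := abs_phiP_le ν A g t
  -- Bayes on `B` with `Φ = phiP A`
  have e1 := bayes_single ν B ht g hmA hb1
  -- marginal of `ind g * phiP A`
  have e2 := marginal_window ν hAB t hmA hdep (fun T => ind T g)
  -- Bayes on `A`
  have e3 := bayes_single ν A ht g hmA hb1
  -- marginal of `(phiP A)^2`
  have e4 := marginal_window ν hAB t (hmA.pow_const 2)
    (fun x x' h => by show phiP ν A g t x ^ 2 = phiP ν A g t x' ^ 2; rw [hdep x x' h])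
    (fun _ => 1)
  simp only [mul_one] at e4
  have hind : ∀ S : Finset E, ind (S ∩ A) g = ind S g := by
    intro S
    unfold ind
    simp [hg]
  simp only [hind] at e2
  -- expansion
  have hexp : ∀ S ∈ B.powerset, ν.mass B S *
        ∫ G, (post ν B (fun i => Zt B t S G i - t / 2) g
          - post ν A (fun i => Zt B t S G i - t / 2) g) ^ 2 ∂gaussVec B
      = ν.mass B S * ∫ G, (phiP ν B g t (Zt B t S G)) ^ 2 ∂gaussVec B
        - 2 * (ν.mass B S * ∫ G, phiP ν B g t (Zt B t S G) * phiP ν A g t (Zt B t S G) ∂gaussVec B)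
        + ν.mass B S * ∫ G, (phiP ν A g t (Zt B t S G)) ^ 2 ∂gaussVec B := by
    intro S _
    have hZ := measurable_Zt B t S
    have i1 : Integrable (fun G : B → ℝ => (phiP ν B g t (Zt B t S G)) ^ 2) (gaussVec B) :=
      integrable_of_bdd ((hmB.comp hZ).pow_const 2) (C := 1) fun G => by
        rw [abs_pow]; exact pow_le_one₀ (abs_nonneg _) (abs_phiP_le ν B g t _)
    have i2 : Integrable
        (fun G : B → ℝ => phiP ν B g t (Zt B t S G) * phiP ν A g t (Zt B t S G)) (gaussVec B) :=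
      integrable_of_bdd ((hmB.comp hZ).mul (hmA.comp hZ)) (C := 1) fun G => by
        rw [abs_mul]
        exact mul_le_one₀ (abs_phiP_le ν B g t _) (abs_nonneg _) (abs_phiP_le ν A g t _)
    have i3 : Integrable (fun G : B → ℝ => (phiP ν A g t (Zt B t S G)) ^ 2) (gaussVec B) :=
      integrable_of_bdd ((hmA.comp hZ).pow_const 2) (C := 1) fun G => by
        rw [abs_pow]; exact pow_le_one₀ (abs_nonneg _) (abs_phiP_le ν A g t _)
    have : ∫ G, (post ν B (fun i => Zt B t S G i - t / 2) g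
          - post ν A (fun i => Zt B t S G i - t / 2) g) ^ 2 ∂gaussVec B
        = ∫ G, (phiP ν B g t (Zt B t S G)) ^ 2 ∂gaussVec B
          - 2 * ∫ G, phiP ν B g t (Zt B t S G) * phiP ν A g t (Zt B t S G) ∂gaussVec B
          + ∫ G, (phiP ν A g t (Zt B t S G)) ^ 2 ∂gaussVec B := by
      have i12 : Integrable (fun G : B → ℝ => (phiP ν B g t (Zt B t S G)) ^ 2
          - 2 * (phiP ν B g t (Zt B t S G) * phiP ν A g t (Zt B t S G))) (gaussVec B) :=
        i1.sub (i2.const_mul 2)
      have hcongr : ∫ G, (post ν B (fun i => Zt B t S G i - t / 2) g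
            - post ν A (fun i => Zt B t S G i - t / 2) g) ^ 2 ∂gaussVec B
          = ∫ G, ((phiP ν B g t (Zt B t S G)) ^ 2
              - 2 * (phiP ν B g t (Zt B t S G) * phiP ν A g t (Zt B t S G))
              + (phiP ν A g t (Zt B t S G)) ^ 2) ∂gaussVec B := by
        apply integral_congr_ae
        refine Filter.Eventually.of_forall fun G => ?_
        show (phiP ν B g t (Zt B t S G) - phiP ν A g t (Zt B t S G)) ^ 2 = _
        ring
      rw [hcongr, integral_add i12 i3, integral_sub i1 (i2.const_mul 2), integral_const_mul]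
    rw [this]
    ring
  rw [Finset.sum_congr rfl hexp, Finset.sum_add_distrib, Finset.sum_sub_distrib, ← Finset.mul_sum,
    ← Qv_eq]
  -- assemble
  have e5 : ∑ S ∈ B.powerset, ν.mass B S *
      ∫ G, phiP ν B g t (Zt B t S G) * phiP ν A g t (Zt B t S G) ∂gaussVec B = Qv ν A g t := by
    rw [← e1, e2, e3, Qv_eq]
    apply Finset.sum_congr rfl
    intro S _
    congr 1
    apply integral_congr_ae
    exact Filter.Eventually.of_forall fun G => by
      show phiP ν A g t (Zt A t S G) * phiP ν A g t (Zt A t S G) = _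
      ring
  have e6 : ∑ S ∈ B.powerset, ν.mass B S *
      ∫ G, (phiP ν A g t (Zt B t S G)) ^ 2 ∂gaussVec B = Qv ν A g t := by
    rw [e4, Qv_eq]
  rw [e5, e6]
  ring

theorem Qv_mono_window (ν : Family E) {A B : Finset E} (hAB : A ⊆ B) {g : E} (hg : g ∈ A) {t : ℝ}
    (ht : 0 ≤ t) : Qv ν A g t ≤ Qv ν B g t := by
  have h := true_sq_diff ν hAB hg ht
  have h0 : 0 ≤ ∑ S ∈ B.powerset, ν.mass B S *
        ∫ G, (post ν B (fun i => Zt B t S G i - t / 2) g
          - post ν A (fun i => Zt B t S G i - t / 2) g) ^ 2 ∂gaussVec B :=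
    Finset.sum_nonneg fun S _ => mul_nonneg (ν.nonneg _ _) (integral_nonneg fun G => sq_nonneg _)
  linarith

/-! ### Time monotonicity: a pair level Bayes formula -/

section Abstract

variable {ι : Type*} [Fintype ι]

/-- Abstract mixture formula on a Gaussian space with shifts `a S`. -/
lemma mix_abs (ν : Family E) (A : Finset E) (t : ℝ) (W : (ι → ℝ) → E → ℝ)
    (a : Finset E → ι → ℝ)
    (hexp : ∀ S ∈ A.powerset, ∀ y : ι → ℝ,
      ∑ i, a S i * y i - ∑ i, a S i ^ 2 / 2 = ∑ i ∈ S, (W y i - t / 2))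
    {F : (ι → ℝ) → ℝ} (hF : Measurable F) {C : ℝ} (hC : ∀ x, |F x| ≤ C) (ψ : Finset E → ℝ) :
    ∑ S ∈ A.powerset, ν.mass A S * ψ S * ∫ y, F (y + a S) ∂gaussVec ι
      = ∫ y, F y * ∑ S ∈ A.powerset, ψ S * wt ν A (fun i => W y i - t / 2) S ∂gaussVec ι := by
  have h1 : ∀ y : ι → ℝ, F y * ∑ S ∈ A.powerset, ψ S * wt ν A (fun i => W y i - t / 2) S
      = ∑ S ∈ A.powerset, (ν.mass A S * ψ S) *
          (F y * Real.exp (∑ i ∈ S, (W y i - t / 2))) := by
    intro y
    rw [Finset.mul_sum]
    apply Finset.sum_congr rfl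
    intro S _
    unfold wt
    ring
  simp only [h1]
  rw [integral_finsetSum]
  · apply Finset.sum_congr rfl
    intro S hS
    rw [integral_const_mul, integral_gaussVec_add (a S) F hF]
    simp only [hexp S hS]
  · intro S hS
    refine Integrable.const_mul ?_ _
    have h2 : Integrable (fun y : ι → ℝ => Real.exp (∑ i, a S i * y i - ∑ i, a S i ^ 2 / 2))
        (gaussVec ι) := by
      have h3 := (integrable_exp_dot (ι := ι) (a S)).mul_const
        (Real.exp (- ∑ i, a S i ^ 2 / 2))
      refine h3.congr (Filter.Eventually.of_forall fun y => ?_)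
      show Real.exp (∑ i, a S i * y i) * Real.exp (- ∑ i, a S i ^ 2 / 2) = _
      rw [← Real.exp_add, ← sub_eq_add_neg]
    have h4 := h2.bdd_mul (c := C) hF.aestronglyMeasurable
      (Filter.Eventually.of_forall fun y => by simpa using hC y)
    refine h4.congr (Filter.Eventually.of_forall fun y => ?_)
    show F y * Real.exp (∑ i, a S i * y i - ∑ i, a S i ^ 2 / 2) = _
    rw [hexp S hS]

/-- Abstract Bayes formula. -/
lemma bayes_abs (ν : Family E) (A : Finset E) (t : ℝ) (g : E) (W : (ι → ℝ) → E → ℝ)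
    (hW : Measurable W) (a : Finset E → ι → ℝ)
    (hexp : ∀ S ∈ A.powerset, ∀ y : ι → ℝ,
      ∑ i, a S i * y i - ∑ i, a S i ^ 2 / 2 = ∑ i ∈ S, (W y i - t / 2))
    {F : (ι → ℝ) → ℝ} (hF : Measurable F) {C : ℝ} (hC : ∀ x, |F x| ≤ C) :
    ∑ S ∈ A.powerset, ν.mass A S * ind S g * ∫ y, F (y + a S) ∂gaussVec ι
      = ∑ S ∈ A.powerset, ν.mass A S *
          ∫ y, phiP ν A g t (W (y + a S)) * F (y + a S) ∂gaussVec ι := by
  have h1 := mix_abs ν A t W a hexp hF hC (fun S => ind S g)
  have hm : Measurable (fun y => phiP ν A g t (W y) * F y) :=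
    ((measurable_phiP ν A g t).comp hW).mul hF
  have hb : ∀ y, |phiP ν A g t (W y) * F y| ≤ 1 * C := by
    intro y
    rw [abs_mul]
    exact mul_le_mul (abs_phiP_le ν A g t _) (hC y) (abs_nonneg _) zero_le_one
  have h2 := mix_abs ν A t W a hexp hm hb (fun _ => 1)
  simp only [mul_one, one_mul] at h2
  rw [h1, h2]
  apply integral_congr_ae
  refine Filter.Eventually.of_forall fun y => ?_
  show F y * ∑ S ∈ A.powerset, ind S g * wt ν A (fun i => W y i - t / 2) S
    = phiP ν A g t (W y) * F y * ∑ S ∈ A.powerset, wt ν A (fun i => W y i - t / 2) S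
  rw [← numer_eq_sum_ind]
  show F y * numer ν A (fun i => W y i - t / 2) g
    = post ν A (fun i => W y i - t / 2) g * F y * zfun ν A (fun i => W y i - t / 2)
  rw [← post_mul_zfun ν A _ g]
  ring

end Abstract

section Pair

variable (A : Finset E) (s t : ℝ)

/-- Gaussian position at time `t` built from two blocks of noise. -/
noncomputable def WW (y : (A ⊕ A) → ℝ) (e : E) : ℝ :=
  if he : e ∈ A then Real.sqrt s * y (Sum.inl ⟨e, he⟩) + Real.sqrt (t - s) * y (Sum.inr ⟨e, he⟩)
  else 0

/-- Gaussian position at time `s`, the first block of noise. -/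
noncomputable def YY (y : (A ⊕ A) → ℝ) (e : E) : ℝ :=
  if he : e ∈ A then Real.sqrt s * y (Sum.inl ⟨e, he⟩) else 0

/-- The two block shift. -/
noncomputable def aa (S : Finset E) : (A ⊕ A) → ℝ :=
  Sum.elim (fun i => Real.sqrt s * ind S i) (fun i => Real.sqrt (t - s) * ind S i)

lemma measurable_WW : Measurable (WW A s t) := by
  refine measurable_pi_lambda _ fun e => ?_
  unfold WW
  by_cases he : e ∈ A
  · simp only [dif_pos he]
    exact (measurable_const.mul (measurable_pi_apply _)).add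
      (measurable_const.mul (measurable_pi_apply _))
  · simp only [dif_neg he]
    exact measurable_const

lemma measurable_YY : Measurable (YY A s) := by
  refine measurable_pi_lambda _ fun e => ?_
  unfold YY
  by_cases he : e ∈ A
  · simp only [dif_pos he]
    exact measurable_const.mul (measurable_pi_apply _)
  · simp only [dif_neg he]
    exact measurable_const

lemma exponent_aa {s t : ℝ} (hs : 0 ≤ s) (hst : s ≤ t) {S : Finset E} (hS : S ⊆ A)
    (y : (A ⊕ A) → ℝ) :
    ∑ i, aa A s t S i * y i - ∑ i, aa A s t S i ^ 2 / 2 = ∑ i ∈ S, (WW A s t y i - t / 2) := by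
  rw [Fintype.sum_sum_type, Fintype.sum_sum_type]
  simp only [aa, Sum.elim_inl, Sum.elim_inr]
  have hs' : 0 ≤ t - s := sub_nonneg.2 hst
  have h2 : ∀ i : A, (Real.sqrt s * ind S i) * y (Sum.inl i)
        + (Real.sqrt (t - s) * ind S i) * y (Sum.inr i)
        - (Real.sqrt s * ind S i) ^ 2 / 2 - (Real.sqrt (t - s) * ind S i) ^ 2 / 2
      = if (i : E) ∈ S then WW A s t y i - t / 2 else 0 := by
    intro i
    have hWi : WW A s t y i = Real.sqrt s * y (Sum.inl i) + Real.sqrt (t - s) * y (Sum.inr i) := by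
      simp [WW]
    by_cases hi : (i : E) ∈ S
    · simp only [ind, if_pos hi, mul_one]
      rw [Real.sq_sqrt hs, Real.sq_sqrt hs', hWi]
      ring
    · simp [ind, hi]
  have h3 : ∑ i : A, (Real.sqrt s * ind S i) * y (Sum.inl i)
        + ∑ i : A, (Real.sqrt (t - s) * ind S i) * y (Sum.inr i)
        - (∑ i : A, (Real.sqrt s * ind S i) ^ 2 / 2 + ∑ i : A, (Real.sqrt (t - s) * ind S i) ^ 2 / 2)
      = ∑ i : A, if (i : E) ∈ S then WW A s t y i - t / 2 else 0 := by
    rw [← Finset.sum_congr rfl fun i _ => h2 i]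
    simp only [Finset.sum_sub_distrib, Finset.sum_add_distrib]
    ring
  rw [h3, Finset.sum_coe_sort A (fun e => if e ∈ S then WW A s t y e - t / 2 else 0),
    Finset.sum_ite_mem, Finset.inter_eq_right.2 hS]

lemma YY_add {s : ℝ} (t : ℝ) (hs : 0 ≤ s) (S : Finset E) (y : (A ⊕ A) → ℝ) :
    YY A s (y + aa A s t S) = Zt A s S (y ∘ Sum.inl) := by
  funext e
  by_cases he : e ∈ A
  · simp only [YY, Zt, dif_pos he, Pi.add_apply, aa, Sum.elim_inl, Function.comp]
    rw [mul_add, ← mul_assoc, Real.mul_self_sqrt hs]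
    ring
  · simp [YY, Zt, he]

lemma WW_add {s t : ℝ} (hs : 0 ≤ s) (hst : s ≤ t) (S : Finset E) (y : (A ⊕ A) → ℝ) (e : E) :
    WW A s t (y + aa A s t S) e =
      if he : e ∈ A then t * ind S e + (Real.sqrt s * y (Sum.inl ⟨e, he⟩)
        + Real.sqrt (t - s) * y (Sum.inr ⟨e, he⟩)) else 0 := by
  by_cases he : e ∈ A
  · simp only [WW, dif_pos he, Pi.add_apply, aa, Sum.elim_inl, Sum.elim_inr]
    rw [mul_add, mul_add, ← mul_assoc, ← mul_assoc, Real.mul_self_sqrt hs,
      Real.mul_self_sqrt (sub_nonneg.2 hst)]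
    ring
  · simp [WW, he]

lemma integral_YY_add {s : ℝ} (t : ℝ) (hs : 0 ≤ s) (S : Finset E) {φ : (E → ℝ) → ℝ}
    (hφ : Measurable φ) :
    ∫ y, φ (YY A s (y + aa A s t S)) ∂gaussVec (A ⊕ A) = ∫ G, φ (Zt A s S G) ∂gaussVec A := by
  have hinj : Function.Injective (Sum.inl : A → A ⊕ A) := Sum.inl_injective
  have hmap := gaussVec_map_comp (ι := A ⊕ A) (Sum.inl : A → A ⊕ A) hinj
  have hmeas : Measurable fun y : (A ⊕ A) → ℝ => y ∘ (Sum.inl : A → A ⊕ A) :=
    measurable_pi_lambda _ fun i => measurable_pi_apply _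
  have hmapi := integral_map (μ := gaussVec (A ⊕ A)) hmeas.aemeasurable
    (f := fun G => φ (Zt A s S G)) (hφ.comp (measurable_Zt A s S)).aestronglyMeasurable
  rw [← hmap, hmapi]
  apply integral_congr_ae
  refine Filter.Eventually.of_forall fun y => ?_
  show φ (YY A s (y + aa A s t S)) = φ (Zt A s S (y ∘ Sum.inl))
  rw [YY_add A t hs S y]

lemma integral_WW_add {s t : ℝ} (hs : 0 ≤ s) (hst : s ≤ t) (S : Finset E) {φ : (E → ℝ) → ℝ}
    (hφ : Measurable φ) :
    ∫ y, φ (WW A s t (y + aa A s t S)) ∂gaussVec (A ⊕ A) = ∫ G, φ (Zt A t S G) ∂gaussVec A := by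
  have hst' : 0 ≤ t - s := sub_nonneg.2 hst
  -- the position as a function of the Gaussian part
  let Ψ : (A → ℝ) → E → ℝ := fun v e => if he : e ∈ A then t * ind S e + v ⟨e, he⟩ else 0
  have hΨ : Measurable Ψ := by
    refine measurable_pi_lambda _ fun e => ?_
    by_cases he : e ∈ A
    · simp only [Ψ, dif_pos he]
      exact measurable_const.add (measurable_pi_apply _)
    · simp only [Ψ, dif_neg he]
      exact measurable_const
  have hmp := measurePreserving_sumPiEquivProdPi (fun _ : A ⊕ A => gaussianReal 0 1)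
  have hmap := gaussVec_prod_map_add (ι := A) hs hst'
  have hsum : s + (t - s) = t := by ring
  rw [hsum] at hmap
  have hf1 : Measurable fun p : (A → ℝ) × (A → ℝ) =>
      fun i => Real.sqrt s * p.1 i + Real.sqrt (t - s) * p.2 i :=
    measurable_pi_lambda _ fun i =>
      (measurable_const.mul ((measurable_pi_apply i).comp measurable_fst)).add
        (measurable_const.mul ((measurable_pi_apply i).comp measurable_snd))
  have hf2 : Measurable fun G : A → ℝ => fun i => Real.sqrt t * G i :=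
    measurable_pi_lambda _ fun i => measurable_const.mul (measurable_pi_apply i)
  have hφΨ : Measurable fun v : A → ℝ => φ (Ψ v) := hφ.comp hΨ
  have e1 : ∫ p, φ (Ψ fun i => Real.sqrt s * p.1 i + Real.sqrt (t - s) * p.2 i)
        ∂((gaussVec A).prod (gaussVec A))
      = ∫ G, φ (Ψ fun i => Real.sqrt t * G i) ∂gaussVec A := by
    have h1 := integral_map (μ := (gaussVec A).prod (gaussVec A)) hf1.aemeasurable
      hφΨ.aestronglyMeasurable
    have h2 := integral_map (μ := gaussVec A) hf2.aemeasurable hφΨ.aestronglyMeasurable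
    rw [hmap] at h1
    exact h1.symm.trans h2
  have e2 : ∫ y, φ (WW A s t (y + aa A s t S)) ∂gaussVec (A ⊕ A)
      = ∫ p, φ (Ψ fun i => Real.sqrt s * p.1 i + Real.sqrt (t - s) * p.2 i)
        ∂((gaussVec A).prod (gaussVec A)) := by
    have h3 := hmp.integral_comp' (g := fun p : (A → ℝ) × (A → ℝ) =>
      φ (Ψ fun i => Real.sqrt s * p.1 i + Real.sqrt (t - s) * p.2 i))
    have h4 : ∀ y : (A ⊕ A) → ℝ, φ (WW A s t (y + aa A s t S)) =
        φ (Ψ fun i => Real.sqrt s * (MeasurableEquiv.sumPiEquivProdPi _ y).1 i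
          + Real.sqrt (t - s) * (MeasurableEquiv.sumPiEquivProdPi _ y).2 i) := by
      intro y
      congr 1
      funext e
      rw [WW_add A hs hst S y e]
      rfl
    simp only [h4]
    exact h3
  rw [e2, e1]
  apply integral_congr_ae
  refine Filter.Eventually.of_forall fun G => ?_
  show φ (Ψ fun i => Real.sqrt t * G i) = φ (Zt A t S G)
  congr 1

end Pair

/-- Monotonicity in time: more observation, larger second moment of the posterior mean. -/
theorem Qv_mono_time (ν : Family E) (A : Finset E) {g : E} (hg : g ∈ A) {s t : ℝ}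
    (hs : 0 ≤ s) (hst : s ≤ t) : Qv ν A g s ≤ Qv ν A g t := by
  have _ := hg
  have hmS := measurable_phiP ν A g s
  have hmT := measurable_phiP ν A g t
  have hW := measurable_WW A s t
  have hY := measurable_YY A s
  -- pair level Bayes
  have hb : ∀ y, |phiP ν A g s (YY A s y)| ≤ 1 := fun y => abs_phiP_le ν A g s _
  have e1 := bayes_abs ν A t g (WW A s t) hW (aa A s t)
    (fun S hS y => exponent_aa A hs hst (Finset.mem_powerset.1 hS) y) (hmS.comp hY) hb
  -- single level Bayes
  have e2 := bayes_single ν A hs g hmS (abs_phiP_le ν A g s)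
  have hmean : ∑ S ∈ A.powerset, ν.mass A S *
      ∫ y, phiP ν A g t (WW A s t (y + aa A s t S)) * phiP ν A g s (YY A s (y + aa A s t S))
        ∂gaussVec (A ⊕ A) = Qv ν A g s := by
    refine e1.symm.trans ?_
    simp only [Function.comp, integral_YY_add A t hs _ hmS]
    rw [e2, Qv_eq]
    apply Finset.sum_congr rfl
    intro S _
    congr 1
    apply integral_congr_ae
    exact Filter.Eventually.of_forall fun G => by
      show phiP ν A g s (Zt A s S G) * phiP ν A g s (Zt A s S G) = _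
      ring
  have hT : ∑ S ∈ A.powerset, ν.mass A S *
      ∫ y, (phiP ν A g t (WW A s t (y + aa A s t S))) ^ 2 ∂gaussVec (A ⊕ A) = Qv ν A g t := by
    rw [Qv_eq]
    apply Finset.sum_congr rfl
    intro S _
    rw [integral_WW_add A hs hst S (φ := fun x => phiP ν A g t x ^ 2) (hmT.pow_const 2)]
  have hS : ∑ S ∈ A.powerset, ν.mass A S *
      ∫ y, (phiP ν A g s (YY A s (y + aa A s t S))) ^ 2 ∂gaussVec (A ⊕ A) = Qv ν A g s := by
    rw [Qv_eq]
    apply Finset.sum_congr rfl
    intro S _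
    rw [integral_YY_add A t hs S (φ := fun x => phiP ν A g s x ^ 2) (hmS.pow_const 2)]
  have hexp : ∀ S ∈ A.powerset, ν.mass A S *
      ∫ y, (phiP ν A g t (WW A s t (y + aa A s t S)) - phiP ν A g s (YY A s (y + aa A s t S))) ^ 2
        ∂gaussVec (A ⊕ A)
      = ν.mass A S * ∫ y, (phiP ν A g t (WW A s t (y + aa A s t S))) ^ 2 ∂gaussVec (A ⊕ A)
        - 2 * (ν.mass A S * ∫ y, phiP ν A g t (WW A s t (y + aa A s t S))
            * phiP ν A g s (YY A s (y + aa A s t S)) ∂gaussVec (A ⊕ A))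
        + ν.mass A S * ∫ y, (phiP ν A g s (YY A s (y + aa A s t S))) ^ 2 ∂gaussVec (A ⊕ A) := by
    intro S _
    have hshift : Measurable fun y : (A ⊕ A) → ℝ => y + aa A s t S := by fun_prop
    have hZ1 := hW.comp hshift
    have hZ2 := hY.comp hshift
    have i1 : Integrable (fun y : (A ⊕ A) → ℝ =>
        (phiP ν A g t (WW A s t (y + aa A s t S))) ^ 2) (gaussVec (A ⊕ A)) :=
      integrable_of_bdd ((hmT.comp hZ1).pow_const 2) (C := 1) fun y => by
        rw [abs_pow]; exact pow_le_one₀ (abs_nonneg _) (abs_phiP_le ν A g t _)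
    have i2 : Integrable (fun y : (A ⊕ A) → ℝ => phiP ν A g t (WW A s t (y + aa A s t S))
        * phiP ν A g s (YY A s (y + aa A s t S))) (gaussVec (A ⊕ A)) :=
      integrable_of_bdd ((hmT.comp hZ1).mul (hmS.comp hZ2)) (C := 1) fun y => by
        rw [abs_mul]
        exact mul_le_one₀ (abs_phiP_le ν A g t _) (abs_nonneg _) (abs_phiP_le ν A g s _)
    have i3 : Integrable (fun y : (A ⊕ A) → ℝ =>
        (phiP ν A g s (YY A s (y + aa A s t S))) ^ 2) (gaussVec (A ⊕ A)) :=
      integrable_of_bdd ((hmS.comp hZ2).pow_const 2) (C := 1) fun y => by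
        rw [abs_pow]; exact pow_le_one₀ (abs_nonneg _) (abs_phiP_le ν A g s _)
    have i12 : Integrable (fun y : (A ⊕ A) → ℝ =>
        (phiP ν A g t (WW A s t (y + aa A s t S))) ^ 2
          - 2 * (phiP ν A g t (WW A s t (y + aa A s t S))
            * phiP ν A g s (YY A s (y + aa A s t S)))) (gaussVec (A ⊕ A)) :=
      i1.sub (i2.const_mul 2)
    have hcongr : ∫ y, (phiP ν A g t (WW A s t (y + aa A s t S))
          - phiP ν A g s (YY A s (y + aa A s t S))) ^ 2 ∂gaussVec (A ⊕ A)
        = ∫ y, ((phiP ν A g t (WW A s t (y + aa A s t S))) ^ 2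
            - 2 * (phiP ν A g t (WW A s t (y + aa A s t S))
              * phiP ν A g s (YY A s (y + aa A s t S)))
            + (phiP ν A g s (YY A s (y + aa A s t S))) ^ 2) ∂gaussVec (A ⊕ A) := by
      apply integral_congr_ae
      refine Filter.Eventually.of_forall fun y => ?_
      show _ = _
      ring
    rw [hcongr, integral_add i12 i3, integral_sub i1 (i2.const_mul 2), integral_const_mul]
    ring
  have h0 : 0 ≤ ∑ S ∈ A.powerset, ν.mass A S *
      ∫ y, (phiP ν A g t (WW A s t (y + aa A s t S)) - phiP ν A g s (YY A s (y + aa A s t S))) ^ 2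
        ∂gaussVec (A ⊕ A) :=
    Finset.sum_nonneg fun S _ => mul_nonneg (ν.nonneg _ _) (integral_nonneg fun G => sq_nonneg _)
  rw [Finset.sum_congr rfl hexp, Finset.sum_add_distrib, Finset.sum_sub_distrib, ← Finset.mul_sum,
    hmean, hT, hS] at h0
  linarith

/-- Range sums of the extended noise are filtered `Fin` sums. -/
lemma sum_extY (B : Finset E) {K k : ℕ} (hk : k ≤ K) (y : Fin K → B → ℝ) {e : E} (he : e ∈ B) :
    ∑ l ∈ Finset.range k, extY B K y l e
      = ∑ l ∈ Finset.univ.filter (fun l : Fin K => (l : ℕ) < k), y l ⟨e, he⟩ := by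
  symm
  apply Finset.sum_bij (fun (l : Fin K) _ => (l : ℕ))
  · intro a ha
    simpa using ha
  · intro a _ b _ hab
    exact Fin.ext hab
  · intro b hb
    exact ⟨⟨b, lt_of_lt_of_le (Finset.mem_range.1 hb) hk⟩, by simpa using hb, rfl⟩
  · intro a _
    simp [extY, he]

/-- The single-time marginal of the true path. -/
theorem law_truePath (B S : Finset E) {h : ℝ} (h0 : 0 < h) {K k : ℕ} (hk : k ≤ K)
    (φ : (E → ℝ) → ℝ) (hφ : Measurable φ) :
    ∫ y, φ (truePath B h S (extY B K y) k) ∂gaussMat B K =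
      ∫ G, φ (Zt B (k * h) S G) ∂gaussVec B := by
  let Ψ : (B → ℝ) → E → ℝ := fun v e => if he : e ∈ B then k * h * ind S e + v ⟨e, he⟩ else 0
  have hΨ : Measurable Ψ := by
    refine measurable_pi_lambda _ fun e => ?_
    by_cases he : e ∈ B
    · simp only [Ψ, dif_pos he]
      exact measurable_const.add (measurable_pi_apply _)
    · simp only [Ψ, dif_neg he]
      exact measurable_const
  have hφΨ : Measurable fun v : B → ℝ => φ (Ψ v) := hφ.comp hΨ
  have hmap := gaussMat_map_partial_sum (ι := B) K k hk h0.le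
  have hf1 : Measurable fun y : Fin K → B → ℝ => fun i : B =>
      Real.sqrt h * ∑ l ∈ Finset.univ.filter (fun l : Fin K => (l : ℕ) < k), y l i :=
    measurable_pi_lambda _ fun i => measurable_const.mul (Finset.measurable_sum _ fun l _ =>
      (measurable_pi_apply i).comp (measurable_pi_apply l))
  have hf2 : Measurable fun G : B → ℝ => fun i => Real.sqrt (k * h) * G i :=
    measurable_pi_lambda _ fun i => measurable_const.mul (measurable_pi_apply i)
  have h1 := integral_map (μ := gaussMat B K) hf1.aemeasurable hφΨ.aestronglyMeasurable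
  have h2 := integral_map (μ := gaussVec B) hf2.aemeasurable hφΨ.aestronglyMeasurable
  rw [hmap] at h1
  have e1 : ∀ y : Fin K → B → ℝ, truePath B h S (extY B K y) k =
      Ψ fun i => Real.sqrt h * ∑ l ∈ Finset.univ.filter (fun l : Fin K => (l : ℕ) < k), y l i := by
    intro y
    funext e
    by_cases he : e ∈ B
    · simp only [truePath, Ψ, if_pos he, dif_pos he]
      rw [sum_extY B hk y he]
    · simp only [truePath, Ψ, if_neg he, dif_neg he]
  have e2 : ∀ G : B → ℝ, Zt B (k * h) S G = Ψ fun i => Real.sqrt (k * h) * G i := by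
    intro G
    funext e
    by_cases he : e ∈ B
    · simp only [Zt, Ψ, dif_pos he]
    · simp only [Zt, Ψ, dif_neg he]
  simp only [e1, e2]
  exact h1.symm.trans h2

/-- Discrete-continuous Cauchy-Schwarz: if `m` is a probability vector, then the mixture of the
`L¹` norms of bounded functions is at most the root of the mixture of the `L²` norms squared. -/
lemma mix_abs_le_sqrt {ι Ω : Type*} [MeasurableSpace Ω] (μ : Measure Ω) [IsProbabilityMeasure μ]
    (s : Finset ι) (m : ι → ℝ) (hm : ∀ i ∈ s, 0 ≤ m i) (hone : ∑ i ∈ s, m i = 1)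
    (f : ι → Ω → ℝ) (hfm : ∀ i, Measurable (f i)) (hfb : ∀ i x, |f i x| ≤ 1) :
    ∑ i ∈ s, m i * ∫ x, |f i x| ∂μ ≤ Real.sqrt (∑ i ∈ s, m i * ∫ x, (f i x) ^ 2 ∂μ) := by
  obtain ⟨a, ha⟩ : ∃ a : ℝ, a = ∑ i ∈ s, m i * ∫ x, |f i x| ∂μ := ⟨_, rfl⟩
  rw [← ha]
  have hi1 : ∀ i, Integrable (fun x => |f i x|) μ := fun i =>
    Integrable.of_bound (hfm i).abs.aestronglyMeasurable 1
      (Filter.Eventually.of_forall fun x => by simpa using hfb i x)
  have hi2 : ∀ i, Integrable (fun x => (f i x) ^ 2) μ := fun i =>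
    Integrable.of_bound ((hfm i).pow_const 2).aestronglyMeasurable 1
      (Filter.Eventually.of_forall fun x => by
        have h := hfb i x
        rw [Real.norm_eq_abs, abs_pow]
        exact pow_le_one₀ (abs_nonneg _) h)
  -- pointwise expansion of the variance
  have hexp : ∀ i, ∫ x, (|f i x| - a) ^ 2 ∂μ =
      ∫ x, (f i x) ^ 2 ∂μ - 2 * a * ∫ x, |f i x| ∂μ + a ^ 2 := by
    intro i
    have h1 : ∀ x, (|f i x| - a) ^ 2 = ((f i x) ^ 2 - 2 * a * |f i x|) + a ^ 2 := by
      intro x; rw [sub_sq, sq_abs]; ring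
    simp_rw [h1]
    have h2 : ∫ x, ((f i x) ^ 2 - 2 * a * |f i x|) + a ^ 2 ∂μ =
        ∫ x, ((f i x) ^ 2 - 2 * a * |f i x|) ∂μ + ∫ _x, a ^ 2 ∂μ :=
      integral_add ((hi2 i).sub ((hi1 i).const_mul _)) (integrable_const _)
    have h3 : ∫ x, ((f i x) ^ 2 - 2 * a * |f i x|) ∂μ =
        ∫ x, (f i x) ^ 2 ∂μ - ∫ x, 2 * a * |f i x| ∂μ :=
      integral_sub (hi2 i) ((hi1 i).const_mul _)
    rw [h2, h3, integral_const_mul, integral_const]
    simp
  have hnn : 0 ≤ ∑ i ∈ s, m i * ∫ x, (|f i x| - a) ^ 2 ∂μ :=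
    Finset.sum_nonneg fun i hi =>
      mul_nonneg (hm i hi) (integral_nonneg fun x => sq_nonneg _)
  have hsq : a ^ 2 ≤ ∑ i ∈ s, m i * ∫ x, (f i x) ^ 2 ∂μ := by
    have : ∑ i ∈ s, m i * ∫ x, (|f i x| - a) ^ 2 ∂μ =
        ∑ i ∈ s, m i * ∫ x, (f i x) ^ 2 ∂μ
          - 2 * a * (∑ i ∈ s, m i * ∫ x, |f i x| ∂μ) + a ^ 2 * ∑ i ∈ s, m i := by
      simp_rw [hexp]
      rw [Finset.mul_sum, Finset.mul_sum, ← Finset.sum_sub_distrib, ← Finset.sum_add_distrib]
      refine Finset.sum_congr rfl fun i _ => ?_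
      ring
    rw [← ha, hone] at this
    nlinarith
  exact (le_abs_self a).trans (Real.abs_le_sqrt hsq)

/-- Along the Euler chain of window `B`, the posterior mean on `B` and on `A ⊆ B` are close. -/
theorem euler_post_close (ν : Family E) {A B : Finset E} (hAB : A ⊆ B) {g : E} (hg : g ∈ A)
    {h : ℝ} (h0 : 0 < h) {K k : ℕ} (hk : k ≤ K) :
    ∫ y, |post ν B (fun i => euler ν B h (extY B K y) k i - k * h / 2) g
          - post ν A (fun i => euler ν B h (extY B K y) k i - k * h / 2) g| ∂gaussMat B K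
      ≤ Real.sqrt (Qv ν B g (k * h) - Qv ν A g (k * h)) + tvB h K B.card := by
  classical
  -- the test function
  let φ : (E → ℝ) → ℝ := fun z =>
    |post ν B (fun i => z i - k * h / 2) g - post ν A (fun i => z i - k * h / 2) g|
  have hshift : Measurable (fun z : E → ℝ => fun i => z i - k * h / 2) :=
    measurable_pi_lambda _ fun i => (measurable_pi_apply i).sub measurable_const
  have hφm : Measurable φ :=
    (((measurable_post ν B g).comp hshift).sub ((measurable_post ν A g).comp hshift)).abs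
  have hφb : ∀ z, |φ z| ≤ 1 := fun z => by
    simp only [φ, abs_abs]
    exact abs_post_sub_le_one ν ν B A _ _ g g
  let F : (Fin (K + 1) → E → ℝ) → ℝ := fun z => φ (z ⟨k, Nat.lt_succ_of_le hk⟩)
  have hFm : Measurable F := hφm.comp (measurable_pi_apply _)
  have hFb : ∀ z, |F z| ≤ 1 := fun z => hφb _
  have htv := tv_path ν B h0 K F hFm hFb
  -- the true part
  have htrue : ∑ S ∈ B.powerset, ν.mass B S *
        ∫ y, F (fun k e => truePath B h S (extY B K y) k e) ∂gaussMat B K =
      ∑ S ∈ B.powerset, ν.mass B S * ∫ G, φ (Zt B (k * h) S G) ∂gaussVec B := by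
    refine Finset.sum_congr rfl fun S _ => ?_
    congr 1
    exact law_truePath B S h0 hk φ hφm
  have hk0 : (0 : ℝ) ≤ k * h := by positivity
  -- Cauchy-Schwarz
  let f : Finset E → (B → ℝ) → ℝ := fun S G =>
    post ν B (fun i => Zt B (k * h) S G i - k * h / 2) g
      - post ν A (fun i => Zt B (k * h) S G i - k * h / 2) g
  have hfm : ∀ S, Measurable (f S) := fun S =>
    ((measurable_post ν B g).comp (hshift.comp (measurable_Zt B _ S))).sub
      ((measurable_post ν A g).comp (hshift.comp (measurable_Zt B _ S)))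
  have hfb : ∀ S G, |f S G| ≤ 1 := fun S G => abs_post_sub_le_one ν ν B A _ _ g g
  have hcs := mix_abs_le_sqrt (gaussVec B) B.powerset (ν.mass B)
    (fun S _ => ν.nonneg B S) (ν.sum_one B) f hfm hfb
  have hsq := true_sq_diff ν hAB hg (t := k * h) hk0
  rw [hsq] at hcs
  have hLHS : ∫ y, |post ν B (fun i => euler ν B h (extY B K y) k i - k * h / 2) g
          - post ν A (fun i => euler ν B h (extY B K y) k i - k * h / 2) g| ∂gaussMat B K =
      ∫ y, F (fun k e => euler ν B h (extY B K y) k e) ∂gaussMat B K := rfl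
  rw [hLHS]
  have h1 := (abs_le.mp htv).2
  rw [htrue] at h1
  have h2 : ∑ S ∈ B.powerset, ν.mass B S * ∫ G, φ (Zt B (k * h) S G) ∂gaussVec B ≤
      Real.sqrt (Qv ν B g (k * h) - Qv ν A g (k * h)) := hcs
  linarith

end Crest.Agent.SRFactor
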