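import Crest.Agent.SRFactor.Gauss

/-! Existence of the dyadic noise (blueprint (G)): a probability measure on `ℕ → ℕ → ℝ` (level, index)
with the right level laws and the refinement identity, obtained by a rotation tree from i.i.d.
Gaussians; its product over sites; a measurable map from the uniform label with that law. -/

set_option autoImplicit false

open MeasureTheory ProbabilityTheory

namespace Crest.Agent.SRFactor

/-- The i.i.d. array of Gaussians the tree is built from. -/
noncomputable def baseGauss : Measure (ℕ → ℕ → ℝ) :=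
  Measure.infinitePi (fun _ : ℕ => Measure.infinitePi (fun _ : ℕ => gaussianReal 0 1))

/-- The rotation tree: `tree A 0 j = A 0 j`,
`tree A (n+1) (2j) = (tree A n j + A (n+1) j)/√2`,
`tree A (n+1) (2j+1) = (tree A n j - A (n+1) j)/√2`. -/
noncomputable def tree (A : ℕ → ℕ → ℝ) : ℕ → ℕ → ℝ
  | 0 => fun j => A 0 j
  | n + 1 => fun j =>
      if j % 2 = 0 then (tree A n (j / 2) + A (n + 1) (j / 2)) / Real.sqrt 2
      else (tree A n (j / 2) - A (n + 1) (j / 2)) / Real.sqrt 2

/-- One site dyadic noise law. -/
noncomputable def stdDyadic : Measure (ℕ → ℕ → ℝ) := baseGauss.map tree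

instance instProbBaseGauss : IsProbabilityMeasure baseGauss := by
  unfold baseGauss; infer_instance

theorem measurable_tree_apply (n j : ℕ) : Measurable (fun A : ℕ → ℕ → ℝ => tree A n j) := by
  induction n generalizing j with
  | zero =>
    have : (fun A : ℕ → ℕ → ℝ => tree A 0 j) = fun A => A 0 j := rfl
    rw [this]; fun_prop
  | succ n ih =>
    have hrow : Measurable (fun A : ℕ → ℕ → ℝ => A (n + 1) (j / 2)) := by fun_prop
    by_cases h : j % 2 = 0
    · have : (fun A : ℕ → ℕ → ℝ => tree A (n + 1) j) =
          fun A => (tree A n (j / 2) + A (n + 1) (j / 2)) / Real.sqrt 2 := by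
        funext A; simp [tree, h]
      rw [this]
      exact ((ih _).add hrow).div_const _
    · have : (fun A : ℕ → ℕ → ℝ => tree A (n + 1) j) =
          fun A => (tree A n (j / 2) - A (n + 1) (j / 2)) / Real.sqrt 2 := by
        funext A; simp [tree, h]
      rw [this]
      exact ((ih _).sub hrow).div_const _

theorem measurable_tree : Measurable tree :=
  measurable_pi_iff.2 fun n => measurable_pi_iff.2 fun j => measurable_tree_apply n j

instance instProbStdDyadic : IsProbabilityMeasure stdDyadic :=
  Measure.isProbabilityMeasure_map measurable_tree.aemeasurable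

/-- A linear map with orthonormal rows maps the standard Gaussian to the standard Gaussian. -/
theorem pi_gauss_map_linear {ι κ : Type*} [Fintype ι] [Fintype κ] [DecidableEq κ] (a : κ → ι → ℝ)
    (ha : ∀ k k', ∑ i, a k i * a k' i = if k = k' then 1 else 0) :
    (Measure.pi (fun _ : ι => gaussianReal 0 1)).map (fun x k => ∑ i, a k i * x i) =
      Measure.pi (fun _ : κ => gaussianReal 0 1) := by
  classical
  set μ := Measure.pi (fun _ : ι => gaussianReal 0 1) with hμ
  set ν := Measure.pi (fun _ : κ => gaussianReal 0 1) with hν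
  set F : (ι → ℝ) → κ → ℝ := fun x k => ∑ i, a k i * x i with hF
  have hFm : Measurable F := by
    refine measurable_pi_iff.2 fun k => ?_
    exact Finset.measurable_sum _ fun i _ => (measurable_pi_apply i).const_mul _
  have key : (μ.map F).map (WithLp.toLp 2) = ν.map (WithLp.toLp 2) := by
    rw [hν, map_pi_eq_stdGaussian]
    apply Measure.ext_of_charFun (E := EuclideanSpace ℝ κ)
    ext t
    rw [charFun_stdGaussian, charFun_apply, Measure.map_map (by fun_prop) hFm,
      integral_map (by fun_prop) (by fun_prop)]
    set s : EuclideanSpace ℝ ι := WithLp.toLp 2 (fun i => ∑ k, a k i * t k) with hs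
    have h1 : ∀ x : ι → ℝ, (inner ℝ (WithLp.toLp 2 (F x) : EuclideanSpace ℝ κ) t : ℝ) =
        inner ℝ (WithLp.toLp 2 x : EuclideanSpace ℝ ι) s := by
      intro x
      simp only [hs, hF, PiLp.inner_apply, RCLike.inner_apply, conj_trivial]
      simp only [Finset.sum_mul, Finset.mul_sum]
      rw [Finset.sum_comm]
      refine Finset.sum_congr rfl fun i _ => Finset.sum_congr rfl fun k _ => ?_
      ring
    have h2 : ∫ x, Complex.exp ((inner ℝ (WithLp.toLp 2 x : EuclideanSpace ℝ ι) s : ℝ) * Complex.I) ∂μ
        = Complex.exp (-(‖s‖ : ℂ) ^ 2 / 2) := by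
      have := charFun_stdGaussian (E := EuclideanSpace ℝ ι) s
      rw [← map_pi_eq_stdGaussian, charFun_apply, integral_map (by fun_prop) (by fun_prop)] at this
      simpa using this
    have h3 : ‖s‖ ^ 2 = ‖t‖ ^ 2 := by
      rw [EuclideanSpace.real_norm_sq_eq, EuclideanSpace.real_norm_sq_eq]
      have : ∀ i, (s i) ^ 2 = ∑ k, ∑ k', a k i * a k' i * (t k * t k') := by
        intro i
        simp only [hs, sq, Finset.sum_mul, Finset.mul_sum]
        rw [Finset.sum_comm]
        refine Finset.sum_congr rfl fun k _ => Finset.sum_congr rfl fun k' _ => ?_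
        ring
      simp only [this]
      rw [Finset.sum_comm]
      refine Finset.sum_congr rfl fun k _ => ?_
      rw [Finset.sum_comm]
      simp only [← Finset.sum_mul, ha]
      simp [sq]
    simp only [Function.comp_apply, h1]
    rw [h2]
    have h4 : (‖s‖ : ℂ) ^ 2 = (‖t‖ : ℂ) ^ 2 := by exact_mod_cast h3
    rw [h4]
  have hinj := (MeasurableEquiv.toLp 2 (κ → ℝ)).measurableEmbedding
  have := congrArg (fun m => m.map (MeasurableEquiv.toLp 2 (κ → ℝ)).symm) key
  simp only at this
  have e1 : ∀ m : Measure (κ → ℝ), (m.map (WithLp.toLp 2)).map (MeasurableEquiv.toLp 2 (κ → ℝ)).symm = m := by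
    intro m
    rw [Measure.map_map (by fun_prop) (by fun_prop)]
    have : (MeasurableEquiv.toLp 2 (κ → ℝ)).symm ∘ (WithLp.toLp 2 : (κ → ℝ) → _) = id := by
      funext x; rfl
    rw [this, Measure.map_id]
  rwa [e1, e1] at this


/-- `tree A n` only depends on the rows of `A` up to `n`. -/
theorem tree_congr {A A' : ℕ → ℕ → ℝ} (n : ℕ) (h : ∀ l ≤ n, A l = A' l) : tree A n = tree A' n := by
  induction n with
  | zero => funext j; simp [tree, h 0 le_rfl]
  | succ n ih =>
    funext j
    have := ih (fun l hl => h l (hl.trans (Nat.le_succ n)))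
    simp only [tree, this, h (n + 1) le_rfl]

/-- The rows are independent: the `n`-th level of the tree is independent of row `n+1`. -/
theorem indep_tree_row (n K : ℕ) :
    IndepFun (fun (A : ℕ → ℕ → ℝ) (j : Fin K) => tree A n j) (fun A (j : Fin K) => A (n + 1) j)
      baseGauss := by
  classical
  have hi : iIndepFun (fun (i : ℕ) (ω : ℕ → ℕ → ℝ) => ω i) baseGauss :=
    iIndepFun_infinitePi (X := fun (_ : ℕ) (x : ℕ → ℝ) => x) (fun _ => measurable_id)
  have hd : Disjoint (Finset.range (n + 1)) ({n + 1} : Finset ℕ) := by simp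
  have h := hi.indepFun_finset (Finset.range (n + 1)) {n + 1} hd (fun i => measurable_pi_apply i)
  -- the two functions factor through the restrictions
  let ext : ((Finset.range (n + 1) : Finset ℕ) → ℕ → ℝ) → ℕ → ℕ → ℝ :=
    fun B l => if hl : l ∈ Finset.range (n + 1) then B ⟨l, hl⟩ else 0
  have hext : Measurable ext := by
    refine measurable_pi_iff.2 fun l => ?_
    by_cases hl : l ∈ Finset.range (n + 1)
    · simp only [ext, hl, dif_pos]; exact measurable_pi_apply _
    · simp only [ext, hl, dif_neg, not_false_eq_true]; exact measurable_const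
  let φ : ((Finset.range (n + 1) : Finset ℕ) → ℕ → ℝ) → Fin K → ℝ :=
    fun B j => tree (ext B) n j
  let ψ : (({n + 1} : Finset ℕ) → ℕ → ℝ) → Fin K → ℝ :=
    fun C j => C ⟨n + 1, by simp⟩ j
  have hφ : Measurable φ :=
    measurable_pi_iff.2 fun j => (measurable_tree_apply n j).comp hext
  have hψ : Measurable ψ := by
    refine measurable_pi_iff.2 fun j => ?_
    exact (measurable_pi_apply _).comp (measurable_pi_apply _)
  have := h.comp hφ hψ
  convert this using 1
  · funext A j
    simp only [Function.comp, φ]
    have hc : tree (ext (fun i : (Finset.range (n + 1) : Finset ℕ) => A i)) n = tree A n := by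
      apply tree_congr
      intro l hl
      simp [ext]
      intro h; omega
    rw [hc]
  · rfl

theorem measurable_rot (K : ℕ) : Measurable
      (fun (p : (Fin K → ℝ) × (Fin K → ℝ)) (j : Fin K) =>
        if (j : ℕ) % 2 = 0 then
          (p.1 ⟨(j : ℕ) / 2, by have := j.2; omega⟩ + p.2 ⟨(j : ℕ) / 2, by have := j.2; omega⟩) / Real.sqrt 2
        else
          (p.1 ⟨(j : ℕ) / 2, by have := j.2; omega⟩ - p.2 ⟨(j : ℕ) / 2, by have := j.2; omega⟩) / Real.sqrt 2) := by
  refine measurable_pi_iff.2 fun j => ?_
  by_cases h : (j : ℕ) % 2 = 0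
  · simp only [h, if_true]; fun_prop
  · simp only [h, if_false]; fun_prop

/-- One rotation step. -/
theorem rotation_step (K : ℕ) :
    ((Measure.pi (fun _ : Fin K => gaussianReal 0 1)).prod
        (Measure.pi (fun _ : Fin K => gaussianReal 0 1))).map
      (fun (p : (Fin K → ℝ) × (Fin K → ℝ)) (j : Fin K) =>
        if (j : ℕ) % 2 = 0 then
          (p.1 ⟨(j : ℕ) / 2, by have := j.2; omega⟩ + p.2 ⟨(j : ℕ) / 2, by have := j.2; omega⟩) / Real.sqrt 2
        else
          (p.1 ⟨(j : ℕ) / 2, by have := j.2; omega⟩ - p.2 ⟨(j : ℕ) / 2, by have := j.2; omega⟩) / Real.sqrt 2) =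
      Measure.pi (fun _ : Fin K => gaussianReal 0 1) := by
  classical
  have hs2 : Real.sqrt 2 * Real.sqrt 2 = 2 := Real.mul_self_sqrt (by norm_num)
  have hs0 : Real.sqrt 2 ≠ 0 := by positivity
  have hdiv : ∀ x y : ℝ, x / Real.sqrt 2 * (y / Real.sqrt 2) = x * y / 2 := by
    intro x y; rw [div_mul_div_comm, hs2]
  let half : Fin K → Fin K := fun j => ⟨(j : ℕ) / 2, by have := j.2; omega⟩
  let sgn : Fin K → ℝ := fun j => if (j : ℕ) % 2 = 0 then 1 else -1
  let a : Fin K → (Fin K ⊕ Fin K) → ℝ := fun j i =>
    match i with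
    | Sum.inl i => if i = half j then 1 / Real.sqrt 2 else 0
    | Sum.inr i => if i = half j then sgn j / Real.sqrt 2 else 0
  have hsgn : ∀ j, sgn j * sgn j = 1 := by
    intro j; by_cases h : (j : ℕ) % 2 = 0 <;> simp [sgn, h]
  have ha : ∀ k k', ∑ i, a k i * a k' i = if k = k' then 1 else 0 := by
    intro k k'
    rw [Fintype.sum_sum_type]
    simp only [a]
    have e1 : ∑ i : Fin K, (if i = half k then 1 / Real.sqrt 2 else 0) *
        (if i = half k' then 1 / Real.sqrt 2 else 0) =
        if half k = half k' then 1 / 2 else 0 := by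
      rw [Finset.sum_eq_single (half k)]
      · by_cases h : half k = half k'
        · simp only [h, if_true]; rw [hdiv]; norm_num
        · simp [h]
      · intro i _ hi; simp [hi]
      · simp
    have e2 : ∑ i : Fin K, (if i = half k then sgn k / Real.sqrt 2 else 0) *
        (if i = half k' then sgn k' / Real.sqrt 2 else 0) =
        if half k = half k' then sgn k * sgn k' / 2 else 0 := by
      rw [Finset.sum_eq_single (half k)]
      · by_cases h : half k = half k'
        · simp only [h, if_true]; rw [hdiv]
        · simp [h]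
      · intro i _ hi; simp [hi]
      · simp
    rw [e1, e2]
    by_cases hkk : k = k'
    · subst hkk; simp [hsgn]; norm_num
    · simp only [hkk, if_false]
      by_cases hh : half k = half k'
      · simp only [hh, if_true]
        have hne : (k : ℕ) ≠ k' := fun h => hkk (Fin.ext h)
        have hhv : (k : ℕ) / 2 = (k' : ℕ) / 2 := congrArg Fin.val hh
        have hsg : sgn k * sgn k' = -1 := by
          have : ((k : ℕ) % 2 = 0 ∧ (k' : ℕ) % 2 ≠ 0) ∨ ((k : ℕ) % 2 ≠ 0 ∧ (k' : ℕ) % 2 = 0) := by omega
          rcases this with ⟨h1, h2⟩ | ⟨h1, h2⟩ <;> simp [sgn, h1, h2]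
        rw [hsg]; norm_num
      · simp [hh]
  have h0 := pi_gauss_map_linear a ha
  -- transfer from the sum type to the product
  have hprod : (Measure.pi (fun _ : (Fin K ⊕ Fin K) => gaussianReal 0 1)).map
      (MeasurableEquiv.sumPiEquivProdPi (fun _ : Fin K ⊕ Fin K => ℝ)) =
      (Measure.pi (fun _ : Fin K => gaussianReal 0 1)).prod
        (Measure.pi (fun _ : Fin K => gaussianReal 0 1)) := by
    have := (measurePreserving_sumPiEquivProdPi_symm
      (X := fun _ : Fin K ⊕ Fin K => ℝ) (fun _ : Fin K ⊕ Fin K => gaussianReal 0 1)).map_eq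
    rw [← this, Measure.map_map (by fun_prop) (by fun_prop)]
    simp
  rw [← hprod, Measure.map_map (measurable_rot K)
    (MeasurableEquiv.sumPiEquivProdPi (fun _ : Fin K ⊕ Fin K => ℝ)).measurable]
  rw [← h0]
  congr 1
  funext x j
  simp only [Function.comp, a, Fintype.sum_sum_type]
  have e1 : ∑ i : Fin K, (if i = half j then 1 / Real.sqrt 2 else 0) * x (Sum.inl i) =
      x (Sum.inl (half j)) / Real.sqrt 2 := by
    rw [Finset.sum_eq_single (half j)]
    · simp; ring
    · intro i _ hi; simp [hi]
    · simp
  have e2 : ∑ i : Fin K, (if i = half j then sgn j / Real.sqrt 2 else 0) * x (Sum.inr i) =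
      sgn j * x (Sum.inr (half j)) / Real.sqrt 2 := by
    rw [Finset.sum_eq_single (half j)]
    · simp; ring
    · intro i _ hi; simp [hi]
    · simp
  rw [e1, e2]
  by_cases h : (j : ℕ) % 2 = 0
  · simp [h, sgn, half, MeasurableEquiv.sumPiEquivProdPi]; ring
  · simp [h, sgn, half, MeasurableEquiv.sumPiEquivProdPi]; ring

/-- Law of a level of the tree under the base measure. -/
theorem base_level (n K : ℕ) :
    baseGauss.map (fun A (j : Fin K) => tree A n j) =
      Measure.pi (fun _ : Fin K => gaussianReal 0 1) := by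
  classical
  have hrow : ∀ m : ℕ, baseGauss.map (fun A (j : Fin K) => A m j) =
      Measure.pi (fun _ : Fin K => gaussianReal 0 1) := by
    intro m
    have h1 : baseGauss.map (fun A : ℕ → ℕ → ℝ => A m) =
        Measure.infinitePi (fun _ : ℕ => gaussianReal 0 1) := by
      unfold baseGauss
      exact Measure.infinitePi_map_eval _ m
    have h2 : (fun (A : ℕ → ℕ → ℝ) (j : Fin K) => A m j) =
        (fun (x : ℕ → ℝ) (j : Fin K) => x j) ∘ (fun A : ℕ → ℕ → ℝ => A m) := rfl
    rw [h2, ← Measure.map_map (by fun_prop) (by fun_prop), h1,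
      Measure.map_infinitePi_infinitePi_of_inj (f := fun j : Fin K => (j : ℕ)) Fin.val_injective,
      Measure.infinitePi_eq_pi]
  induction n with
  | zero => exact hrow 0
  | succ n ih =>
    have hmX : Measurable (fun (A : ℕ → ℕ → ℝ) (j : Fin K) => tree A n j) :=
      measurable_pi_iff.2 fun j => measurable_tree_apply n j
    have hmY : Measurable (fun (A : ℕ → ℕ → ℝ) (j : Fin K) => A (n + 1) j) := by fun_prop
    have hmap := (indep_tree_row n K).map_prod_eq_prod_map_map hmX.aemeasurable hmY.aemeasurable
    rw [ih, hrow (n + 1)] at hmap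
    rw [← rotation_step K, ← hmap, Measure.map_map (measurable_rot K) (hmX.prodMk hmY)]
    rfl

/-- Level law of the one-site noise. -/
theorem stdDyadic_level (n K : ℕ) :
    stdDyadic.map (fun ξ (j : Fin K) => ξ n j) = Measure.pi (fun _ : Fin K => gaussianReal 0 1) := by
  rw [stdDyadic, Measure.map_map (by fun_prop) measurable_tree]
  exact base_level n K

/-- Refinement of the one-site noise, for all points of the image of `tree`. -/
theorem tree_refine (A : ℕ → ℕ → ℝ) (n j : ℕ) :
    tree A n j = (tree A (n + 1) (2 * j) + tree A (n + 1) (2 * j + 1)) / Real.sqrt 2 := by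
  have hs2 : Real.sqrt 2 * Real.sqrt 2 = 2 := Real.mul_self_sqrt (by norm_num)
  have hs0 : Real.sqrt 2 ≠ 0 := by positivity
  have h1 : (2 * j + 1) % 2 ≠ 0 := by omega
  have h2 : (2 * j + 1) / 2 = j := by omega
  simp only [tree, Nat.mul_mod_right, if_true, h1, if_false, h2]
  have h3 : 2 * j / 2 = j := by omega
  rw [h3]
  have hs2' : Real.sqrt 2 ^ 2 = 2 := Real.sq_sqrt (by norm_num)
  field_simp
  rw [hs2']; ring

theorem stdDyadic_refine : ∀ᵐ ξ ∂stdDyadic, ∀ n j,
    ξ n j = (ξ (n + 1) (2 * j) + ξ (n + 1) (2 * j + 1)) / Real.sqrt 2 := by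
  have hset : MeasurableSet {ξ : ℕ → ℕ → ℝ | ∀ n j,
      ξ n j = (ξ (n + 1) (2 * j) + ξ (n + 1) (2 * j + 1)) / Real.sqrt 2} := by
    simp only [Set.ofPred_forall]
    refine MeasurableSet.iInter fun n => MeasurableSet.iInter fun j => ?_
    exact measurableSet_eq_fun (by fun_prop) (by fun_prop)
  rw [stdDyadic, ae_map_iff measurable_tree.aemeasurable hset]
  exact Filter.Eventually.of_forall fun A n j => tree_refine A n j

/-- Swapping the two indices of a doubly indexed i.i.d. family (finite index sets). -/
theorem pi_pi_swap {ι κ : Type*} [Fintype ι] [Fintype κ] (γ : Measure ℝ) [IsProbabilityMeasure γ] :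
    (Measure.pi (fun _ : ι => Measure.pi (fun _ : κ => γ))).map (fun x (k : κ) (i : ι) => x i k) =
      Measure.pi (fun _ : κ => Measure.pi (fun _ : ι => γ)) := by
  classical
  simp only [← Measure.infinitePi_eq_pi]
  have h1 := Measure.infinitePi_map_curry (fun (_ : ι) (_ : κ) => γ)
  have h2 := Measure.infinitePi_map_curry (fun (_ : κ) (_ : ι) => γ)
  rw [← h1, ← h2, Measure.map_map (by fun_prop) (by fun_prop)]
  have h3 := Measure.map_infinitePi_infinitePi_of_inj
    (P := fun _ : ι × κ => γ) (f := (Prod.swap : κ × ι → ι × κ)) Prod.swap_injective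
  rw [← h3, Measure.map_map (by fun_prop) (by fun_prop)]
  rfl

/-- If, on a finite set of sites, the site noises are jointly distributed as independent copies of
`stdDyadic`, the noise is dyadic on the set `Dom`. This is the link to `IsDyadicNoise`. -/
theorem isDyadicNoise_of_law {E : Type*} [DecidableEq E] [Countable E] {Ω : Type*} [MeasurableSpace Ω]
    {P : Measure Ω} [IsProbabilityMeasure P] {ξ : Ω → Noise E} {Dom : Set E}
    (hm : ∀ e, Measurable (ξ · e))
    (hlaw : ∀ B : Finset E, (B : Set E) ⊆ Dom →
      P.map (fun ω (e : B) => ξ ω e) = Measure.pi (fun _ : B => stdDyadic)) :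
    IsDyadicNoise P ξ Dom := by
  classical
  refine ⟨inferInstance, ?_, ?_, ?_⟩
  · intro e n j
    exact (measurable_pi_apply j).comp ((measurable_pi_apply n).comp (hm e))
  · intro B hB n K
    have hjoint : Measurable (fun ω (e : B) => ξ ω e) := measurable_pi_iff.2 fun e => hm e
    have h1 : (fun ω (j : Fin K) (e : B) => ξ ω e n j) =
        (fun (x : B → Fin K → ℝ) (j : Fin K) (e : B) => x e j) ∘
          (fun (x : B → ℕ → ℕ → ℝ) (e : B) (j : Fin K) => x e n j) ∘
            (fun ω (e : B) => ξ ω e) := rfl
    have hg : Measurable (fun (x : B → ℕ → ℕ → ℝ) (e : B) (j : Fin K) => x e n j) := by fun_prop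
    rw [h1, ← Measure.map_map (by fun_prop) (hg.comp hjoint), ← Measure.map_map hg hjoint, hlaw B hB]
    have h2 : (Measure.pi (fun _ : B => stdDyadic)).map
        (fun (x : B → ℕ → ℕ → ℝ) (e : B) (j : Fin K) => x e n j) =
        Measure.pi (fun _ : B => Measure.pi (fun _ : Fin K => gaussianReal 0 1)) := by
      have := Measure.pi_map_pi (μ := fun _ : B => stdDyadic)
        (f := fun (_ : B) (ξ' : ℕ → ℕ → ℝ) (j : Fin K) => ξ' n j)
        (fun _ => Measurable.aemeasurable (by fun_prop))
      rw [this]
      simp only [stdDyadic_level]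
    rw [h2, gaussMat]
    simp only [gaussVec]
    exact pi_pi_swap (gaussianReal 0 1)
  · have hall : ∀ e : E, ∀ᵐ ω ∂P, e ∈ Dom → ∀ n j,
        ξ ω e n j = (ξ ω e (n + 1) (2 * j) + ξ ω e (n + 1) (2 * j + 1)) / Real.sqrt 2 := by
      intro e
      by_cases he : e ∈ Dom
      · have hB : (({e} : Finset E) : Set E) ⊆ Dom := by simpa using he
        have h1 := hlaw {e} hB
        have hmap : P.map (ξ · e) = stdDyadic := by
          have h2 : (P.map (fun ω (e' : ({e} : Finset E)) => ξ ω e')).map
              (fun x : ({e} : Finset E) → ℕ → ℕ → ℝ => x ⟨e, Finset.mem_singleton_self e⟩) =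
              (Measure.pi (fun _ : ({e} : Finset E) => stdDyadic)).map
              (fun x : ({e} : Finset E) → ℕ → ℕ → ℝ => x ⟨e, Finset.mem_singleton_self e⟩) := by
            rw [h1]
          have hj : Measurable (fun ω (e' : ({e} : Finset E)) => ξ ω e') :=
            measurable_pi_iff.2 fun e' => hm e'
          rw [Measure.map_map (measurable_pi_apply _) hj] at h2
          have h3 := Measure.pi_map_eval (μ := fun _ : ({e} : Finset E) => stdDyadic)
            (⟨e, Finset.mem_singleton_self e⟩ : ({e} : Finset E))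
          simp only [measure_univ, Finset.prod_const_one, one_smul] at h3
          have h4 : (Function.eval (⟨e, Finset.mem_singleton_self e⟩ : ({e} : Finset E)) :
              (({e} : Finset E) → ℕ → ℕ → ℝ) → _) =
              fun x => x ⟨e, Finset.mem_singleton_self e⟩ := rfl
          rw [h4] at h3
          rw [h3] at h2
          exact h2
        have hset : MeasurableSet {ξ' : ℕ → ℕ → ℝ | ∀ n j,
            ξ' n j = (ξ' (n + 1) (2 * j) + ξ' (n + 1) (2 * j + 1)) / Real.sqrt 2} := by
          simp only [Set.ofPred_forall]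
          refine MeasurableSet.iInter fun n => MeasurableSet.iInter fun j => ?_
          exact measurableSet_eq_fun (by fun_prop) (by fun_prop)
        have h5 := stdDyadic_refine
        rw [← hmap, ae_map_iff (hm e).aemeasurable hset] at h5
        filter_upwards [h5] with ω hω _ n j using hω n j
      · exact Filter.Eventually.of_forall fun ω h => absurd h he
    have := ae_all_iff.2 hall
    filter_upwards [this] with ω hω e he n j using hω e he n j

/-- A measurable map from a uniform label to a noise with law `stdDyadic`. -/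
theorem exists_label_map : ∃ f : unitInterval → (ℕ → ℕ → ℝ), Measurable f ∧
    (volume : Measure unitInterval).map f = stdDyadic :=
  Measure.exists_measurable_map_eq stdDyadic

/-- A measurable map from a uniform label to an order label and a stream of independent noises. -/
theorem exists_label_split : ∃ f : unitInterval → unitInterval × (ℕ → ℕ → ℕ → ℝ), Measurable f ∧
    (volume : Measure unitInterval).map f =
      (volume : Measure unitInterval).prod (Measure.infinitePi (fun _ : ℕ => stdDyadic)) :=
  Measure.exists_measurable_map_eq _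

end Crest.Agent.SRFactor
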