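import Mathlib

/-! Schwarz-lemma bound for the logarithmic derivative of a "stable" ratio `q / r`. -/

set_option autoImplicit false

open Polynomial Metric Set

namespace Crest.Agent.SRFactor.LogDeriv

open Complex in
/-- The real evaluation inside `ℂ`. -/
lemma aeval_ofReal' (p : ℝ[X]) (x : ℝ) : aeval (x : ℂ) p = ((p.eval x : ℝ) : ℂ) := by
  have := Polynomial.aeval_algebraMap_apply_eq_algebraMap_eval (A := ℂ) x p
  simpa using this

section core

variable (q r : ℝ[X])

/-- Step 1 : nonnegativity of `Im (Q conj R)`. -/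
lemma im_nonneg (hst : ∀ ξ w : ℂ, 0 < ξ.im → 0 < w.im → aeval ξ q + w * aeval ξ r ≠ 0)
    {ξ : ℂ} (hξ : 0 < ξ.im) :
    0 ≤ (aeval ξ q * (starRingEnd ℂ) (aeval ξ r)).im := by
  by_contra hcon
  push Not at hcon
  set Q := aeval ξ q
  set R := aeval ξ r
  have hR : R ≠ 0 := by
    intro h
    rw [h] at hcon
    simp at hcon
  have hn : 0 < Complex.normSq R := Complex.normSq_pos.2 hR
  apply hst ξ (-(Q * (starRingEnd ℂ) R) / (Complex.normSq R : ℂ)) hξ
  · rw [Complex.div_ofReal_im]
    simp only [Complex.neg_im]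
    exact div_pos (by linarith) hn
  · have hn' : (Complex.normSq R : ℂ) ≠ 0 := by exact_mod_cast hn.ne'
    have : R * (starRingEnd ℂ) R = (Complex.normSq R : ℂ) := Complex.mul_conj R
    field_simp
    rw [← this]
    ring

/-- Unimodularity computation. -/
lemma normSq_sub_add (Q R : ℂ) :
    Complex.normSq (Q - Complex.I * R) =
      Complex.normSq (Q + Complex.I * R) - 4 * (Q * (starRingEnd ℂ) R).im := by
  simp only [Complex.normSq_apply, Complex.add_re, Complex.sub_re, Complex.add_im, Complex.sub_im,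
    Complex.mul_re, Complex.mul_im, Complex.I_re, Complex.I_im, Complex.conj_re, Complex.conj_im]
  ring

/-- The constant case: `q / r` is constant. -/
lemma const_case (hr1 : 0 < r.eval 1) (c : ℂ)
    (hc : ∀ ξ : ℂ, 0 < ξ.im → (1 - c) * aeval ξ q = Complex.I * (1 + c) * aeval ξ r) :
    (derivative q).eval 1 * r.eval 1 = q.eval 1 * (derivative r).eval 1 := by
  classical
  set P : ℂ[X] := C (1 - c) * q.map (algebraMap ℝ ℂ)
    - C (Complex.I * (1 + c)) * r.map (algebraMap ℝ ℂ) with hPdef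
  have hev : ∀ ξ : ℂ, P.eval ξ = (1 - c) * aeval ξ q - Complex.I * (1 + c) * aeval ξ r := by
    intro ξ
    simp [hPdef, Polynomial.eval_map_algebraMap]
  have hP : P = 0 := by
    apply Polynomial.eq_zero_of_infinite_isRoot
    refine Set.Infinite.mono ?_ (Set.infinite_of_injective_forall_mem
      (f := fun n : ℕ => ((n : ℂ) + 1) * Complex.I) ?_ (s := {ξ : ℂ | 0 < ξ.im}) ?_)
    · intro ξ hξ
      simp only [Set.mem_ofPred_eq, Polynomial.IsRoot.def] at hξ ⊢
      rw [hev, hc ξ hξ, sub_self]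
    · intro a b hab
      have h := congrArg Complex.im hab
      simp at h
      exact_mod_cast h
    · intro n
      simp only [Set.mem_ofPred_eq]
      simp
      positivity
  have hreal : ∀ x : ℝ, (1 - c) * ((q.eval x : ℝ) : ℂ) = Complex.I * (1 + c) * ((r.eval x : ℝ) : ℂ) := by
    intro x
    have := hev (x : ℂ)
    rw [hP, Polynomial.eval_zero, aeval_ofReal', aeval_ofReal'] at this
    exact (sub_eq_zero.1 this.symm)
  have hα : (1 - c) ≠ 0 := by
    intro hα
    have h1 := hreal 1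
    rw [hα, zero_mul] at h1
    have hr1' : ((r.eval 1 : ℝ) : ℂ) ≠ 0 := by exact_mod_cast hr1.ne'
    have h2 : Complex.I * (1 + c) = 0 := by
      by_contra hne
      exact (mul_ne_zero hne hr1') h1.symm
    have h3 : 1 + c = 0 := by
      rcases mul_eq_zero.1 h2 with h | h
      · exact absurd h Complex.I_ne_zero
      · exact h
    have hc1 : c = 1 := by linear_combination -hα
    rw [hc1] at h3
    norm_num at h3
  have hcross : ∀ x : ℝ, q.eval x * r.eval 1 = q.eval 1 * r.eval x := by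
    intro x
    have h1 := hreal 1
    have hx := hreal x
    have : (1 - c) * (((q.eval x * r.eval 1 : ℝ) : ℂ)) = (1 - c) * ((q.eval 1 * r.eval x : ℝ) : ℂ) := by
      push_cast
      linear_combination ((r.eval 1 : ℝ) : ℂ) * hx - ((r.eval x : ℝ) : ℂ) * h1
    exact_mod_cast mul_left_cancel₀ hα this
  have hpoly : C (r.eval 1) * q = C (q.eval 1) * r := by
    apply Polynomial.funext
    intro x
    simp only [eval_mul, eval_C]
    linarith [hcross x]
  have hd := congrArg (fun p => (derivative p).eval (1 : ℝ)) hpoly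
  simp only [derivative_mul, derivative_C, zero_mul, zero_add, eval_mul, eval_C] at hd
  linarith

/-- Nonvanishing of `R` on the disk, in the strict case. -/
lemma R_ne_zero (hr : ∀ x : ℝ, 0 < x → 0 < r.eval x)
    (hstrict : ∀ ξ : ℂ, 0 < ξ.im → 0 < (aeval ξ q * (starRingEnd ℂ) (aeval ξ r)).im)
    {ξ : ℂ} (hξ : 0 < ξ.re) : aeval ξ r ≠ 0 := by
  have hup : ∀ ζ : ℂ, 0 < ζ.im → aeval ζ r ≠ 0 := by
    intro ζ hζ h0
    have := hstrict ζ hζ
    rw [h0] at this
    simp at this
  rcases lt_trichotomy ξ.im 0 with h | h | h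
  · intro h0
    have h1 : aeval ((starRingEnd ℂ) ξ) r = 0 := by
      rw [Polynomial.aeval_conj, h0, map_zero]
    exact hup _ (by simpa using h) h1
  · have : ξ = (ξ.re : ℂ) := by
      apply Complex.ext <;> simp [h]
    rw [this, aeval_ofReal']
    exact_mod_cast (hr _ hξ).ne'
  · exact hup ξ h

/-- Ratio `Q / R / g0` (with `g0 > 0` real) lies in the slit plane. -/
lemma ratio_slit (hq : ∀ x : ℝ, 0 < x → 0 < q.eval x) (hr : ∀ x : ℝ, 0 < x → 0 < r.eval x)
    (hstrict : ∀ ξ : ℂ, 0 < ξ.im → 0 < (aeval ξ q * (starRingEnd ℂ) (aeval ξ r)).im)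
    {g0 : ℝ} (hg0 : 0 < g0) {ξ : ℂ} (hξ : 0 < ξ.re) :
    aeval ξ q / aeval ξ r / (g0 : ℂ) ∈ Complex.slitPlane := by
  have hup : ∀ ζ : ℂ, 0 < ζ.im → 0 < (aeval ζ q / aeval ζ r / (g0 : ℂ)).im := by
    intro ζ hζ
    have h1 := hstrict ζ hζ
    rw [Complex.div_ofReal_im, Complex.div_im]
    have hR : aeval ζ r ≠ 0 := by
      intro h0
      rw [h0] at h1
      simp at h1
    have hn : 0 < Complex.normSq (aeval ζ r) := Complex.normSq_pos.2 hR
    apply div_pos _ hg0
    rw [Complex.mul_im, Complex.conj_re, Complex.conj_im] at h1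
    have : (aeval ζ q).im * (aeval ζ r).re / Complex.normSq (aeval ζ r)
        - (aeval ζ q).re * (aeval ζ r).im / Complex.normSq (aeval ζ r)
        = ((aeval ζ q).re * -(aeval ζ r).im + (aeval ζ q).im * (aeval ζ r).re)
          / Complex.normSq (aeval ζ r) := by ring
    rw [this]
    exact div_pos h1 hn
  rw [Complex.mem_slitPlane_iff]
  rcases lt_trichotomy ξ.im 0 with h | h | h
  · right
    have h1 := hup ((starRingEnd ℂ) ξ) (by simpa using h)
    rw [Polynomial.aeval_conj, Polynomial.aeval_conj] at h1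
    have h2 : (starRingEnd ℂ) (aeval ξ q) / (starRingEnd ℂ) (aeval ξ r) / (g0 : ℂ)
        = (starRingEnd ℂ) (aeval ξ q / aeval ξ r / (g0 : ℂ)) := by
      simp [map_div₀]
    rw [h2, Complex.conj_im] at h1
    linarith
  · left
    have : ξ = (ξ.re : ℂ) := by
      apply Complex.ext <;> simp [h]
    rw [this, aeval_ofReal', aeval_ofReal']
    have h1 := hq _ hξ
    have h2 := hr _ hξ
    have : ((q.eval ξ.re : ℝ) : ℂ) / ((r.eval ξ.re : ℝ) : ℂ) / (g0 : ℂ)
        = ((q.eval ξ.re / r.eval ξ.re / g0 : ℝ) : ℂ) := by push_cast; rfl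
    rw [this, Complex.ofReal_re]
    positivity
  · right
    exact (hup ξ h).ne'

/-- `Re (exp (log z / 2)) > 0` on the slit plane. -/
lemma re_sqrt_pos {z : ℂ} (hz : z ∈ Complex.slitPlane) :
    0 < (Complex.exp (Complex.log z / 2)).re := by
  rw [Complex.exp_re]
  apply mul_pos (Real.exp_pos _)
  apply Real.cos_pos_of_mem_Ioo
  have h1 := (Complex.mem_slitPlane_iff_arg.1 hz).1
  have h2 := Complex.neg_pi_lt_arg z
  have h3 := Complex.arg_le_pi z
  have h4 : Complex.arg z < Real.pi := lt_of_le_of_ne h3 h1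
  have him : (Complex.log z / 2).im = Complex.arg z / 2 := by
    have : Complex.log z / 2 = Complex.log z / ((2 : ℝ) : ℂ) := by norm_num
    rw [this, Complex.div_ofReal_im, Complex.log_im]
  rw [him]
  constructor <;> linarith

lemma norm_cayley_le {S : ℂ} (hS : 0 < S.re) : ‖(S - 1) / (S + 1)‖ ≤ 1 := by
  have hne : S + 1 ≠ 0 := by
    intro h
    have := congrArg Complex.re h
    simp at this
    linarith
  rw [norm_div, div_le_one (norm_pos_iff.2 hne)]
  have h : ‖S - 1‖ ^ 2 ≤ ‖S + 1‖ ^ 2 := by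
    rw [Complex.sq_norm, Complex.sq_norm]
    simp only [Complex.normSq_apply, Complex.add_re, Complex.sub_re, Complex.add_im, Complex.sub_im,
      Complex.one_re, Complex.one_im]
    nlinarith
  exact (sq_le_sq₀ (norm_nonneg _) (norm_nonneg _)).1 h

/-- The strict case: Schwarz lemma applied on the disk of center `1` and radius `1`. -/
lemma strict_case (hq : ∀ x : ℝ, 0 < x → 0 < q.eval x) (hr : ∀ x : ℝ, 0 < x → 0 < r.eval x)
    (hstrict : ∀ ξ : ℂ, 0 < ξ.im → 0 < (aeval ξ q * (starRingEnd ℂ) (aeval ξ r)).im) :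
    (derivative q).eval 1 * r.eval 1 - q.eval 1 * (derivative r).eval 1
      ≤ 4 * (q.eval 1 * r.eval 1) := by
  have hq1 := hq 1 one_pos
  have hr1 := hr 1 one_pos
  set q1 := q.eval 1 with hq1def
  set r1 := r.eval 1 with hr1def
  set q1' := (derivative q).eval 1 with hq1'def
  set r1' := (derivative r).eval 1 with hr1'def
  set g0 : ℝ := q1 / r1 with hg0def
  have hg0 : 0 < g0 := div_pos hq1 hr1
  set G : ℂ → ℂ := fun ξ => aeval ξ q / aeval ξ r / (g0 : ℂ) with hGdef
  set T : ℂ → ℂ := fun ξ => (Complex.exp (Complex.log (G ξ) / 2) - 1)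
    / (Complex.exp (Complex.log (G ξ) / 2) + 1) with hTdef
  have hre : ∀ ξ ∈ ball (1 : ℂ) 1, 0 < ξ.re := by
    intro ξ hξ
    rw [mem_ball, dist_eq_norm] at hξ
    have h1 := Complex.abs_re_le_norm (ξ - 1)
    have h2 := abs_lt.1 (lt_of_le_of_lt h1 hξ)
    simp at h2
    linarith [h2.1]
  have hQ1 : aeval (1 : ℂ) q = (q1 : ℂ) := by
    have := aeval_ofReal' q 1
    simpa using this
  have hR1 : aeval (1 : ℂ) r = (r1 : ℂ) := by
    have := aeval_ofReal' r 1
    simpa using this
  have hQ1' : aeval (1 : ℂ) (derivative q) = (q1' : ℂ) := by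
    have := aeval_ofReal' (derivative q) 1
    simpa using this
  have hR1' : aeval (1 : ℂ) (derivative r) = (r1' : ℂ) := by
    have := aeval_ofReal' (derivative r) 1
    simpa using this
  have hr1C : (r1 : ℂ) ≠ 0 := by exact_mod_cast hr1.ne'
  have hq1C : (q1 : ℂ) ≠ 0 := by exact_mod_cast hq1.ne'
  have hg0C : (g0 : ℂ) ≠ 0 := by exact_mod_cast hg0.ne'
  have hG1 : G 1 = 1 := by
    simp only [hGdef, hQ1, hR1, hg0def]
    push_cast
    field_simp
  have hSne : ∀ ξ, G ξ ∈ Complex.slitPlane → Complex.exp (Complex.log (G ξ) / 2) + 1 ≠ 0 := by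
    intro ξ hξ h
    have h1 := re_sqrt_pos hξ
    have := congrArg Complex.re h
    simp at this
    linarith
  have hdiffG : ∀ ξ ∈ ball (1 : ℂ) 1, DifferentiableAt ℂ G ξ := by
    intro ξ hξ
    have hR := R_ne_zero q r hr hstrict (hre ξ hξ)
    exact ((q.differentiable_aeval ξ).div (r.differentiable_aeval ξ) hR).div_const _
  have hslit : ∀ ξ ∈ ball (1 : ℂ) 1, G ξ ∈ Complex.slitPlane := fun ξ hξ =>
    ratio_slit q r hq hr hstrict hg0 (hre ξ hξ)
  have hd : DifferentiableOn ℂ T (ball 1 1) := by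
    intro ξ hξ
    apply DifferentiableAt.differentiableWithinAt
    have h1 : DifferentiableAt ℂ (fun ξ => Complex.exp (Complex.log (G ξ) / 2)) ξ :=
      (((hdiffG ξ hξ).clog (hslit ξ hξ)).div_const 2).cexp
    exact (h1.sub_const 1).div (h1.add_const 1) (hSne ξ (hslit ξ hξ))
  have hT1 : T 1 = 0 := by
    simp [hTdef, hG1]
  have hmaps : MapsTo T (ball 1 1) (closedBall (T 1) 1) := by
    intro ξ hξ
    rw [hT1, mem_closedBall, dist_zero_right]
    exact norm_cayley_le (re_sqrt_pos (hslit ξ hξ))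
  have hsch := Complex.norm_deriv_le_div_of_mapsTo_ball hd hmaps one_pos
  -- the derivative at 1
  have h1mem : (1 : ℂ) ∈ ball (1 : ℂ) 1 := mem_ball_self one_pos
  have hRne1 : aeval (1 : ℂ) r ≠ 0 := by rw [hR1]; exact hr1C
  have hGd : HasDerivAt G (((q1' : ℂ) * r1 - q1 * r1') / (r1 : ℂ) ^ 2 / (g0 : ℂ)) 1 := by
    have h := ((q.hasDerivAt_aeval (1 : ℂ)).div (r.hasDerivAt_aeval (1 : ℂ)) hRne1).div_const (g0 : ℂ)
    rw [hQ1, hR1, hQ1', hR1'] at h
    exact h
  have hG1slit : G 1 ∈ Complex.slitPlane := hslit 1 h1mem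
  have hLd := hGd.clog hG1slit
  have hSd := (hLd.div_const 2).cexp
  have hTd := (hSd.sub_const 1).div (hSd.add_const 1) (hSne 1 hG1slit)
  have hderiv : deriv T 1 = (((q1' * r1 - q1 * r1') / (q1 * r1) / 4 : ℝ) : ℂ) := by
    have := hTd.deriv
    have hTeq : (fun y => (Complex.exp (Complex.log (G y) / 2) - 1)
        / (Complex.exp (Complex.log (G y) / 2) + 1)) = T := rfl
    rw [hG1] at this
    simp only [Complex.log_one, zero_div, Complex.exp_zero, one_mul, div_one] at this
    have h2 : deriv T 1 = _ := this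
    rw [h2, hg0def]
    push_cast
    field_simp
    ring
  rw [hderiv, Complex.norm_real, Real.norm_eq_abs, div_one] at hsch
  have h5 := (abs_le.1 hsch).2
  have hpos : 0 < q1 * r1 := mul_pos hq1 hr1
  rw [div_le_iff₀ (by norm_num : (0 : ℝ) < 4), div_le_iff₀ hpos] at h5
  linarith

/-- **Main lemma.** Let `q, r` be real polynomials, positive on the positive reals, with
`q(ξ) + w r(ξ) ≠ 0` on the product of two upper half planes. Then the logarithmic derivative of
`q / r` at `1` is at most `4`. -/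
theorem logDeriv_bound
    (hst : ∀ ξ w : ℂ, 0 < ξ.im → 0 < w.im → aeval ξ q + w * aeval ξ r ≠ 0)
    (hq : ∀ x : ℝ, 0 < x → 0 < q.eval x) (hr : ∀ x : ℝ, 0 < x → 0 < r.eval x) :
    (derivative q).eval 1 * r.eval 1 - q.eval 1 * (derivative r).eval 1
      ≤ 4 * (q.eval 1 * r.eval 1) := by
  by_cases hstrict : ∀ ξ : ℂ, 0 < ξ.im → 0 < (aeval ξ q * (starRingEnd ℂ) (aeval ξ r)).im
  · exact strict_case q r hq hr hstrict
  push Not at hstrict
  obtain ⟨ξ0, hξ0, hle⟩ := hstrict
  have hnn := fun {ξ : ℂ} (hξ : 0 < ξ.im) => im_nonneg q r hst hξ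
  have h0 : (aeval ξ0 q * (starRingEnd ℂ) (aeval ξ0 r)).im = 0 := le_antisymm hle (hnn hξ0)
  set U : Set ℂ := {ξ : ℂ | 0 < ξ.im} with hU
  have hUo : IsOpen U := isOpen_lt continuous_const Complex.continuous_im
  have hUc : IsPreconnected U := (convex_halfSpace_im_gt 0).isPreconnected
  have hden : ∀ ξ ∈ U, aeval ξ q + Complex.I * aeval ξ r ≠ 0 := fun ξ hξ =>
    hst ξ Complex.I hξ (by simp)
  set φ : ℂ → ℂ := fun ξ => (aeval ξ q - Complex.I * aeval ξ r) / (aeval ξ q + Complex.I * aeval ξ r)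
    with hφ
  have hφd : DifferentiableOn ℂ φ U := by
    intro ξ hξ
    apply DifferentiableAt.differentiableWithinAt
    exact ((q.differentiable_aeval ξ).sub ((r.differentiable_aeval ξ).const_mul _)).div
      ((q.differentiable_aeval ξ).add ((r.differentiable_aeval ξ).const_mul _)) (hden ξ hξ)
  have hnormφ : ∀ ξ ∈ U, ‖φ ξ‖ ^ 2 * Complex.normSq (aeval ξ q + Complex.I * aeval ξ r)
      = Complex.normSq (aeval ξ q + Complex.I * aeval ξ r)
        - 4 * (aeval ξ q * (starRingEnd ℂ) (aeval ξ r)).im := by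
    intro ξ hξ
    have hn : Complex.normSq (aeval ξ q + Complex.I * aeval ξ r) ≠ 0 :=
      (Complex.normSq_pos.2 (hden ξ hξ)).ne'
    simp only [hφ]
    rw [Complex.sq_norm, Complex.normSq_div, div_mul_cancel₀ _ hn, normSq_sub_add]
  have hle1 : ∀ ξ ∈ U, ‖φ ξ‖ ≤ 1 := by
    intro ξ hξ
    have hn : 0 < Complex.normSq (aeval ξ q + Complex.I * aeval ξ r) :=
      Complex.normSq_pos.2 (hden ξ hξ)
    have h1 := hnormφ ξ hξ
    have h2 := hnn hξ
    have h3 : ‖φ ξ‖ ^ 2 ≤ 1 := by
      by_contra hcon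
      push Not at hcon
      nlinarith
    have h4 := norm_nonneg (φ ξ)
    nlinarith
  have hone : ‖φ ξ0‖ = 1 := by
    have hn : 0 < Complex.normSq (aeval ξ0 q + Complex.I * aeval ξ0 r) :=
      Complex.normSq_pos.2 (hden ξ0 hξ0)
    have h1 := hnormφ ξ0 hξ0
    rw [h0] at h1
    have h3 : ‖φ ξ0‖ ^ 2 = 1 := by
      have : (‖φ ξ0‖ ^ 2 - 1) * Complex.normSq (aeval ξ0 q + Complex.I * aeval ξ0 r) = 0 := by
        linarith
      rcases mul_eq_zero.1 this with h | h
      · linarith
      · exact absurd h hn.ne'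
    have h4 := norm_nonneg (φ ξ0)
    nlinarith
  have hmax : IsMaxOn (norm ∘ φ) U ξ0 := by
    intro ξ hξ
    simp only [Function.comp, Set.mem_ofPred_eq, hone]
    exact hle1 ξ hξ
  have hconst := Complex.eqOn_of_isPreconnected_of_isMaxOn_norm hUc hUo hφd hξ0 hmax
  have hc : ∀ ξ : ℂ, 0 < ξ.im → (1 - φ ξ0) * aeval ξ q = Complex.I * (1 + φ ξ0) * aeval ξ r := by
    intro ξ hξ
    have h1 : φ ξ = φ ξ0 := hconst hξ
    have h2 := hden ξ hξ
    have h3 : aeval ξ q - Complex.I * aeval ξ r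
        = φ ξ0 * (aeval ξ q + Complex.I * aeval ξ r) := by
      rw [← h1]
      simp only [hφ]
      field_simp
    linear_combination h3
  have := const_case q r (hr 1 one_pos) (φ ξ0) hc
  have hpos := mul_pos (hq 1 one_pos) (hr 1 one_pos)
  linarith

end core

end Crest.Agent.SRFactor.LogDeriv
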