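import Crest.Agent.SRFactor.PostBasic
import Crest.Agent.SRFactor.LogDeriv

/-! Uniform Lipschitz property of tilted means from stability and negative correlation. -/

set_option autoImplicit false

open Polynomial

namespace Crest.Agent.SRFactor

variable {E : Type*} [DecidableEq E]

/-- Weight of the sets containing both `e` and `g`. -/
noncomputable def numer2 (ν : Family E) (B : Finset E) (lam : E → ℝ) (e g : E) : ℝ :=
  ∑ S ∈ B.powerset.filter (fun S => e ∈ S ∧ g ∈ S), wt ν B lam S

/-- Generating polynomial of the sets avoiding `e`. -/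
noncomputable def qP (B : Finset E) (a : Finset E → ℝ) (e : E) : ℝ[X] :=
  ∑ S ∈ B.powerset.filter (fun S => e ∉ S), C (a S) * X ^ S.card

/-- Generating polynomial of the sets containing `e` (not counting `e`). -/
noncomputable def rP (B : Finset E) (a : Finset E → ℝ) (e : E) : ℝ[X] :=
  ∑ S ∈ B.powerset.filter (fun S => e ∈ S), C (a S) * X ^ (S.card - 1)

section poly

variable (B : Finset E) (a : Finset E → ℝ) (e : E)

lemma aeval_qP (ξ : ℂ) :
    aeval ξ (qP B a e) = ∑ S ∈ B.powerset.filter (fun S => e ∉ S), (a S : ℂ) * ξ ^ S.card := by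
  simp [qP, map_sum]

lemma aeval_rP (ξ : ℂ) :
    aeval ξ (rP B a e) = ∑ S ∈ B.powerset.filter (fun S => e ∈ S), (a S : ℂ) * ξ ^ (S.card - 1) := by
  simp [rP, map_sum]

lemma eval_qP (x : ℝ) :
    (qP B a e).eval x = ∑ S ∈ B.powerset.filter (fun S => e ∉ S), a S * x ^ S.card := by
  simp [qP, eval_finsetSum]

lemma eval_rP (x : ℝ) :
    (rP B a e).eval x = ∑ S ∈ B.powerset.filter (fun S => e ∈ S), a S * x ^ (S.card - 1) := by
  simp [rP, eval_finsetSum]

lemma eval_derivative_qP :
    (derivative (qP B a e)).eval 1 = ∑ S ∈ B.powerset.filter (fun S => e ∉ S), a S * S.card := by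
  simp [qP, eval_finsetSum, derivative_X_pow]

lemma eval_derivative_rP :
    (derivative (rP B a e)).eval 1
      = ∑ S ∈ B.powerset.filter (fun S => e ∈ S), a S * ((S.card - 1 : ℕ) : ℝ) := by
  simp [rP, eval_finsetSum, derivative_X_pow]

/-- Double counting. -/
lemma sum_swap (F : Finset (Finset E)) (T : Finset E) (hF : ∀ S ∈ F, S ⊆ T) (a : Finset E → ℝ)
    (v : E → ℝ) :
    ∑ S ∈ F, a S * ∑ i ∈ S, v i = ∑ i ∈ T, v i * ∑ S ∈ F.filter (fun S => i ∈ S), a S := by
  have h1 : ∀ S ∈ F, a S * ∑ i ∈ S, v i = ∑ i ∈ T, (if i ∈ S then v i * a S else 0) := by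
    intro S hS
    rw [Finset.sum_ite_mem, Finset.inter_eq_right.2 (hF S hS), Finset.mul_sum]
    exact Finset.sum_congr rfl fun i _ => mul_comm _ _
  rw [Finset.sum_congr rfl h1, Finset.sum_comm]
  refine Finset.sum_congr rfl fun i _ => ?_
  rw [Finset.sum_filter, Finset.mul_sum]
  refine Finset.sum_congr rfl fun S _ => ?_
  split_ifs <;> simp

end poly

section stable

variable (ν : Family E)

/-- Scaling stability: the (tilted) pair `q + w r`. -/
lemma stable_qr
    (hSR : ∀ B, ∀ z : E → ℂ, (∀ i ∈ B, 0 < (z i).im) →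
      ∑ S ∈ B.powerset, (ν.mass B S : ℂ) * ∏ i ∈ S, z i ≠ 0)
    (B : Finset E) (lam : E → ℝ) (e : E) (ξ w : ℂ) (hξ : 0 < ξ.im) (hw : 0 < w.im) :
    aeval ξ (qP B (wt ν B lam) e) + w * aeval ξ (rP B (wt ν B lam) e) ≠ 0 := by
  set z : E → ℂ := fun i => ((Real.exp (lam i) : ℝ) : ℂ) * (if i = e then w else ξ) with hz
  have hzim : ∀ i ∈ B, 0 < (z i).im := by
    intro i _
    simp only [hz, Complex.im_ofReal_mul]
    apply mul_pos (Real.exp_pos _)
    split_ifs <;> assumption
  have key := hSR B z hzim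
  have hcast : ∀ S : Finset E, (ν.mass B S : ℂ) * ∏ i ∈ S, z i
      = (wt ν B lam S : ℂ) * ∏ i ∈ S, (if i = e then w else ξ) := by
    intro S
    simp only [hz, Finset.prod_mul_distrib, wt, Real.exp_sum]
    push_cast
    ring
  rw [← Finset.sum_filter_add_sum_filter_not B.powerset (fun S => e ∈ S)] at key
  simp only [hcast] at key
  have h1 : ∑ S ∈ B.powerset.filter (fun S => e ∉ S),
      (wt ν B lam S : ℂ) * ∏ i ∈ S, (if i = e then w else ξ) = aeval ξ (qP B (wt ν B lam) e) := by
    rw [aeval_qP]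
    refine Finset.sum_congr rfl fun S hS => ?_
    have he : e ∉ S := (Finset.mem_filter.1 hS).2
    congr 1
    rw [Finset.prod_congr rfl (g := fun _ => ξ), Finset.prod_const]
    intro i hi
    rw [if_neg]
    rintro rfl
    exact he hi
  have h2 : ∑ S ∈ B.powerset.filter (fun S => e ∈ S),
      (wt ν B lam S : ℂ) * ∏ i ∈ S, (if i = e then w else ξ)
      = w * aeval ξ (rP B (wt ν B lam) e) := by
    rw [aeval_rP, Finset.mul_sum]
    refine Finset.sum_congr rfl fun S hS => ?_
    have he : e ∈ S := (Finset.mem_filter.1 hS).2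
    rw [← Finset.mul_prod_erase S _ he, if_pos rfl]
    have : ∏ i ∈ S.erase e, (if i = e then w else ξ) = ξ ^ (S.card - 1) := by
      rw [Finset.prod_congr rfl (g := fun _ => ξ), Finset.prod_const, Finset.card_erase_of_mem he]
      intro i hi
      rw [if_neg (Finset.ne_of_mem_erase hi)]
    rw [this]
    ring
  rw [h1, h2] at key
  rw [add_comm]
  exact key

end stable

section bound

variable (ν : Family E)

lemma qP_one (B : Finset E) (lam : E → ℝ) (e : E) :
    (qP B (wt ν B lam) e).eval 1 = zfun ν B lam - numer ν B lam e := by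
  rw [eval_qP]
  simp only [one_pow, mul_one]
  unfold zfun numer
  rw [← Finset.sum_filter_add_sum_filter_not B.powerset (fun S => e ∈ S)]
  ring

lemma rP_one (B : Finset E) (lam : E → ℝ) (e : E) :
    (rP B (wt ν B lam) e).eval 1 = numer ν B lam e := by
  rw [eval_rP]
  simp only [one_pow, mul_one]
  rfl

/-- The log-derivative bound in all cases, including degenerate ones. -/
lemma wronskian_bound
    (hSR : ∀ B, ∀ z : E → ℂ, (∀ i ∈ B, 0 < (z i).im) →
      ∑ S ∈ B.powerset, (ν.mass B S : ℂ) * ∏ i ∈ S, z i ≠ 0)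
    (B : Finset E) (lam : E → ℝ) (e : E) :
    (derivative (qP B (wt ν B lam) e)).eval 1 * (rP B (wt ν B lam) e).eval 1
      - (qP B (wt ν B lam) e).eval 1 * (derivative (rP B (wt ν B lam) e)).eval 1
      ≤ 4 * ((qP B (wt ν B lam) e).eval 1 * (rP B (wt ν B lam) e).eval 1) := by
  have hnn : ∀ S, 0 ≤ wt ν B lam S := wt_nonneg ν B lam
  -- degenerate case for `r`
  have hq1nn : 0 ≤ (qP B (wt ν B lam) e).eval 1 := by
    rw [eval_qP]
    exact Finset.sum_nonneg fun S _ => by simpa using hnn S
  have hr1nn : 0 ≤ (rP B (wt ν B lam) e).eval 1 := by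
    rw [eval_rP]
    exact Finset.sum_nonneg fun S _ => by simpa using hnn S
  by_cases hr0 : ∃ S ∈ B.powerset.filter (fun S => e ∈ S), 0 < wt ν B lam S
  · by_cases hq0 : ∃ S ∈ B.powerset.filter (fun S => e ∉ S), 0 < wt ν B lam S
    · refine LogDeriv.logDeriv_bound _ _ (stable_qr ν hSR B lam e) ?_ ?_
      · intro x hx
        rw [eval_qP]
        obtain ⟨S, hS, hpos⟩ := hq0
        exact Finset.sum_pos' (fun T _ => mul_nonneg (hnn T) (pow_nonneg hx.le _))
          ⟨S, hS, mul_pos hpos (pow_pos hx _)⟩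
      · intro x hx
        rw [eval_rP]
        obtain ⟨S, hS, hpos⟩ := hr0
        exact Finset.sum_pos' (fun T _ => mul_nonneg (hnn T) (pow_nonneg hx.le _))
          ⟨S, hS, mul_pos hpos (pow_pos hx _)⟩
    · push Not at hq0
      have hz : ∀ S ∈ B.powerset.filter (fun S => e ∉ S), wt ν B lam S = 0 := fun S hS =>
        le_antisymm (hq0 S hS) (hnn S)
      have h1 : (qP B (wt ν B lam) e).eval 1 = 0 := by
        rw [eval_qP]
        exact Finset.sum_eq_zero fun S hS => by rw [hz S hS, zero_mul]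
      have h2 : (derivative (qP B (wt ν B lam) e)).eval 1 = 0 := by
        rw [eval_derivative_qP]
        exact Finset.sum_eq_zero fun S hS => by rw [hz S hS, zero_mul]
      rw [h1, h2]
      simp
  · push Not at hr0
    have hz : ∀ S ∈ B.powerset.filter (fun S => e ∈ S), wt ν B lam S = 0 := fun S hS =>
      le_antisymm (hr0 S hS) (hnn S)
    have h1 : (rP B (wt ν B lam) e).eval 1 = 0 := by
      rw [eval_rP]
      exact Finset.sum_eq_zero fun S hS => by rw [hz S hS, zero_mul]
    have h2 : (derivative (rP B (wt ν B lam) e)).eval 1 = 0 := by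
      rw [eval_derivative_rP]
      exact Finset.sum_eq_zero fun S hS => by rw [hz S hS, zero_mul]
    rw [h1, h2]
    simp

/-- The derivative of `qP` as a sum over sites, with the weight `v` vanishing at `e`. -/
lemma deriv_qP_eq (B : Finset E) (lam : E → ℝ) (e : E) :
    (derivative (qP B (wt ν B lam) e)).eval 1
      = ∑ i ∈ B.erase e, (numer ν B lam i - numer2 ν B lam e i) := by
  rw [eval_derivative_qP]
  have hF : ∀ S ∈ B.powerset.filter (fun S => e ∉ S), S ⊆ B.erase e := by
    intro S hS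
    have h := Finset.mem_filter.1 hS
    intro i hi
    refine Finset.mem_erase.2 ⟨?_, Finset.mem_powerset.1 h.1 hi⟩
    rintro rfl
    exact h.2 hi
  have h := sum_swap (B.powerset.filter (fun S => e ∉ S)) (B.erase e) hF (wt ν B lam) (fun _ => 1)
  simp only [Finset.sum_const, nsmul_eq_mul, mul_one, one_mul] at h
  rw [h]
  refine Finset.sum_congr rfl fun i _ => ?_
  unfold numer numer2
  rw [Finset.filter_filter]
  have hsplit := Finset.sum_filter_add_sum_filter_not (B.powerset.filter (fun S => i ∈ S))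
    (fun S => e ∈ S) (wt ν B lam)
  rw [Finset.filter_filter, Finset.filter_filter] at hsplit
  have h1 : (B.powerset.filter (fun S => i ∈ S ∧ e ∈ S)) = B.powerset.filter (fun S => e ∈ S ∧ i ∈ S) := by
    ext S; simp [and_comm]
  have h2 : (B.powerset.filter (fun S => i ∈ S ∧ e ∉ S)) = B.powerset.filter (fun S => e ∉ S ∧ i ∈ S) := by
    ext S; simp [and_comm]
  rw [h1, h2] at hsplit
  linarith

lemma deriv_rP_eq (B : Finset E) (lam : E → ℝ) (e : E) :
    (derivative (rP B (wt ν B lam) e)).eval 1 = ∑ i ∈ B.erase e, numer2 ν B lam e i := by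
  rw [eval_derivative_rP]
  have hF : ∀ S ∈ B.powerset.filter (fun S => e ∈ S), S ⊆ B := by
    intro S hS
    exact Finset.mem_powerset.1 (Finset.mem_filter.1 hS).1
  have h := sum_swap (B.powerset.filter (fun S => e ∈ S)) B hF (wt ν B lam)
    (fun i => if i = e then 0 else 1)
  have h3 : ∀ S ∈ B.powerset.filter (fun S => e ∈ S),
      wt ν B lam S * ((S.card - 1 : ℕ) : ℝ)
        = wt ν B lam S * ∑ i ∈ S, (if i = e then (0 : ℝ) else 1) := by
    intro S hS
    have he : e ∈ S := (Finset.mem_filter.1 hS).2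
    congr 1
    rw [← Finset.add_sum_erase S _ he, if_pos rfl, zero_add,
      Finset.sum_congr rfl (g := fun _ => (1 : ℝ)), Finset.sum_const, Finset.card_erase_of_mem he]
    · simp
    · intro i hi
      rw [if_neg (Finset.ne_of_mem_erase hi)]
  rw [Finset.sum_congr rfl h3, h]
  have hsub : B.erase e ⊆ B := Finset.erase_subset _ _
  rw [← Finset.sum_subset hsub]
  · refine Finset.sum_congr rfl fun i hi => ?_
    rw [if_neg (Finset.ne_of_mem_erase hi), one_mul, Finset.filter_filter]
    rfl
  · intro i hi hi'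
    have : i = e := by
      by_contra hne
      exact hi' (Finset.mem_erase.2 ⟨hne, hi⟩)
    rw [if_pos this, zero_mul]

lemma numer2_self (B : Finset E) (lam : E → ℝ) (e : E) :
    numer2 ν B lam e e = numer ν B lam e := by
  unfold numer2 numer
  congr 1
  ext S
  simp

/-- The covariance of `e` and `i`, times `Z²`. -/
noncomputable def cov (ν : Family E) (B : Finset E) (lam : E → ℝ) (e i : E) : ℝ :=
  numer2 ν B lam e i * zfun ν B lam - numer ν B lam e * numer ν B lam i

/-- **Key estimate.** -/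
theorem sum_abs_cov_le
    (hSR : ∀ B, ∀ z : E → ℂ, (∀ i ∈ B, 0 < (z i).im) →
      ∑ S ∈ B.powerset, (ν.mass B S : ℂ) * ∏ i ∈ S, z i ≠ 0)
    (hNC : ∀ (B : Finset E) (lam : E → ℝ) (e g : E), e ∈ B → g ∈ B → e ≠ g →
      zfun ν B lam * numer2 ν B lam e g ≤ numer ν B lam e * numer ν B lam g)
    (B : Finset E) (lam : E → ℝ) {e : E} (he : e ∈ B) :
    ∑ i ∈ B, |cov ν B lam e i| ≤ 5 / 4 * zfun ν B lam ^ 2 := by
  have hW := wronskian_bound ν hSR B lam e
  rw [qP_one, rP_one, deriv_qP_eq, deriv_rP_eq] at hW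
  set Z := zfun ν B lam
  set NN := numer ν B lam e
  rw [← Finset.add_sum_erase B _ he]
  have h1 : cov ν B lam e e = (Z - NN) * NN := by
    unfold cov
    rw [numer2_self]
    ring
  have hNe0 : 0 ≤ NN := numer_nonneg ν B lam e
  have hNe1 : NN ≤ Z := numer_le_zfun ν B lam e
  have h2 : ∑ i ∈ B.erase e, |cov ν B lam e i|
      = ∑ i ∈ B.erase e, (numer ν B lam i - numer2 ν B lam e i) * NN
        - (Z - NN) * ∑ i ∈ B.erase e, numer2 ν B lam e i := by
    rw [Finset.mul_sum, ← Finset.sum_mul, Finset.sum_mul, ← Finset.sum_sub_distrib]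
    refine Finset.sum_congr rfl fun i hi => ?_
    have hi' := Finset.mem_erase.1 hi
    have := hNC B lam e i he hi'.2 (fun h => hi'.1 h.symm)
    rw [abs_of_nonpos]
    · unfold cov
      ring
    · unfold cov
      linarith
  rw [h1, abs_of_nonneg (mul_nonneg (sub_nonneg.2 hNe1) hNe0), h2]
  rw [Finset.sum_mul] at hW
  nlinarith [sq_nonneg (Z - 2 * NN)]

end bound

section deriv

variable (ν : Family E)

lemma hasDerivAt_wt (B S : Finset E) (lam v : E → ℝ) (s : ℝ) :
    HasDerivAt (fun s => wt ν B (fun i => lam i + s * v i) S)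
      (wt ν B (fun i => lam i + s * v i) S * ∑ i ∈ S, v i) s := by
  unfold wt
  have h1 : HasDerivAt (fun s : ℝ => ∑ i ∈ S, (lam i + s * v i)) (∑ i ∈ S, v i) s := by
    apply HasDerivAt.fun_sum
    intro i _
    simpa using ((hasDerivAt_id s).mul_const (v i)).const_add (lam i)
  have h2 := (h1.exp).const_mul (ν.mass B S)
  rw [mul_assoc]
  exact h2

lemma hasDerivAt_post (B : Finset E) (lam v : E → ℝ) (e : E) (s : ℝ) :
    HasDerivAt (fun s => post ν B (fun i => lam i + s * v i) e)
      (∑ i ∈ B, v i * cov ν B (fun i => lam i + s * v i) e i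
        / zfun ν B (fun i => lam i + s * v i) ^ 2) s := by
  set L := fun i => lam i + s * v i with hL
  have hZ : HasDerivAt (fun s => zfun ν B (fun i => lam i + s * v i))
      (∑ i ∈ B, v i * numer ν B L i) s := by
    have h := HasDerivAt.fun_sum (u := B.powerset)
      (fun S _ => hasDerivAt_wt ν B S lam v s)
    have hsw := sum_swap B.powerset B (fun S hS => Finset.mem_powerset.1 hS) (wt ν B L) v
    rw [hsw] at h
    exact h
  have hN : HasDerivAt (fun s => numer ν B (fun i => lam i + s * v i) e)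
      (∑ i ∈ B, v i * numer2 ν B L e i) s := by
    have h := HasDerivAt.fun_sum (u := B.powerset.filter (fun S => e ∈ S))
      (fun S _ => hasDerivAt_wt ν B S lam v s)
    have hsw := sum_swap (B.powerset.filter (fun S => e ∈ S)) B
      (fun S hS => Finset.mem_powerset.1 (Finset.mem_filter.1 hS).1) (wt ν B L) v
    rw [hsw] at h
    simp only [Finset.filter_filter] at h
    exact h
  have hZne : zfun ν B L ≠ 0 := (zfun_pos ν B L).ne'
  have h : HasDerivAt (fun s => post ν B (fun i => lam i + s * v i) e) _ s := hN.div hZ hZne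
  refine h.congr_deriv ?_
  rw [← Finset.sum_div]
  congr 1
  rw [Finset.sum_mul, Finset.mul_sum, ← Finset.sum_sub_distrib]
  refine Finset.sum_congr rfl fun i _ => ?_
  unfold cov
  ring

end deriv

/-- **Main theorem.** -/
theorem lip_core (ν : Family E)
    (hSR : ∀ B, ∀ z : E → ℂ, (∀ i ∈ B, 0 < (z i).im) →
      ∑ S ∈ B.powerset, (ν.mass B S : ℂ) * ∏ i ∈ S, z i ≠ 0)
    (hNC : ∀ (B : Finset E) (lam : E → ℝ) (e g : E), e ∈ B → g ∈ B → e ≠ g →
      zfun ν B lam * numer2 ν B lam e g ≤ numer ν B lam e * numer ν B lam g) :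
    ν.Lip (5 / 4) := by
  intro B lam lam' e c hc he
  have hc0 : 0 ≤ c := le_trans (abs_nonneg _) (hc e he)
  set v : E → ℝ := fun i => lam i - lam' i with hv
  have hd : ∀ s ∈ (Set.univ : Set ℝ), HasDerivWithinAt
      (fun s => post ν B (fun i => lam' i + s * v i) e)
      (∑ i ∈ B, v i * cov ν B (fun i => lam' i + s * v i) e i
        / zfun ν B (fun i => lam' i + s * v i) ^ 2) Set.univ s := fun s _ =>
    (hasDerivAt_post ν B lam' v e s).hasDerivWithinAt
  have hb : ∀ s ∈ (Set.univ : Set ℝ), ‖∑ i ∈ B, v i * cov ν B (fun i => lam' i + s * v i) e i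
        / zfun ν B (fun i => lam' i + s * v i) ^ 2‖ ≤ 5 / 4 * c := by
    intro s _
    set L := fun i => lam' i + s * v i with hL
    have hZ : 0 < zfun ν B L ^ 2 := pow_pos (zfun_pos ν B L) 2
    rw [Real.norm_eq_abs, ← Finset.sum_div, abs_div, abs_of_pos hZ, div_le_iff₀ hZ]
    have h1 : |∑ i ∈ B, v i * cov ν B L e i| ≤ ∑ i ∈ B, c * |cov ν B L e i| := by
      refine (Finset.abs_sum_le_sum_abs _ _).trans (Finset.sum_le_sum fun i hi => ?_)
      rw [abs_mul]
      exact mul_le_mul_of_nonneg_right (hc i hi) (abs_nonneg _)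
    rw [← Finset.mul_sum] at h1
    have h2 := sum_abs_cov_le ν hSR hNC B L he
    calc _ ≤ _ := h1
      _ ≤ c * (5 / 4 * zfun ν B L ^ 2) := mul_le_mul_of_nonneg_left h2 hc0
      _ = _ := by ring
  have hmv := Convex.norm_image_sub_le_of_norm_hasDerivWithin_le hd hb convex_univ
    (Set.mem_univ (0 : ℝ)) (Set.mem_univ (1 : ℝ))
  simp only [zero_mul, add_zero, one_mul, sub_zero, norm_one, mul_one] at hmv
  have h1 : (fun i => lam' i + v i) = lam := by
    funext i
    simp [hv]
  rw [h1, Real.norm_eq_abs] at hmv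
  exact hmv

end Crest.Agent.SRFactor
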