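import Crest.Agent.SRFactor.GraphWin
import Crest.Agent.SRFactor.NoiseLaw
import Crest.Prelude.Def_Labels

/-! Edge noise from vertex labels (blueprint (K)): a label `x v` is split into an order label and a
stream of independent noises; the edge `{u, v}` with `u` before `v` uses the stream of `u` at the
rank of `v` among the neighbours of `u` in the order. Given the order labels, when these are
injective, the noises of distinct edges are distinct coordinates of the stream array. -/

set_option autoImplicit false

open MeasureTheory Crest.ProbabilityR.GraphTables Crest.ProbabilityR.Labels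

namespace Crest.Agent.SRFactor

section Abstract

variable {A Y : Type*} [MeasurableSpace A] [MeasurableSpace Y]

/-- Unzipping an infinite product of product measures. -/
theorem infinitePi_prod_unzip {ι : Type*} (μ : Measure A) (ν : Measure Y) [IsProbabilityMeasure μ]
    [IsProbabilityMeasure ν] :
    (Measure.infinitePi (fun _ : ι => μ.prod ν)).map
        (fun a => ((fun i => (a i).1), (fun i => (a i).2))) =
      (Measure.infinitePi (fun _ : ι => μ)).prod (Measure.infinitePi (fun _ : ι => ν)) := by
  classical
  symm
  have hmeas : Measurable (fun (a : ι → A × Y) =>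
      (((fun i => (a i).1) : ι → A), ((fun i => (a i).2) : ι → Y))) := by
    refine Measurable.prodMk ?_ ?_ <;> exact measurable_pi_lambda _ (fun i => by fun_prop)
  let C : Set (Set (ι → A)) := squareCylinders (fun _ => {s : Set A | MeasurableSet s})
  let D : Set (Set (ι → Y)) := squareCylinders (fun _ => {s : Set Y | MeasurableSet s})
  have hCuniv : (Set.univ : Set (ι → A)) ∈ C :=
    ⟨∅, fun _ => Set.univ, by simp, by simp⟩
  have hDuniv : (Set.univ : Set (ι → Y)) ∈ D :=
    ⟨∅, fun _ => Set.univ, by simp, by simp⟩
  refine Measure.prod_eq_generateFrom (C := C) (D := D) generateFrom_squareCylinders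
    generateFrom_squareCylinders
    (isPiSystem_squareCylinders (fun _ => MeasurableSpace.isPiSystem_measurableSet) (by simp))
    (isPiSystem_squareCylinders (fun _ => MeasurableSpace.isPiSystem_measurableSet) (by simp))
    ⟨fun _ => Set.univ, fun _ => hCuniv, fun _ => measure_lt_top _ _, Set.iUnion_const _⟩
    ⟨fun _ => Set.univ, fun _ => hDuniv, fun _ => measure_lt_top _ _, Set.iUnion_const _⟩ ?_
  rintro _ ⟨I, t, ht, rfl⟩ _ ⟨J, t', ht', rfl⟩
  simp only [Set.mem_pi, Set.mem_univ, Set.mem_ofPred_eq, forall_const] at ht ht'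
  have hI : MeasurableSet ((I : Set ι).pi t) := .pi I.countable_toSet (fun i _ => ht i)
  have hJ : MeasurableSet ((J : Set ι).pi t') := .pi J.countable_toSet (fun i _ => ht' i)
  rw [Measure.map_apply hmeas (hI.prod hJ)]
  let T : ι → Set A := fun i => if i ∈ I then t i else Set.univ
  let T' : ι → Set Y := fun i => if i ∈ J then t' i else Set.univ
  have hT : ∀ i, MeasurableSet (T i) := fun i => by
    by_cases h : i ∈ I <;> simp [T, h, ht i]
  have hT' : ∀ i, MeasurableSet (T' i) := fun i => by
    by_cases h : i ∈ J <;> simp [T', h, ht' i]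
  have hpre : (fun (a : ι → A × Y) =>
      (((fun i => (a i).1) : ι → A), ((fun i => (a i).2) : ι → Y))) ⁻¹' ((I : Set ι).pi t ×ˢ (J : Set ι).pi t')
      = ((I ∪ J : Finset ι) : Set ι).pi (fun i => T i ×ˢ T' i) := by
    ext a
    simp only [Set.mem_preimage, Set.mem_prod, Set.mem_pi, Finset.mem_coe, Finset.mem_union, T, T']
    constructor
    · rintro ⟨h1, h2⟩ i _
      constructor
      · by_cases h : i ∈ I <;> simp [h, h1 i]
      · by_cases h : i ∈ J <;> simp [h, h2 i]
    · intro h
      refine ⟨fun i hi => ?_, fun i hi => ?_⟩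
      · have := (h i (Or.inl hi)).1
        simpa [hi] using this
      · have := (h i (Or.inr hi)).2
        simpa [hi] using this
  rw [hpre, Measure.infinitePi_pi _ (fun i _ => (hT i).prod (hT' i))]
  simp only [Measure.prod_prod]
  rw [Finset.prod_mul_distrib, Measure.infinitePi_pi _ (fun i _ => ht i),
    Measure.infinitePi_pi _ (fun i _ => ht' i)]
  congr 1
  · rw [← Finset.prod_subset (Finset.subset_union_left (s₂ := J))]
    · exact Finset.prod_congr rfl (fun i hi => by simp [T, hi])
    · intro i _ hi; simp [T, hi]
  · rw [← Finset.prod_subset (Finset.subset_union_right (s₁ := I))]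
    · exact Finset.prod_congr rfl (fun i hi => by simp [T', hi])
    · intro i _ hi; simp [T', hi]

/-- Distinct coordinates of an array of i.i.d. elements are i.i.d. -/
theorem infinitePi_array_coords {κ : Type*} [Fintype κ] (ζ : Measure Y) [IsProbabilityMeasure ζ]
    (τ : κ → ℕ × ℕ) (hτ : Function.Injective τ) :
    (Measure.infinitePi (fun _ : ℕ => Measure.infinitePi (fun _ : ℕ => ζ))).map
        (fun s k => s (τ k).1 (τ k).2) = Measure.pi (fun _ : κ => ζ) := by
  have h1 := Measure.infinitePi_map_curry_symm (fun (_ : ℕ) (_ : ℕ) => ζ)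
  have h2 : (fun (s : ℕ → ℕ → Y) k => s (τ k).1 (τ k).2) =
      (fun (a : ℕ × ℕ → Y) k => a (τ k)) ∘ (MeasurableEquiv.curry ℕ ℕ Y).symm := by
    funext s k; rfl
  rw [h2, ← Measure.map_map (by fun_prop) (by fun_prop), h1,
    Measure.map_infinitePi_infinitePi_of_inj hτ, Measure.infinitePi_eq_pi]

/-- A.e. injectivity of a sequence of i.i.d. uniform labels. -/
theorem ae_injective_labels :
    ∀ᵐ o ∂(Measure.infinitePi (fun _ : ℕ => (volume : Measure unitInterval))),
      Function.Injective o := by
  have h : ∀ u v : ℕ, ∀ᵐ o ∂(Measure.infinitePi (fun _ : ℕ => (volume : Measure unitInterval))),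
      u ≠ v → o u ≠ o v := by
    intro u v
    by_cases huv : u = v
    · exact Filter.Eventually.of_forall (fun _ h => absurd huv h)
    have hm : Measurable (fun o : ℕ → unitInterval => (o u, o v)) := by fun_prop
    have hdiag : MeasurableSet {p : unitInterval × unitInterval | p.1 = p.2} :=
      measurableSet_eq_fun measurable_fst measurable_snd
    have h0 : (Measure.infinitePi (fun _ : ℕ => (volume : Measure unitInterval)))
        {o | o u = o v} = 0 := by
      have : {o : ℕ → unitInterval | o u = o v} =
          (fun o : ℕ → unitInterval => (o u, o v)) ⁻¹' {p | p.1 = p.2} := rfl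
      rw [this, ← Measure.map_apply hm hdiag, Measure.infinitePi_map_eval_prod huv,
        Measure.prod_apply hdiag]
      have : ∀ x : unitInterval, (Prod.mk x ⁻¹' {p : unitInterval × unitInterval | p.1 = p.2}) = {x} := by
        intro x; ext y; simp [eq_comm]
      simp [this]
    rw [ae_iff]
    refine measure_mono_null ?_ h0
    intro o ho
    simp only [Set.mem_ofPred_eq, not_forall, not_not] at ho ⊢
    exact ho.2
  filter_upwards [ae_all_iff.2 (fun u => ae_all_iff.2 (fun v => h u v))] with o ho
  intro u v huv
  by_contra hne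
  exact ho u v hne huv

/-- Measurability of a function defined by countable cases. -/
theorem measurable_of_countable_cases {α β γ : Type*} [MeasurableSpace α] [MeasurableSpace β]
    [Countable γ] (N : α → γ) (hN : ∀ c, MeasurableSet (N ⁻¹' {c})) (g : γ → α → β)
    (hg : ∀ c, Measurable (g c)) : Measurable (fun a => g (N a) a) := by
  let _ : MeasurableSpace γ := ⊤
  have : DiscreteMeasurableSpace γ := ⟨fun _ => trivial⟩
  have hNm : Measurable N := measurable_to_countable' hN
  have hu : Measurable (fun p : γ × α => g p.1 p.2) :=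
    measurable_from_prod_countable_right (fun c => hg c)
  exact hu.comp (hNm.prodMk measurable_id)

end Abstract


section Graphs

open scoped Classical in
theorem mem_nbrF {G : SimpleGraph ℕ} {u : ℕ} (h : (G.neighborSet u).Finite) {w : ℕ} :
    w ∈ nbrF G u ↔ G.Adj u w := by
  unfold nbrF
  rw [dif_pos h]
  simp

theorem nbrF_of_not_finite {G : SimpleGraph ℕ} {u : ℕ} (h : ¬ (G.neighborSet u).Finite) :
    nbrF G u = ∅ := by
  unfold nbrF
  rw [dif_neg h]

theorem nbrF_comap (σ : Equiv.Perm ℕ) (G : SimpleGraph ℕ) (u : ℕ) :
    (nbrF (G.comap σ) u).map σ.toEmbedding = nbrF G (σ u) := by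
  have hset : (G.comap σ).neighborSet u = σ ⁻¹' (G.neighborSet (σ u)) := by
    ext w; simp
  by_cases h : (G.neighborSet (σ u)).Finite
  · have h' : ((G.comap σ).neighborSet u).Finite := by
      rw [hset]; exact h.preimage σ.injective.injOn
    ext w
    simp only [Finset.mem_map, mem_nbrF h', mem_nbrF h, Equiv.coe_toEmbedding,
      SimpleGraph.comap_adj]
    constructor
    · rintro ⟨a, ha, rfl⟩; exact ha
    · intro hw; exact ⟨σ.symm w, by simpa using hw, by simp⟩
  · have h' : ¬ ((G.comap σ).neighborSet u).Finite := by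
      intro hf
      apply h
      have : G.neighborSet (σ u) = σ '' ((G.comap σ).neighborSet u) := by
        rw [hset, Set.image_preimage_eq _ σ.surjective]
      rw [this]; exact hf.image _
    rw [nbrF_of_not_finite h, nbrF_of_not_finite h']
    simp

theorem measurableSet_adj (i j : ℕ) :
    MeasurableSet {t : ℕ → ℕ → Bool | (graphOfTable t).Adj i j} := by
  have h : {t : ℕ → ℕ → Bool | (graphOfTable t).Adj i j} =
      {t | i ≠ j} ∩ ({t | t i j = true} ∪ {t | t j i = true}) := by
    ext t
    simp [graphOfTable, SimpleGraph.fromRel_adj]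
  rw [h]
  have hm : ∀ a b : ℕ, MeasurableSet {t : ℕ → ℕ → Bool | t a b = true} := by
    intro a b
    have : Measurable (fun t : ℕ → ℕ → Bool => t a b) := by fun_prop
    exact this (measurableSet_singleton true)
  exact (MeasurableSet.const _).inter ((hm i j).union (hm j i))

/-- Measurable level sets of the neighbourhood. -/
theorem measurableSet_nbrF_level (u : ℕ) (A : Finset ℕ) :
    MeasurableSet {t : ℕ → ℕ → Bool | nbrF (graphOfTable t) u = A} := by
  have hE : ∀ A' : Finset ℕ,
      MeasurableSet {t : ℕ → ℕ → Bool | (graphOfTable t).neighborSet u = (A' : Set ℕ)} := by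
    intro A'
    have : {t : ℕ → ℕ → Bool | (graphOfTable t).neighborSet u = (A' : Set ℕ)} =
        ⋂ w : ℕ, {t | (graphOfTable t).Adj u w ↔ w ∈ A'} := by
      ext t
      simp only [Set.mem_ofPred_eq, Set.mem_iInter, Set.ext_iff, SimpleGraph.mem_neighborSet,
        Finset.mem_coe]
    rw [this]
    refine MeasurableSet.iInter (fun w => ?_)
    by_cases hw : w ∈ A'
    · simpa [hw] using measurableSet_adj u w
    · have h2 : {t : ℕ → ℕ → Bool | (graphOfTable t).Adj u w ↔ w ∈ A'} =
          {t | (graphOfTable t).Adj u w}ᶜ := by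
        ext t; simp [hw]
      rw [h2]
      exact (measurableSet_adj u w).compl
  have hFin : MeasurableSet {t : ℕ → ℕ → Bool | ((graphOfTable t).neighborSet u).Finite} := by
    have : {t : ℕ → ℕ → Bool | ((graphOfTable t).neighborSet u).Finite} =
        ⋃ A' : Finset ℕ, {t | (graphOfTable t).neighborSet u = (A' : Set ℕ)} := by
      ext t
      simp only [Set.mem_ofPred_eq, Set.mem_iUnion]
      constructor
      · intro h; exact ⟨h.toFinset, by simp⟩
      · rintro ⟨A', h⟩; rw [h]; exact A'.finite_toSet
    rw [this]
    exact MeasurableSet.iUnion hE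
  have : {t : ℕ → ℕ → Bool | nbrF (graphOfTable t) u = A} =
      ({t | ((graphOfTable t).neighborSet u).Finite} ∩
          {t | (graphOfTable t).neighborSet u = (A : Set ℕ)}) ∪
        ({t | ¬ ((graphOfTable t).neighborSet u).Finite} ∩ {t | (∅ : Finset ℕ) = A}) := by
    ext t
    simp only [Set.mem_ofPred_eq, Set.mem_union, Set.mem_inter_iff]
    by_cases h : ((graphOfTable t).neighborSet u).Finite
    · simp only [h, true_and, not_true_eq_false, false_and, or_false]
      constructor
      · intro h2
        ext w
        simp only [SimpleGraph.mem_neighborSet, Finset.mem_coe]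
        rw [← h2, mem_nbrF h]
      · intro h2
        ext w
        rw [mem_nbrF h, ← Finset.mem_coe, ← h2]
        rfl
    · simp only [h, false_and, not_false_eq_true, true_and, false_or]
      rw [nbrF_of_not_finite h]
  rw [this]
  exact (hFin.inter (hE A)).union (hFin.compl.inter (MeasurableSet.const _))

end Graphs

abbrev ZZ := ℕ → ℕ → ℝ

section OrderStream

/-- The rank in terms of the order labels. -/
noncomputable def rankO (N : ℕ → Finset ℕ) (o : ℕ → unitInterval) (u v : ℕ) : ℕ :=
  ((N u).filter (fun w => o w < o v)).card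

/-- The noise of an ordered pair, in terms of order labels and streams. -/
noncomputable def arcO (N : ℕ → Finset ℕ) (o : ℕ → unitInterval) (s : ℕ → ℕ → ZZ) (u v : ℕ) : ZZ :=
  if o u < o v then s u (rankO N o u v)
  else if o v < o u then s v (rankO N o v u) else fun _ _ => 0

theorem arcO_comm (N : ℕ → Finset ℕ) (o : ℕ → unitInterval) (s : ℕ → ℕ → ZZ) (u v : ℕ) :
    arcO N o s u v = arcO N o s v u := by
  unfold arcO
  by_cases h : o u < o v
  · rw [if_pos h, if_neg (not_lt_of_gt h), if_pos h]
  · rw [if_neg h]
    by_cases h' : o v < o u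
    · rw [if_pos h', if_pos h']
    · rw [if_neg h', if_neg h', if_neg h]

/-- The slot of an ordered pair. -/
noncomputable def slotO (N : ℕ → Finset ℕ) (o : ℕ → unitInterval) (u v : ℕ) : ℕ × ℕ :=
  if o u < o v then (u, rankO N o u v)
  else if o v < o u then (v, rankO N o v u) else (0, 0)

theorem slotO_comm (N : ℕ → Finset ℕ) (o : ℕ → unitInterval) (u v : ℕ) :
    slotO N o u v = slotO N o v u := by
  unfold slotO
  by_cases h : o u < o v
  · rw [if_pos h, if_neg (not_lt_of_gt h), if_pos h]
  · rw [if_neg h]
    by_cases h' : o v < o u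
    · rw [if_pos h', if_pos h']
    · rw [if_neg h', if_neg h', if_neg h]

noncomputable def edgeO (N : ℕ → Finset ℕ) (o : ℕ → unitInterval) (s : ℕ → ℕ → ZZ) : Sym2 ℕ → ZZ :=
  Sym2.lift ⟨arcO N o s, arcO_comm N o s⟩

noncomputable def slot (N : ℕ → Finset ℕ) (o : ℕ → unitInterval) : Sym2 ℕ → ℕ × ℕ :=
  Sym2.lift ⟨slotO N o, slotO_comm N o⟩

theorem arcO_eq_slot (N : ℕ → Finset ℕ) {o : ℕ → unitInterval} (ho : Function.Injective o)
    (s : ℕ → ℕ → ZZ) {u v : ℕ} (huv : u ≠ v) :
    arcO N o s u v = s (slotO N o u v).1 (slotO N o u v).2 := by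
  unfold arcO slotO
  by_cases h : o u < o v
  · rw [if_pos h, if_pos h]
  · have h' : o v < o u := lt_of_le_of_ne (not_lt.1 h) (fun e => huv (ho e).symm)
    rw [if_neg h, if_pos h', if_neg h, if_pos h']

theorem edgeO_eq_slot (N : ℕ → Finset ℕ) {o : ℕ → unitInterval} (ho : Function.Injective o)
    (s : ℕ → ℕ → ZZ) {e : Sym2 ℕ} (he : ¬ e.IsDiag) :
    edgeO N o s e = s (slot N o e).1 (slot N o e).2 := by
  induction e using Sym2.ind with
  | _ u v => exact arcO_eq_slot N ho s (by simpa using he)

theorem rankO_lt {N : ℕ → Finset ℕ} {o : ℕ → unitInterval} {u v v' : ℕ} (hv : v ∈ N u)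
    (h : o v < o v') : rankO N o u v < rankO N o u v' := by
  unfold rankO
  apply Finset.card_lt_card
  refine ⟨fun w hw => ?_, fun hsub => ?_⟩
  · simp only [Finset.mem_filter] at hw ⊢
    exact ⟨hw.1, hw.2.trans h⟩
  · have : v ∈ (N u).filter (fun w => o w < o v) := hsub (by simp [hv, h])
    simp at this

/-- The slots of distinct edges are distinct when the order is injective. -/
theorem slot_injOn {G : SimpleGraph ℕ} (hlf : ∀ v, (G.neighborSet v).Finite)
    {o : ℕ → unitInterval} (ho : Function.Injective o) {e e' : Sym2 ℕ}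
    (he : e ∈ G.edgeSet) (he' : e' ∈ G.edgeSet) (h : slot (nbrF G) o e = slot (nbrF G) o e') :
    e = e' := by
  -- normal form of an edge
  have key : ∀ e : Sym2 ℕ, e ∈ G.edgeSet → ∃ a b, e = s(a, b) ∧ G.Adj a b ∧ o a < o b ∧
      slot (nbrF G) o e = (a, rankO (nbrF G) o a b) := by
    intro e he
    induction e using Sym2.ind with
    | _ u v =>
      have hadj : G.Adj u v := he
      by_cases hlt : o u < o v
      · refine ⟨u, v, rfl, hadj, hlt, ?_⟩
        change slotO (nbrF G) o u v = _
        unfold slotO
        rw [if_pos hlt]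
      · have h' : o v < o u := lt_of_le_of_ne (not_lt.1 hlt) (fun e => hadj.ne (ho e).symm)
        refine ⟨v, u, Sym2.eq_swap, hadj.symm, h', ?_⟩
        change slotO (nbrF G) o u v = _
        unfold slotO
        rw [if_neg hlt, if_pos h']
  obtain ⟨a, b, rfl, hab, hlt, hs⟩ := key e he
  obtain ⟨a', b', rfl, hab', hlt', hs'⟩ := key e' he'
  rw [hs, hs'] at h
  simp only [Prod.mk.injEq] at h
  obtain ⟨rfl, hr⟩ := h
  have hb : b ∈ nbrF G a := (mem_nbrF (hlf a)).2 hab
  have hb' : b' ∈ nbrF G a := (mem_nbrF (hlf a)).2 hab'
  have hbb : o b = o b' := by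
    rcases lt_trichotomy (o b) (o b') with h1 | h1 | h1
    · exact absurd hr (rankO_lt hb h1).ne
    · exact h1
    · exact absurd hr.symm (rankO_lt hb' h1).ne
  rw [ho hbb]

end OrderStream

section Measurability

/-- Measurability of the order-stream noise in a parameter. -/
theorem measurable_rankO_param {Θ : Type*} [MeasurableSpace Θ] (N : Θ → ℕ → Finset ℕ)
    (o : Θ → ℕ → unitInterval) (hN : ∀ u A, MeasurableSet {θ | N θ u = A}) (ho : Measurable o)
    (u v : ℕ) : Measurable fun θ => rankO (N θ) (o θ) u v := by
  have := measurable_of_countable_cases (fun θ => N θ u) (fun c => hN u c)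
    (fun A θ => (A.filter (fun w => o θ w < o θ v)).card) (fun A => ?_)
  · exact this
  · simp only [Finset.card_filter]
    refine Finset.measurable_sum _ (fun w _ => ?_)
    refine Measurable.ite (measurableSet_lt ?_ ?_) measurable_const measurable_const
    · exact (measurable_pi_apply w).comp ho
    · exact (measurable_pi_apply v).comp ho

theorem measurable_arcO_param {Θ : Type*} [MeasurableSpace Θ] (N : Θ → ℕ → Finset ℕ)
    (o : Θ → ℕ → unitInterval) (s : Θ → ℕ → ℕ → ZZ)
    (hN : ∀ u A, MeasurableSet {θ | N θ u = A}) (ho : Measurable o) (hs : Measurable s)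
    (u v : ℕ) : Measurable fun θ => arcO (N θ) (o θ) (s θ) u v := by
  have hstream : ∀ a b : ℕ, Measurable fun θ => s θ a (rankO (N θ) (o θ) a b) := by
    intro a b
    refine measurable_of_countable_cases (fun θ => rankO (N θ) (o θ) a b) (fun c => ?_)
      (fun r θ => s θ a r) (fun r => ?_)
    · exact (measurable_rankO_param N o hN ho a b) (measurableSet_singleton c)
    · exact (measurable_pi_apply r).comp ((measurable_pi_apply a).comp hs)
  have hou : ∀ a : ℕ, Measurable fun θ => o θ a := fun a => (measurable_pi_apply a).comp ho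
  unfold arcO
  exact Measurable.ite (measurableSet_lt (hou u) (hou v)) (hstream u v)
    (Measurable.ite (measurableSet_lt (hou v) (hou u)) (hstream v u) measurable_const)

theorem measurable_edgeO_param {Θ : Type*} [MeasurableSpace Θ] (N : Θ → ℕ → Finset ℕ)
    (o : Θ → ℕ → unitInterval) (s : Θ → ℕ → ℕ → ZZ)
    (hN : ∀ u A, MeasurableSet {θ | N θ u = A}) (ho : Measurable o) (hs : Measurable s)
    (e : Sym2 ℕ) : Measurable fun θ => edgeO (N θ) (o θ) (s θ) e := by
  induction e using Sym2.ind with
  | _ u v => exact measurable_arcO_param N o s hN ho hs u v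

end Measurability

/-- The chosen splitting of a label. -/
noncomputable def splitMap : unitInterval → unitInterval × (ℕ → ℕ → ℕ → ℝ) :=
  Classical.choose exists_label_split

theorem measurable_splitMap : Measurable splitMap := (Classical.choose_spec exists_label_split).1

theorem map_splitMap : (volume : Measure unitInterval).map splitMap =
    (volume : Measure unitInterval).prod (Measure.infinitePi (fun _ : ℕ => stdDyadic)) :=
  (Classical.choose_spec exists_label_split).2

/-- The order label of vertex `v`. -/
noncomputable def orderL (x : ℕ → unitInterval) (v : ℕ) : unitInterval := (splitMap (x v)).1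

/-- The `j`-th noise of the stream of vertex `v`. -/
noncomputable def streamL (x : ℕ → unitInterval) (v j : ℕ) : ℕ → ℕ → ℝ := (splitMap (x v)).2 j

/-- The rank of `v` among the neighbours of `u` in the order of the labels. -/
noncomputable def rankL (G : SimpleGraph ℕ) (x : ℕ → unitInterval) (u v : ℕ) : ℕ :=
  ((nbrF G u).filter (fun w => orderL x w < orderL x v)).card

/-- The noise of the ordered pair: the first vertex, if before the second, owns the noise. -/
noncomputable def arcNoise (G : SimpleGraph ℕ) (x : ℕ → unitInterval) (u v : ℕ) : ℕ → ℕ → ℝ :=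
  if orderL x u < orderL x v then streamL x u (rankL G x u v)
  else if orderL x v < orderL x u then streamL x v (rankL G x v u) else fun _ _ => 0

theorem arcNoise_eq_arcO (G : SimpleGraph ℕ) (x : ℕ → unitInterval) (u v : ℕ) :
    arcNoise G x u v = arcO (nbrF G) (orderL x) (streamL x) u v := rfl

theorem arcNoise_comm (G : SimpleGraph ℕ) (x : ℕ → unitInterval) (u v : ℕ) :
    arcNoise G x u v = arcNoise G x v u := by
  rw [arcNoise_eq_arcO, arcNoise_eq_arcO, arcO_comm]

/-- The noise of an unordered pair. -/
noncomputable def edgeNoise (G : SimpleGraph ℕ) (x : ℕ → unitInterval) : Noise (Sym2 ℕ) :=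
  fun e => Sym2.lift ⟨arcNoise G x, arcNoise_comm G x⟩ e

theorem edgeNoise_eq_edgeO (G : SimpleGraph ℕ) (x : ℕ → unitInterval) (e : Sym2 ℕ) :
    edgeNoise G x e = edgeO (nbrF G) (orderL x) (streamL x) e := by
  induction e using Sym2.ind with
  | _ u v => rfl

theorem measurable_orderL : Measurable orderL :=
  measurable_pi_lambda _ (fun v =>
    measurable_fst.comp (measurable_splitMap.comp (measurable_pi_apply v)))

theorem measurable_streamL : Measurable streamL :=
  measurable_pi_lambda _ (fun v =>
    measurable_snd.comp (measurable_splitMap.comp (measurable_pi_apply v)))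

/-- The law of the order labels and of the streams. -/
theorem law_split : (labelMeasure ℕ).map (fun x => (orderL x, streamL x)) =
    (Measure.infinitePi (fun _ : ℕ => (volume : Measure unitInterval))).prod
      (Measure.infinitePi (fun _ : ℕ => Measure.infinitePi (fun _ : ℕ => stdDyadic))) := by
  have h1 : (labelMeasure ℕ).map (fun x v => splitMap (x v)) =
      Measure.infinitePi (fun _ : ℕ =>
        (volume : Measure unitInterval).prod (Measure.infinitePi (fun _ : ℕ => stdDyadic))) := by
    unfold labelMeasure
    rw [Measure.infinitePi_map_pi _ (fun _ => measurable_splitMap)]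
    simp_rw [map_splitMap]
  have h2 : (fun x : ℕ → unitInterval => (orderL x, streamL x)) =
      (fun a : ℕ → unitInterval × (ℕ → ℕ → ℕ → ℝ) =>
        ((fun i => (a i).1), (fun i => (a i).2))) ∘ (fun x v => splitMap (x v)) := rfl
  have hm : Measurable (fun a : ℕ → unitInterval × (ℕ → ℕ → ℕ → ℝ) =>
        (((fun i => (a i).1) : ℕ → unitInterval), ((fun i => (a i).2) : ℕ → ℕ → ℕ → ℕ → ℝ))) := by
    refine Measurable.prodMk ?_ ?_ <;> exact measurable_pi_lambda _ (fun i => by fun_prop)
  have hm2 : Measurable (fun (x : ℕ → unitInterval) (v : ℕ) => splitMap (x v)) :=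
    measurable_pi_lambda _ (fun v => measurable_splitMap.comp (measurable_pi_apply v))
  rw [h2, ← Measure.map_map hm hm2, h1, infinitePi_prod_unzip]

instance instProbLabel : IsProbabilityMeasure (labelMeasure ℕ) := by
  unfold labelMeasure; infer_instance

/-- The law of the noises of finitely many edges. -/
theorem law_edgeNoise {G : SimpleGraph ℕ} (hlf : ∀ v, (G.neighborSet v).Finite)
    (B : Finset (Sym2 ℕ)) (hB : (B : Set (Sym2 ℕ)) ⊆ G.edgeSet) :
    (labelMeasure ℕ).map (fun x (e : B) => edgeNoise G x e) =
      Measure.pi (fun _ : B => stdDyadic) := by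
  set Po := Measure.infinitePi (fun _ : ℕ => (volume : Measure unitInterval)) with hPo
  set Ps := Measure.infinitePi (fun _ : ℕ => Measure.infinitePi (fun _ : ℕ => stdDyadic)) with hPs
  let F : (ℕ → unitInterval) × (ℕ → ℕ → ZZ) → (B → ZZ) :=
    fun q e => edgeO (nbrF G) q.1 q.2 e
  have hF : Measurable F := by
    refine measurable_pi_lambda _ (fun e => ?_)
    exact measurable_edgeO_param (Θ := (ℕ → unitInterval) × (ℕ → ℕ → ZZ)) (fun _ => nbrF G)
      (fun q => q.1) (fun q => q.2)
      (fun _ _ => MeasurableSet.const _) measurable_fst measurable_snd (e : Sym2 ℕ)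
  have hΦ : Measurable (fun x : ℕ → unitInterval => (orderL x, streamL x)) :=
    measurable_orderL.prodMk measurable_streamL
  have hfac : (fun x (e : B) => edgeNoise G x e) =
      F ∘ (fun x : ℕ → unitInterval => (orderL x, streamL x)) := by
    funext x e
    exact edgeNoise_eq_edgeO G x e
  rw [hfac, ← Measure.map_map hF hΦ, law_split]
  refine Measure.ext (fun A hA => ?_)
  rw [Measure.map_apply hF hA, Measure.prod_apply (hF hA)]
  have key : ∀ᵐ o ∂Po, Ps (Prod.mk o ⁻¹' (F ⁻¹' A)) = Measure.pi (fun _ : B => stdDyadic) A := by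
    filter_upwards [ae_injective_labels] with o ho
    have hinj : Function.Injective (fun e : B => slot (nbrF G) o e) := by
      intro e e' h
      exact Subtype.ext (slot_injOn hlf ho (hB e.2) (hB e'.2) h)
    have h := infinitePi_array_coords stdDyadic (fun e : B => slot (nbrF G) o e) hinj
    rw [← h, Measure.map_apply (by fun_prop) hA]
    congr 1
    ext s
    have : F (o, s) = fun e : B => s (slot (nbrF G) o e).1 (slot (nbrF G) o e).2 := by
      funext e
      exact edgeO_eq_slot (nbrF G) ho s (G.not_isDiag_of_mem_edgeSet (hB e.2))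
    simp [this]
  rw [lintegral_congr_ae key]
  simp

/-- On a locally finite graph the edge noise is a dyadic noise on the edges. -/
theorem isDyadicNoise_edgeNoise {G : SimpleGraph ℕ} (hlf : ∀ v, (G.neighborSet v).Finite) :
    IsDyadicNoise (labelMeasure ℕ) (edgeNoise G) G.edgeSet := by
  refine isDyadicNoise_of_law (fun e => ?_) (law_edgeNoise hlf)
  have : (fun x => edgeNoise G x e) = fun x => edgeO (nbrF G) (orderL x) (streamL x) e := by
    funext x; exact edgeNoise_eq_edgeO G x e
  rw [this]
  exact measurable_edgeO_param (fun _ => nbrF G) orderL streamL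
    (fun _ _ => MeasurableSet.const _) measurable_orderL measurable_streamL e

theorem rankL_comap (σ : Equiv.Perm ℕ) (G : SimpleGraph ℕ) (x : ℕ → unitInterval) (u v : ℕ) :
    rankL (G.comap σ) (x ∘ σ) u v = rankL G x (σ u) (σ v) := by
  unfold rankL
  rw [← nbrF_comap, Finset.filter_map, Finset.card_map]
  rfl

/-- Equivariance. -/
theorem edgeNoise_comap (σ : Equiv.Perm ℕ) (G : SimpleGraph ℕ) (x : ℕ → unitInterval) (e : Sym2 ℕ) :
    edgeNoise (G.comap σ) (x ∘ σ) e = edgeNoise G x (Sym2.map σ e) := by
  induction e using Sym2.ind with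
  | _ u v =>
    change arcNoise (G.comap σ) (x ∘ σ) u v = arcNoise G x (σ u) (σ v)
    unfold arcNoise
    simp only [rankL_comap]
    rfl

/-- Joint measurability. -/
theorem measurable_edgeNoise (e : Sym2 ℕ) (n j : ℕ) :
    Measurable fun q : (ℕ → ℕ → Bool) × (ℕ → unitInterval) =>
      edgeNoise (graphOfTable q.1) q.2 e n j := by
  have h : Measurable fun q : (ℕ → ℕ → Bool) × (ℕ → unitInterval) =>
      edgeO (nbrF (graphOfTable q.1)) (orderL q.2) (streamL q.2) e := by
    refine measurable_edgeO_param (Θ := (ℕ → ℕ → Bool) × (ℕ → unitInterval))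
      (fun q => nbrF (graphOfTable q.1)) (fun q => orderL q.2)
      (fun q => streamL q.2) (fun u A => ?_) (measurable_orderL.comp measurable_snd)
      (measurable_streamL.comp measurable_snd) e
    exact measurable_fst (measurableSet_nbrF_level u A)
  have h2 : (fun q : (ℕ → ℕ → Bool) × (ℕ → unitInterval) => edgeNoise (graphOfTable q.1) q.2 e n j) =
      fun q => edgeO (nbrF (graphOfTable q.1)) (orderL q.2) (streamL q.2) e n j := by
    funext q; rw [edgeNoise_eq_edgeO]
  rw [h2]
  exact (measurable_pi_apply j).comp ((measurable_pi_apply n).comp h)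

end Crest.Agent.SRFactor
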