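import Crest.Agent.SRFactor.ParamMeas
import Crest.Agent.SRFactor.EdgeNoise
import Crest.Agent.SRFactor.LabelBasics
import Crest.Prelude.Def_Labels

/-! Assembly of S0254 from the core. -/

set_option autoImplicit false

open MeasureTheory ProbabilityTheory
open Crest.ProbabilityR.GraphTables Crest.ProbabilityR.Labels Crest.ProbabilityR.SpanningTrees

namespace Crest.Agent.SRFactor

/-- The graph on which the rule is active. -/
def validG (G : SimpleGraph ℕ) : Prop := G.Connected ∧ ∀ v, (G.neighborSet v).Finite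

/-- The bit at the edge `e`, radius `r`. -/
noncomputable def Rg (G : SimpleGraph ℕ) (e : Sym2 ℕ) (r : ℕ) (x : ℕ → unitInterval) : Bool :=
  Rbit (freeFamily G) (5 / 4) (edgeWin G) r (edgeNoise G x) e

open scoped Classical in
/-- The rule. -/
noncomputable def phiG (G : SimpleGraph ℕ) (x : ℕ → unitInterval) (e : Sym2 ℕ) : Bool :=
  if validG G ∧ e ∈ G.edgeSet then limBit (labelMeasure ℕ) (Rg G e) x else false

lemma graphOfTable_tableOf (G : SimpleGraph ℕ) : graphOfTable (tableOf G) = G := by
  ext i j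
  simp only [graphOfTable, tableOf, SimpleGraph.fromRel_adj, decide_eq_true_eq]
  constructor
  · rintro ⟨_, h | h⟩
    · exact h
    · exact h.symm
  · intro h
    exact ⟨h.ne, Or.inl h⟩

lemma measurable_Rg_param (e : Sym2 ℕ) (r : ℕ) :
    Measurable fun q : (ℕ → ℕ → Bool) × (ℕ → unitInterval) =>
      Rg (graphOfTable q.1) e r q.2 := by
  refine measurable_Rbit_param (fun q : (ℕ → ℕ → Bool) × (ℕ → unitInterval) =>
      freeFamily (graphOfTable q.1)) (5 / 4)
      (fun q => edgeWin (graphOfTable q.1)) (fun q => edgeNoise (graphOfTable q.1) q.2) r e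
      ?_ ?_ ?_
  · intro B S
    exact (measurable_freeFamily B S).comp measurable_fst
  · intro A
    exact measurable_fst (measurableSet_edgeWin e r A)
  · intro g n j
    exact measurable_edgeNoise g n j

lemma measurableSet_valid_edge (e : Sym2 ℕ) :
    MeasurableSet {t : ℕ → ℕ → Bool | validG (graphOfTable t) ∧ e ∈ (graphOfTable t).edgeSet} :=
  (measurableSet_connected.inter measurableSet_locFinite).inter (measurableSet_edge e)

lemma measurable_phiG :
    Measurable (fun p : (ℕ → ℕ → Bool) × (ℕ → unitInterval) =>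
      phiG (graphOfTable p.1) p.2) := by
  classical
  refine measurable_pi_lambda _ fun e => ?_
  unfold phiG
  refine Measurable.ite (measurable_fst (measurableSet_valid_edge e)) ?_ measurable_const
  exact measurable_limBit (labelMeasure ℕ) (fun t : ℕ → ℕ → Bool => Rg (graphOfTable t) e)
    (fun r => measurable_Rg_param e r)

lemma validG_comap (σ : Equiv.Perm ℕ) (G : SimpleGraph ℕ) : validG (G.comap σ) ↔ validG G := by
  unfold validG
  have h1 : (G.comap σ).Connected ↔ G.Connected :=
    (SimpleGraph.Iso.comap σ G).connected_iff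
  have h2 : (∀ v, ((G.comap σ).neighborSet v).Finite) ↔ ∀ v, (G.neighborSet v).Finite := by
    constructor
    · intro h v
      have := (h (σ.symm v)).image σ
      refine this.subset ?_
      intro w hw
      refine ⟨σ.symm w, ?_, by simp⟩
      simpa [SimpleGraph.mem_neighborSet] using hw
    · intro h v
      have := (h (σ v)).preimage (f := σ) σ.injective.injOn
      refine this.subset ?_
      intro w hw
      simpa [SimpleGraph.mem_neighborSet] using hw
  rw [h1, h2]

lemma mem_edgeSet_comap (σ : Equiv.Perm ℕ) (G : SimpleGraph ℕ) (e : Sym2 ℕ) :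
    e ∈ (G.comap σ).edgeSet ↔ Sym2.map σ e ∈ G.edgeSet := by
  induction e using Sym2.ind with
  | _ a b => simp

lemma self_mem_edgeWin (G : SimpleGraph ℕ) (e : Sym2 ℕ) (r : ℕ) : e ∈ edgeWin G e r :=
  Finset.mem_insert_self _ _

lemma Rg_comap (σ : Equiv.Perm ℕ) (G : SimpleGraph ℕ) (e : Sym2 ℕ) (r : ℕ)
    (x : ℕ → unitInterval) :
    Rg (G.comap σ) e r (x ∘ σ) = Rg G (Sym2.map σ e) r x := by
  unfold Rg Rbit
  have hcard : (edgeWin (G.comap σ) e r).card = (edgeWin G (Sym2.map σ e) r).card := by
    rw [← edgeWin_comap σ G e r, Finset.card_map]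
  rw [hcard]
  have := bit_transport (freeFamily (G.comap σ)) (freeFamily G) (symEmb σ)
    (edgeWin (G.comap σ) e r) (fun S _ => freeFamily_comap σ G _ S) r
    (meshOf (5 / 4) (edgeWin G (Sym2.map σ e) r).card r) (edgeNoise (G.comap σ) (x ∘ σ))
    (edgeNoise G x) (fun g _ => edgeNoise_comap σ G x g) e (self_mem_edgeWin _ _ _)
  rw [this, edgeWin_comap]
  rfl

lemma phiG_comap (σ : Equiv.Perm ℕ) (G : SimpleGraph ℕ) (x : ℕ → unitInterval) :
    phiG (G.comap σ) (x ∘ σ) = phiG G x ∘ Sym2.map σ := by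
  classical
  funext e
  simp only [Function.comp_apply]
  unfold phiG
  by_cases h : validG G ∧ Sym2.map σ e ∈ G.edgeSet
  · rw [if_pos h, if_pos ⟨(validG_comap σ G).2 h.1, (mem_edgeSet_comap σ G e).2 h.2⟩]
    have := limBit_comp (labelMeasure ℕ) (fun x : ℕ → unitInterval => x ∘ σ)
      (measurePreserving_comp_perm σ) (measurableEmbedding_comp_perm σ)
      (Rg (G.comap σ) e) (Rg G (Sym2.map σ e)) (fun r ω => (Rg_comap σ G e r ω).symm) x
    exact this.symm
  · rw [if_neg h, if_neg]
    rintro ⟨h1, h2⟩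
    exact h ⟨(validG_comap σ G).1 h1, (mem_edgeSet_comap σ G e).1 h2⟩

/-- The law of the rule on a valid graph. -/
lemma law_phiG {G : SimpleGraph ℕ} (hG : G.Connected) (hlf : ∀ v, (G.neighborSet v).Finite)
    (F : Finset (Sym2 ℕ)) (hF : (F : Set (Sym2 ℕ)) ⊆ G.edgeSet) :
    (((labelMeasure ℕ).map (phiG G) {ω | ∀ e ∈ F, ω e = true}).toReal) = ustLim G F := by
  classical
  have hm : Measurable (phiG G) := by
    have h := measurable_phiG.comp
      ((measurable_const (a := tableOf G)).prodMk measurable_id :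
        Measurable fun x : ℕ → unitInterval => (tableOf G, x))
    simpa [Function.comp_def, graphOfTable_tableOf] using h
  have hset : MeasurableSet {ω : Sym2 ℕ → Bool | ∀ e ∈ F, ω e = true} := by
    have : {ω : Sym2 ℕ → Bool | ∀ e ∈ F, ω e = true} = ⋂ e ∈ F, {ω | ω e = true} := by
      ext ω; simp
    rw [this]
    refine Finset.measurableSet_biInter _ fun e _ => ?_
    exact (measurable_pi_apply e : Measurable fun ω : Sym2 ℕ → Bool => ω e)
      (measurableSet_singleton true)
  rw [Measure.map_apply hm hset]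
  have key := limit_pattern (P := labelMeasure ℕ) (ν := freeFamily G) (κ := 5 / 4) (by norm_num)
    (freeFamily_lip hG) (isWindows_edgeWin hG hlf) (isDyadicNoise_edgeNoise hlf) hF
    (Finset.Subset.refl F)
  rw [freeFamily_mass_self hG] at key
  rw [← key]
  congr 2
  ext x
  simp only [Set.mem_preimage, Set.mem_setOf_eq]
  refine forall₂_congr fun e he => ?_
  have hval : validG G ∧ e ∈ G.edgeSet := ⟨⟨hG, hlf⟩, hF he⟩
  unfold phiG
  rw [if_pos hval]
  simp only [he, iff_true]
  rfl

/-- The statement S0254. -/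
theorem assembly_graph :
    ∃ Φ : SimpleGraph ℕ → (ℕ → unitInterval) → (Sym2 ℕ → Bool),
      Measurable (fun p : (ℕ → ℕ → Bool) × (ℕ → unitInterval) =>
          Φ (graphOfTable p.1) p.2) ∧
      (∀ (σ : Equiv.Perm ℕ) (G : SimpleGraph ℕ) (x : ℕ → unitInterval),
          Φ (G.comap ⇑σ) (x ∘ ⇑σ) = Φ G x ∘ Sym2.map ⇑σ) ∧
      ∀ G : SimpleGraph ℕ, G.Connected → (∀ v : ℕ, (G.neighborSet v).Finite) →
        ∀ S : ℕ → Finset ℕ, Monotone S → (∀ v : ℕ, ∃ n, v ∈ S n) →
          (∀ n, (G.induce (S n : Set ℕ)).Connected) →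
          ∀ F : Finset (Sym2 ℕ), (↑F : Set (Sym2 ℕ)) ⊆ G.edgeSet →
            Filter.Tendsto (fun n => ustContains G (S n) F) Filter.atTop
              (nhds (((labelMeasure ℕ).map (Φ G) {ω | ∀ e ∈ F, ω e = true}).toReal)) := by
  refine ⟨phiG, measurable_phiG, phiG_comap, ?_⟩
  intro G hG hlf S hm hex hS F hF
  rw [law_phiG hG hlf F hF]
  exact tendsto_ustContains hG hm hex hS F

end Crest.Agent.SRFactor
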