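import Crest.Agent.SRFactor.PostBasic
import Crest.Agent.SRFactor.LipCore

/-! Strongly Rayleigh implies the uniform Lipschitz property (blueprint (H)), and the Rayleigh
inequality in a form usable for trees. -/

set_option autoImplicit false

namespace Crest.Agent.SRFactor

variable {E : Type*} [DecidableEq E]

/-- Nonvanishing of the generating polynomial of coefficients `m` on `B`, on the product of upper
half planes in the variables of `B`. -/
def IsSRFinite (B : Finset E) (m : Finset E → ℝ) : Prop :=
  ∀ z : E → ℂ, (∀ i ∈ B, 0 < (z i).im) → ∑ S ∈ B.powerset, (m S : ℂ) * ∏ i ∈ S, z i ≠ 0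

/-- The sum over `S ⊆ B` containing `C`, of `m S` times the product of `y` over `S \ C`: the partial
derivative with respect to the variables of `C` of the generating polynomial. -/
noncomputable def coefP (B : Finset E) (m : Finset E → ℝ) (C : Finset E) (y : E → ℝ) : ℝ :=
  ∑ S ∈ B.powerset.filter (fun S => C ⊆ S), m S * ∏ i ∈ S \ C, y i

/-- Generating sum with coefficients `c` over subsets of `B0`. -/
def genSum {R : Type*} [CommRing R] (B0 : Finset E) (c : Finset E → R) (w : E → R) : R :=
  ∑ S ∈ B0.powerset, c S * ∏ i ∈ S, w i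

omit [DecidableEq E] in
lemma genSum_congr {R : Type*} [CommRing R] (B0 : Finset E) (c : Finset E → R) {w w' : E → R}
    (h : ∀ i ∈ B0, w i = w' i) : genSum B0 c w = genSum B0 c w' := by
  unfold genSum
  refine Finset.sum_congr rfl fun S hS => ?_
  congr 1
  exact Finset.prod_congr rfl fun i hi => h i (Finset.mem_powerset.1 hS hi)

/-- Expansion of the generating sum of a two-point extension in the two extra variables. -/
lemma genSum_insert_insert {R : Type*} [CommRing R] {B0 : Finset E} {e g : E} (heg : e ≠ g)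
    (he : e ∉ B0) (hg : g ∉ B0) (c : Finset E → R) (w : E → R) :
    genSum (insert e (insert g B0)) c w =
      genSum B0 c w + w e * genSum B0 (fun S => c (insert e S)) w
        + w g * genSum B0 (fun S => c (insert g S)) w
        + w e * w g * genSum B0 (fun S => c (insert e (insert g S))) w := by
  have he' : e ∉ insert g B0 := by simp [heg, he]
  unfold genSum
  rw [Finset.sum_powerset_insert he', Finset.sum_powerset_insert hg, Finset.sum_powerset_insert hg]
  simp only [Finset.mul_sum]
  have h1 : ∀ S ∈ B0.powerset, c (insert g S) * ∏ i ∈ insert g S, w i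
      = w g * (c (insert g S) * ∏ i ∈ S, w i) := by
    intro S hS
    have : g ∉ S := fun h => hg (Finset.mem_powerset.1 hS h)
    rw [Finset.prod_insert this]; ring
  have h2 : ∀ S ∈ B0.powerset, c (insert e S) * ∏ i ∈ insert e S, w i
      = w e * (c (insert e S) * ∏ i ∈ S, w i) := by
    intro S hS
    have : e ∉ S := fun h => he (Finset.mem_powerset.1 hS h)
    rw [Finset.prod_insert this]; ring
  have h3 : ∀ S ∈ B0.powerset, c (insert e (insert g S)) * ∏ i ∈ insert e (insert g S), w i
      = w e * w g * (c (insert e (insert g S)) * ∏ i ∈ S, w i) := by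
    intro S hS
    have h1 : g ∉ S := fun h => hg (Finset.mem_powerset.1 hS h)
    have h2 : e ∉ insert g S := by
      simp only [Finset.mem_insert, not_or]
      exact ⟨heg, fun h => he (Finset.mem_powerset.1 hS h)⟩
    rw [Finset.prod_insert h2, Finset.prod_insert h1]; ring
  rw [Finset.sum_congr rfl h1, Finset.sum_congr rfl h2, Finset.sum_congr rfl h3]
  ring

/-- `coefP` as a sum over the whole powerset. -/
lemma coefP_eq_sum (B : Finset E) (m : Finset E → ℝ) (C : Finset E) (y : E → ℝ) :
    coefP B m C y = ∑ S ∈ B.powerset, (if C ⊆ S then m S * ∏ i ∈ S \ C, y i else 0) := by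
  unfold coefP
  rw [Finset.sum_filter]

lemma coefP_empty {B0 : Finset E} {e g : E} (heg : e ≠ g) (he : e ∉ B0) (hg : g ∉ B0)
    (m : Finset E → ℝ) (y : E → ℝ) :
    coefP (insert e (insert g B0)) m ∅ y =
      genSum B0 m y + y e * genSum B0 (fun S => m (insert e S)) y
        + y g * genSum B0 (fun S => m (insert g S)) y
        + y e * y g * genSum B0 (fun S => m (insert e (insert g S))) y := by
  rw [← genSum_insert_insert heg he hg]
  unfold coefP genSum
  simp

lemma coefP_left {B0 : Finset E} {e g : E} (heg : e ≠ g) (he : e ∉ B0) (hg : g ∉ B0)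
    (m : Finset E → ℝ) (y : E → ℝ) :
    coefP (insert e (insert g B0)) m {e} y =
      genSum B0 (fun S => m (insert e S)) y
        + y g * genSum B0 (fun S => m (insert e (insert g S))) y := by
  have he' : e ∉ insert g B0 := by simp [heg, he]
  rw [coefP_eq_sum, Finset.sum_powerset_insert he', Finset.sum_powerset_insert hg,
    Finset.sum_powerset_insert hg]
  unfold genSum
  have h0 : ∀ S ∈ B0.powerset, (if ({e} : Finset E) ⊆ S then m S * ∏ i ∈ S \ {e}, y i else 0) = 0 := by
    intro S hS
    have : e ∉ S := fun h => he (Finset.mem_powerset.1 hS h)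
    simp [this]
  have h1 : ∀ S ∈ B0.powerset, (if ({e} : Finset E) ⊆ insert g S then
      m (insert g S) * ∏ i ∈ insert g S \ {e}, y i else 0) = 0 := by
    intro S hS
    have : e ∉ S := fun h => he (Finset.mem_powerset.1 hS h)
    simp [this, heg]
  have h2 : ∀ S ∈ B0.powerset, (if ({e} : Finset E) ⊆ insert e S then
      m (insert e S) * ∏ i ∈ insert e S \ {e}, y i else 0) = m (insert e S) * ∏ i ∈ S, y i := by
    intro S hS
    have h : e ∉ S := fun h => he (Finset.mem_powerset.1 hS h)
    have : insert e S \ {e} = S := by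
      ext x; simp only [Finset.mem_sdiff, Finset.mem_insert, Finset.mem_singleton]
      constructor
      · rintro ⟨h1 | h1, h2⟩
        · exact absurd h1 h2
        · exact h1
      · intro hx; exact ⟨Or.inr hx, fun hxe => h (hxe ▸ hx)⟩
    simp [this]
  have h3 : ∀ S ∈ B0.powerset, (if ({e} : Finset E) ⊆ insert e (insert g S) then
      m (insert e (insert g S)) * ∏ i ∈ insert e (insert g S) \ {e}, y i else 0)
        = y g * (m (insert e (insert g S)) * ∏ i ∈ S, y i) := by
    intro S hS
    have h : e ∉ S := fun h => he (Finset.mem_powerset.1 hS h)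
    have hg' : g ∉ S := fun h => hg (Finset.mem_powerset.1 hS h)
    have : insert e (insert g S) \ {e} = insert g S := by
      ext x; simp only [Finset.mem_sdiff, Finset.mem_insert, Finset.mem_singleton]
      constructor
      · rintro ⟨h1 | h1, h2⟩
        · exact absurd h1 h2
        · exact h1
      · rintro (hx | hx)
        · exact ⟨Or.inr (Or.inl hx), fun hxe => heg (hxe ▸ hx.symm ▸ rfl)⟩
        · exact ⟨Or.inr (Or.inr hx), fun hxe => h (hxe ▸ hx)⟩
    simp only [Finset.singleton_subset_iff, Finset.mem_insert, true_or, if_true, this,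
      Finset.prod_insert hg']
    ring
  rw [Finset.sum_congr rfl h0, Finset.sum_congr rfl h1, Finset.sum_congr rfl h2,
    Finset.sum_congr rfl h3]
  simp [Finset.mul_sum]

lemma coefP_right {B0 : Finset E} {e g : E} (heg : e ≠ g) (he : e ∉ B0) (hg : g ∉ B0)
    (m : Finset E → ℝ) (y : E → ℝ) :
    coefP (insert e (insert g B0)) m {g} y =
      genSum B0 (fun S => m (insert g S)) y
        + y e * genSum B0 (fun S => m (insert e (insert g S))) y := by
  have he' : e ∉ insert g B0 := by simp [heg, he]
  rw [coefP_eq_sum, Finset.sum_powerset_insert he', Finset.sum_powerset_insert hg,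
    Finset.sum_powerset_insert hg]
  unfold genSum
  have h0 : ∀ S ∈ B0.powerset, (if ({g} : Finset E) ⊆ S then m S * ∏ i ∈ S \ {g}, y i else 0) = 0 := by
    intro S hS
    have : g ∉ S := fun h => hg (Finset.mem_powerset.1 hS h)
    simp [this]
  have h1 : ∀ S ∈ B0.powerset, (if ({g} : Finset E) ⊆ insert e S then
      m (insert e S) * ∏ i ∈ insert e S \ {g}, y i else 0) = 0 := by
    intro S hS
    have : g ∉ S := fun h => hg (Finset.mem_powerset.1 hS h)
    simp [this, heg.symm]
  have h2 : ∀ S ∈ B0.powerset, (if ({g} : Finset E) ⊆ insert g S then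
      m (insert g S) * ∏ i ∈ insert g S \ {g}, y i else 0) = m (insert g S) * ∏ i ∈ S, y i := by
    intro S hS
    have h : g ∉ S := fun h => hg (Finset.mem_powerset.1 hS h)
    have : insert g S \ {g} = S := by
      ext x; simp only [Finset.mem_sdiff, Finset.mem_insert, Finset.mem_singleton]
      constructor
      · rintro ⟨h1 | h1, h2⟩
        · exact absurd h1 h2
        · exact h1
      · intro hx; exact ⟨Or.inr hx, fun hxe => h (hxe ▸ hx)⟩
    simp [this]
  have h3 : ∀ S ∈ B0.powerset, (if ({g} : Finset E) ⊆ insert e (insert g S) then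
      m (insert e (insert g S)) * ∏ i ∈ insert e (insert g S) \ {g}, y i else 0)
        = y e * (m (insert e (insert g S)) * ∏ i ∈ S, y i) := by
    intro S hS
    have h : e ∉ S := fun h => he (Finset.mem_powerset.1 hS h)
    have hg' : g ∉ S := fun h => hg (Finset.mem_powerset.1 hS h)
    have : insert e (insert g S) \ {g} = insert e S := by
      ext x; simp only [Finset.mem_sdiff, Finset.mem_insert, Finset.mem_singleton]
      constructor
      · rintro ⟨h1 | h1 | h1, h2⟩
        · exact Or.inl h1
        · exact absurd h1 h2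
        · exact Or.inr h1
      · rintro (hx | hx)
        · exact ⟨Or.inl hx, fun hxe => heg (hx.symm.trans hxe)⟩
        · exact ⟨Or.inr (Or.inr hx), fun hxe => hg' (hxe ▸ hx)⟩
    have hsub : ({g} : Finset E) ⊆ insert e (insert g S) := by simp
    rw [if_pos hsub, this, Finset.prod_insert h]
    ring
  rw [Finset.sum_congr rfl h0, Finset.sum_congr rfl h1, Finset.sum_congr rfl h2,
    Finset.sum_congr rfl h3]
  simp [Finset.mul_sum]

lemma coefP_both {B0 : Finset E} {e g : E} (heg : e ≠ g) (he : e ∉ B0) (hg : g ∉ B0)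
    (m : Finset E → ℝ) (y : E → ℝ) :
    coefP (insert e (insert g B0)) m {e, g} y =
      genSum B0 (fun S => m (insert e (insert g S))) y := by
  have he' : e ∉ insert g B0 := by simp [heg, he]
  rw [coefP_eq_sum, Finset.sum_powerset_insert he', Finset.sum_powerset_insert hg,
    Finset.sum_powerset_insert hg]
  unfold genSum
  have h0 : ∀ S ∈ B0.powerset, (if ({e, g} : Finset E) ⊆ S then m S * ∏ i ∈ S \ {e, g}, y i else 0) = 0 := by
    intro S hS
    have : e ∉ S := fun h => he (Finset.mem_powerset.1 hS h)
    simp [Finset.insert_subset_iff, this]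
  have h1 : ∀ S ∈ B0.powerset, (if ({e, g} : Finset E) ⊆ insert g S then
      m (insert g S) * ∏ i ∈ insert g S \ {e, g}, y i else 0) = 0 := by
    intro S hS
    have : e ∉ S := fun h => he (Finset.mem_powerset.1 hS h)
    simp [Finset.insert_subset_iff, this, heg]
  have h2 : ∀ S ∈ B0.powerset, (if ({e, g} : Finset E) ⊆ insert e S then
      m (insert e S) * ∏ i ∈ insert e S \ {e, g}, y i else 0) = 0 := by
    intro S hS
    have : g ∉ S := fun h => hg (Finset.mem_powerset.1 hS h)
    simp [Finset.insert_subset_iff, this, heg.symm]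
  have h3 : ∀ S ∈ B0.powerset, (if ({e, g} : Finset E) ⊆ insert e (insert g S) then
      m (insert e (insert g S)) * ∏ i ∈ insert e (insert g S) \ {e, g}, y i else 0)
        = m (insert e (insert g S)) * ∏ i ∈ S, y i := by
    intro S hS
    have h : e ∉ S := fun h => he (Finset.mem_powerset.1 hS h)
    have hg' : g ∉ S := fun h => hg (Finset.mem_powerset.1 hS h)
    have : insert e (insert g S) \ {e, g} = S := by
      ext x; simp only [Finset.mem_sdiff, Finset.mem_insert, Finset.mem_singleton, not_or]
      constructor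
      · rintro ⟨h1 | h1 | h1, h2, h3⟩
        · exact absurd h1 h2
        · exact absurd h1 h3
        · exact h1
      · intro hx; exact ⟨Or.inr (Or.inr hx), fun hxe => h (hxe ▸ hx), fun hxe => hg' (hxe ▸ hx)⟩
    have hsub : ({e, g} : Finset E) ⊆ insert e (insert g S) := by
      simp [Finset.insert_subset_iff]
    rw [if_pos hsub, this]
  rw [Finset.sum_congr rfl h0, Finset.sum_congr rfl h1, Finset.sum_congr rfl h2,
    Finset.sum_congr rfl h3]
  simp

omit [DecidableEq E] in
lemma genSum_nonneg {B0 : Finset E} {m : Finset E → ℝ} (hm : ∀ S, 0 ≤ m S) {y : E → ℝ}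
    (hy : ∀ i ∈ B0, 0 < y i) : 0 ≤ genSum B0 m y := by
  classical
  refine Finset.sum_nonneg fun S hS => mul_nonneg (hm S) (Finset.prod_nonneg fun i hi => ?_)
  exact (hy i (Finset.mem_powerset.1 hS hi)).le

omit [DecidableEq E] in
/-- Cast of a real generating sum. -/
lemma genSum_ofReal (B0 : Finset E) (m : Finset E → ℝ) (y : E → ℝ) :
    genSum B0 (fun S => (m S : ℂ)) (fun i => (y i : ℂ)) = ((genSum B0 m y : ℝ) : ℂ) := by
  unfold genSum
  push_cast
  rfl

omit [DecidableEq E] in
lemma continuous_genSum_line (B0 : Finset E) (c : Finset E → ℂ) (y : E → ℝ) :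
    Continuous fun δ : ℝ => genSum B0 c (fun i => (y i : ℂ) + Complex.I * δ) := by
  unfold genSum
  refine continuous_finsetSum _ fun S _ => continuous_const.mul ?_
  refine continuous_finsetProd _ fun i _ => continuous_const.add ?_
  exact continuous_const.mul Complex.continuous_ofReal

/-- The central inequality: the mixed coefficient inequality for the four partial sums. -/
lemma four_coeff_ineq {B0 : Finset E} {e g : E} (heg : e ≠ g) (he : e ∉ B0) (hg : g ∉ B0)
    {m : Finset E → ℝ} (hm : ∀ S, 0 ≤ m S)
    (hsr : IsSRFinite (insert e (insert g B0)) m) {y : E → ℝ} (hy : ∀ i ∈ B0, 0 < y i) :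
    genSum B0 m y * genSum B0 (fun S => m (insert e (insert g S))) y ≤
      genSum B0 (fun S => m (insert e S)) y * genSum B0 (fun S => m (insert g S)) y := by
  by_contra hcon
  push Not at hcon
  set a := genSum B0 m y with ha
  set b := genSum B0 (fun S => m (insert e S)) y with hb
  set c := genSum B0 (fun S => m (insert g S)) y with hc
  set d := genSum B0 (fun S => m (insert e (insert g S))) y with hd
  have hb0 : 0 ≤ b := genSum_nonneg (fun S => hm _) hy
  have hc0 : 0 ≤ c := genSum_nonneg (fun S => hm _) hy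
  have ha0 : 0 ≤ a := genSum_nonneg hm hy
  have hd0 : 0 ≤ d := genSum_nonneg (fun S => hm _) hy
  have hdpos : 0 < d := by
    rcases hd0.lt_or_eq with h | h
    · exact h
    · exfalso
      rw [← h] at hcon
      have : 0 ≤ b * c := mul_nonneg hb0 hc0
      linarith
  -- the four complex coefficient functions
  let zδ : ℝ → E → ℂ := fun δ i => (y i : ℂ) + Complex.I * δ
  let A : ℝ → ℂ := fun δ => genSum B0 (fun S => (m S : ℂ)) (zδ δ)
  let Bb : ℝ → ℂ := fun δ => genSum B0 (fun S => (m (insert e S) : ℂ)) (zδ δ)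
  let Cc : ℝ → ℂ := fun δ => genSum B0 (fun S => (m (insert g S) : ℂ)) (zδ δ)
  let Dd : ℝ → ℂ := fun δ => genSum B0 (fun S => (m (insert e (insert g S)) : ℂ)) (zδ δ)
  have hA : Continuous A := continuous_genSum_line _ _ y
  have hBb : Continuous Bb := continuous_genSum_line _ _ y
  have hCc : Continuous Cc := continuous_genSum_line _ _ y
  have hDd : Continuous Dd := continuous_genSum_line _ _ y
  have hz0 : zδ 0 = fun i => (y i : ℂ) := by
    funext i; simp [zδ]
  have hA0 : A 0 = (a : ℂ) := by
    simp only [A, hz0]; exact genSum_ofReal B0 m y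
  have hBb0 : Bb 0 = (b : ℂ) := by
    simp only [Bb, hz0]; exact genSum_ofReal B0 (fun S => m (insert e S)) y
  have hCc0 : Cc 0 = (c : ℂ) := by
    simp only [Cc, hz0]; exact genSum_ofReal B0 (fun S => m (insert g S)) y
  have hDd0 : Dd 0 = (d : ℂ) := by
    simp only [Dd, hz0]; exact genSum_ofReal B0 (fun S => m (insert e (insert g S))) y
  let N : ℝ → ℂ := fun δ => A δ + Complex.I * Bb δ
  let M : ℝ → ℂ := fun δ => Cc δ + Complex.I * Dd δ
  have hN : Continuous N := hA.add (continuous_const.mul hBb)
  have hM : Continuous M := hCc.add (continuous_const.mul hDd)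
  have hM0 : M 0 = (c : ℂ) + Complex.I * d := by simp only [M, hCc0, hDd0]
  have hN0 : N 0 = (a : ℂ) + Complex.I * b := by simp only [N, hA0, hBb0]
  have hM0ne : M 0 ≠ 0 := by
    rw [hM0]
    intro h
    have := congrArg Complex.im h
    simp at this
    exact hdpos.ne' this
  let w : ℝ → ℂ := fun δ => -(N δ) / M δ
  have hwc : ContinuousAt w 0 := (hN.continuousAt.neg).div hM.continuousAt hM0ne
  have hw0 : 0 < (w 0).im := by
    simp only [w, hN0, hM0]
    have hnormpos : 0 < c * c + d * d := by nlinarith
    have : (-((a : ℂ) + Complex.I * b) / ((c : ℂ) + Complex.I * d)).im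
        = (a * d - b * c) / (c * c + d * d) := by
      rw [Complex.div_im]
      have hns : Complex.normSq ((c : ℂ) + Complex.I * d) = c * c + d * d := by
        simp [Complex.normSq_apply]
      rw [hns]
      simp
      field_simp
      ring
    rw [this]
    apply div_pos _ hnormpos
    linarith
  have hev1 : ∀ᶠ δ in nhds (0 : ℝ), 0 < (w δ).im :=
    (Complex.continuous_im.continuousAt.comp hwc).eventually (lt_mem_nhds hw0)
  have hev2 : ∀ᶠ δ in nhds (0 : ℝ), M δ ≠ 0 := hM.continuousAt.eventually_ne hM0ne
  obtain ⟨δ, hδ1, hδ2, hδpos⟩ : ∃ δ : ℝ, 0 < (w δ).im ∧ M δ ≠ 0 ∧ 0 < δ := by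
    have h := (hev1.and hev2).filter_mono (nhdsWithin_le_nhds (s := Set.Ioi (0:ℝ)))
    have h3 : ∀ᶠ δ in nhdsWithin (0 : ℝ) (Set.Ioi 0), 0 < δ := eventually_mem_nhdsWithin
    obtain ⟨δ, hδ, hδ'⟩ := (h.and h3).exists
    exact ⟨δ, hδ.1, hδ.2, hδ'⟩
  -- the zero
  let z : E → ℂ := fun i => if i = e then Complex.I else if i = g then w δ else zδ δ i
  have hzB0 : ∀ i ∈ B0, z i = zδ δ i := by
    intro i hi
    have h1 : i ≠ e := fun h => he (h ▸ hi)
    have h2 : i ≠ g := fun h => hg (h ▸ hi)
    simp [z, h1, h2]
  have hze : z e = Complex.I := by simp [z]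
  have hzg : z g = w δ := by simp [z, heg.symm]
  have hzim : ∀ i ∈ insert e (insert g B0), 0 < (z i).im := by
    intro i hi
    rcases Finset.mem_insert.1 hi with rfl | hi
    · rw [hze]; simp
    rcases Finset.mem_insert.1 hi with rfl | hi
    · rw [hzg]; exact hδ1
    · rw [hzB0 i hi]; simp [zδ, hδpos]
  have hzero := hsr z hzim
  apply hzero
  have hexp := genSum_insert_insert heg he hg (fun S => (m S : ℂ)) z
  unfold genSum at hexp
  rw [hexp, hze, hzg]
  have e1 : ∑ S ∈ B0.powerset, (m S : ℂ) * ∏ i ∈ S, z i = A δ := genSum_congr B0 _ hzB0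
  have e2 : ∑ S ∈ B0.powerset, (m (insert e S) : ℂ) * ∏ i ∈ S, z i = Bb δ := genSum_congr B0 _ hzB0
  have e3 : ∑ S ∈ B0.powerset, (m (insert g S) : ℂ) * ∏ i ∈ S, z i = Cc δ := genSum_congr B0 _ hzB0
  have e4 : ∑ S ∈ B0.powerset, (m (insert e (insert g S)) : ℂ) * ∏ i ∈ S, z i = Dd δ :=
    genSum_congr B0 _ hzB0
  rw [e1, e2, e3, e4]
  have hwM : w δ * M δ = -(N δ) := by
    simp only [w]
    field_simp
  simp only [M, N] at hwM
  linear_combination hwM

/-- Rayleigh inequality: for a stable polynomial with nonnegative coefficients at positive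
points. -/
theorem rayleigh_of_sr {B : Finset E} {m : Finset E → ℝ} (hm : ∀ S, 0 ≤ m S)
    (hsr : IsSRFinite B m) {y : E → ℝ} (hy : ∀ i ∈ B, 0 < y i) {e g : E} (he : e ∈ B) (hg : g ∈ B)
    (heg : e ≠ g) :
    coefP B m ∅ y * coefP B m {e, g} y ≤ coefP B m {e} y * coefP B m {g} y := by
  set B0 := (B.erase e).erase g with hB0
  have he0 : e ∉ B0 := by simp [hB0]
  have hg0 : g ∉ B0 := by simp [hB0]
  have hBeq : B = insert e (insert g B0) := by
    rw [hB0, Finset.insert_erase (Finset.mem_erase.2 ⟨heg.symm, hg⟩), Finset.insert_erase he]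
  rw [hBeq] at hsr ⊢
  have hy0 : ∀ i ∈ B0, 0 < y i := fun i hi =>
    hy i (Finset.mem_of_mem_erase (Finset.mem_of_mem_erase hi))
  have key := four_coeff_ineq heg he0 hg0 hm hsr hy0
  rw [coefP_empty heg he0 hg0, coefP_left heg he0 hg0, coefP_right heg he0 hg0,
    coefP_both heg he0 hg0]
  nlinarith [key]

/-- The main theorem of this file. -/
theorem lip_of_sr (ν : Family E) (hSR : ∀ B, IsSRFinite B (ν.mass B)) : ν.Lip (5 / 4) := by
  refine lip_core ν (fun B z hz => hSR B z hz) ?_
  intro B lam e g he hg heg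
  have hR := rayleigh_of_sr (ν.nonneg B) (hSR B) (y := fun i => Real.exp (lam i))
    (fun _ _ => Real.exp_pos _) he hg heg
  have key : ∀ C : Finset E, ∑ S ∈ B.powerset.filter (fun S => C ⊆ S), wt ν B lam S
      = (∏ i ∈ C, Real.exp (lam i)) * coefP B (ν.mass B) C (fun i => Real.exp (lam i)) := by
    intro C
    unfold coefP
    rw [Finset.mul_sum]
    refine Finset.sum_congr rfl fun S hS => ?_
    have hCS : C ⊆ S := (Finset.mem_filter.1 hS).2
    unfold wt
    rw [Real.exp_sum, ← Finset.prod_sdiff hCS]
    ring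
  have hZ : zfun ν B lam = coefP B (ν.mass B) ∅ (fun i => Real.exp (lam i)) := by
    have h := key ∅
    simp only [Finset.empty_subset, Finset.filter_true, Finset.prod_empty, one_mul] at h
    exact h
  have hN : ∀ i, numer ν B lam i = Real.exp (lam i) * coefP B (ν.mass B) {i} (fun i => Real.exp (lam i)) := by
    intro i
    have h := key {i}
    simp only [Finset.singleton_subset_iff, Finset.prod_singleton] at h
    exact h
  have hN2 : numer2 ν B lam e g = Real.exp (lam e) * Real.exp (lam g)
      * coefP B (ν.mass B) {e, g} (fun i => Real.exp (lam i)) := by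
    have h := key {e, g}
    rw [Finset.prod_pair heg] at h
    rw [← h]
    unfold numer2
    congr 1
    ext S
    simp [Finset.insert_subset_iff]
  rw [hZ, hN e, hN g, hN2]
  have hpos : 0 ≤ Real.exp (lam e) * Real.exp (lam g) := (mul_pos (Real.exp_pos _) (Real.exp_pos _)).le
  calc _ = Real.exp (lam e) * Real.exp (lam g) * (coefP B (ν.mass B) ∅ (fun i => Real.exp (lam i))
        * coefP B (ν.mass B) {e, g} (fun i => Real.exp (lam i))) := by ring
    _ ≤ Real.exp (lam e) * Real.exp (lam g) * (coefP B (ν.mass B) {e} (fun i => Real.exp (lam i))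
        * coefP B (ν.mass B) {g} (fun i => Real.exp (lam i))) := mul_le_mul_of_nonneg_left hR hpos
    _ = _ := by ring

end Crest.Agent.SRFactor
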