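import Crest.Agent.SRFactor.ParamMeas
import Crest.Agent.SRFactor.NoiseLaw
import Crest.Agent.SRFactor.SRLip
import Crest.Agent.SRFactor.LabelBasics
import Crest.Prelude.Def_Labels
import Crest.Prelude.Def_StronglyRayleigh

/-! Assembly of S0255 from the core. -/

set_option autoImplicit false

open MeasureTheory ProbabilityTheory
open Crest.ProbabilityR.StronglyRayleigh Crest.ProbabilityR.Labels

namespace Crest.Agent.SRFactor

section patterns

variable {Γ : Type*}

/-- The set of configurations with pattern `S` on `B`. -/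
def patt (B S : Finset Γ) : Set (Γ → Bool) := {ω | ∀ i ∈ B, (ω i = true ↔ i ∈ S)}

lemma measurableSet_patt (B S : Finset Γ) : MeasurableSet (patt B S) := by
  classical
  have : patt B S = ⋂ i ∈ B, {ω : Γ → Bool | ω i = true ↔ i ∈ S} := by
    ext ω; simp [patt]
  rw [this]
  refine Finset.measurableSet_biInter _ fun i _ => ?_
  have hm : Measurable fun ω : Γ → Bool => ω i := measurable_pi_apply i
  by_cases hi : i ∈ S
  · simp only [hi, iff_true]
    exact hm (measurableSet_singleton true)
  · simp only [hi, iff_false]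
    have : {ω : Γ → Bool | ¬ ω i = true} = (fun ω : Γ → Bool => ω i) ⁻¹' {true}ᶜ := by
      ext ω; simp
    rw [this]
    exact hm (measurableSet_singleton true).compl

lemma patt_disjoint {B S S' : Finset Γ} (hS : S ⊆ B) (hS' : S' ⊆ B) (hne : S ≠ S') :
    Disjoint (patt B S) (patt B S') := by
  rw [Set.disjoint_left]
  intro ω h1 h2
  apply hne
  ext i
  constructor
  · intro hi
    exact (h2 i (hS hi)).1 ((h1 i (hS hi)).2 hi)
  · intro hi
    exact (h1 i (hS' hi)).1 ((h2 i (hS' hi)).2 hi)

variable [DecidableEq Γ]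

lemma mem_patt_filter (B : Finset Γ) (ω : Γ → Bool) :
    ω ∈ patt B (B.filter (fun i => ω i = true)) := by
  intro i hi
  simp [hi]

lemma iUnion_patt (B : Finset Γ) : ⋃ S ∈ B.powerset, patt B S = Set.univ := by
  ext ω
  simp only [Set.mem_iUnion, Set.mem_univ, iff_true]
  exact ⟨_, Finset.mem_powerset.2 (Finset.filter_subset _ _), mem_patt_filter B ω⟩

lemma patt_eq_iUnion {A B S : Finset Γ} (hAB : A ⊆ B) (hS : S ⊆ A) :
    patt A S = ⋃ S' ∈ B.powerset.filter (fun S' => S' ∩ A = S), patt B S' := by
  ext ω
  simp only [Set.mem_iUnion, exists_prop]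
  constructor
  · intro h
    refine ⟨B.filter (fun i => ω i = true), ?_, mem_patt_filter B ω⟩
    simp only [Finset.mem_filter, Finset.mem_powerset]
    refine ⟨Finset.filter_subset _ _, ?_⟩
    ext i
    simp only [Finset.mem_inter, Finset.mem_filter]
    constructor
    · rintro ⟨⟨_, h2⟩, h3⟩
      exact (h i h3).1 h2
    · intro hi
      exact ⟨⟨hAB (hS hi), (h i (hS hi)).2 hi⟩, hS hi⟩
  · rintro ⟨S', hS', hω⟩ i hi
    simp only [Finset.mem_filter, Finset.mem_powerset] at hS'
    rw [hω i (hAB hi), ← hS'.2]
    simp [hi]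

/-- The family of finite marginals of a probability measure on configurations. -/
noncomputable def lawFamily (ν : Measure (Γ → Bool)) [IsProbabilityMeasure ν] : Family Γ where
  mass B S := (ν (patt B S)).toReal
  nonneg _ _ := ENNReal.toReal_nonneg
  sum_one B := by
    rw [← ENNReal.toReal_sum (fun S _ => measure_ne_top ν _),
      ← measure_biUnion_finset (fun S hS S' hS' hne =>
        patt_disjoint (Finset.mem_powerset.1 hS) (Finset.mem_powerset.1 hS') hne)
        (fun S _ => measurableSet_patt B S), iUnion_patt]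
    simp
  consistent A B hAB S hS := by
    rw [← ENNReal.toReal_sum (fun S _ => measure_ne_top ν _),
      ← measure_biUnion_finset (fun S1 hS1 S2 hS2 hne =>
        patt_disjoint (Finset.mem_powerset.1 (Finset.mem_of_mem_filter _ hS1))
          (Finset.mem_powerset.1 (Finset.mem_of_mem_filter _ hS2)) hne)
        (fun S _ => measurableSet_patt B S), ← patt_eq_iUnion hAB hS]

lemma lawFamily_mass (ν : Measure (Γ → Bool)) [IsProbabilityMeasure ν] (B S : Finset Γ) :
    (lawFamily ν).mass B S = (ν (patt B S)).toReal := rfl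

/-- Strongly Rayleigh laws have the uniform Lipschitz property. -/
lemma lawFamily_lip (ν : Measure (Γ → Bool)) [IsProbabilityMeasure ν]
    (hsr : IsStronglyRayleigh ν) : (lawFamily ν).Lip (5 / 4) := by
  refine lip_of_sr _ fun B z hz => ?_
  exact hsr B z hz

/-- Measures on configurations are determined by the masses of patterns. -/
lemma measure_ext_patt {μ ν : Measure (Γ → Bool)} [IsProbabilityMeasure μ] [IsProbabilityMeasure ν]
    (h : ∀ B S : Finset Γ, S ⊆ B → μ (patt B S) = ν (patt B S)) : μ = ν := by
  let P : ∀ J : Finset Γ, Measure (∀ _ : J, Bool) := fun J => ν.map J.restrict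
  have hν : IsProjectiveLimit ν P := fun J => rfl
  have hμ : IsProjectiveLimit μ P := by
    intro J
    classical
    refine Measure.ext_of_singleton fun a => ?_
    dsimp only [P]
    rw [Measure.map_apply (Finset.measurable_restrict J) (measurableSet_singleton a),
      Measure.map_apply (Finset.measurable_restrict J) (measurableSet_singleton a)]
    have hset : Finset.restrict (π := fun _ => Bool) J ⁻¹' {a} =
        patt J (J.filter (fun i => ∃ h : i ∈ J, a ⟨i, h⟩ = true)) := by
      ext ω
      simp only [Set.mem_preimage, Set.mem_singleton_iff, patt, Set.mem_setOf_eq,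
        Finset.mem_filter]
      constructor
      · rintro rfl i hi
        simp [hi]
      · intro h
        funext i
        have h1 := h i i.2
        have h2 : (∃ h : (i : Γ) ∈ J, a ⟨i, h⟩ = true) ↔ a i = true :=
          ⟨fun ⟨_, h⟩ => h, fun h => ⟨i.2, h⟩⟩
        simp only [i.2, true_and, h2] at h1
        simp only [Finset.restrict]
        cases hω : ω i <;> cases ha : a i <;> simp_all
    rw [hset]
    exact h _ _ (Finset.filter_subset _ _)
  haveI : ∀ J, IsFiniteMeasure (P J) := fun J => by
    dsimp only [P]; infer_instance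
  exact hμ.unique hν

end patterns

section group

variable {Γ : Type*} [Group Γ] [Countable Γ] [DecidableEq Γ]

variable (Γ) in
/-- An enumeration of the group. -/
noncomputable def enumG : ℕ → Γ := Classical.choose (exists_surjective_nat Γ)

lemma enumG_surj : Function.Surjective (enumG Γ) := Classical.choose_spec (exists_surjective_nat Γ)

variable (Γ) in
/-- Balls exhausting the group. -/
noncomputable def grpBall (r : ℕ) : Finset Γ := insert 1 ((Finset.range (r + 1)).image (enumG Γ))

/-- Translates of the balls: the windows. -/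
noncomputable def grpWin (h : Γ) (r : ℕ) : Finset Γ := (grpBall Γ r).map (Equiv.mulLeft h).toEmbedding

lemma mem_grpWin {h g : Γ} {r : ℕ} : g ∈ grpWin h r ↔ h⁻¹ * g ∈ grpBall Γ r := by
  unfold grpWin
  simp only [Finset.mem_map, Equiv.coe_toEmbedding, Equiv.coe_mulLeft]
  constructor
  · rintro ⟨a, ha, rfl⟩
    simpa using ha
  · intro hg
    exact ⟨_, hg, by simp⟩

lemma isWindows_grpWin : IsWindows (Set.univ : Set Γ) grpWin where
  sub _ _ _ := by simp
  mono h _ := by
    intro r r' hrr g hg
    rw [mem_grpWin] at hg ⊢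
    unfold grpBall at hg ⊢
    rw [Finset.mem_insert] at hg ⊢
    rcases hg with hg | hg
    · exact Or.inl hg
    · refine Or.inr (Finset.image_subset_image ?_ hg)
      intro a ha
      rw [Finset.mem_range] at ha ⊢
      omega
  self h _ r := by
    rw [mem_grpWin]
    simp [grpBall]
  exhaust h _ g _ := by
    obtain ⟨n, hn⟩ := enumG_surj (h⁻¹ * g)
    refine ⟨n, ?_⟩
    rw [mem_grpWin, ← hn]
    unfold grpBall
    exact Finset.mem_insert_of_mem (Finset.mem_image_of_mem _ (Finset.mem_range.2 (Nat.lt_succ_self n)))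

/-- The noise attached to labels on the group. -/
def grpNoise (f : unitInterval → (ℕ → ℕ → ℝ)) (u : Γ → unitInterval) : Noise Γ :=
  fun h => f (u h)

lemma measurable_grpNoise {f : unitInterval → (ℕ → ℕ → ℝ)} (hf : Measurable f) :
    Measurable (grpNoise (Γ := Γ) f) :=
  measurable_pi_lambda _ fun h => hf.comp (measurable_pi_apply h)

lemma isDyadicNoise_grpNoise {f : unitInterval → (ℕ → ℕ → ℝ)} (hf : Measurable f)
    (hlaw : (volume : Measure unitInterval).map f = stdDyadic) :
    IsDyadicNoise (labelMeasure Γ) (grpNoise f) (Set.univ : Set Γ) := by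
  refine isDyadicNoise_of_law (fun e => hf.comp (measurable_pi_apply e)) fun B _ => ?_
  haveI : IsProbabilityMeasure ((volume : Measure unitInterval).map f) := by
    rw [hlaw]; infer_instance
  have := labelMeasure_map_finite (V := Γ) f hf B
  rw [hlaw] at this
  exact this

lemma measurable_Rbit_grp (ν : Family Γ) (κ : ℝ) {f : unitInterval → (ℕ → ℕ → ℝ)} (hf : Measurable f)
    (W : Γ → ℕ → Finset Γ) (r : ℕ) (h : Γ) :
    Measurable fun u : Γ → unitInterval => Rbit ν κ W r (grpNoise f u) h :=
  (measurable_bit ν (W h r) r (meshOf κ (W h r).card r) h).comp (measurable_grpNoise hf)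

omit [Countable Γ] [DecidableEq Γ] in
lemma leftShift_eq_comp (g : Γ) (u : Γ → unitInterval) :
    leftShift g u = u ∘ (Equiv.mulLeft g⁻¹) := rfl

/-- The masses of the law of `ν` are invariant under a left translation. -/
lemma lawFamily_inv (ν : Measure (Γ → Bool)) [IsProbabilityMeasure ν] (hinv : IsShiftInvariant ν)
    (g : Γ) (B S : Finset Γ) :
    (lawFamily ν).mass B S =
      (lawFamily ν).mass (B.map (Equiv.mulLeft g).toEmbedding)
        (S.map (Equiv.mulLeft g).toEmbedding) := by
  rw [lawFamily_mass, lawFamily_mass, ← hinv g (patt (B.map (Equiv.mulLeft g).toEmbedding)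
    (S.map (Equiv.mulLeft g).toEmbedding)) (measurableSet_patt _ _)]
  congr 2
  ext ω
  simp only [patt, Set.mem_setOf_eq, Set.mem_preimage, Finset.mem_map, Equiv.coe_toEmbedding,
    Equiv.coe_mulLeft, leftShift]
  constructor
  · rintro h i ⟨a, ha, rfl⟩
    have := h a ha
    simp only [inv_mul_cancel_left, this, mul_right_inj, exists_eq_right]
  · intro h i hi
    have := h (g * i) ⟨i, hi, rfl⟩
    simpa using this

/-- The windows are translated by a left translation. -/
lemma grpWin_map (g h : Γ) (r : ℕ) :
    (grpWin (g⁻¹ * h) r).map (Equiv.mulLeft g).toEmbedding = grpWin h r := by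
  ext a
  simp only [Finset.mem_map, Equiv.coe_toEmbedding, Equiv.coe_mulLeft, mem_grpWin]
  constructor
  · rintro ⟨b, hb, rfl⟩
    simpa [mul_assoc] using hb
  · intro ha
    refine ⟨g⁻¹ * a, ?_, by simp⟩
    simpa [mul_assoc] using ha

lemma grpWin_card (g h : Γ) (r : ℕ) : (grpWin (g⁻¹ * h) r).card = (grpWin h r).card := by
  rw [← grpWin_map g h r, Finset.card_map]

/-- Equivariance of the bits. -/
lemma Rbit_shift (ν : Measure (Γ → Bool)) [IsProbabilityMeasure ν] (hinv : IsShiftInvariant ν)
    (f : unitInterval → (ℕ → ℕ → ℝ)) (κ : ℝ) (g h : Γ) (r : ℕ) (u : Γ → unitInterval) :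
    Rbit (lawFamily ν) κ grpWin r (grpNoise f u) (g⁻¹ * h) =
      Rbit (lawFamily ν) κ grpWin r (grpNoise f (leftShift g u)) h := by
  unfold Rbit
  rw [grpWin_card]
  have := bit_transport (lawFamily ν) (lawFamily ν) (Equiv.mulLeft g).toEmbedding
    (grpWin (g⁻¹ * h) r) (fun S _ => lawFamily_inv ν hinv g _ S) r
    (meshOf κ (grpWin h r).card r) (grpNoise f u) (grpNoise f (leftShift g u))
    (fun e _ => by simp [grpNoise, leftShift]) (g⁻¹ * h) (isWindows_grpWin.self _ (Set.mem_univ _) r)
  rw [this, grpWin_map]
  simp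

/-- The statement S0255. -/
theorem assembly_group (ν : Measure (Γ → Bool)) [IsProbabilityMeasure ν]
    (hsr : IsStronglyRayleigh ν) (hinv : IsShiftInvariant ν) :
    ∃ Φ : (Γ → unitInterval) → (Γ → Bool), Measurable Φ ∧
      (∀ (g : Γ) (u : Γ → unitInterval), Φ (leftShift g u) = leftShift g (Φ u)) ∧
      (labelMeasure Γ).map Φ = ν := by
  obtain ⟨f, hf, hlaw⟩ := exists_label_map
  let R : Γ → ℕ → (Γ → unitInterval) → Bool :=
    fun h r u => Rbit (lawFamily ν) (5 / 4) grpWin r (grpNoise f u) h
  have hR : ∀ h r, Measurable (R h r) := fun h r =>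
    measurable_Rbit_grp _ _ hf grpWin r h
  let Φ : (Γ → unitInterval) → (Γ → Bool) := fun u h => limBit (labelMeasure Γ) (R h) u
  have hΦm : Measurable Φ := by
    refine measurable_pi_lambda _ fun h => ?_
    have := measurable_limBit (Θ := Unit) (labelMeasure Γ) (fun _ => R h)
      (fun r => (hR h r).comp measurable_snd)
    exact this.comp ((measurable_const (a := ())).prodMk measurable_id)
  refine ⟨Φ, hΦm, ?_, ?_⟩
  · intro g u
    funext h
    change limBit (labelMeasure Γ) (R h) (leftShift g u) = limBit (labelMeasure Γ) (R (g⁻¹ * h)) u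
    symm
    refine limBit_comp (labelMeasure Γ) (leftShift g) ?_ ?_ (R h) (R (g⁻¹ * h)) ?_ u
    · exact measurePreserving_comp_perm (Equiv.mulLeft g⁻¹)
    · exact measurableEmbedding_comp_perm (Equiv.mulLeft g⁻¹)
    · intro r ω
      exact Rbit_shift ν hinv f _ g h r ω
  · haveI : IsProbabilityMeasure ((labelMeasure Γ).map Φ) :=
      Measure.isProbabilityMeasure_map hΦm.aemeasurable
    refine measure_ext_patt fun B S hS => ?_
    rw [Measure.map_apply hΦm (measurableSet_patt B S)]
    have hξ := isDyadicNoise_grpNoise (Γ := Γ) hf hlaw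
    have key := limit_pattern (P := labelMeasure Γ) (ν := lawFamily ν) (κ := 5 / 4) (by norm_num)
      (lawFamily_lip ν hsr) isWindows_grpWin hξ (F := B) (by simp) hS
    rw [lawFamily_mass] at key
    exact (ENNReal.toReal_eq_toReal_iff' (measure_ne_top _ _) (measure_ne_top _ _)).1 key

end group

end Crest.Agent.SRFactor
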