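import Mathlib

/-!
# SRFactor: definitions shared by the proof of S0254 / S0255.

Blueprint: see `results.approach` of row S0254 in the team database (helper72).
Stochastic localisation driven by i.i.d. Gaussian noise, discretised by an Euler scheme.

* `Family E` : a consistent family of finite marginals of a random subset of `E`.
* `post ν B lam e` : probability of `e` under the marginal on `B` exponentially tilted by `lam`.
* `Family.Lip ν κ` : the tilted means are `κ`-Lipschitz in sup norm, uniformly in the window `B`.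
* `euler ν B h y k e` : Euler scheme with mesh `h`, noise `y`, at step `k`.
* `truePath B h S y k e` : the "true" path when the hidden set is `S`: `k h 1_S + √h Σ_{l<k} y_l`.
* `gaussVec ι`, `gaussMat ι K` : standard Gaussian measures.
* `extY B K y` : extension of a finite noise array by zero to `ℕ → E → ℝ`.
* `Noise E`, `levelNoise`, `bit` : per-site dyadic noise `ξ e n j` (site, level, index) and the bit.
* `IsDyadicNoise P ξ Dom` : on `Dom`, `ξ` has the correct Gaussian level laws and refines.
-/

set_option autoImplicit false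

open MeasureTheory ProbabilityTheory

namespace Crest.Agent.SRFactor

/-- A consistent family of finite marginals of a random subset of `E`:
`mass B S` is the probability that the random set meets `B` exactly in `S` (`S ⊆ B`).
Values at `S ⊄ B` are never used. -/
structure Family (E : Type*) [DecidableEq E] where
  mass : Finset E → Finset E → ℝ
  nonneg : ∀ B S, 0 ≤ mass B S
  sum_one : ∀ B, ∑ S ∈ B.powerset, mass B S = 1
  consistent : ∀ A B, A ⊆ B → ∀ S, S ⊆ A →
    mass A S = ∑ S' ∈ B.powerset.filter (fun S' => S' ∩ A = S), mass B S'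

variable {E : Type*} [DecidableEq E]

/-- Tilted weight of `S`. -/
noncomputable def wt (ν : Family E) (B : Finset E) (lam : E → ℝ) (S : Finset E) : ℝ :=
  ν.mass B S * Real.exp (∑ i ∈ S, lam i)

/-- Partition function of the tilt of the marginal on `B`. -/
noncomputable def zfun (ν : Family E) (B : Finset E) (lam : E → ℝ) : ℝ :=
  ∑ S ∈ B.powerset, wt ν B lam S

/-- Numerator of `post`. -/
noncomputable def numer (ν : Family E) (B : Finset E) (lam : E → ℝ) (e : E) : ℝ :=
  ∑ S ∈ B.powerset.filter (fun S => e ∈ S), wt ν B lam S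

/-- Probability of `e` under the tilt by `lam` of the marginal on `B`. -/
noncomputable def post (ν : Family E) (B : Finset E) (lam : E → ℝ) (e : E) : ℝ :=
  numer ν B lam e / zfun ν B lam

/-- Uniform sup-norm Lipschitz property of the tilted means. -/
def Family.Lip (ν : Family E) (κ : ℝ) : Prop :=
  ∀ (B : Finset E) (lam lam' : E → ℝ) (e : E) (c : ℝ),
    (∀ g ∈ B, |lam g - lam' g| ≤ c) → e ∈ B → |post ν B lam e - post ν B lam' e| ≤ κ * c

/-- The dyadic mesh. -/
noncomputable def hh (n : ℕ) : ℝ := (1 / 2 : ℝ) ^ n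

/-- The Euler scheme on window `B` with mesh `h` driven by `y`. Off `B` it is zero. -/
noncomputable def euler (ν : Family E) (B : Finset E) (h : ℝ) (y : ℕ → E → ℝ) : ℕ → E → ℝ
  | 0 => fun _ => 0
  | k + 1 => fun e =>
      if e ∈ B then
        euler ν B h y k e + h * post ν B (fun g => euler ν B h y k g - k * h / 2) e
          + Real.sqrt h * y k e
      else 0

/-- Indicator of `e ∈ S` as a real number. -/
def ind (S : Finset E) (e : E) : ℝ := if e ∈ S then 1 else 0

/-- The true path on window `B` when the hidden set is `S`. Off `B` it is zero. -/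
noncomputable def truePath (B : Finset E) (h : ℝ) (S : Finset E) (y : ℕ → E → ℝ) (k : ℕ) (e : E) :
    ℝ :=
  if e ∈ B then k * h * ind S e + Real.sqrt h * ∑ l ∈ Finset.range k, y l e else 0

/-- Standard Gaussian on `ι → ℝ`. -/
noncomputable def gaussVec (ι : Type*) [Fintype ι] : Measure (ι → ℝ) :=
  Measure.pi (fun _ : ι => gaussianReal 0 1)

/-- Standard Gaussian array: `K` independent copies of `gaussVec ι`. -/
noncomputable def gaussMat (ι : Type*) [Fintype ι] (K : ℕ) : Measure (Fin K → ι → ℝ) :=
  Measure.pi (fun _ : Fin K => gaussVec ι)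

/-- Extension by zero of a finite noise array to a stream indexed by `ℕ` and `E`. -/
def extY (B : Finset E) (K : ℕ) (y : Fin K → B → ℝ) : ℕ → E → ℝ :=
  fun k e => if hk : k < K then (if he : e ∈ B then y ⟨k, hk⟩ ⟨e, he⟩ else 0) else 0

/-- The single time true position: hidden set `S`, time `t`, Gaussian vector `G`. -/
noncomputable def Zt (A : Finset E) (t : ℝ) (S : Finset E) (G : A → ℝ) (e : E) : ℝ :=
  if he : e ∈ A then t * ind S e + Real.sqrt t * G ⟨e, he⟩ else 0

/-- Second moment of the window `A` posterior of `g` at time `t` under the true law on `A`. -/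
noncomputable def Qv (ν : Family E) (A : Finset E) (g : E) (t : ℝ) : ℝ :=
  ∑ S ∈ A.powerset, ν.mass A S * ∫ G, (post ν A (fun i => Zt A t S G i - t / 2) g) ^ 2 ∂gaussVec A

/-- Per-site dyadic noise: `ξ e n j` is the `j`-th Gaussian of level `n` at site `e`. -/
abbrev Noise (E : Type*) := E → ℕ → ℕ → ℝ

/-- The stream of level `n` in the form used by `euler`. -/
def levelNoise (ξ : Noise E) (n : ℕ) : ℕ → E → ℝ := fun j e => ξ e n j

/-- The Euler position at horizon `T` at mesh level `n`. -/
noncomputable def pos (ν : Family E) (B : Finset E) (T n : ℕ) (ξ : Noise E) (e : E) : ℝ :=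
  euler ν B (hh n) (levelNoise ξ n) (T * 2 ^ n) e

/-- The bit output: is the position at horizon `T` above `T / 2`? -/
noncomputable def bit (ν : Family E) (B : Finset E) (T n : ℕ) (ξ : Noise E) (e : E) : Bool :=
  decide ((T : ℝ) / 2 < pos ν B T n ξ e)

/-- `ξ : Ω → Noise E` is a dyadic Gaussian noise on the sites of `Dom` under `P`. -/
structure IsDyadicNoise {Ω : Type*} [MeasurableSpace Ω] (P : Measure Ω) (ξ : Ω → Noise E)
    (Dom : Set E) : Prop where
  prob : IsProbabilityMeasure P
  meas : ∀ e n j, Measurable (fun ω => ξ ω e n j)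
  level : ∀ (B : Finset E), (B : Set E) ⊆ Dom → ∀ n K,
    P.map (fun ω => fun (j : Fin K) (e : B) => ξ ω e n j) = gaussMat B K
  refine : ∀ᵐ ω ∂P, ∀ e ∈ Dom, ∀ n j,
    ξ ω e n j = (ξ ω e (n + 1) (2 * j) + ξ ω e (n + 1) (2 * j + 1)) / Real.sqrt 2

/-- Windows around the sites of `Dom`. -/
structure IsWindows (Dom : Set E) (W : E → ℕ → Finset E) : Prop where
  sub : ∀ e ∈ Dom, ∀ r, (W e r : Set E) ⊆ Dom
  mono : ∀ e ∈ Dom, Monotone (W e)
  self : ∀ e ∈ Dom, ∀ r, e ∈ W e r
  exhaust : ∀ e ∈ Dom, ∀ g ∈ Dom, ∃ r, g ∈ W e r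

/-- The error bound of the total variation comparison. -/
noncomputable def tvB (h : ℝ) (K b : ℕ) : ℝ :=
  Real.sqrt (Real.exp (K * ((h * b) ^ 2 * Real.exp (h * b) / 2)) - 1)

/-- The error bound of the mesh comparison. -/
noncomputable def meshErr (κ : ℝ) (b T n : ℕ) : ℝ :=
  Real.exp (κ * T) * T * κ * (2 + 4 * b) * Real.sqrt ((1 / 2 : ℝ) ^ n)

/-- A mesh level for window size `b` and horizon `T`, beyond which all discretisation errors are
at most `2^{-T}`. -/
noncomputable def meshOf (κ : ℝ) (b T : ℕ) : ℕ :=
  sInf {n0 | ∀ n, n0 ≤ n → meshErr κ b T n ≤ (1 / 2 : ℝ) ^ T ∧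
    tvB (hh n) (T * 2 ^ n) b ≤ (1 / 2 : ℝ) ^ T}

/-- The bit at site `e` computed on the window of radius `r`, horizon `r`. -/
noncomputable def Rbit (ν : Family E) (κ : ℝ) (W : E → ℕ → Finset E) (r : ℕ) (ξ : Noise E) (e : E) :
    Bool :=
  bit ν (W e r) r (meshOf κ (W e r).card r) ξ e

end Crest.Agent.SRFactor
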