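import Crest.Agent.SRFactor.TreeFamily

/-! Graph windows: the edges near an edge. All functions are total in `G`, and measurable in the
adjacency table. -/

set_option autoImplicit false

open Crest.ProbabilityR.GraphTables

namespace Crest.Agent.SRFactor

open scoped Classical in
/-- The neighbours of `u` as a finite set (empty when infinitely many). -/
noncomputable def nbrF (G : SimpleGraph ℕ) (u : ℕ) : Finset ℕ :=
  if h : (G.neighborSet u).Finite then h.toFinset else ∅

/-- The ball of radius `r` around a finite set `U`, computed by iterating `nbrF`. -/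
noncomputable def ballF (G : SimpleGraph ℕ) (U : Finset ℕ) : ℕ → Finset ℕ
  | 0 => U
  | r + 1 => ballF G U r ∪ (ballF G U r).biUnion (nbrF G)

open scoped Classical in
/-- The window of radius `r` around `e`: edges of `G` in the ball of radius `r` around the endpoints
of `e`, together with `e`. -/
noncomputable def edgeWin (G : SimpleGraph ℕ) (e : Sym2 ℕ) (r : ℕ) : Finset (Sym2 ℕ) :=
  insert e (((ballF G e.toFinset r).sym2).filter (fun f => f ∈ G.edgeSet))


/-! ### Neighbour sets and balls -/

theorem mem_nbrF_of_finite {G : SimpleGraph ℕ} {u v : ℕ} (h : (G.neighborSet u).Finite) :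
    v ∈ nbrF G u ↔ G.Adj u v := by
  classical
  simp [nbrF, h]

theorem mem_nbrF_iff {G : SimpleGraph ℕ} {u v : ℕ} :
    v ∈ nbrF G u ↔ (G.neighborSet u).Finite ∧ G.Adj u v := by
  classical
  by_cases h : (G.neighborSet u).Finite
  · simp [mem_nbrF_of_finite h, h]
  · simp [nbrF, h]

theorem mem_ballF_succ {G : SimpleGraph ℕ} {U : Finset ℕ} {r v : ℕ} :
    v ∈ ballF G U (r + 1) ↔ v ∈ ballF G U r ∨ ∃ w, w ∈ ballF G U r ∧ v ∈ nbrF G w := by
  simp [ballF]

theorem ballF_subset_succ (G : SimpleGraph ℕ) (U : Finset ℕ) (r : ℕ) :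
    ballF G U r ⊆ ballF G U (r + 1) := fun _ hv => mem_ballF_succ.2 (Or.inl hv)

theorem ballF_mono (G : SimpleGraph ℕ) (U : Finset ℕ) : Monotone (ballF G U) :=
  monotone_nat_of_le_succ (ballF_subset_succ G U)

theorem subset_ballF (G : SimpleGraph ℕ) (U : Finset ℕ) (r : ℕ) : U ⊆ ballF G U r :=
  ballF_mono G U (Nat.zero_le r)

/-- In a locally finite graph, anything reachable from `U` is in a ball around `U`. -/
theorem exists_mem_ballF {G : SimpleGraph ℕ} (hlf : ∀ v, (G.neighborSet v).Finite)
    {U : Finset ℕ} {u v : ℕ} (hu : u ∈ U) (h : G.Reachable u v) : ∃ r, v ∈ ballF G U r := by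
  rw [SimpleGraph.reachable_iff_reflTransGen] at h
  induction h with
  | refl => exact ⟨0, hu⟩
  | tail _ hbc ih =>
    obtain ⟨r, hr⟩ := ih
    exact ⟨r + 1, mem_ballF_succ.2 (Or.inr ⟨_, hr, (mem_nbrF_of_finite (hlf _)).2 hbc⟩)⟩

theorem mem_edgeWin_iff {G : SimpleGraph ℕ} {e f : Sym2 ℕ} {r : ℕ} :
    f ∈ edgeWin G e r ↔ f = e ∨ ((∀ a ∈ f, a ∈ ballF G e.toFinset r) ∧ f ∈ G.edgeSet) := by
  simp [edgeWin, Finset.mem_sym2_iff]

theorem isWindows_edgeWin {G : SimpleGraph ℕ} (hG : G.Connected)
    (hlf : ∀ v, (G.neighborSet v).Finite) :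
    IsWindows G.edgeSet (edgeWin G) := by
  refine ⟨?_, ?_, ?_, ?_⟩
  · intro e he r f hf
    rcases mem_edgeWin_iff.1 hf with rfl | h
    · exact he
    · exact h.2
  · intro e _ r r' hrr' f hf
    rcases mem_edgeWin_iff.1 hf with h | h
    · exact mem_edgeWin_iff.2 (Or.inl h)
    · exact mem_edgeWin_iff.2 (Or.inr ⟨fun a ha => ballF_mono G _ hrr' (h.1 a ha), h.2⟩)
  · intro e _ r
    exact mem_edgeWin_iff.2 (Or.inl rfl)
  · intro e _ g hg
    induction g using Sym2.ind with
    | _ a b =>
      induction e using Sym2.ind with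
      | _ c d =>
        have hc : c ∈ (s(c, d) : Sym2 ℕ).toFinset := by simp
        obtain ⟨r₁, hr₁⟩ := exists_mem_ballF hlf hc (hG.preconnected c a)
        obtain ⟨r₂, hr₂⟩ := exists_mem_ballF hlf hc (hG.preconnected c b)
        refine ⟨max r₁ r₂, mem_edgeWin_iff.2 (Or.inr ⟨?_, hg⟩)⟩
        intro x hx
        rcases Sym2.mem_iff.1 hx with rfl | rfl
        · exact ballF_mono G _ (le_max_left _ _) hr₁
        · exact ballF_mono G _ (le_max_right _ _) hr₂

/-! ### Equivariance -/

theorem mem_nbrF_comap (σ : Equiv.Perm ℕ) (G : SimpleGraph ℕ) (u v : ℕ) :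
    v ∈ nbrF (G.comap σ) u ↔ σ v ∈ nbrF G (σ u) := by
  have hfin : ((G.comap σ).neighborSet u).Finite ↔ (G.neighborSet (σ u)).Finite := by
    have : (G.comap σ).neighborSet u = σ ⁻¹' G.neighborSet (σ u) := by
      ext w; simp
    rw [this]
    exact ⟨fun h => h.of_preimage σ.surjective, fun h => h.preimage σ.injective.injOn⟩
  rw [mem_nbrF_iff, mem_nbrF_iff, hfin]
  simp

theorem mem_ballF_comap (σ : Equiv.Perm ℕ) (G : SimpleGraph ℕ) (U : Finset ℕ) (r v : ℕ) :
    v ∈ ballF (G.comap σ) U r ↔ σ v ∈ ballF G (U.map σ.toEmbedding) r := by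
  induction r generalizing v with
  | zero => simp [ballF]
  | succ r ih =>
    rw [mem_ballF_succ, mem_ballF_succ, ih]
    refine or_congr Iff.rfl ?_
    constructor
    · rintro ⟨w, hw, hvw⟩
      exact ⟨σ w, (ih w).1 hw, (mem_nbrF_comap σ G w v).1 hvw⟩
    · rintro ⟨w, hw, hvw⟩
      refine ⟨σ.symm w, (ih _).2 (by simpa using hw), (mem_nbrF_comap σ G _ v).2 (by simpa using hvw)⟩

theorem toFinset_map (σ : Equiv.Perm ℕ) (e : Sym2 ℕ) :
    (Sym2.map σ e).toFinset = e.toFinset.map σ.toEmbedding := by
  induction e using Sym2.ind with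
  | _ a b =>
    ext x
    simp only [Sym2.map_mk, Sym2.mem_toFinset, Sym2.mem_iff, Finset.mem_map_equiv,
      Equiv.eq_symm_apply, eq_comm]

/-- Equivariance of windows. -/
theorem edgeWin_comap (σ : Equiv.Perm ℕ) (G : SimpleGraph ℕ) (e : Sym2 ℕ) (r : ℕ) :
    (edgeWin (G.comap σ) e r).map (symEmb σ) = edgeWin G (Sym2.map σ e) r := by
  ext f
  rw [Finset.mem_map]
  constructor
  · rintro ⟨g, hg, rfl⟩
    rw [mem_edgeWin_iff] at hg ⊢
    rcases hg with rfl | ⟨h₁, h₂⟩
    · exact Or.inl rfl
    · refine Or.inr ⟨?_, ?_⟩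
      · intro a ha
        change a ∈ Sym2.map σ g at ha
        obtain ⟨b, hb, rfl⟩ := Sym2.mem_map.1 ha
        rw [toFinset_map]
        exact (mem_ballF_comap σ G _ r b).1 (h₁ b hb)
      · induction g using Sym2.ind with
        | _ a b => simpa [symEmb] using h₂
  · intro hf
    refine ⟨Sym2.map σ.symm f, ?_, ?_⟩
    · rw [mem_edgeWin_iff] at hf ⊢
      rcases hf with rfl | ⟨h₁, h₂⟩
      · left
        rw [Sym2.map_map]
        simp
      · right
        refine ⟨?_, ?_⟩
        · intro a ha
          obtain ⟨b, hb, rfl⟩ := Sym2.mem_map.1 ha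
          rw [mem_ballF_comap, ← toFinset_map]
          simpa using h₁ b hb
        · induction f using Sym2.ind with
          | _ a b => simpa using h₂
    · change Sym2.map σ (Sym2.map σ.symm f) = f
      rw [Sym2.map_map]
      simp

/-! ### Measurability in the table -/

theorem measurable_adj (i j : ℕ) :
    Measurable fun t : ℕ → ℕ → Bool => (graphOfTable t).Adj i j := by
  have h₁ : ∀ a b : ℕ, Measurable fun t : ℕ → ℕ → Bool => t a b = true := by
    intro a b
    have : Measurable fun t : ℕ → ℕ → Bool => t a b :=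
      (measurable_pi_apply b).comp (measurable_pi_apply a)
    exact measurableSet_setOfPred.1 (this (measurableSet_singleton true))
  have h₂ : (fun t : ℕ → ℕ → Bool => (graphOfTable t).Adj i j) =
      fun t => i ≠ j ∧ (t i j = true ∨ t j i = true) := by
    funext t
    simp [graphOfTable, SimpleGraph.fromRel_adj]
  rw [h₂]
  exact measurable_const.and ((h₁ i j).or (h₁ j i))

theorem measurable_neighborFinite (u : ℕ) :
    Measurable fun t : ℕ → ℕ → Bool => ((graphOfTable t).neighborSet u).Finite := by
  have h : (fun t : ℕ → ℕ → Bool => ((graphOfTable t).neighborSet u).Finite) =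
      fun t => ∃ A : Finset ℕ, ∀ w, (graphOfTable t).Adj u w → w ∈ A := by
    funext t
    apply propext
    constructor
    · intro hf
      exact ⟨hf.toFinset, fun w hw => by simpa using hw⟩
    · rintro ⟨A, hA⟩
      exact A.finite_toSet.subset fun w hw => by simpa using hA w hw
  rw [h]
  exact Measurable.exists fun A => Measurable.forall fun w =>
    (measurable_adj u w).imp measurable_const

theorem measurable_mem_nbrF (u v : ℕ) :
    Measurable fun t : ℕ → ℕ → Bool => v ∈ nbrF (graphOfTable t) u := by
  simp only [mem_nbrF_iff]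
  exact (measurable_neighborFinite u).and (measurable_adj u v)

theorem measurable_mem_ballF (U : Finset ℕ) (r v : ℕ) :
    Measurable fun t : ℕ → ℕ → Bool => v ∈ ballF (graphOfTable t) U r := by
  induction r generalizing v with
  | zero => exact (measurable_const : Measurable fun _ : ℕ → ℕ → Bool => v ∈ U)
  | succ r ih =>
    simp only [mem_ballF_succ]
    exact (ih v).or (Measurable.exists fun w => (ih w).and (measurable_mem_nbrF w v))

theorem measurable_mem_edgeSet (e : Sym2 ℕ) :
    Measurable fun t : ℕ → ℕ → Bool => e ∈ (graphOfTable t).edgeSet := by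
  induction e using Sym2.ind with
  | _ a b =>
    simp only [SimpleGraph.mem_edgeSet]
    exact measurable_adj a b

instance instCountableSym2Nat : Countable (Sym2 ℕ) :=
  (Sym2.mk_surjective (α := ℕ)).countable

theorem measurable_mem_edgeWin (e f : Sym2 ℕ) (r : ℕ) :
    Measurable fun t : ℕ → ℕ → Bool => f ∈ edgeWin (graphOfTable t) e r := by
  simp only [mem_edgeWin_iff]
  exact measurable_const.or
    ((Measurable.forall fun a => measurable_const.imp (measurable_mem_ballF _ r a)).and
      (measurable_mem_edgeSet f))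

/-- Measurability of windows in the adjacency table. -/
theorem measurableSet_edgeWin (e : Sym2 ℕ) (r : ℕ) (A : Finset (Sym2 ℕ)) :
    MeasurableSet {t : ℕ → ℕ → Bool | edgeWin (graphOfTable t) e r = A} := by
  have h : {t : ℕ → ℕ → Bool | edgeWin (graphOfTable t) e r = A} =
      {t | ∀ f, f ∈ edgeWin (graphOfTable t) e r ↔ f ∈ A} := by
    ext t
    simp [Finset.ext_iff]
  rw [h]
  exact measurableSet_setOfPred.2
    (Measurable.forall fun f => (measurable_mem_edgeWin e f r).iff measurable_const)

/-- Reachability in exactly `n` steps. -/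
def stepReach (G : SimpleGraph ℕ) (u : ℕ) : ℕ → ℕ → Prop
  | 0, v => u = v
  | n + 1, v => ∃ w, stepReach G u n w ∧ G.Adj w v

theorem reachable_iff_stepReach {G : SimpleGraph ℕ} {u v : ℕ} :
    G.Reachable u v ↔ ∃ n, stepReach G u n v := by
  rw [SimpleGraph.reachable_iff_reflTransGen]
  constructor
  · intro h
    induction h with
    | refl => exact ⟨0, rfl⟩
    | tail _ hbc ih =>
      obtain ⟨n, hn⟩ := ih
      exact ⟨n + 1, _, hn, hbc⟩
  · rintro ⟨n, hn⟩
    induction n generalizing v with
    | zero => cases hn; exact .refl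
    | succ n ih =>
      obtain ⟨w, hw, hwv⟩ := hn
      exact (ih hw).tail hwv

theorem measurable_stepReach (u n v : ℕ) :
    Measurable fun t : ℕ → ℕ → Bool => stepReach (graphOfTable t) u n v := by
  induction n generalizing v with
  | zero => exact measurable_const
  | succ n ih =>
    exact Measurable.exists fun w => (ih w).and (measurable_adj w v)

/-- Measurability of connectivity and local finiteness in the adjacency table. -/
theorem measurableSet_connected :
    MeasurableSet {t : ℕ → ℕ → Bool | (graphOfTable t).Connected} := by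
  have h : {t : ℕ → ℕ → Bool | (graphOfTable t).Connected} =
      {t | ∀ u v, ∃ n, stepReach (graphOfTable t) u n v} := by
    ext t
    simp only [Set.mem_ofPred_eq, ← reachable_iff_stepReach]
    exact ⟨fun hc u v => hc.preconnected u v,
      fun hr => { preconnected := hr, nonempty := ⟨0⟩ }⟩
  rw [h]
  exact measurableSet_setOfPred.2 (Measurable.forall fun u => Measurable.forall fun v =>
    Measurable.exists fun n => measurable_stepReach u n v)

theorem measurableSet_locFinite :
    MeasurableSet {t : ℕ → ℕ → Bool | ∀ v, ((graphOfTable t).neighborSet v).Finite} :=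
  measurableSet_setOfPred.2 (Measurable.forall fun v => measurable_neighborFinite v)

theorem measurableSet_edge (e : Sym2 ℕ) :
    MeasurableSet {t : ℕ → ℕ → Bool | e ∈ (graphOfTable t).edgeSet} :=
  measurableSet_setOfPred.2 (measurable_mem_edgeSet e)

end Crest.Agent.SRFactor
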