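import Crest.Agent.SRFactor.PostBasic

/-! Transport of the scheme under an injection of sites. Used for the equivariance. -/

set_option autoImplicit false
set_option linter.unusedSectionVars false

namespace Crest.Agent.SRFactor

variable {E E' : Type*} [DecidableEq E] [DecidableEq E']

private lemma sum_powerset_map {β : Type*} [AddCommMonoid β] (f : E' ↪ E) (B' : Finset E')
    (F : Finset E → β) :
    ∑ S ∈ (B'.map f).powerset, F S = ∑ S ∈ B'.powerset, F (S.map f) := by
  refine (Finset.sum_bij' (fun S _ => S.preimage f f.injective.injOn) (fun S _ => S.map f)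
    ?_ ?_ ?_ ?_ ?_).symm.symm
  · intro S hS
    rw [Finset.mem_powerset] at hS ⊢
    intro x hx
    rw [Finset.mem_preimage] at hx
    have := hS hx
    rw [Finset.mem_map] at this
    obtain ⟨a, ha, hax⟩ := this
    rwa [← f.injective hax]
  · intro S hS
    rw [Finset.mem_powerset] at hS ⊢
    exact Finset.map_subset_map.mpr hS
  · intro S hS
    rw [Finset.mem_powerset] at hS
    ext x
    simp only [Finset.mem_map, Finset.mem_preimage]
    constructor
    · rintro ⟨a, ha, rfl⟩
      exact ha
    · intro hx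
      have := hS hx
      rw [Finset.mem_map] at this
      obtain ⟨a, _, rfl⟩ := this
      exact ⟨a, hx, rfl⟩
  · intro S _
    ext x
    simp
  · intro S hS
    rw [Finset.mem_powerset] at hS
    congr 1
    ext x
    simp only [Finset.mem_map, Finset.mem_preimage]
    constructor
    · intro hx
      have := hS hx
      rw [Finset.mem_map] at this
      obtain ⟨a, _, rfl⟩ := this
      exact ⟨a, hx, rfl⟩
    · rintro ⟨a, ha, rfl⟩
      exact ha

private lemma wt_transport (ν' : Family E') (ν : Family E) (f : E' ↪ E) (B' : Finset E')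
    (hm : ∀ S ⊆ B', ν'.mass B' S = ν.mass (B'.map f) (S.map f)) (lam' : E' → ℝ) (lam : E → ℝ)
    (hl : ∀ e ∈ B', lam' e = lam (f e)) {S : Finset E'} (hS : S ⊆ B') :
    wt ν' B' lam' S = wt ν (B'.map f) lam (S.map f) := by
  unfold wt
  rw [hm S hS, Finset.sum_map]
  congr 2
  exact Finset.sum_congr rfl fun i hi => hl i (hS hi)

/-- Transport of `post`. -/
theorem post_transport (ν' : Family E') (ν : Family E) (f : E' ↪ E) (B' : Finset E')
    (hm : ∀ S ⊆ B', ν'.mass B' S = ν.mass (B'.map f) (S.map f)) (lam' : E' → ℝ) (lam : E → ℝ)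
    (hl : ∀ e ∈ B', lam' e = lam (f e)) (e : E') :
    post ν' B' lam' e = post ν (B'.map f) lam (f e) := by
  unfold post numer zfun
  congr 1
  · rw [Finset.sum_filter, Finset.sum_filter, sum_powerset_map]
    refine Finset.sum_congr rfl fun S hS => ?_
    have hS' := Finset.mem_powerset.mp hS
    have hiff : f e ∈ S.map f ↔ e ∈ S := by
      simp
    by_cases he : e ∈ S
    · rw [if_pos he, if_pos (hiff.mpr he)]
      exact wt_transport ν' ν f B' hm lam' lam hl hS'
    · rw [if_neg he, if_neg (fun h => he (hiff.mp h))]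
  · rw [sum_powerset_map]
    refine Finset.sum_congr rfl fun S hS => ?_
    exact wt_transport ν' ν f B' hm lam' lam hl (Finset.mem_powerset.mp hS)

/-- Transport of the Euler scheme. -/
theorem euler_transport (ν' : Family E') (ν : Family E) (f : E' ↪ E) (B' : Finset E')
    (hm : ∀ S ⊆ B', ν'.mass B' S = ν.mass (B'.map f) (S.map f)) (h : ℝ) (y' : ℕ → E' → ℝ)
    (y : ℕ → E → ℝ) (hy : ∀ k, ∀ e ∈ B', y' k e = y k (f e)) (k : ℕ) (e : E') (he : e ∈ B') :
    euler ν' B' h y' k e = euler ν (B'.map f) h y k (f e) := by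
  induction k generalizing e with
  | zero => rfl
  | succ k ih =>
    have hfe : f e ∈ B'.map f := Finset.mem_map_of_mem f he
    simp only [euler, if_pos he, if_pos hfe]
    rw [ih e he, hy k e he]
    congr 2
    congr 1
    exact post_transport ν' ν f B' hm _ _ (fun g hg => by rw [ih g hg]) e

/-- Transport of the bit. -/
theorem bit_transport (ν' : Family E') (ν : Family E) (f : E' ↪ E) (B' : Finset E')
    (hm : ∀ S ⊆ B', ν'.mass B' S = ν.mass (B'.map f) (S.map f)) (T n : ℕ) (ξ' : Noise E')
    (ξ : Noise E) (hξ : ∀ e ∈ B', ξ' e = ξ (f e)) (e : E') (he : e ∈ B') :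
    bit ν' B' T n ξ' e = bit ν (B'.map f) T n ξ (f e) := by
  unfold bit pos
  rw [euler_transport ν' ν f B' hm (hh n) (levelNoise ξ' n) (levelNoise ξ n)
    (fun k g hg => by simp only [levelNoise, hξ g hg]) (T * 2 ^ n) e he]

end Crest.Agent.SRFactor
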