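import Crest.Agent.SRFactor.Limit
import Crest.Agent.SRFactor.Transport

/-! Joint measurability of the scheme in a parameter: if the masses of the family, the window and the
noise depend measurably on a parameter `q`, the bit does. -/

set_option autoImplicit false
set_option linter.unusedSectionVars false

open MeasureTheory

namespace Crest.Agent.SRFactor

variable {E : Type*} [DecidableEq E] [Countable E]

private lemma measurable_post_param {Θ : Type*} [MeasurableSpace Θ] (ν : Θ → Family E)
    (A : Finset E) (lam : Θ → E → ℝ) (g : E)
    (hν : ∀ B S, Measurable fun q => (ν q).mass B S)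
    (hlam : ∀ i, Measurable fun q => lam q i) :
    Measurable fun q => post (ν q) A (lam q) g := by
  have hwt : ∀ S, Measurable fun q => wt (ν q) A (lam q) S := by
    intro S
    unfold wt
    refine (hν A S).mul ?_
    exact Real.measurable_exp.comp (Finset.measurable_sum _ fun i _ => hlam i)
  unfold post numer zfun
  exact (Finset.measurable_sum _ fun S _ => hwt S).div (Finset.measurable_sum _ fun S _ => hwt S)

private lemma measurable_euler_param {Θ : Type*} [MeasurableSpace Θ] (ν : Θ → Family E)
    (A : Finset E) (h : ℝ) (y : Θ → ℕ → E → ℝ)
    (hν : ∀ B S, Measurable fun q => (ν q).mass B S)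
    (hy : ∀ k g, Measurable fun q => y q k g) (k : ℕ) (g : E) :
    Measurable fun q => euler (ν q) A h (y q) k g := by
  induction k generalizing g with
  | zero => exact measurable_const
  | succ k ih =>
    by_cases hg : g ∈ A
    · have : (fun q => euler (ν q) A h (y q) (k + 1) g) = fun q =>
          euler (ν q) A h (y q) k g
            + h * post (ν q) A (fun g' => euler (ν q) A h (y q) k g' - k * h / 2) g
            + Real.sqrt h * y q k g := by
        funext q
        simp only [euler, if_pos hg]
      rw [this]
      refine ((ih g).add (measurable_const.mul ?_)).add (measurable_const.mul (hy k g))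
      exact measurable_post_param ν A _ g hν fun i => (ih i).sub measurable_const
    · have : (fun q => euler (ν q) A h (y q) (k + 1) g) = fun _ => 0 := by
        funext q
        simp only [euler, if_neg hg]
      rw [this]
      exact measurable_const

/-- Measurability of `Rbit` in a parameter. Here `W q e r` has countable range (finite sets of a
countable type), with measurable level sets. -/
theorem measurable_Rbit_param {Θ : Type*} [MeasurableSpace Θ] (ν : Θ → Family E) (κ : ℝ)
    (W : Θ → E → ℕ → Finset E) (ξ : Θ → Noise E) (r : ℕ) (e : E)
    (hν : ∀ B S, Measurable fun q => (ν q).mass B S)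
    (hW : ∀ A, MeasurableSet {q | W q e r = A})
    (hξ : ∀ g n j, Measurable fun q => ξ q g n j) :
    Measurable fun q => Rbit (ν q) κ (W q) r (ξ q) e := by
  have hbit : ∀ (A : Finset E) (n : ℕ), Measurable fun q => bit (ν q) A r n (ξ q) e := by
    intro A n
    refine measurable_to_bool ?_
    have : (fun q => bit (ν q) A r n (ξ q) e) ⁻¹' {true} =
        {q | ((r : ℝ) / 2) < pos (ν q) A r n (ξ q) e} := by
      ext q
      simp [bit]
    rw [this]
    refine measurableSet_lt measurable_const ?_
    unfold pos
    exact measurable_euler_param ν A _ (fun q => levelNoise (ξ q) n) hν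
      (fun k g => hξ g n k) _ e
  refine measurable_to_bool ?_
  have : (fun q => Rbit (ν q) κ (W q) r (ξ q) e) ⁻¹' {true} =
      ⋃ A : Finset E, ({q | W q e r = A} ∩
        (fun q => bit (ν q) A r (meshOf κ A.card r) (ξ q) e) ⁻¹' {true}) := by
    ext q
    simp only [Set.mem_preimage, Set.mem_iUnion, Set.mem_inter_iff, Set.mem_setOf_eq,
      Set.mem_singleton_iff, Rbit]
    constructor
    · intro hq
      exact ⟨W q e r, rfl, hq⟩
    · rintro ⟨A, hA, hq⟩
      rw [hA]
      exact hq
  rw [this]
  exact MeasurableSet.iUnion fun A =>
    (hW A).inter (hbit A _ (measurableSet_singleton true))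

end Crest.Agent.SRFactor
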