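import Crest.Agent.SRFactor.SRLip

/-! Negative correlation from the Rayleigh inequality at all positive points: conditioning on absence
of elements increases the probabilities of containing a given finite set (Feder-Mihail chain). -/

set_option autoImplicit false

open Finset

namespace Crest.Agent.SRFactor

variable {E : Type*} [DecidableEq E]

/-- The Rayleigh inequality at all positive points, for all pairs. -/
def NCAll (B : Finset E) (m : Finset E → ℝ) : Prop :=
  ∀ y : E → ℝ, (∀ i ∈ B, 0 < y i) → ∀ e ∈ B, ∀ g ∈ B, e ≠ g →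
    coefP B m ∅ y * coefP B m {e, g} y ≤ coefP B m {e} y * coefP B m {g} y

/-- The mass of the sets containing `C` and avoiding `D`. -/
noncomputable def cN (B : Finset E) (m : Finset E → ℝ) (C D : Finset E) : ℝ :=
  ∑ S ∈ B.powerset.filter (fun S => C ⊆ S ∧ Disjoint S D), m S

/-- The auxiliary polynomial of the limit argument. -/
noncomputable def cF (B : Finset E) (m : Finset E → ℝ) (P D C : Finset E) (u : ℝ) : ℝ :=
  ∑ S ∈ B.powerset.filter (fun S => C ⊆ S), m S * u ^ ((P \ S).card + (S ∩ D).card)

/-- The test point. -/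
noncomputable def cY (P D : Finset E) (u : ℝ) : E → ℝ :=
  fun i => (if i ∈ P then u⁻¹ else 1) * (if i ∈ D then u else 1)

theorem cY_pos {P D : Finset E} {u : ℝ} (hu : 0 < u) (i : E) : 0 < cY P D u i := by
  unfold cY
  apply mul_pos
  · split_ifs <;> positivity
  · split_ifs <;> positivity

theorem coefP_cY {B : Finset E} {m : Finset E → ℝ} {P D C : Finset E} (hCP : Disjoint C P)
    (hCD : Disjoint C D) {u : ℝ} (hu : 0 < u) :
    u ^ P.card * coefP B m C (cY P D u) = cF B m P D C u := by
  unfold coefP cF
  rw [Finset.mul_sum]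
  refine Finset.sum_congr rfl fun S hS => ?_
  have h1 : (S \ C) ∩ P = S ∩ P := by
    ext x; simp only [mem_inter, mem_sdiff]
    constructor
    · rintro ⟨⟨a, _⟩, b⟩; exact ⟨a, b⟩
    · rintro ⟨a, b⟩; exact ⟨⟨a, fun hc => (Finset.disjoint_left.1 hCP hc) b⟩, b⟩
  have h2 : (S \ C) ∩ D = S ∩ D := by
    ext x; simp only [mem_inter, mem_sdiff]
    constructor
    · rintro ⟨⟨a, _⟩, b⟩; exact ⟨a, b⟩
    · rintro ⟨a, b⟩; exact ⟨⟨a, fun hc => (Finset.disjoint_left.1 hCD hc) b⟩, b⟩
  have h3 : ∏ i ∈ S \ C, cY P D u i = u⁻¹ ^ (S ∩ P).card * u ^ (S ∩ D).card := by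
    unfold cY
    rw [Finset.prod_mul_distrib, Finset.prod_ite_mem, Finset.prod_ite_mem, h1, h2,
      Finset.prod_const, Finset.prod_const]
  rw [h3]
  have h4 : P.card = (P \ S).card + (S ∩ P).card := by
    rw [Finset.inter_comm, Finset.card_sdiff_add_card_inter]
  have hu' : u ≠ 0 := hu.ne'
  rw [h4, pow_add, pow_add, inv_pow]
  field_simp

theorem continuous_cF (B : Finset E) (m : Finset E → ℝ) (P D C : Finset E) :
    Continuous (cF B m P D C) := by
  unfold cF
  fun_prop

theorem cF_zero (B : Finset E) (m : Finset E → ℝ) (P D C : Finset E) :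
    cF B m P D C 0 = cN B m (C ∪ P) D := by
  unfold cF cN
  have : ∀ S ∈ B.powerset.filter (fun S => C ⊆ S),
      m S * (0 : ℝ) ^ ((P \ S).card + (S ∩ D).card) =
        if (P ⊆ S ∧ Disjoint S D) then m S else 0 := by
    intro S _
    by_cases h : P ⊆ S ∧ Disjoint S D
    · rw [if_pos h]
      have h1 : (P \ S).card = 0 := by
        rw [Finset.card_eq_zero, Finset.sdiff_eq_empty_iff_subset]; exact h.1
      have h2 : (S ∩ D).card = 0 := by
        rw [Finset.card_eq_zero]; exact Finset.disjoint_iff_inter_eq_empty.1 h.2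
      rw [h1, h2]; simp
    · rw [if_neg h]
      have : (P \ S).card + (S ∩ D).card ≠ 0 := by
        intro h0
        apply h
        have h1 : (P \ S).card = 0 := by omega
        have h2 : (S ∩ D).card = 0 := by omega
        rw [Finset.card_eq_zero, Finset.sdiff_eq_empty_iff_subset] at h1
        rw [Finset.card_eq_zero] at h2
        exact ⟨h1, Finset.disjoint_iff_inter_eq_empty.2 h2⟩
      rw [zero_pow this, mul_zero]
  rw [Finset.sum_congr rfl this, ← Finset.sum_filter, Finset.filter_filter]
  refine Finset.sum_congr ?_ fun _ _ => rfl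
  ext S
  simp only [mem_filter, mem_powerset, union_subset_iff]
  tauto

/-- The Rayleigh inequality for the measure conditioned on containing `P` and avoiding `D`. -/
theorem cN_rayleigh {B : Finset E} {m : Finset E → ℝ} (h : NCAll B m) {P D : Finset E}
    {e g : E} (he : e ∈ B) (hg : g ∈ B) (heg : e ≠ g) (heP : e ∉ P) (hgP : g ∉ P)
    (heD : e ∉ D) (hgD : g ∉ D) :
    cN B m (insert e (insert g P)) D * cN B m P D ≤
      cN B m (insert e P) D * cN B m (insert g P) D := by
  have hpos : ∀ u : ℝ, 0 < u →
      cF B m P D ∅ u * cF B m P D {e, g} u ≤ cF B m P D {e} u * cF B m P D {g} u := by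
    intro u hu
    have h1 := h (cY P D u) (fun i _ => cY_pos hu i) e he g hg heg
    have e0 := coefP_cY (B := B) (m := m) (P := P) (D := D) (C := ∅) (by simp) (by simp) hu
    have e1 := coefP_cY (B := B) (m := m) (P := P) (D := D) (C := {e}) (by simpa using heP)
      (by simpa using heD) hu
    have e2 := coefP_cY (B := B) (m := m) (P := P) (D := D) (C := {g}) (by simpa using hgP)
      (by simpa using hgD) hu
    have e3 := coefP_cY (B := B) (m := m) (P := P) (D := D) (C := {e, g})
      (by simp [Finset.disjoint_insert_left, heP, hgP]) (by simp [Finset.disjoint_insert_left, heD, hgD]) hu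
    rw [← e0, ← e1, ← e2, ← e3]
    have hk : 0 ≤ u ^ P.card * u ^ P.card := by positivity
    nlinarith [mul_le_mul_of_nonneg_left h1 hk]
  have hlim : cF B m P D ∅ 0 * cF B m P D {e, g} 0 ≤ cF B m P D {e} 0 * cF B m P D {g} 0 := by
    have c1 : Continuous fun u => cF B m P D ∅ u * cF B m P D {e, g} u :=
      (continuous_cF _ _ _ _ _).mul (continuous_cF _ _ _ _ _)
    have c2 : Continuous fun u => cF B m P D {e} u * cF B m P D {g} u :=
      (continuous_cF _ _ _ _ _).mul (continuous_cF _ _ _ _ _)
    have t1 : Filter.Tendsto (fun u => cF B m P D ∅ u * cF B m P D {e, g} u)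
        (nhdsWithin 0 (Set.Ioi 0)) (nhds (cF B m P D ∅ 0 * cF B m P D {e, g} 0)) :=
      (c1.tendsto 0).mono_left nhdsWithin_le_nhds
    have t2 : Filter.Tendsto (fun u => cF B m P D {e} u * cF B m P D {g} u)
        (nhdsWithin 0 (Set.Ioi 0)) (nhds (cF B m P D {e} 0 * cF B m P D {g} 0)) :=
      (c2.tendsto 0).mono_left nhdsWithin_le_nhds
    refine le_of_tendsto_of_tendsto t1 t2 ?_
    filter_upwards [self_mem_nhdsWithin] with u hu using hpos u hu
  rw [cF_zero, cF_zero, cF_zero, cF_zero] at hlim
  have a0 : (∅ : Finset E) ∪ P = P := by simp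
  have a1 : ({e, g} : Finset E) ∪ P = insert e (insert g P) := by
    ext x; simp only [mem_union, mem_insert, mem_singleton]; tauto
  have a2 : ({e} : Finset E) ∪ P = insert e P := by
    ext x; simp only [mem_union, mem_insert, mem_singleton]
  have a3 : ({g} : Finset E) ∪ P = insert g P := by
    ext x; simp only [mem_union, mem_insert, mem_singleton]
  rw [a0, a1, a2, a3] at hlim
  linarith

theorem cN_nonneg {B : Finset E} {m : Finset E → ℝ} (hm : ∀ S, 0 ≤ m S) (C D : Finset E) :
    0 ≤ cN B m C D := Finset.sum_nonneg fun S _ => hm S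

theorem cN_anti {B : Finset E} {m : Finset E → ℝ} (hm : ∀ S, 0 ≤ m S) {C C' D D' : Finset E}
    (hC : C ⊆ C') (hD : D ⊆ D') : cN B m C' D' ≤ cN B m C D := by
  unfold cN
  refine Finset.sum_le_sum_of_subset_of_nonneg ?_ fun S _ _ => hm S
  intro S hS
  simp only [mem_filter, mem_powerset] at hS ⊢
  exact ⟨hS.1, hC.trans hS.2.1, Finset.disjoint_of_subset_right hD hS.2.2⟩

/-- Splitting according to whether `f` is contained. -/
theorem cN_insert_absent (B : Finset E) (m : Finset E → ℝ) (C D : Finset E) (f : E) :
    cN B m C (insert f D) = cN B m C D - cN B m (insert f C) D := by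
  unfold cN
  rw [eq_sub_iff_add_eq, ← Finset.sum_union]
  · refine Finset.sum_congr ?_ fun _ _ => rfl
    ext S
    simp only [mem_union, mem_filter, mem_powerset, Finset.disjoint_insert_right, insert_subset_iff]
    by_cases hf : f ∈ S <;> simp [hf]
  · rw [Finset.disjoint_left]
    intro S hS hS'
    simp only [mem_filter, mem_powerset, Finset.disjoint_insert_right, insert_subset_iff] at hS hS'
    exact hS.2.2.1 hS'.2.1.1

/-- The chain over `F`: `N(F ∪ f) N(∅) ≤ N(F) N(f)` in the class of those avoiding `D`. -/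
theorem cN_chain {B : Finset E} {m : Finset E → ℝ} (hm : ∀ S, 0 ≤ m S) (h : NCAll B m)
    {D : Finset E} {f : E} (hf : f ∈ B) (hfD : f ∉ D) {F : Finset E} (hFB : F ⊆ B)
    (hFf : f ∉ F) (hFD : Disjoint F D) :
    cN B m (insert f F) D * cN B m ∅ D ≤ cN B m F D * cN B m {f} D := by
  induction F using Finset.induction_on with
  | empty => simp [mul_comm]
  | insert e F' heF' ih =>
    have hFB' : F' ⊆ B := (Finset.insert_subset_iff.1 hFB).2
    have heB : e ∈ B := (Finset.insert_subset_iff.1 hFB).1
    have hfF' : f ∉ F' := fun hc => hFf (mem_insert_of_mem hc)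
    have hef : e ≠ f := fun hc => hFf (hc ▸ mem_insert_self e F')
    have heD : e ∉ D := (Finset.disjoint_insert_left.1 hFD).1
    have hF'D : Disjoint F' D := (Finset.disjoint_insert_left.1 hFD).2
    have IH := ih hFB' hfF' hF'D
    have R := cN_rayleigh h heB hf hef heF' hfF' heD hfD
    -- `insert f (insert e F') = insert e (insert f F')`
    have hcomm : insert f (insert e F') = insert e (insert f F') := Finset.insert_comm _ _ _
    rw [hcomm]
    set a := cN B m (insert e (insert f F')) D with ha
    set b := cN B m F' D with hb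
    set c := cN B m (insert e F') D with hc
    set d := cN B m (insert f F') D with hd
    set n0 := cN B m ∅ D with hn0
    set nf := cN B m {f} D with hnf
    have ha0 : 0 ≤ a := cN_nonneg hm _ _
    have hb0 : 0 ≤ b := cN_nonneg hm _ _
    have hc0 : 0 ≤ c := cN_nonneg hm _ _
    have hn00 : 0 ≤ n0 := cN_nonneg hm _ _
    have hnf0 : 0 ≤ nf := cN_nonneg hm _ _
    have hab : a ≤ b := cN_anti hm (by
      intro x hx; exact mem_insert_of_mem (mem_insert_of_mem hx)) (subset_refl _)
    rcases hb0.eq_or_lt with hb1 | hb1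
    · have : a = 0 := le_antisymm (by linarith) ha0
      rw [this, zero_mul]; positivity
    · have : a * n0 * b ≤ c * nf * b := by
        calc a * n0 * b = (a * b) * n0 := by ring
          _ ≤ (c * d) * n0 := mul_le_mul_of_nonneg_right R hn00
          _ = c * (d * n0) := by ring
          _ ≤ c * (b * nf) := mul_le_mul_of_nonneg_left IH hc0
          _ = c * nf * b := by ring
      exact le_of_mul_le_mul_right this hb1

/-- Conditioning on absence increases the probability of containing `F`. -/
theorem cN_absent {B : Finset E} {m : Finset E → ℝ} (hm : ∀ S, 0 ≤ m S) (h : NCAll B m)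
    {F D : Finset E} (hFB : F ⊆ B) (hDB : D ⊆ B) (hFD : Disjoint F D) (hpos : 0 < cN B m ∅ D) :
    cN B m F ∅ * cN B m ∅ D ≤ cN B m F D * cN B m ∅ ∅ := by
  induction D using Finset.induction_on with
  | empty => simp
  | insert f D' hfD' ih =>
    have hfB : f ∈ B := (Finset.insert_subset_iff.1 hDB).1
    have hD'B : D' ⊆ B := (Finset.insert_subset_iff.1 hDB).2
    have hFf : f ∉ F := fun hc => (Finset.disjoint_right.1 hFD (mem_insert_self f D')) hc
    have hFD' : Disjoint F D' := Finset.disjoint_of_subset_right (subset_insert _ _) hFD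
    have hle : cN B m ∅ (insert f D') ≤ cN B m ∅ D' :=
      cN_anti hm (subset_refl _) (subset_insert _ _)
    have hpos' : 0 < cN B m ∅ D' := lt_of_lt_of_le hpos hle
    have IH := ih hD'B hFD' hpos'
    have C := cN_chain hm h hfB hfD' hFB hFf hFD'
    -- one step
    have step : cN B m F D' * cN B m ∅ (insert f D') ≤ cN B m F (insert f D') * cN B m ∅ D' := by
      rw [cN_insert_absent B m ∅ D' f, cN_insert_absent B m F D' f]
      have : insert f (∅ : Finset E) = {f} := by simp
      rw [this]
      nlinarith [C]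
    set x := cN B m ∅ D' with hx
    have hn0 : 0 ≤ cN B m ∅ ∅ := cN_nonneg hm _ _
    have : cN B m F ∅ * cN B m ∅ (insert f D') * x ≤ cN B m F (insert f D') * cN B m ∅ ∅ * x := by
      calc cN B m F ∅ * cN B m ∅ (insert f D') * x
          = (cN B m F ∅ * x) * cN B m ∅ (insert f D') := by ring
        _ ≤ (cN B m F D' * cN B m ∅ ∅) * cN B m ∅ (insert f D') :=
            mul_le_mul_of_nonneg_right IH hpos.le
        _ = (cN B m F D' * cN B m ∅ (insert f D')) * cN B m ∅ ∅ := by ring
        _ ≤ (cN B m F (insert f D') * x) * cN B m ∅ ∅ := mul_le_mul_of_nonneg_right step hn0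
        _ = cN B m F (insert f D') * cN B m ∅ ∅ * x := by ring
    exact le_of_mul_le_mul_right this hpos'

end Crest.Agent.SRFactor
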