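import Crest.Agent.SRFactor.Gauss

/-! Total variation comparison of the Euler path and the true path (blueprint (C1)). -/

set_option autoImplicit false
set_option linter.unusedSectionVars false
set_option linter.unusedSimpArgs false
set_option linter.unusedVariables false

open MeasureTheory ProbabilityTheory

namespace Crest.Agent.SRFactor

variable {E : Type*} [DecidableEq E]

namespace TVAux

/-! ### Noise path and elementary rewriting -/

/-- The pure noise part of a path. -/
noncomputable def zz (B : Finset E) (h : ℝ) (y : ℕ → E → ℝ) (k : ℕ) (e : E) : ℝ :=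
  if e ∈ B then Real.sqrt h * ∑ l ∈ Finset.range k, y l e else 0

/-- The field at step `k` along the noise `y`. -/
noncomputable def lamN (B : Finset E) (h : ℝ) (y : ℕ → E → ℝ) (k : ℕ) : E → ℝ :=
  fun g => zz B h y k g - k * h / 2

/-- The drift per unit `√h` at step `k` along the noise `y`. -/
noncomputable def aP (ν : Family E) (B : Finset E) (h : ℝ) (y : ℕ → E → ℝ) (k : ℕ) : B → ℝ :=
  fun i => Real.sqrt h * post ν B (lamN B h y k) i

/-- The shift by the hidden set `S`. -/
noncomputable def aS (B : Finset E) (h : ℝ) (S : Finset E) : B → ℝ :=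
  fun i => Real.sqrt h * ind S i

/-- Cameron-Martin density. -/
noncomputable def rowExp {ι : Type*} [Fintype ι] (a g : ι → ℝ) : ℝ :=
  Real.exp (∑ i, a i * g i - ∑ i, a i ^ 2 / 2)

lemma rowExp_pos {ι : Type*} [Fintype ι] (a g : ι → ℝ) : 0 < rowExp a g := Real.exp_pos _

/-- The density of the Euler path. -/
noncomputable def EE (ν : Family E) (B : Finset E) (h : ℝ) (K : ℕ) (Y : Fin K → B → ℝ) : ℝ :=
  ∏ k : Fin K, rowExp (aP ν B h (extY B K Y) k) (Y k)

lemma EE_pos (ν : Family E) (B : Finset E) (h : ℝ) (K : ℕ) (Y : Fin K → B → ℝ) :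
    0 < EE ν B h K Y :=
  Finset.prod_pos fun _ _ => rowExp_pos _ _

/-- The density of the true mixture. -/
noncomputable def rho (ν : Family E) (B : Finset E) (h : ℝ) (K : ℕ) (Y : Fin K → B → ℝ) : ℝ :=
  zfun ν B (lamN B h (extY B K Y) K)

lemma rho_pos (ν : Family E) (B : Finset E) (h : ℝ) (K : ℕ) (Y : Fin K → B → ℝ) :
    0 < rho ν B h K Y := zfun_pos _ _ _

/-- The noise transformation of the Euler scheme. -/
noncomputable def Psi (ν : Family E) (B : Finset E) (h : ℝ) (K : ℕ) (y : Fin K → B → ℝ) :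
    Fin K → B → ℝ :=
  fun k i => y k i + Real.sqrt h *
    post ν B (fun g => euler ν B h (extY B K y) k g - k * h / 2) i

lemma extY_lt (B : Finset E) (K : ℕ) (y : Fin K → B → ℝ) {l : ℕ} (hl : l < K) {e : E}
    (he : e ∈ B) : extY B K y l e = y ⟨l, hl⟩ ⟨e, he⟩ := by
  simp [extY, hl, he]

lemma extY_snoc_lt (B : Finset E) (K : ℕ) (y : Fin K → B → ℝ) (g : B → ℝ) {l : ℕ} (hl : l < K)
    (e : E) : extY B (K + 1) (Fin.snoc y g) l e = extY B K y l e := by
  unfold extY
  have hl' : l < K + 1 := Nat.lt_succ_of_lt hl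
  rw [dif_pos hl', dif_pos hl]
  by_cases he : e ∈ B
  · rw [dif_pos he, dif_pos he]
    have : (⟨l, hl'⟩ : Fin (K + 1)) = Fin.castSucc ⟨l, hl⟩ := rfl
    rw [this, Fin.snoc_castSucc]
  · rw [dif_neg he, dif_neg he]

lemma extY_snoc_last (B : Finset E) (K : ℕ) (y : Fin K → B → ℝ) (g : B → ℝ) {e : E} (he : e ∈ B) :
    extY B (K + 1) (Fin.snoc y g) K e = g ⟨e, he⟩ := by
  unfold extY
  rw [dif_pos (Nat.lt_succ_self K), dif_pos he]
  have : (⟨K, Nat.lt_succ_self K⟩ : Fin (K + 1)) = Fin.last K := rfl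
  rw [this, Fin.snoc_last]

lemma zz_congr (B : Finset E) (h : ℝ) {y y' : ℕ → E → ℝ} (k : ℕ)
    (hy : ∀ l < k, ∀ e, y l e = y' l e) (e : E) : zz B h y k e = zz B h y' k e := by
  unfold zz
  split_ifs with he
  · congr 1
    exact Finset.sum_congr rfl fun l hl => hy l (Finset.mem_range.1 hl) e
  · rfl

lemma zz_snoc (B : Finset E) (h : ℝ) (K : ℕ) (y : Fin K → B → ℝ) (g : B → ℝ) {k : ℕ} (hk : k ≤ K)
    (e : E) : zz B h (extY B (K + 1) (Fin.snoc y g)) k e = zz B h (extY B K y) k e :=
  zz_congr B h k (fun l hl e => extY_snoc_lt B K y g (lt_of_lt_of_le hl hk) e) e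

lemma lamN_snoc (B : Finset E) (h : ℝ) (K : ℕ) (y : Fin K → B → ℝ) (g : B → ℝ) {k : ℕ}
    (hk : k ≤ K) : lamN B h (extY B (K + 1) (Fin.snoc y g)) k = lamN B h (extY B K y) k := by
  funext e
  unfold lamN
  rw [zz_snoc B h K y g hk]

lemma aP_snoc (ν : Family E) (B : Finset E) (h : ℝ) (K : ℕ) (y : Fin K → B → ℝ) (g : B → ℝ)
    {k : ℕ} (hk : k ≤ K) : aP ν B h (extY B (K + 1) (Fin.snoc y g)) k = aP ν B h (extY B K y) k := by
  funext i
  unfold aP
  rw [lamN_snoc B h K y g hk]

lemma lamN_last (B : Finset E) {h : ℝ} (h0 : 0 < h) (K : ℕ) (y : Fin K → B → ℝ) (g : B → ℝ)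
    {e : E} (he : e ∈ B) :
    lamN B h (extY B (K + 1) (Fin.snoc y g)) (K + 1) e =
      lamN B h (extY B K y) K e + Real.sqrt h * g ⟨e, he⟩ - h / 2 := by
  unfold lamN zz
  rw [if_pos he, if_pos he, Finset.sum_range_succ, extY_snoc_last B K y g he,
    Finset.sum_congr rfl (fun l hl => extY_snoc_lt B K y g (Finset.mem_range.1 hl) e)]
  push_cast
  ring

/-- The Euler path is the noise path of the transformed noise. -/
lemma euler_eq_zz (ν : Family E) (B : Finset E) {h : ℝ} (h0 : 0 < h) (K : ℕ) (y : Fin K → B → ℝ)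
    {k : ℕ} (hk : k ≤ K) (e : E) :
    euler ν B h (extY B K y) k e = zz B h (extY B K (Psi ν B h K y)) k e := by
  induction k generalizing e with
  | zero => simp [zz]
  | succ k ih =>
    have hk' : k < K := hk
    have ih' := ih hk'.le
    by_cases he : e ∈ B
    · rw [euler_succ_of_mem ν B h _ k he, ih' e]
      unfold zz
      rw [if_pos he, if_pos he, Finset.sum_range_succ, mul_add, extY_lt B K _ hk' he,
        extY_lt B K _ hk' he]
      unfold Psi
      have hs : Real.sqrt h * Real.sqrt h = h := Real.mul_self_sqrt h0.le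
      simp only [mul_add, ← mul_assoc, hs]
      ring
    · rw [euler_of_not_mem ν B h _ _ he]
      simp [zz, he]

lemma lam_euler_eq (ν : Family E) (B : Finset E) {h : ℝ} (h0 : 0 < h) (K : ℕ) (y : Fin K → B → ℝ)
    {k : ℕ} (hk : k ≤ K) :
    (fun g => euler ν B h (extY B K y) k g - k * h / 2)
      = lamN B h (extY B K (Psi ν B h K y)) k := by
  funext g
  unfold lamN
  rw [euler_eq_zz ν B h0 K y hk]

/-- `Psi` on arrays with one more row. -/
lemma Psi_snoc (ν : Family E) (B : Finset E) {h : ℝ} (h0 : 0 < h) (K : ℕ) (y : Fin K → B → ℝ)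
    (g : B → ℝ) :
    Psi ν B h (K + 1) (Fin.snoc y g) =
      Fin.snoc (Psi ν B h K y) (g + aP ν B h (extY B K (Psi ν B h K y)) K) := by
  have heu : ∀ (k : ℕ), k ≤ K → ∀ e, euler ν B h (extY B (K + 1) (Fin.snoc y g)) k e
      = euler ν B h (extY B K y) k e := by
    intro k hk e
    exact euler_congr ν B h k
      (fun l hl e _ => extY_snoc_lt B K y g (lt_of_lt_of_le hl hk) e) e
  funext k
  refine Fin.lastCases ?_ (fun j => ?_) k
  · funext i
    rw [Fin.snoc_last]
    simp only [Psi, Fin.snoc_last, Pi.add_apply, aP, Fin.val_last]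
    congr 3
    funext g'
    rw [heu K le_rfl g']
    exact congrFun (lam_euler_eq ν B h0 K y le_rfl) g'
  · funext i
    rw [Fin.snoc_castSucc]
    simp only [Psi, Fin.snoc_castSucc, Fin.val_castSucc]
    congr 3
    funext g'
    rw [heu j j.2.le g']

/-! ### Measurability -/

lemma measurable_zz (B : Finset E) (h : ℝ) (k : ℕ) (e : E) :
    Measurable fun y : ℕ → E → ℝ => zz B h y k e := by
  unfold zz
  by_cases he : e ∈ B
  · simp only [if_pos he]
    refine measurable_const.mul ?_
    exact Finset.measurable_sum _ fun l _ => (measurable_pi_apply e).comp (measurable_pi_apply l)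
  · simp only [if_neg he]
    exact measurable_const

lemma measurable_lamN (B : Finset E) (h : ℝ) (k : ℕ) :
    Measurable fun y : ℕ → E → ℝ => lamN B h y k :=
  measurable_pi_lambda _ fun g => (measurable_zz B h k g).sub_const _

lemma measurable_aP (ν : Family E) (B : Finset E) (h : ℝ) (k : ℕ) :
    Measurable fun y : ℕ → E → ℝ => aP ν B h y k :=
  measurable_pi_lambda _ fun i =>
    measurable_const.mul ((measurable_post ν B i).comp (measurable_lamN B h k))

lemma measurable_rowExp {ι : Type*} [Fintype ι] :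
    Measurable fun p : (ι → ℝ) × (ι → ℝ) => rowExp p.1 p.2 := by
  unfold rowExp
  refine Real.measurable_exp.comp (Measurable.sub ?_ ?_)
  · exact Finset.measurable_sum _ fun i _ =>
      ((measurable_pi_apply i).comp measurable_fst).mul ((measurable_pi_apply i).comp measurable_snd)
  · exact Finset.measurable_sum _ fun i _ =>
      (((measurable_pi_apply i).comp measurable_fst).pow_const 2).div_const 2

lemma measurable_EE (ν : Family E) (B : Finset E) (h : ℝ) (K : ℕ) :
    Measurable fun Y : Fin K → B → ℝ => EE ν B h K Y := by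
  unfold EE
  refine Finset.measurable_prod _ fun k _ => ?_
  exact measurable_rowExp.comp
    (((measurable_aP ν B h k).comp (measurable_extY B K)).prodMk (measurable_pi_apply k))

lemma measurable_rho (ν : Family E) (B : Finset E) (h : ℝ) (K : ℕ) :
    Measurable fun Y : Fin K → B → ℝ => rho ν B h K Y :=
  (measurable_zfun ν B).comp ((measurable_lamN B h K).comp (measurable_extY B K))

lemma measurable_Psi (ν : Family E) (B : Finset E) (h : ℝ) (K : ℕ) :
    Measurable fun y : Fin K → B → ℝ => Psi ν B h K y := by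
  refine measurable_pi_lambda _ fun k => measurable_pi_lambda _ fun i => ?_
  unfold Psi
  have h1 : Measurable fun y : Fin K → B → ℝ => y k i := by fun_prop
  refine h1.add (measurable_const.mul ?_)
  refine (measurable_post ν B i).comp ?_
  refine measurable_pi_lambda _ fun g => ?_
  exact ((measurable_euler ν B h k g).comp (measurable_extY B K)).sub_const _

lemma measurable_snoc {ι : Type*} (K : ℕ) :
    Measurable fun p : (Fin K → ι → ℝ) × (ι → ℝ) =>
      (Fin.snoc p.1 p.2 : Fin (K + 1) → ι → ℝ) := by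
  refine measurable_pi_iff.2 fun k => ?_
  obtain ⟨j, rfl⟩ | rfl := k.eq_castSucc_or_eq_last
  · have : (fun p : (Fin K → ι → ℝ) × (ι → ℝ) =>
        (Fin.snoc p.1 p.2 : Fin (K + 1) → ι → ℝ) (Fin.castSucc j)) = fun p => p.1 j := by
      funext p; exact Fin.snoc_castSucc (α := fun _ => ι → ℝ) p.2 p.1 j
    rw [this]
    fun_prop
  · have : (fun p : (Fin K → ι → ℝ) × (ι → ℝ) =>
        (Fin.snoc p.1 p.2 : Fin (K + 1) → ι → ℝ) (Fin.last K)) = fun p => p.2 := by
      funext p; exact Fin.snoc_last (α := fun _ => ι → ℝ) p.2 p.1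
    rw [this]
    exact measurable_snd

/-! ### The density of the Euler path (Girsanov) -/

lemma EE_snoc (ν : Family E) (B : Finset E) (h : ℝ) (K : ℕ) (Y : Fin K → B → ℝ) (g : B → ℝ) :
    EE ν B h (K + 1) (Fin.snoc Y g : Fin (K + 1) → B → ℝ) =
      EE ν B h K Y * rowExp (aP ν B h (extY B K Y) K) g := by
  unfold EE
  rw [Fin.prod_univ_castSucc]
  have h1 : ∀ k : Fin K, rowExp
      (aP ν B h (extY B (K + 1) (Fin.snoc Y g : Fin (K + 1) → B → ℝ)) ((Fin.castSucc k : Fin (K + 1)) : ℕ))
      ((Fin.snoc Y g : Fin (K + 1) → B → ℝ) (Fin.castSucc k))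
        = rowExp (aP ν B h (extY B K Y) k) (Y k) := by
    intro k
    have h2 : (Fin.snoc Y g : Fin (K + 1) → B → ℝ) (Fin.castSucc k) = Y k :=
      Fin.snoc_castSucc (α := fun _ => B → ℝ) g Y k
    rw [h2, Fin.val_castSucc, aP_snoc ν B h K Y g k.2.le]
  have h3 : rowExp
      (aP ν B h (extY B (K + 1) (Fin.snoc Y g : Fin (K + 1) → B → ℝ)) ((Fin.last K : Fin (K + 1)) : ℕ))
      ((Fin.snoc Y g : Fin (K + 1) → B → ℝ) (Fin.last K))
        = rowExp (aP ν B h (extY B K Y) K) g := by
    have h2 : (Fin.snoc Y g : Fin (K + 1) → B → ℝ) (Fin.last K) = g :=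
      Fin.snoc_last (α := fun _ => B → ℝ) g Y
    rw [h2, Fin.val_last, aP_snoc ν B h K Y g le_rfl]
  rw [Finset.prod_congr rfl (fun k _ => h1 k), h3]

theorem euler_density (ν : Family E) (B : Finset E) {h : ℝ} (h0 : 0 < h) (K : ℕ)
    (f : (Fin K → B → ℝ) → ENNReal) (hf : Measurable f) :
    ∫⁻ y, f (Psi ν B h K y) ∂gaussMat B K =
      ∫⁻ Y, f Y * ENNReal.ofReal (EE ν B h K Y) ∂gaussMat B K := by
  induction K with
  | zero =>
    refine lintegral_congr fun y => ?_
    have h1 : Psi ν B h 0 y = y := funext fun k => k.elim0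
    have h2 : EE ν B h 0 y = 1 := by simp [EE]
    simp [h1, h2]
  | succ K ih =>
    -- the partial integral over the last row
    let H : (Fin K → B → ℝ) → ENNReal := fun Y =>
      ∫⁻ g, f (Fin.snoc Y g) * ENNReal.ofReal (rowExp (aP ν B h (extY B K Y) K) g) ∂gaussVec B
    have hsnoc := measurable_snoc (ι := B) K
    have hjoint : Measurable fun p : (Fin K → B → ℝ) × (B → ℝ) =>
        f (Fin.snoc p.1 p.2) * ENNReal.ofReal (rowExp (aP ν B h (extY B K p.1) K) p.2) := by
      refine (hf.comp hsnoc).mul (ENNReal.measurable_ofReal.comp ?_)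
      exact measurable_rowExp.comp
        (((measurable_aP ν B h K).comp ((measurable_extY B K).comp measurable_fst)).prodMk
          measurable_snd)
    have hH : Measurable H := hjoint.lintegral_prod_right'
    have hinner : ∀ y : Fin K → B → ℝ,
        ∫⁻ g, f (Psi ν B h (K + 1) (Fin.snoc y g)) ∂gaussVec B = H (Psi ν B h K y) := by
      intro y
      simp only [Psi_snoc ν B h0 K y]
      set Y := Psi ν B h K y with hY
      set a := aP ν B h (extY B K Y) K with ha
      have hp : Measurable fun g : B → ℝ => (Y, g) := measurable_const.prodMk measurable_id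
      have hm : Measurable fun g : B → ℝ => f (Fin.snoc Y g) := hf.comp (hsnoc.comp hp)
      have := lintegral_gaussVec_add a (fun g => f (Fin.snoc Y g)) hm
      simpa [H, rowExp, ← ha] using this
    rw [lintegral_gaussMat_succ K (fun y => f (Psi ν B h (K + 1) y))
        (hf.comp (measurable_Psi ν B h (K + 1))),
      lintegral_gaussMat_succ K (fun Y => f Y * ENNReal.ofReal (EE ν B h (K + 1) Y))
        (hf.mul (ENNReal.measurable_ofReal.comp (measurable_EE ν B h (K + 1))))]
    simp only [hinner]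
    rw [ih H hH]
    refine lintegral_congr fun Y => ?_
    simp only [H, EE_snoc]
    rw [← lintegral_mul_const' _ _ (by simp)]
    refine lintegral_congr fun g => ?_
    rw [ENNReal.ofReal_mul (EE_pos ν B h K Y).le]
    ring

/-- The total mass of the Euler density. -/
lemma lintegral_EE (ν : Family E) (B : Finset E) {h : ℝ} (h0 : 0 < h) (K : ℕ) :
    ∫⁻ Y, ENNReal.ofReal (EE ν B h K Y) ∂gaussMat B K = 1 := by
  have := euler_density ν B h0 K (fun _ => 1) measurable_const
  simp only [one_mul] at this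
  rw [← this]
  simp

/-! ### Elementary inequalities -/

lemma exp_le_taylor_of_nonneg {x : ℝ} (hx : 0 ≤ x) :
    Real.exp x ≤ 1 + x + x ^ 2 * Real.exp x / 2 := by
  have hmono : MonotoneOn (fun x : ℝ => 1 + x + x ^ 2 * Real.exp x / 2 - Real.exp x)
      (Set.Ici 0) := by
    refine monotoneOn_of_deriv_nonneg (convex_Ici 0) (by fun_prop) (by fun_prop) ?_
    intro y hy
    rw [interior_Ici] at hy
    have hy' : 0 < y := hy
    have hd : HasDerivAt (fun x : ℝ => 1 + x + x ^ 2 * Real.exp x / 2 - Real.exp x)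
        (1 + y * Real.exp y + y ^ 2 * Real.exp y / 2 - Real.exp y) y := by
      have h0 : HasDerivAt (fun x : ℝ => 1 + x + x ^ 2 * Real.exp x / 2 - Real.exp x)
          (0 + 1 + (((2 : ℕ) : ℝ) * y ^ (2 - 1) * Real.exp y + y ^ 2 * Real.exp y) / 2
            - Real.exp y) y :=
        ((((hasDerivAt_const y (1:ℝ)).add (hasDerivAt_id y)).add
          (((hasDerivAt_pow 2 y).mul (Real.hasDerivAt_exp y)).div_const 2)).sub
            (Real.hasDerivAt_exp y))
      refine h0.congr_deriv ?_
      norm_num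
      ring
    rw [hd.deriv]
    have h1 := Real.add_one_le_exp (-y)
    have h2 : Real.exp y * Real.exp (-y) = 1 := by rw [← Real.exp_add]; simp
    have h3 := Real.exp_pos y
    have h4 := mul_le_mul_of_nonneg_left h1 h3.le
    have h5 := mul_nonneg h3.le (sq_nonneg y)
    nlinarith
  have := hmono (Set.mem_Ici.2 le_rfl) (Set.mem_Ici.2 hx) hx
  simp at this
  linarith

lemma exp_neg_le_quad {y : ℝ} (hy : 0 ≤ y) : Real.exp (-y) ≤ 1 - y + y ^ 2 / 2 := by
  have hmono : MonotoneOn (fun x : ℝ => 1 - x + x ^ 2 / 2 - Real.exp (-x)) (Set.Ici 0) := by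
    refine monotoneOn_of_deriv_nonneg (convex_Ici 0) (by fun_prop) (by fun_prop) ?_
    intro x hx
    have hd : HasDerivAt (fun x : ℝ => 1 - x + x ^ 2 / 2 - Real.exp (-x))
        (-1 + x + Real.exp (-x)) x := by
      have h1 : HasDerivAt (fun x : ℝ => Real.exp (-x)) (Real.exp (-x) * (-1)) x :=
        (Real.hasDerivAt_exp (-x)).comp x (hasDerivAt_neg x)
      have h0 : HasDerivAt (fun x : ℝ => 1 - x + x ^ 2 / 2 - Real.exp (-x))
          (0 - 1 + ((2 : ℕ) : ℝ) * x ^ (2 - 1) / 2 - Real.exp (-x) * (-1)) x :=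
        ((((hasDerivAt_const x (1:ℝ)).sub (hasDerivAt_id x)).add
          ((hasDerivAt_pow 2 x).div_const 2)).sub h1)
      refine h0.congr_deriv ?_
      norm_num
    rw [hd.deriv]
    have := Real.add_one_le_exp (-x)
    linarith
  have := hmono (Set.mem_Ici.2 le_rfl) (Set.mem_Ici.2 hy) hy
  simp at this
  linarith

lemma exp_le_quad_bound {u v : ℝ} (huv : |u| ≤ v) :
    Real.exp u ≤ 1 + u + v ^ 2 * Real.exp v / 2 := by
  have hv : 0 ≤ v := (abs_nonneg u).trans huv
  have h1 : u ^ 2 ≤ v ^ 2 := by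
    rw [← sq_abs u]
    exact pow_le_pow_left₀ (abs_nonneg u) huv 2
  by_cases hu : 0 ≤ u
  · have hu' : u ≤ v := (le_abs_self u).trans huv
    have h2 := exp_le_taylor_of_nonneg hu
    have h3 : Real.exp u ≤ Real.exp v := Real.exp_le_exp.2 hu'
    have h4 : u ^ 2 * Real.exp u ≤ v ^ 2 * Real.exp v :=
      mul_le_mul h1 h3 (Real.exp_pos _).le (sq_nonneg _)
    linarith
  · push Not at hu
    have h2 := exp_neg_le_quad (y := -u) (by linarith)
    rw [neg_neg] at h2
    have h3 : 1 ≤ Real.exp v := Real.one_le_exp hv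
    have h4 : v ^ 2 * 1 ≤ v ^ 2 * Real.exp v :=
      mul_le_mul_of_nonneg_left h3 (sq_nonneg v)
    have h5 : (-u) ^ 2 = u ^ 2 := by ring
    rw [h5] at h2
    linarith

/-- The one row chi-square integral. -/
lemma step_integral {ι σ : Type*} [Fintype ι] (T : Finset σ) (μ : σ → ℝ)
    (hμ : ∀ t ∈ T, 0 ≤ μ t) (hμ1 : ∑ t ∈ T, μ t = 1)
    (s : σ → ι → ℝ) (p : ι → ℝ) (hp : ∀ i, p i = ∑ t ∈ T, μ t * s t i)
    (hs : ∀ t ∈ T, ∀ i, |s t i - p i| ≤ 1) (r : ℝ) :
    ∫⁻ g, ENNReal.ofReal ((∑ t ∈ T, μ t * rowExp (fun i => r * s t i) g) ^ 2 /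
        rowExp (fun i => r * p i) g) ∂gaussVec ι
      ≤ ENNReal.ofReal
        (1 + (r ^ 2 * Fintype.card ι) ^ 2 * Real.exp (r ^ 2 * Fintype.card ι) / 2) := by
  classical
  -- the individual terms
  let d : σ → σ → ι → ℝ := fun t t' i => r * (s t i + s t' i - p i)
  let C : σ → σ → ℝ := fun t t' =>
    ∑ i, ((r * s t i) ^ 2 + (r * s t' i) ^ 2 - (r * p i) ^ 2) / 2
  let ff : σ → σ → (ι → ℝ) → ℝ := fun t t' g => Real.exp (∑ i, d t t' i * g i) * Real.exp (- C t t')
  let u : σ → σ → ℝ := fun t t' => r ^ 2 * ∑ i, (s t i - p i) * (s t' i - p i)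
  have hff : ∀ t t' g, rowExp (fun i => r * s t i) g * rowExp (fun i => r * s t' i) g /
      rowExp (fun i => r * p i) g = ff t t' g := by
    intro t t' g
    simp only [rowExp, ff, ← Real.exp_add, ← Real.exp_sub]
    congr 1
    simp only [d, C, Finset.sum_div, add_mul, sub_mul, mul_add, mul_sub, Finset.sum_add_distrib,
      Finset.sum_sub_distrib, add_div, sub_div]
    ring
  have hint : ∀ t t', Integrable (ff t t') (gaussVec ι) := fun t t' =>
    (integrable_exp_dot (d t t')).mul_const _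
  have hintval : ∀ t t', ∫ g, ff t t' g ∂gaussVec ι = Real.exp (u t t') := by
    intro t t'
    simp only [ff]
    rw [integral_mul_const, integral_exp_dot, ← Real.exp_add]
    congr 1
    simp only [d, C, u, Finset.mul_sum, ← Finset.sum_neg_distrib, ← Finset.sum_add_distrib]
    refine Finset.sum_congr rfl fun i _ => ?_
    ring
  -- the integrand as a double sum
  have hexpand : ∀ g, (∑ t ∈ T, μ t * rowExp (fun i => r * s t i) g) ^ 2 /
      rowExp (fun i => r * p i) g = ∑ t ∈ T, ∑ t' ∈ T, μ t * μ t' * ff t t' g := by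
    intro g
    rw [sq, Finset.sum_mul_sum, Finset.sum_div]
    refine Finset.sum_congr rfl fun t _ => ?_
    rw [Finset.sum_div]
    refine Finset.sum_congr rfl fun t' _ => ?_
    rw [← hff, mul_mul_mul_comm, mul_div_assoc]
  have hI : Integrable (fun g => ∑ t ∈ T, ∑ t' ∈ T, μ t * μ t' * ff t t' g) (gaussVec ι) :=
    integrable_finsetSum _ fun t _ => integrable_finsetSum _ fun t' _ =>
      (hint t t').const_mul _
  have hIval : ∫ g, ∑ t ∈ T, ∑ t' ∈ T, μ t * μ t' * ff t t' g ∂gaussVec ι =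
      ∑ t ∈ T, ∑ t' ∈ T, μ t * μ t' * Real.exp (u t t') := by
    rw [integral_finsetSum _ fun t _ => integrable_finsetSum _ fun t' _ =>
      (hint t t').const_mul _]
    refine Finset.sum_congr rfl fun t _ => ?_
    rw [integral_finsetSum _ fun t' _ => (hint t t').const_mul _]
    refine Finset.sum_congr rfl fun t' _ => ?_
    rw [integral_const_mul, hintval]
  -- the real inequality
  set v : ℝ := r ^ 2 * Fintype.card ι with hv
  set c : ℝ := v ^ 2 * Real.exp v / 2 with hc
  have hu : ∀ t ∈ T, ∀ t' ∈ T, |u t t'| ≤ v := by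
    intro t ht t' ht'
    simp only [u]
    rw [abs_mul, abs_of_nonneg (sq_nonneg r), hv]
    refine mul_le_mul_of_nonneg_left ?_ (sq_nonneg r)
    calc |∑ i, (s t i - p i) * (s t' i - p i)|
        ≤ ∑ i, |(s t i - p i) * (s t' i - p i)| := Finset.abs_sum_le_sum_abs _ _
      _ ≤ ∑ i : ι, (1 : ℝ) := Finset.sum_le_sum fun i _ => by
          rw [abs_mul]
          exact mul_le_one₀ (hs t ht i) (abs_nonneg _) (hs t' ht' i)
      _ = Fintype.card ι := by simp
  have hzero : ∀ i, ∑ t ∈ T, μ t * (s t i - p i) = 0 := by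
    intro i
    simp only [mul_sub, Finset.sum_sub_distrib, ← Finset.sum_mul, hμ1, ← hp]
    ring
  have hsumu : ∀ t ∈ T, ∑ t' ∈ T, μ t * μ t' * u t t' = 0 := by
    intro t _
    have : ∑ t' ∈ T, μ t * μ t' * u t t' =
        μ t * r ^ 2 * ∑ i, (s t i - p i) * ∑ t' ∈ T, μ t' * (s t' i - p i) := by
      simp only [u, Finset.mul_sum]
      rw [Finset.sum_comm]
      refine Finset.sum_congr rfl fun t' _ => Finset.sum_congr rfl fun i _ => ?_
      ring
    rw [this]
    simp [hzero]
  have hreal : ∑ t ∈ T, ∑ t' ∈ T, μ t * μ t' * Real.exp (u t t') ≤ 1 + c := by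
    calc ∑ t ∈ T, ∑ t' ∈ T, μ t * μ t' * Real.exp (u t t')
        ≤ ∑ t ∈ T, ∑ t' ∈ T, μ t * μ t' * (1 + u t t' + c) := by
          refine Finset.sum_le_sum fun t ht => Finset.sum_le_sum fun t' ht' => ?_
          exact mul_le_mul_of_nonneg_left (exp_le_quad_bound (hu t ht t' ht'))
            (mul_nonneg (hμ t ht) (hμ t' ht'))
      _ = ∑ t ∈ T, ∑ t' ∈ T, (μ t * μ t' * u t t' + μ t * (μ t' * (1 + c))) := by
          refine Finset.sum_congr rfl fun t _ => Finset.sum_congr rfl fun t' _ => ?_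
          ring
      _ = 1 + c := by
          simp only [Finset.sum_add_distrib]
          rw [Finset.sum_eq_zero hsumu, zero_add]
          simp only [← Finset.mul_sum, ← Finset.sum_mul, hμ1]
          ring
  -- conclusion
  have hnn : ∀ g, 0 ≤ ∑ t ∈ T, ∑ t' ∈ T, μ t * μ t' * ff t t' g := by
    intro g
    rw [← hexpand]
    exact div_nonneg (sq_nonneg _) (rowExp_pos _ _).le
  simp_rw [hexpand]
  rw [← ofReal_integral_eq_lintegral_ofReal hI (Filter.Eventually.of_forall hnn), hIval]
  exact ENNReal.ofReal_le_ofReal hreal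

/-! ### The row structure of the true mixture density -/

/-- Extension of a row from `B` to `E`. -/
noncomputable def gE (B : Finset E) (g : B → ℝ) : E → ℝ :=
  fun e => if he : e ∈ B then g ⟨e, he⟩ else 0

lemma gE_coe (B : Finset E) (g : B → ℝ) (i : B) : gE B g i = g i := by
  simp [gE, i.2]

lemma gE_of_mem (B : Finset E) (g : B → ℝ) {e : E} (he : e ∈ B) : gE B g e = g ⟨e, he⟩ := by
  simp [gE, he]

lemma sum_ind_B (B S : Finset E) (hS : S ⊆ B) (φ : E → ℝ) :
    ∑ i : B, ind S i * φ i = ∑ e ∈ S, φ e := by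
  rw [Finset.sum_coe_sort B (fun e => ind S e * φ e)]
  unfold ind
  simp only [ite_mul, one_mul, zero_mul]
  rw [Finset.sum_ite_mem, Finset.inter_eq_right.2 hS]

lemma ind_sq (S : Finset E) (e : E) : ind S e ^ 2 = ind S e := by
  unfold ind; split_ifs <;> simp

lemma wt_succ (ν : Family E) (B : Finset E) {h : ℝ} (h0 : 0 < h) (K : ℕ) (Y : Fin K → B → ℝ)
    (g : B → ℝ) {S : Finset E} (hS : S ∈ B.powerset) :
    wt ν B (lamN B h (extY B (K + 1) (Fin.snoc Y g)) (K + 1)) S =
      wt ν B (lamN B h (extY B K Y) K) S * rowExp (aS B h S) g := by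
  have hSB := Finset.mem_powerset.1 hS
  unfold wt
  rw [mul_assoc]
  unfold rowExp
  rw [← Real.exp_add]
  congr 2
  have hs : Real.sqrt h ^ 2 = h := Real.sq_sqrt h0.le
  have h1 : ∑ i ∈ S, lamN B h (extY B (K + 1) (Fin.snoc Y g)) (K + 1) i =
      ∑ i ∈ S, (lamN B h (extY B K Y) K i + (Real.sqrt h * gE B g i - h / 2)) :=
    Finset.sum_congr rfl fun e he => by
      rw [lamN_last B h0 K Y g (hSB he), gE_of_mem B g (hSB he)]
      ring
  have h2 : ∑ i : B, aS B h S i * g i = ∑ e ∈ S, Real.sqrt h * gE B g e := by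
    rw [← sum_ind_B B S hSB]
    refine Finset.sum_congr rfl fun i _ => ?_
    rw [gE_coe]
    simp only [aS]
    ring
  have h3 : ∑ i : B, aS B h S i ^ 2 / 2 = ∑ e ∈ S, h / 2 := by
    rw [← sum_ind_B B S hSB]
    refine Finset.sum_congr rfl fun i _ => ?_
    simp only [aS]
    rw [mul_pow, hs, ind_sq]
    ring
  rw [h1, h2, h3, Finset.sum_add_distrib, Finset.sum_sub_distrib]

/-- One step of the density of the true mixture. -/
lemma rho_succ (ν : Family E) (B : Finset E) {h : ℝ} (h0 : 0 < h) (K : ℕ) (Y : Fin K → B → ℝ)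
    (g : B → ℝ) :
    rho ν B h (K + 1) (Fin.snoc Y g) =
      ∑ S ∈ B.powerset, wt ν B (lamN B h (extY B K Y) K) S * rowExp (aS B h S) g := by
  unfold rho zfun
  exact Finset.sum_congr rfl fun S hS => wt_succ ν B h0 K Y g hS

lemma post_eq_sum (ν : Family E) (B : Finset E) (lam : E → ℝ) (e : E) :
    post ν B lam e = ∑ S ∈ B.powerset, (wt ν B lam S / zfun ν B lam) * ind S e := by
  unfold post numer
  rw [Finset.sum_filter, Finset.sum_div]
  refine Finset.sum_congr rfl fun S _ => ?_
  unfold ind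
  split_ifs <;> simp

lemma sum_wt_div (ν : Family E) (B : Finset E) (lam : E → ℝ) :
    ∑ S ∈ B.powerset, wt ν B lam S / zfun ν B lam = 1 := by
  rw [← Finset.sum_div]
  exact div_self (zfun_pos ν B lam).ne'

lemma ind_mem_Icc (S : Finset E) (e : E) : 0 ≤ ind S e ∧ ind S e ≤ 1 := by
  unfold ind; split_ifs <;> simp

lemma lamN_zero (B : Finset E) (h : ℝ) (y : ℕ → E → ℝ) : lamN B h y 0 = 0 := by
  funext e
  simp [lamN, zz]

lemma rho_zero (ν : Family E) (B : Finset E) (h : ℝ) (Y : Fin 0 → B → ℝ) : rho ν B h 0 Y = 1 := by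
  unfold rho
  rw [lamN_zero]
  unfold zfun wt
  simp [ν.sum_one]

lemma EE_zero (ν : Family E) (B : Finset E) (h : ℝ) (Y : Fin 0 → B → ℝ) : EE ν B h 0 Y = 1 := by
  simp [EE]

/-- The chi-square type bound. -/
lemma A_bound (ν : Family E) (B : Finset E) {h : ℝ} (h0 : 0 < h) (K : ℕ) :
    ∫⁻ Y, ENNReal.ofReal (rho ν B h K Y ^ 2 / EE ν B h K Y) ∂gaussMat B K ≤
      ENNReal.ofReal ((1 + (h * B.card) ^ 2 * Real.exp (h * B.card) / 2) ^ K) := by
  have hc0 : 0 ≤ 1 + (h * B.card) ^ 2 * Real.exp (h * B.card) / 2 := by positivity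
  induction K with
  | zero =>
    have : ∀ Y, ENNReal.ofReal (rho ν B h 0 Y ^ 2 / EE ν B h 0 Y) = 1 := by
      intro Y; rw [rho_zero, EE_zero]; simp
    simp_rw [this]
    simp
  | succ K ih =>
    have hmeas : Measurable fun Y : Fin (K + 1) → B → ℝ =>
        ENNReal.ofReal (rho ν B h (K + 1) Y ^ 2 / EE ν B h (K + 1) Y) :=
      ENNReal.measurable_ofReal.comp
        (((measurable_rho ν B h (K + 1)).pow_const 2).div (measurable_EE ν B h (K + 1)))
    rw [lintegral_gaussMat_succ K _ hmeas, pow_succ, ENNReal.ofReal_mul (pow_nonneg hc0 K)]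
    have hinner : ∀ Y : Fin K → B → ℝ,
        ∫⁻ g, ENNReal.ofReal (rho ν B h (K + 1) (Fin.snoc Y g) ^ 2 /
            EE ν B h (K + 1) (Fin.snoc Y g)) ∂gaussVec B ≤
          ENNReal.ofReal (rho ν B h K Y ^ 2 / EE ν B h K Y) *
            ENNReal.ofReal (1 + (h * B.card) ^ 2 * Real.exp (h * B.card) / 2) := by
      intro Y
      set lam := lamN B h (extY B K Y) K with hlam
      set z := rho ν B h K Y with hz
      have hzpos : 0 < z := rho_pos ν B h K Y
      have hzz : zfun ν B lam = z := rfl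
      have hstep := step_integral (ι := B) B.powerset (fun S => wt ν B lam S / z)
        (fun S _ => div_nonneg (wt_nonneg _ _ _ _) hzpos.le) (by rw [← hzz]; exact sum_wt_div ν B lam)
        (fun S i => ind S i) (fun i => post ν B lam i)
        (fun i => by rw [post_eq_sum, hzz])
        (fun S _ i => by
          have h1 := ind_mem_Icc S i
          have h2 := post_nonneg ν B lam i
          have h3 := post_le_one ν B lam i
          rw [abs_le]; constructor <;> linarith [h1.1, h1.2])
        (Real.sqrt h)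
      rw [Real.sq_sqrt h0.le, Fintype.card_coe] at hstep
      have hpt : ∀ g : B → ℝ, ENNReal.ofReal (rho ν B h (K + 1) (Fin.snoc Y g) ^ 2 /
            EE ν B h (K + 1) (Fin.snoc Y g)) =
          ENNReal.ofReal (z ^ 2 / EE ν B h K Y) *
            ENNReal.ofReal ((∑ S ∈ B.powerset, (wt ν B lam S / z) *
                rowExp (fun i : B => Real.sqrt h * ind S i) g) ^ 2 /
              rowExp (fun i : B => Real.sqrt h * post ν B lam i) g) := by
        intro g
        have hE := EE_pos ν B h K Y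
        rw [← ENNReal.ofReal_mul (by positivity)]
        congr 1
        rw [rho_succ ν B h0 K Y g, EE_snoc]
        have hN : ∑ S ∈ B.powerset, wt ν B lam S * rowExp (aS B h S) g =
            z * ∑ S ∈ B.powerset, (wt ν B lam S / z) *
              rowExp (fun i : B => Real.sqrt h * ind S i) g := by
          rw [Finset.mul_sum]
          refine Finset.sum_congr rfl fun S _ => ?_
          show wt ν B lam S * rowExp (fun i : B => Real.sqrt h * ind S i) g = _
          field_simp
        rw [hN]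
        have hR : rowExp (aP ν B h (extY B K Y) K) g =
            rowExp (fun i : B => Real.sqrt h * post ν B lam i) g := rfl
        rw [hR]
        have hR' := rowExp_pos (fun i : B => Real.sqrt h * post ν B lam i) g
        field_simp
      simp_rw [hpt]
      rw [lintegral_const_mul' _ _ ENNReal.ofReal_ne_top]
      exact mul_le_mul_right hstep _
    calc _ ≤ ∫⁻ Y, ENNReal.ofReal (rho ν B h K Y ^ 2 / EE ν B h K Y) *
            ENNReal.ofReal (1 + (h * B.card) ^ 2 * Real.exp (h * B.card) / 2) ∂gaussMat B K :=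
          lintegral_mono hinner
      _ = (∫⁻ Y, ENNReal.ofReal (rho ν B h K Y ^ 2 / EE ν B h K Y) ∂gaussMat B K) *
            ENNReal.ofReal (1 + (h * B.card) ^ 2 * Real.exp (h * B.card) / 2) :=
          lintegral_mul_const' _ _ ENNReal.ofReal_ne_top
      _ ≤ _ := mul_le_mul_left ih _

/-! ### The law of the true mixture -/

/-- Shift array of the hidden set `S`. -/
noncomputable def aa (B : Finset E) (h : ℝ) (K : ℕ) (S : Finset E) : Fin K → B → ℝ :=
  fun _ i => Real.sqrt h * ind S i

lemma truePath_eq_zz (B : Finset E) {h : ℝ} (h0 : 0 < h) (K : ℕ) (S : Finset E)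
    (y : Fin K → B → ℝ) {k : ℕ} (hk : k ≤ K) (e : E) :
    truePath B h S (extY B K y) k e = zz B h (extY B K (y + aa B h K S)) k e := by
  unfold truePath zz
  by_cases he : e ∈ B
  · rw [if_pos he, if_pos he]
    have h1 : ∑ l ∈ Finset.range k, extY B K (y + aa B h K S) l e =
        ∑ l ∈ Finset.range k, (extY B K y l e + Real.sqrt h * ind S e) :=
      Finset.sum_congr rfl fun l hl => by
        have hl' : l < K := lt_of_lt_of_le (Finset.mem_range.1 hl) hk
        rw [extY_lt B K _ hl' he, extY_lt B K _ hl' he]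
        rfl
    rw [h1, Finset.sum_add_distrib, Finset.sum_const, Finset.card_range, nsmul_eq_mul, mul_add]
    have hs : Real.sqrt h * Real.sqrt h = h := Real.mul_self_sqrt h0.le
    have h2 : Real.sqrt h * ((k : ℝ) * (Real.sqrt h * ind S e)) =
        (Real.sqrt h * Real.sqrt h) * ((k : ℝ) * ind S e) := by ring
    rw [h2, hs]
    ring
  · simp [he]

/-- The density of the shift by `S`. -/
noncomputable def RS (B : Finset E) (h : ℝ) (K : ℕ) (S : Finset E) (Y : Fin K → B → ℝ) : ℝ :=
  Real.exp (∑ k, ∑ i, aa B h K S k i * Y k i - ∑ k, ∑ i, aa B h K S k i ^ 2 / 2)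

lemma wt_eq_RS (ν : Family E) (B : Finset E) {h : ℝ} (h0 : 0 < h) (K : ℕ) (Y : Fin K → B → ℝ)
    {S : Finset E} (hS : S ∈ B.powerset) :
    wt ν B (lamN B h (extY B K Y) K) S = ν.mass B S * RS B h K S Y := by
  have hSB := Finset.mem_powerset.1 hS
  unfold wt RS
  congr 2
  have hs : Real.sqrt h ^ 2 = h := Real.sq_sqrt h0.le
  have h1 : ∑ k : Fin K, ∑ i : B, aa B h K S k i * Y k i = ∑ e ∈ S, zz B h (extY B K Y) K e := by
    have h11 : ∀ k : Fin K, ∑ i : B, aa B h K S k i * Y k i =
        ∑ e ∈ S, Real.sqrt h * extY B K Y k e := by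
      intro k
      rw [← sum_ind_B B S hSB]
      refine Finset.sum_congr rfl fun i _ => ?_
      rw [extY_lt B K Y k.2 i.2]
      simp only [aa]
      ring
    simp_rw [h11]
    rw [Finset.sum_comm]
    refine Finset.sum_congr rfl fun e he => ?_
    unfold zz
    rw [if_pos (hSB he), ← Finset.mul_sum, Finset.sum_range]
  have h2 : ∑ k : Fin K, ∑ i : B, aa B h K S k i ^ 2 / 2 = ∑ e ∈ S, ((K : ℝ) * h / 2) := by
    have h21 : ∀ k : Fin K, ∑ i : B, aa B h K S k i ^ 2 / 2 = ∑ e ∈ S, h / 2 := by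
      intro k
      rw [← sum_ind_B B S hSB]
      refine Finset.sum_congr rfl fun i _ => ?_
      simp only [aa]
      rw [mul_pow, hs, ind_sq]
      ring
    simp_rw [h21]
    simp only [Finset.sum_const, Finset.card_univ, Fintype.card_fin, nsmul_eq_mul]
    ring
  rw [h1, h2, ← Finset.sum_sub_distrib]
  rfl

lemma measurable_RS (B : Finset E) (h : ℝ) (K : ℕ) (S : Finset E) : Measurable (RS B h K S) := by
  unfold RS
  refine Real.measurable_exp.comp (Measurable.sub ?_ measurable_const)
  refine Finset.measurable_sum _ fun k _ => Finset.measurable_sum _ fun i _ =>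
    measurable_const.mul ?_
  fun_prop

lemma integral_mul_RS (B : Finset E) (h : ℝ) (K : ℕ) (S : Finset E)
    (f : (Fin K → B → ℝ) → ℝ) (hf : Measurable f) :
    ∫ y, f (y + aa B h K S) ∂gaussMat B K = ∫ y, f y * RS B h K S y ∂gaussMat B K :=
  integral_gaussMat_add K _ f hf

lemma integral_RS (B : Finset E) (h : ℝ) (K : ℕ) (S : Finset E) :
    ∫ y, RS B h K S y ∂gaussMat B K = 1 := by
  have := integral_mul_RS B h K S (fun _ => 1) measurable_const
  simpa using this.symm

lemma integrable_RS (B : Finset E) (h : ℝ) (K : ℕ) (S : Finset E) :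
    Integrable (RS B h K S) (gaussMat B K) := by
  refine ⟨(measurable_RS B h K S).aestronglyMeasurable, ?_⟩
  have hnn : 0 ≤ᵐ[gaussMat B K] RS B h K S :=
    Filter.Eventually.of_forall fun _ => (Real.exp_pos _).le
  rw [hasFiniteIntegral_iff_ofReal hnn]
  have := lintegral_gaussMat_add K (aa B h K S) (fun _ => 1) measurable_const
  simp only [one_mul] at this
  have h2 : ∫⁻ y, ENNReal.ofReal (RS B h K S y) ∂gaussMat B K = 1 := by
    unfold RS
    rw [← this]
    simp
  rw [h2]
  exact ENNReal.one_lt_top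

/-- The test function on noise arrays. -/
noncomputable def GG {K : ℕ} (F : (Fin (K + 1) → E → ℝ) → ℝ) (B : Finset E) (h : ℝ)
    (Y : Fin K → B → ℝ) : ℝ :=
  F (fun k e => zz B h (extY B K Y) k e)

lemma measurable_GG {K : ℕ} (F : (Fin (K + 1) → E → ℝ) → ℝ) (hFm : Measurable F)
    (B : Finset E) (h : ℝ) : Measurable (GG F B h (K := K)) :=
  hFm.comp (measurable_pi_lambda _ fun k => measurable_pi_lambda _ fun e =>
    (measurable_zz B h k e).comp (measurable_extY B K))

lemma rho_eq_sum (ν : Family E) (B : Finset E) {h : ℝ} (h0 : 0 < h) (K : ℕ) (Y : Fin K → B → ℝ) :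
    rho ν B h K Y = ∑ S ∈ B.powerset, ν.mass B S * RS B h K S Y :=
  Finset.sum_congr rfl fun _ hS => wt_eq_RS ν B h0 K Y hS

lemma integrable_rho (ν : Family E) (B : Finset E) {h : ℝ} (h0 : 0 < h) (K : ℕ) :
    Integrable (rho ν B h K) (gaussMat B K) := by
  have : rho ν B h K = fun Y => ∑ S ∈ B.powerset, ν.mass B S * RS B h K S Y :=
    funext (rho_eq_sum ν B h0 K)
  rw [this]
  exact integrable_finsetSum _ fun S _ => (integrable_RS B h K S).const_mul _

lemma integral_rho (ν : Family E) (B : Finset E) {h : ℝ} (h0 : 0 < h) (K : ℕ) :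
    ∫ Y, rho ν B h K Y ∂gaussMat B K = 1 := by
  have : rho ν B h K = fun Y => ∑ S ∈ B.powerset, ν.mass B S * RS B h K S Y :=
    funext (rho_eq_sum ν B h0 K)
  rw [this, integral_finsetSum _ fun S _ => (integrable_RS B h K S).const_mul _]
  simp_rw [integral_const_mul, integral_RS, mul_one]
  exact ν.sum_one B

/-- The true mixture in terms of the density `rho`. -/
lemma mixture_eq (ν : Family E) (B : Finset E) {h : ℝ} (h0 : 0 < h) (K : ℕ)
    (F : (Fin (K + 1) → E → ℝ) → ℝ) (hFm : Measurable F) (hF : ∀ z, |F z| ≤ 1) :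
    ∑ S ∈ B.powerset, ν.mass B S *
        ∫ y, F (fun k e => truePath B h S (extY B K y) k e) ∂gaussMat B K =
      ∫ Y, GG F B h Y * rho ν B h K Y ∂gaussMat B K := by
  have hGm := measurable_GG F hFm B h (K := K)
  have hi : ∀ S, Integrable (fun Y => GG F B h Y * RS B h K S Y) (gaussMat B K) := by
    intro S
    refine (integrable_RS B h K S).mono' (hGm.mul (measurable_RS B h K S)).aestronglyMeasurable
      (Filter.Eventually.of_forall fun Y => ?_)
    rw [norm_mul, Real.norm_eq_abs, Real.norm_eq_abs,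
      abs_of_pos (show 0 < RS B h K S Y from Real.exp_pos _)]
    have := hF (fun k e => zz B h (extY B K Y) k e)
    calc |GG F B h Y| * RS B h K S Y ≤ 1 * RS B h K S Y :=
          mul_le_mul_of_nonneg_right this (Real.exp_pos _).le
      _ = RS B h K S Y := one_mul _
  have h1 : ∀ S, ∫ y, F (fun k e => truePath B h S (extY B K y) k e) ∂gaussMat B K =
      ∫ Y, GG F B h Y * RS B h K S Y ∂gaussMat B K := by
    intro S
    rw [← integral_mul_RS B h K S _ hGm]
    refine integral_congr_ae (Filter.Eventually.of_forall fun y => ?_)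
    show F _ = F _
    congr 1
    funext k e
    exact truePath_eq_zz B h0 K S y (Nat.lt_succ_iff.1 k.2) e
  simp_rw [h1]
  have h2 : ∀ Y, GG F B h Y * rho ν B h K Y =
      ∑ S ∈ B.powerset, ν.mass B S * (GG F B h Y * RS B h K S Y) := by
    intro Y
    rw [rho_eq_sum ν B h0 K Y, Finset.mul_sum]
    exact Finset.sum_congr rfl fun S _ => by ring
  simp_rw [h2]
  rw [integral_finsetSum _ fun S _ => (hi S).const_mul _]
  simp_rw [integral_const_mul]

/-! ### The Euler side -/

lemma map_Psi (ν : Family E) (B : Finset E) {h : ℝ} (h0 : 0 < h) (K : ℕ) :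
    (gaussMat B K).map (Psi ν B h K) =
      (gaussMat B K).withDensity (fun Y => ENNReal.ofReal (EE ν B h K Y)) := by
  refine Measure.ext_of_lintegral _ fun f hf => ?_
  have hm : Measurable fun Y : Fin K → B → ℝ => ENNReal.ofReal (EE ν B h K Y) :=
    ENNReal.measurable_ofReal.comp (measurable_EE ν B h K)
  rw [lintegral_map hf (measurable_Psi ν B h K), euler_density ν B h0 K f hf,
    lintegral_withDensity_eq_lintegral_mul _ hm hf]
  refine lintegral_congr fun Y => ?_
  simp only [Pi.mul_apply]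
  rw [mul_comm]

lemma euler_side (ν : Family E) (B : Finset E) {h : ℝ} (h0 : 0 < h) (K : ℕ)
    (F : (Fin (K + 1) → E → ℝ) → ℝ) (hFm : Measurable F) :
    ∫ y, F (fun k e => euler ν B h (extY B K y) k e) ∂gaussMat B K =
      ∫ Y, GG F B h Y * EE ν B h K Y ∂gaussMat B K := by
  have hGm := measurable_GG F hFm B h (K := K)
  have h1 : ∀ y : Fin K → B → ℝ, F (fun k e => euler ν B h (extY B K y) k e) =
      GG F B h (Psi ν B h K y) := by
    intro y
    show F _ = F _
    congr 1
    funext k e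
    exact euler_eq_zz ν B h0 K y (Nat.lt_succ_iff.1 k.2) e
  simp_rw [h1]
  have hm : Measurable fun Y : Fin K → B → ℝ => ENNReal.ofReal (EE ν B h K Y) :=
    ENNReal.measurable_ofReal.comp (measurable_EE ν B h K)
  have h2 : ∫ y, GG F B h (Psi ν B h K y) ∂gaussMat B K =
      ∫ Y, GG F B h Y ∂((gaussMat B K).map (Psi ν B h K)) :=
    (integral_map (measurable_Psi ν B h K).aemeasurable hGm.aestronglyMeasurable).symm
  rw [h2, map_Psi ν B h0 K, integral_withDensity_eq_integral_toReal_smul hm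
    (Filter.Eventually.of_forall fun _ => ENNReal.ofReal_lt_top)]
  refine integral_congr_ae (Filter.Eventually.of_forall fun Y => ?_)
  simp only [smul_eq_mul]
  rw [ENNReal.toReal_ofReal (EE_pos ν B h K Y).le, mul_comm]

/-! ### The `L¹` estimate -/

lemma integrable_EE (ν : Family E) (B : Finset E) {h : ℝ} (h0 : 0 < h) (K : ℕ) :
    Integrable (EE ν B h K) (gaussMat B K) := by
  refine ⟨(measurable_EE ν B h K).aestronglyMeasurable, ?_⟩
  rw [hasFiniteIntegral_iff_ofReal (Filter.Eventually.of_forall fun Y => (EE_pos ν B h K Y).le)]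
  rw [lintegral_EE ν B h0 K]
  exact ENNReal.one_lt_top

lemma integral_EE (ν : Family E) (B : Finset E) {h : ℝ} (h0 : 0 < h) (K : ℕ) :
    ∫ Y, EE ν B h K Y ∂gaussMat B K = 1 := by
  rw [integral_eq_lintegral_of_nonneg_ae
    (Filter.Eventually.of_forall fun Y => (EE_pos ν B h K Y).le)
    (measurable_EE ν B h K).aestronglyMeasurable, lintegral_EE ν B h0 K]
  simp

lemma integrable_ratio (ν : Family E) (B : Finset E) {h : ℝ} (h0 : 0 < h) (K : ℕ) :
    Integrable (fun Y => rho ν B h K Y ^ 2 / EE ν B h K Y) (gaussMat B K) := by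
  refine ⟨(((measurable_rho ν B h K).pow_const 2).div
    (measurable_EE ν B h K)).aestronglyMeasurable, ?_⟩
  rw [hasFiniteIntegral_iff_ofReal (Filter.Eventually.of_forall fun Y =>
    div_nonneg (sq_nonneg _) (EE_pos ν B h K Y).le)]
  exact (A_bound ν B h0 K).trans_lt ENNReal.ofReal_lt_top

lemma integral_ratio_le (ν : Family E) (B : Finset E) {h : ℝ} (h0 : 0 < h) (K : ℕ) :
    ∫ Y, rho ν B h K Y ^ 2 / EE ν B h K Y ∂gaussMat B K ≤
      Real.exp (K * ((h * B.card) ^ 2 * Real.exp (h * B.card) / 2)) := by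
  set c : ℝ := (h * B.card) ^ 2 * Real.exp (h * B.card) / 2 with hc
  have hc0 : 0 ≤ 1 + c := by positivity
  have h1 : (1 + c) ^ K ≤ Real.exp (K * c) := by
    rw [Real.exp_nat_mul]
    refine pow_le_pow_left₀ hc0 ?_ K
    have := Real.add_one_le_exp c
    linarith
  refine le_trans ?_ h1
  rw [integral_eq_lintegral_of_nonneg_ae
    (Filter.Eventually.of_forall fun Y => div_nonneg (sq_nonneg _) (EE_pos ν B h K Y).le)
    ((measurable_rho ν B h K).pow_const 2 |>.div (measurable_EE ν B h K)).aestronglyMeasurable]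
  exact ENNReal.toReal_le_of_le_ofReal (pow_nonneg hc0 K) (A_bound ν B h0 K)

/-- The estimate for each scale `t`. -/
lemma L1_bound_t (ν : Family E) (B : Finset E) {h : ℝ} (h0 : 0 < h) (K : ℕ) {t : ℝ} (ht : 0 < t) :
    ∫ Y, |EE ν B h K Y - rho ν B h K Y| ∂gaussMat B K ≤
      (Real.exp (K * ((h * B.card) ^ 2 * Real.exp (h * B.card) / 2)) - 1) / (2 * t) + t / 2 := by
  have hE := integrable_EE ν B h0 K
  have hr := integrable_rho ν B h0 K
  have hq := integrable_ratio ν B h0 K
  have hmaj : Integrable (fun Y => (EE ν B h K Y - 2 * rho ν B h K Y +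
      rho ν B h K Y ^ 2 / EE ν B h K Y) / (2 * t) + t * EE ν B h K Y / 2) (gaussMat B K) :=
    (((hE.sub (hr.const_mul 2)).add hq).div_const _).add ((hE.const_mul t).div_const 2)
  have hpt : ∀ Y, |EE ν B h K Y - rho ν B h K Y| ≤ (EE ν B h K Y - 2 * rho ν B h K Y +
      rho ν B h K Y ^ 2 / EE ν B h K Y) / (2 * t) + t * EE ν B h K Y / 2 := by
    intro Y
    have hEp := EE_pos ν B h K Y
    set e := EE ν B h K Y
    set ρ := rho ν B h K Y
    have h1 : (e - 2 * ρ + ρ ^ 2 / e) / (2 * t) + t * e / 2 =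
        ((e - ρ) ^ 2 + (t * e) ^ 2) / (2 * t * e) := by
      field_simp
      ring
    rw [h1, le_div_iff₀ (by positivity)]
    have h2 : |e - ρ| * (2 * t * e) = 2 * |e - ρ| * (t * e) := by ring
    rw [h2]
    have h3 : (e - ρ) ^ 2 = |e - ρ| ^ 2 := (sq_abs _).symm
    rw [h3]
    nlinarith [sq_nonneg (|e - ρ| - t * e)]
  have hint := integral_mono ((hE.sub hr).abs) hmaj hpt
  have hval : ∫ Y, ((EE ν B h K Y - 2 * rho ν B h K Y +
      rho ν B h K Y ^ 2 / EE ν B h K Y) / (2 * t) + t * EE ν B h K Y / 2) ∂gaussMat B K =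
      (1 - 2 * 1 + ∫ Y, rho ν B h K Y ^ 2 / EE ν B h K Y ∂gaussMat B K) / (2 * t) + t * 1 / 2 := by
    have hA : Integrable (fun Y => EE ν B h K Y - 2 * rho ν B h K Y) (gaussMat B K) :=
      hE.sub (hr.const_mul 2)
    have hA' : Integrable (fun Y => 2 * rho ν B h K Y) (gaussMat B K) := hr.const_mul 2
    have hA2 : Integrable (fun Y => EE ν B h K Y) (gaussMat B K) := hE
    have hB : Integrable (fun Y => EE ν B h K Y - 2 * rho ν B h K Y +
        rho ν B h K Y ^ 2 / EE ν B h K Y) (gaussMat B K) := hA.add hq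
    have hC : Integrable (fun Y => (EE ν B h K Y - 2 * rho ν B h K Y +
        rho ν B h K Y ^ 2 / EE ν B h K Y) / (2 * t)) (gaussMat B K) := hB.div_const _
    have hD : Integrable (fun Y => t * EE ν B h K Y / 2) (gaussMat B K) :=
      (hE.const_mul t).div_const 2
    rw [integral_add hC hD, integral_div, integral_div, integral_add hA hq,
      integral_sub hA2 hA', integral_const_mul, integral_const_mul, integral_EE ν B h0 K,
      integral_rho ν B h0 K]
  rw [hval] at hint
  refine (show ∫ Y, |EE ν B h K Y - rho ν B h K Y| ∂gaussMat B K ≤ _ from hint).trans ?_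
  have := integral_ratio_le ν B h0 K
  have h2 : 0 < 2 * t := by positivity
  have h3 : (1 - 2 * 1 + ∫ Y, rho ν B h K Y ^ 2 / EE ν B h K Y ∂gaussMat B K) / (2 * t) ≤
      (Real.exp (K * ((h * B.card) ^ 2 * Real.exp (h * B.card) / 2)) - 1) / (2 * t) :=
    div_le_div_of_nonneg_right (by linarith) h2.le
  linarith

lemma L1_bound (ν : Family E) (B : Finset E) {h : ℝ} (h0 : 0 < h) (K : ℕ) :
    ∫ Y, |EE ν B h K Y - rho ν B h K Y| ∂gaussMat B K ≤ tvB h K B.card := by
  unfold tvB
  set V : ℝ := Real.exp (K * ((h * B.card) ^ 2 * Real.exp (h * B.card) / 2)) - 1 with hV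
  have hV0 : 0 ≤ V := by
    rw [hV]
    have : 0 ≤ (K : ℝ) * ((h * B.card) ^ 2 * Real.exp (h * B.card) / 2) := by positivity
    have := Real.one_le_exp this
    linarith
  have hb := fun t (ht : 0 < t) => L1_bound_t ν B h0 K ht
  rw [← hV] at hb
  rcases hV0.eq_or_lt with h1 | h1
  · rw [← h1, Real.sqrt_zero]
    refine le_of_forall_pos_le_add fun ε hε => ?_
    have := hb (2 * ε) (by positivity)
    rw [← h1] at this
    simpa using this
  · have hs := Real.sqrt_pos.2 h1
    have := hb (Real.sqrt V) hs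
    have h2 : V / (2 * Real.sqrt V) = Real.sqrt V / 2 := by
      have h3 : V = Real.sqrt V * Real.sqrt V := (Real.mul_self_sqrt hV0).symm
      field_simp
      nlinarith
    rw [h2] at this
    linarith

end TVAux

/-- (C1) Path level comparison of the Euler scheme with the mixture over the hidden set `S` of true
paths, for test functions bounded by one. -/
theorem tv_path (ν : Family E) (B : Finset E) {h : ℝ} (h0 : 0 < h) (K : ℕ)
    (F : (Fin (K + 1) → E → ℝ) → ℝ) (hFm : Measurable F) (hF : ∀ z, |F z| ≤ 1) :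
    |∫ y, F (fun k e => euler ν B h (extY B K y) k e) ∂gaussMat B K
      - ∑ S ∈ B.powerset, ν.mass B S *
          ∫ y, F (fun k e => truePath B h S (extY B K y) k e) ∂gaussMat B K|
      ≤ tvB h K B.card := by
  open TVAux in
  rw [euler_side ν B h0 K F hFm, mixture_eq ν B h0 K F hFm hF]
  have hGm := measurable_GG F hFm B h (K := K)
  have hbd : ∀ Y : Fin K → B → ℝ, |GG F B h Y| ≤ 1 := fun Y => hF _
  have hint : ∀ f : (Fin K → B → ℝ) → ℝ, Integrable f (gaussMat B K) →
      Measurable f → Integrable (fun Y => GG F B h Y * f Y) (gaussMat B K) := by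
    intro f hf hfm
    refine hf.norm.mono' (hGm.mul hfm).aestronglyMeasurable
      (Filter.Eventually.of_forall fun Y => ?_)
    rw [norm_mul, Real.norm_eq_abs, Real.norm_eq_abs]
    calc |GG F B h Y| * |f Y| ≤ 1 * |f Y| := mul_le_mul_of_nonneg_right (hbd Y) (abs_nonneg _)
      _ = ‖f Y‖ := by rw [one_mul, Real.norm_eq_abs]
  have hE := hint _ (integrable_EE ν B h0 K) (measurable_EE ν B h K)
  have hr := hint _ (integrable_rho ν B h0 K) (measurable_rho ν B h K)
  rw [← integral_sub hE hr]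
  refine (abs_integral_le_integral_abs).trans (le_trans ?_ (L1_bound ν B h0 K))
  refine integral_mono (hE.sub hr).abs
    ((integrable_EE ν B h0 K).sub (integrable_rho ν B h0 K)).abs fun Y => ?_
  show |GG F B h Y * EE ν B h K Y - GG F B h Y * rho ν B h K Y| ≤ |EE ν B h K Y - rho ν B h K Y|
  rw [← mul_sub, abs_mul]
  calc |GG F B h Y| * |EE ν B h K Y - rho ν B h K Y| ≤ 1 * |EE ν B h K Y - rho ν B h K Y| :=
        mul_le_mul_of_nonneg_right (hbd Y) (abs_nonneg _)
    _ = _ := one_mul _

/-- For fixed `b`, `T`, the bound `tvB` tends to zero along the mesh. -/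
theorem tendsto_tvB (b T : ℕ) :
    Filter.Tendsto (fun n : ℕ => tvB (hh n) (T * 2 ^ n) b) Filter.atTop (nhds 0) := by
  have hhh : Filter.Tendsto hh Filter.atTop (nhds 0) :=
    tendsto_pow_atTop_nhds_zero_of_lt_one (by norm_num) (by norm_num)
  have hval : ∀ n : ℕ, ((T * 2 ^ n : ℕ) : ℝ) * ((hh n * b) ^ 2 * Real.exp (hh n * b) / 2) =
      (T : ℝ) * b ^ 2 / 2 * (hh n * Real.exp (hh n * b)) := by
    intro n
    have h1 : ((2 : ℝ) ^ n) * hh n = 1 := by
      unfold hh
      rw [← mul_pow]
      norm_num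
    push_cast
    have : (T : ℝ) * 2 ^ n * ((hh n * b) ^ 2 * Real.exp (hh n * b) / 2) =
        (T : ℝ) * b ^ 2 / 2 * (((2 : ℝ) ^ n * hh n) * hh n * Real.exp (hh n * b)) := by ring
    rw [this, h1]
    ring
  have hlim : Filter.Tendsto (fun n : ℕ => (T : ℝ) * b ^ 2 / 2 * (hh n * Real.exp (hh n * b)))
      Filter.atTop (nhds ((T : ℝ) * b ^ 2 / 2 * (0 * Real.exp (0 * b)))) := by
    refine Filter.Tendsto.const_mul _ (hhh.mul ?_)
    exact (Real.continuous_exp.tendsto _).comp (hhh.mul_const _)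
  have hfinal : Filter.Tendsto (fun n : ℕ => Real.sqrt (Real.exp ((T : ℝ) * b ^ 2 / 2 *
      (hh n * Real.exp (hh n * b))) - 1)) Filter.atTop
      (nhds (Real.sqrt (Real.exp ((T : ℝ) * b ^ 2 / 2 * (0 * Real.exp (0 * b))) - 1))) :=
    (Real.continuous_sqrt.tendsto _).comp
      (((Real.continuous_exp.tendsto _).comp hlim).sub_const 1)
  have hz : Real.sqrt (Real.exp ((T : ℝ) * b ^ 2 / 2 * (0 * Real.exp (0 * b))) - 1) = 0 := by
    simp
  rw [hz] at hfinal
  refine hfinal.congr fun n => ?_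
  unfold tvB
  rw [hval n]

end Crest.Agent.SRFactor
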