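import Crest.Agent.SRFactor.SRLip
import Crest.Prelude.Def_SpanningTrees

/-! Spanning trees of a finite piece: the generating polynomial does not vanish when the variables of
any finite set `B` are in the upper half plane and all others equal one (blueprint (J), first part:
weighted matrix-tree formula via hand-made Cauchy-Binet, and positivity of the quadratic form). -/

set_option autoImplicit false
set_option linter.unusedSectionVars false
set_option linter.unusedSimpArgs false
set_option linter.unusedVariables false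

open Crest.ProbabilityR.SpanningTrees

namespace Crest.Agent.SRFactor

/-- The spanning tree edge sets of the piece of `G` on `S`. -/
noncomputable def treesOf (G : SimpleGraph ℕ) (S : Finset ℕ) : Finset (Finset (Sym2 ℕ)) :=
  haveI := Classical.decPred (fun A : Finset (Sym2 ℕ) => IsSpanningTreeOn G S A)
  (edgesIn G S).powerset.filter (fun A => IsSpanningTreeOn G S A)

theorem mem_treesOf {G : SimpleGraph ℕ} {S : Finset ℕ} {A : Finset (Sym2 ℕ)} :
    A ∈ treesOf G S ↔ IsSpanningTreeOn G S A := by
  classical
  unfold treesOf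
  simp only [Finset.mem_filter, Finset.mem_powerset]
  exact ⟨fun h => h.2, fun h => ⟨h.1, h⟩⟩

/-- `ustContains` in terms of `treesOf`. -/
theorem ustContains_eq (G : SimpleGraph ℕ) (S : Finset ℕ) (F : Finset (Sym2 ℕ)) :
    ustContains G S F =
      (((treesOf G S).filter (fun A => F ⊆ A)).card : ℝ) / ((treesOf G S).card : ℝ) := by
  classical
  unfold ustContains treesOf
  rw [Finset.filter_filter]
  congr 2
  · congr 1; ext A; simp

namespace TreeDetAux

open Matrix

section CB
variable {R α : Type*} [Fintype R] [DecidableEq R] [DecidableEq α]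

/-- Cauchy–Binet in the symmetric rank-one form. -/
theorem det_sum_rankOne (E : Finset α) (a : α → R → ℂ) (z : α → ℂ) (D : Finset α → ℂ)
    (hD : ∀ g : R → α, Function.Injective g → (∀ i, g i ∈ E) →
       (Matrix.det (Matrix.of fun i j => a (g i) j)) ^ 2 = D (Finset.univ.image g)) :
    Matrix.det (Matrix.of fun i j => ∑ f ∈ E, z f * a f i * a f j) =
      ∑ A ∈ E.powersetCard (Fintype.card R), (∏ f ∈ A, z f) * D A := by
  classical
  -- expansion
  have h1 : Matrix.det (Matrix.of fun i j => ∑ f ∈ E, z f * a f i * a f j) =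
      ∑ g ∈ Fintype.piFinset (fun _ : R => E),
        (∏ i, (z (g i) * a (g i) i)) * Matrix.det (Matrix.of fun i j => a (g i) j) := by
    have hrow : (Matrix.of fun i j => ∑ f ∈ E, z f * a f i * a f j) =
        fun i => ∑ f ∈ E, (z f * a f i) • a f := by
      funext i j
      simp [Finset.sum_apply]
    rw [hrow]
    change (Matrix.detRowAlternating (R := ℂ) (n := R)).toMultilinearMap
      (fun i => ∑ f ∈ E, (z f * a f i) • a f) = _
    rw [MultilinearMap.map_sum_finset]
    refine Finset.sum_congr rfl fun g _ => ?_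
    rw [MultilinearMap.map_smul_univ]
    rfl
  rw [h1]
  -- non injective vanish
  set F : (R → α) → ℂ := fun g =>
    (∏ i, (z (g i) * a (g i) i)) * Matrix.det (Matrix.of fun i j => a (g i) j) with hF
  have h2 : ∑ g ∈ Fintype.piFinset (fun _ : R => E), F g =
      ∑ g ∈ (Fintype.piFinset (fun _ : R => E)).filter Function.Injective, F g := by
    symm
    apply Finset.sum_filter_of_ne
    intro g _ hg
    by_contra hinj
    apply hg
    simp only [Function.Injective, not_forall] at hinj
    obtain ⟨i, j, hij, hne⟩ := hinj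
    have : Matrix.det (Matrix.of fun i j => a (g i) j) = 0 := by
      apply Matrix.det_zero_of_row_eq hne
      funext k
      simp [hij]
    simp [hF, this]
  rw [h2]
  -- group by image
  have h3 : ∀ g ∈ (Fintype.piFinset (fun _ : R => E)).filter Function.Injective,
      Finset.univ.image g ∈ E.powersetCard (Fintype.card R) := by
    intro g hg
    simp only [Finset.mem_filter, Fintype.mem_piFinset] at hg
    rw [Finset.mem_powersetCard]
    constructor
    · intro x hx
      obtain ⟨i, _, rfl⟩ := Finset.mem_image.1 hx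
      exact hg.1 i
    · rw [Finset.card_image_of_injective _ hg.2, Finset.card_univ]
  rw [← Finset.sum_fiberwise_of_maps_to h3]
  refine Finset.sum_congr rfl fun A hA => ?_
  obtain ⟨hAE, hAc⟩ := Finset.mem_powersetCard.1 hA
  -- a bijection
  have hcard : Fintype.card R = Fintype.card A := by simp [hAc]
  let e₀ : R ≃ A := Fintype.equivOfCardEq hcard
  let e : R → α := fun i => (e₀ i : α)
  have he : Function.Injective e := fun i j h => e₀.injective (Subtype.ext h)
  have heA : Finset.univ.image e = A := by
    ext x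
    simp only [Finset.mem_image, Finset.mem_univ, true_and]
    constructor
    · rintro ⟨i, rfl⟩; exact (e₀ i).2
    · intro hx
      exact ⟨e₀.symm ⟨x, hx⟩, by simp [e]⟩
  have heE : ∀ i, e i ∈ E := fun i => hAE (e₀ i).2
  have hDA := hD e he heE
  rw [heA] at hDA
  -- sum over permutations
  have h4 : ∑ g ∈ ((Fintype.piFinset (fun _ : R => E)).filter Function.Injective).filter
        (fun g => Finset.univ.image g = A), F g =
      ∑ τ : Equiv.Perm R, F (e ∘ τ) := by
    symm
    apply Finset.sum_bij (fun (τ : Equiv.Perm R) _ => e ∘ τ)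
    · intro τ _
      simp only [Finset.mem_filter, Fintype.mem_piFinset]
      refine ⟨⟨fun i => heE _, he.comp τ.injective⟩, ?_⟩
      rw [← heA]
      ext x
      simp only [Finset.mem_image, Finset.mem_univ, true_and, Function.comp]
      constructor
      · rintro ⟨i, rfl⟩; exact ⟨τ i, rfl⟩
      · rintro ⟨i, rfl⟩; exact ⟨τ.symm i, by simp⟩
    · intro τ _ τ' _ h
      ext i
      exact he (congrFun h i)
    · intro g hg
      simp only [Finset.mem_filter, Fintype.mem_piFinset] at hg
      obtain ⟨⟨hgE, hginj⟩, hgA⟩ := hg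
      have hex : ∀ i, ∃ j, e j = g i := by
        intro i
        have : g i ∈ Finset.univ.image e := by
          rw [heA, ← hgA]; exact Finset.mem_image_of_mem g (Finset.mem_univ i)
        obtain ⟨j, _, hj⟩ := Finset.mem_image.1 this
        exact ⟨j, hj⟩
      choose t ht using hex
      have htinj : Function.Injective t := by
        intro i j hij
        apply hginj
        rw [← ht, ← ht, hij]
      let τ : Equiv.Perm R := Equiv.ofBijective t (Finite.injective_iff_bijective.1 htinj)
      refine ⟨τ, Finset.mem_univ _, ?_⟩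
      funext i
      exact ht i
    · intro τ _; rfl
  rw [h4]
  -- compute
  have h5 : ∀ τ : Equiv.Perm R, F (e ∘ τ) =
      (∏ f ∈ A, z f) * ((∏ i, a (e (τ i)) i) *
        ((Equiv.Perm.sign τ : ℤ) : ℂ) * Matrix.det (Matrix.of fun i j => a (e i) j)) := by
    intro τ
    simp only [hF, Function.comp]
    rw [Finset.prod_mul_distrib]
    have h6 : ∏ i, z (e (τ i)) = ∏ f ∈ A, z f := by
      rw [← heA, Finset.prod_image (fun x _ y _ h => he h)]
      exact Equiv.prod_comp τ (fun i => z (e i))
    rw [h6]
    have h7 : Matrix.det (Matrix.of fun i j => a (e (τ i)) j) =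
        ((Equiv.Perm.sign τ : ℤ) : ℂ) * Matrix.det (Matrix.of fun i j => a (e i) j) := by
      exact Matrix.det_permute τ (Matrix.of fun i j => a (e i) j)
    rw [h7]
    ring
  simp_rw [h5]
  rw [← Finset.mul_sum, ← hDA, ← Finset.sum_mul]
  congr 1
  rw [sq]
  congr 1
  rw [Matrix.det_apply']
  refine Finset.sum_congr rfl fun τ _ => ?_
  simp [mul_comm]

end CB

/-! ### The incidence vectors -/

/-- signed incidence of the edge `f` at the vertex `v` -/
def inc (f : Sym2 ℕ) (v : ℕ) : ℤ :=
  (if v = f.sup then 1 else 0) - (if v = f.inf then 1 else 0)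

variable {S : Finset ℕ} {r : ℕ}

/-- Extension by zero of a vector on the reduced vertex set. -/
def extv {T : Type*} [Zero T] (v : (S.erase r) → T) (n : ℕ) : T :=
  if h : n ∈ S.erase r then v ⟨n, h⟩ else 0

lemma sum_ite_extv {T : Type*} [Ring T] (v : (S.erase r) → T) (n : ℕ) :
    ∑ j : (S.erase r), ((if (j : ℕ) = n then (1 : T) else 0)) * v j = extv v n := by
  classical
  unfold extv
  split_ifs with h
  · rw [Finset.sum_eq_single (⟨n, h⟩ : (S.erase r))]
    · simp
    · intro j _ hj
      have : (j : ℕ) ≠ n := fun h' => hj (Subtype.ext h')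
      simp [this]
    · simp
  · apply Finset.sum_eq_zero
    intro j _
    have : (j : ℕ) ≠ n := fun h' => h (h' ▸ j.2)
    simp [this]

lemma sum_inc_mul {T : Type*} [Ring T] (f : Sym2 ℕ) (v : (S.erase r) → T) :
    ∑ j : (S.erase r), ((inc f j : ℤ) : T) * v j = extv v f.sup - extv v f.inf := by
  rw [← sum_ite_extv v f.sup, ← sum_ite_extv v f.inf, ← Finset.sum_sub_distrib]
  refine Finset.sum_congr rfl fun j _ => ?_
  unfold inc
  simp only [Int.cast_sub, Int.cast_ite, Int.cast_one, Int.cast_zero, sub_mul]

lemma extv_self {T : Type*} [Zero T] (v : (S.erase r) → T) : extv v r = 0 := by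
  unfold extv; simp

/-- In a set `s(x,y)`, differences of extended vectors vanish iff values agree. -/
lemma sub_sup_inf_eq_zero {T : Type*} [Ring T] (x : ℕ → T) (p q : ℕ) :
    x (s(p, q)).sup - x (s(p, q)).inf = 0 ↔ x p = x q := by
  rcases le_total p q with h | h
  · simp only [Sym2.sup_mk, Sym2.inf_mk, sup_of_le_right h, inf_of_le_left h]
    rw [sub_eq_zero, eq_comm]
  · simp only [Sym2.sup_mk, Sym2.inf_mk, sup_of_le_left h, inf_of_le_right h]
    rw [sub_eq_zero]

/-- the reduced incidence at a `s(p,q)`. -/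
lemma inc_mk_eq (p q j : ℕ) (h : p ≠ q) :
    inc s(p, q) j = (if p < q then (1:ℤ) else -1) *
      ((if j = q then 1 else 0) - (if j = p then 1 else 0)) := by
  unfold inc
  rcases lt_or_gt_of_ne h with h | h
  · simp only [Sym2.sup_mk, Sym2.inf_mk, sup_of_le_right h.le, inf_of_le_left h.le, if_pos h]
    ring
  · simp only [Sym2.sup_mk, Sym2.inf_mk, sup_of_le_left h.le, inf_of_le_right h.le,
      if_neg (not_lt.2 h.le)]
    ring

/-- the graph of an edge set on the piece. -/
abbrev pieceGraph (S : Finset ℕ) (A : Finset (Sym2 ℕ)) : SimpleGraph ((S : Set ℕ) : Type) :=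
  (SimpleGraph.fromEdgeSet (A : Set (Sym2 ℕ))).induce (S : Set ℕ)

lemma pieceGraph_adj {A : Finset (Sym2 ℕ)} {x y : (S : Set ℕ)} :
    (pieceGraph S A).Adj x y ↔ s((x : ℕ), (y : ℕ)) ∈ A ∧ (x : ℕ) ≠ y := by
  simp [pieceGraph]

lemma mem_edgesIn {G : SimpleGraph ℕ} {f : Sym2 ℕ} :
    f ∈ edgesIn G S ↔ (∀ x ∈ f, x ∈ S) ∧ f ∈ G.edgeSet := by
  classical
  unfold edgesIn
  simp [Finset.mem_sym2_iff]

lemma exists_mk_of_mem_edgesIn {G : SimpleGraph ℕ} {f : Sym2 ℕ} (hf : f ∈ edgesIn G S) :
    ∃ p q, f = s(p, q) ∧ p ∈ S ∧ q ∈ S ∧ G.Adj p q := by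
  induction f using Sym2.ind with
  | _ p q =>
    rw [mem_edgesIn] at hf
    refine ⟨p, q, rfl, hf.1 p (by simp), hf.1 q (by simp), ?_⟩
    simpa using hf.2

/-- The number of edges of the piece graph. -/
lemma card_edgeSet_pieceGraph {G : SimpleGraph ℕ} {A : Finset (Sym2 ℕ)} (hA : A ⊆ edgesIn G S) :
    Nat.card (pieceGraph S A).edgeSet = A.card := by
  classical
  have hinj : Function.Injective (Sym2.map (Subtype.val : ((S : Set ℕ) : Type) → ℕ)) :=
    Sym2.map.injective Subtype.val_injective
  have himage : (Sym2.map (Subtype.val : ((S : Set ℕ) : Type) → ℕ)) '' (pieceGraph S A).edgeSet =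
      (A : Set (Sym2 ℕ)) := by
    ext f
    constructor
    · rintro ⟨e, he, rfl⟩
      induction e using Sym2.ind with
      | _ x y =>
        have := (pieceGraph_adj (A := A)).1 (by simpa using he)
        simpa using this.1
    · intro hf
      obtain ⟨p, q, rfl, hp, hq, hpq⟩ := exists_mk_of_mem_edgesIn (hA hf)
      refine ⟨s(⟨p, hp⟩, ⟨q, hq⟩), ?_, by simp⟩
      rw [SimpleGraph.mem_edgeSet, pieceGraph_adj]
      exact ⟨hf, hpq.ne⟩
  have h1 : Nat.card (pieceGraph S A).edgeSet =
      Nat.card ((Sym2.map (Subtype.val : ((S : Set ℕ) : Type) → ℕ)) '' (pieceGraph S A).edgeSet) :=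
    Nat.card_congr (Equiv.Set.image _ _ hinj)
  rw [h1, himage]
  simp

lemma card_piece : Nat.card (S : Set ℕ) = S.card := by
  simp

lemma card_erase_of_mem' (hr : r ∈ S) : Fintype.card (S.erase r) + 1 = S.card := by
  rw [Fintype.card_coe, Finset.card_erase_of_mem hr]
  have : 0 < S.card := Finset.card_pos.2 ⟨r, hr⟩
  omega

/-- The vertex `e_w` is an integer combination of the incidence rows if the piece is connected. -/
theorem exists_comb {A : Finset (Sym2 ℕ)} (hr : r ∈ S) (g : (S.erase r) → Sym2 ℕ)
    (hg : Finset.univ.image g = A) (hconn : (pieceGraph S A).Connected) (w : (S : Set ℕ)) :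
    ∃ u : (S.erase r) → ℤ, ∀ j : (S.erase r),
      ∑ i, u i * inc (g i) j = if (j : ℕ) = w then 1 else 0 := by
  classical
  have hreach := hconn.preconnected ⟨r, hr⟩ w
  rw [SimpleGraph.reachable_iff_reflTransGen] at hreach
  induction hreach with
  | refl =>
    refine ⟨0, fun j => ?_⟩
    have : (j : ℕ) ≠ r := (Finset.mem_erase.1 j.2).1
    simp [this]
  | @tail x y _ hxy ih =>
    obtain ⟨u, hu⟩ := ih
    obtain ⟨hmem, hne⟩ := pieceGraph_adj.1 hxy
    rw [← hg] at hmem
    obtain ⟨i₀, _, hi₀⟩ := Finset.mem_image.1 hmem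
    refine ⟨fun i => u i + (if i = i₀ then (if (x : ℕ) < y then (1:ℤ) else -1) else 0), fun j => ?_⟩
    simp only [add_mul, Finset.sum_add_distrib, hu j]
    rw [Finset.sum_eq_single i₀]
    · rw [if_pos rfl, hi₀, inc_mk_eq _ _ _ hne]
      by_cases hlt : (x : ℕ) < y
      · simp only [if_pos hlt]; ring
      · simp only [if_neg hlt]; ring
    · intro i _ hi; simp [hi]
    · simp

/-- Unimodularity for a spanning tree. -/
theorem det_sq_of_connected {A : Finset (Sym2 ℕ)} (hr : r ∈ S) (g : (S.erase r) → Sym2 ℕ)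
    (hg : Finset.univ.image g = A) (hconn : (pieceGraph S A).Connected) :
    (Matrix.det (Matrix.of fun i (j : (S.erase r)) => inc (g i) j)) ^ 2 = 1 := by
  classical
  have hex : ∀ w : (S.erase r), ∃ u : (S.erase r) → ℤ, ∀ j : (S.erase r),
      ∑ i, u i * inc (g i) j = if (j : ℕ) = w then 1 else 0 := fun w =>
    exists_comb hr g hg hconn ⟨w, by simpa using (Finset.mem_erase.1 w.2).2⟩
  choose U hU using hex
  have hmul : Matrix.of U * (Matrix.of fun i (j : (S.erase r)) => inc (g i) j) = 1 := by
    ext w j
    simp only [Matrix.mul_apply, Matrix.of_apply, hU]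
    by_cases h : j = w
    · subst h; simp
    · have : (j : ℕ) ≠ w := fun h' => h (Subtype.ext h')
      have h' : w ≠ j := fun h'' => h h''.symm
      simp [this, h', Matrix.one_apply_ne]
  have hdet := congrArg Matrix.det hmul
  rw [Matrix.det_mul, Matrix.det_one] at hdet
  have hunit : IsUnit (Matrix.det (Matrix.of fun i (j : (S.erase r)) => inc (g i) j)) :=
    isUnit_iff_exists_inv.2 ⟨_, by rw [mul_comm]; exact hdet⟩
  rcases Int.isUnit_iff.1 hunit with h | h <;> simp [h]

/-- Vanishing off connected. -/
theorem det_eq_zero_of_not_connected {A : Finset (Sym2 ℕ)} {G : SimpleGraph ℕ} (hr : r ∈ S)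
    (hA : A ⊆ edgesIn G S) (g : (S.erase r) → Sym2 ℕ)
    (hg : Finset.univ.image g = A) (hconn : ¬ (pieceGraph S A).Connected) :
    Matrix.det (Matrix.of fun i (j : (S.erase r)) => inc (g i) j) = 0 := by
  classical
  -- there is an unreachable vertex
  have hw : ∃ w : (S : Set ℕ), ¬ (pieceGraph S A).Reachable ⟨r, hr⟩ w := by
    by_contra hcon
    push Not at hcon
    apply hconn
    have : Nonempty ((S : Set ℕ) : Type) := ⟨⟨r, hr⟩⟩
    refine ⟨fun a b => ?_⟩
    exact (hcon a).symm.trans (hcon b)
  obtain ⟨w, hw⟩ := hw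
  let rch : ((S : Set ℕ) : Type) → Prop := fun p => (pieceGraph S A).Reachable ⟨r, hr⟩ p
  let x : (S.erase r) → ℤ := fun j =>
    if rch ⟨j, by have := (Finset.mem_erase.1 j.2).2; simpa using this⟩ then 0 else 1
  have hx : ∀ p (hp : p ∈ S), extv x p = if rch ⟨p, hp⟩ then 0 else 1 := by
    intro p hp
    unfold extv
    by_cases hpr : p = r
    · subst hpr
      have : rch ⟨p, hp⟩ := SimpleGraph.Reachable.refl _
      simp [this]
    · have : p ∈ S.erase r := Finset.mem_erase.2 ⟨hpr, hp⟩
      rw [dif_pos this]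
  apply (Matrix.exists_mulVec_eq_zero_iff).1
  refine ⟨x, ?_, ?_⟩
  · intro h0
    have hwr : (w : ℕ) ≠ r := by
      intro h
      apply hw
      have : w = ⟨r, hr⟩ := Subtype.ext h
      rw [this]
    have hwm : (w : ℕ) ∈ S.erase r := Finset.mem_erase.2 ⟨hwr, by simpa using w.2⟩
    have := congrFun h0 ⟨w, hwm⟩
    simp only [x, Pi.zero_apply] at this
    have hrw : ¬ rch ⟨(w : ℕ), by simpa using w.2⟩ := hw
    rw [if_neg hrw] at this
    exact one_ne_zero this
  · funext i
    simp only [Matrix.mulVec, dotProduct, Matrix.of_apply, Pi.zero_apply]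
    have hmem : g i ∈ A := by rw [← hg]; exact Finset.mem_image_of_mem g (Finset.mem_univ i)
    have hs := sum_inc_mul (T := ℤ) (g i) x
    simp only [Int.cast_id] at hs
    rw [hs]
    obtain ⟨p, q, hpq, hp, hq, hadj⟩ := exists_mk_of_mem_edgesIn (hA hmem)
    rw [hpq, sub_sup_inf_eq_zero]
    rw [hx p hp, hx q hq]
    have hadj' : (pieceGraph S A).Adj ⟨p, hp⟩ ⟨q, hq⟩ := by
      rw [pieceGraph_adj]
      exact ⟨hpq ▸ hmem, hadj.ne⟩
    have : rch ⟨p, hp⟩ ↔ rch ⟨q, hq⟩ :=
      ⟨fun h => h.trans hadj'.reachable, fun h => h.trans hadj'.symm.reachable⟩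
    by_cases h1 : rch ⟨p, hp⟩
    · rw [if_pos h1, if_pos (this.1 h1)]
    · rw [if_neg h1, if_neg (fun h => h1 (this.2 h))]

/-- A spanning tree has the right number of edges. -/
lemma card_of_isSpanningTreeOn {G : SimpleGraph ℕ} {A : Finset (Sym2 ℕ)}
    (h : IsSpanningTreeOn G S A) : A.card + 1 = S.card := by
  have h1 := (SimpleGraph.isTree_iff_connected_and_card.1 h.2).2
  rw [card_edgeSet_pieceGraph h.1] at h1
  simpa using h1

/-- Weighted matrix-tree theorem. -/
theorem det_eq_tree_sum {G : SimpleGraph ℕ} (hr : r ∈ S) (z : Sym2 ℕ → ℂ) :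
    Matrix.det (Matrix.of fun (i j : (S.erase r)) =>
        ∑ f ∈ edgesIn G S, z f * ((inc f i : ℤ) : ℂ) * ((inc f j : ℤ) : ℂ)) =
      ∑ A ∈ treesOf G S, ∏ f ∈ A, z f := by
  classical
  rw [det_sum_rankOne (edgesIn G S) (fun f (j : (S.erase r)) => ((inc f j : ℤ) : ℂ)) z
    (fun A => if IsSpanningTreeOn G S A then 1 else 0)]
  · have htrees : treesOf G S =
        ((edgesIn G S).powersetCard (Fintype.card (S.erase r))).filter
          (fun A => IsSpanningTreeOn G S A) := by
      ext A
      rw [mem_treesOf, Finset.mem_filter, Finset.mem_powersetCard]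
      constructor
      · intro h
        refine ⟨⟨h.1, ?_⟩, h⟩
        have := card_of_isSpanningTreeOn h
        have h2 := card_erase_of_mem' hr
        omega
      · exact fun h => h.2
    rw [htrees, Finset.sum_filter]
    refine Finset.sum_congr rfl fun A _ => ?_
    split_ifs <;> simp
  · intro g hginj hgE
    set A := Finset.univ.image g with hA
    have hAE : A ⊆ edgesIn G S := by
      intro x hx
      obtain ⟨i, _, rfl⟩ := Finset.mem_image.1 hx
      exact hgE i
    have hcast : Matrix.det (Matrix.of fun (i j : (S.erase r)) => ((inc (g i) j : ℤ) : ℂ)) =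
        ((Matrix.det (Matrix.of fun i (j : (S.erase r)) => inc (g i) j) : ℤ) : ℂ) := by
      have := RingHom.map_det (Int.castRingHom ℂ)
        (Matrix.of fun i (j : (S.erase r)) => inc (g i) j)
      exact this.symm
    rw [hcast]
    by_cases hT : IsSpanningTreeOn G S A
    · rw [if_pos hT]
      have := det_sq_of_connected hr g hA.symm hT.2.connected
      exact_mod_cast this
    · rw [if_neg hT]
      have hcardA : A.card = Fintype.card (S.erase r) := by
        rw [hA, Finset.card_image_of_injective _ hginj, Finset.card_univ]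
      have hnc : ¬ (pieceGraph S A).Connected := by
        intro hc
        apply hT
        refine ⟨hAE, SimpleGraph.isTree_iff_connected_and_card.2 ⟨hc, ?_⟩⟩
        rw [card_edgeSet_pieceGraph hAE, hcardA]
        have h2 := card_erase_of_mem' hr
        simpa using h2
      rw [det_eq_zero_of_not_connected hr hAE g hA.symm hnc]
      simp

end TreeDetAux

open TreeDetAux in
/-- A connected piece has a spanning tree. -/
theorem treesOf_nonempty {G : SimpleGraph ℕ} {S : Finset ℕ}
    (hS : (G.induce (S : Set ℕ)).Connected) : (treesOf G S).Nonempty := by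
  classical
  obtain ⟨T, hle, hT⟩ := hS.exists_isTree_le
  have hinj : Function.Injective (Sym2.map (Subtype.val : ((S : Set ℕ) : Type) → ℕ)) :=
    Sym2.map.injective Subtype.val_injective
  let A : Finset (Sym2 ℕ) := (T.edgeFinset).image (Sym2.map Subtype.val)
  have hgraph : pieceGraph S A = T := by
    ext x y
    rw [pieceGraph_adj]
    constructor
    · rintro ⟨h1, _⟩
      obtain ⟨e, he, heq⟩ := Finset.mem_image.1 h1
      have : e = s(x, y) := hinj (by simpa using heq)
      rw [this] at he
      simpa using he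
    · intro h
      refine ⟨Finset.mem_image.2 ⟨s(x, y), by simpa using h, by simp⟩, ?_⟩
      intro h'
      exact h.ne (Subtype.ext h')
  refine ⟨A, mem_treesOf.2 ⟨?_, ?_⟩⟩
  · intro f hf
    obtain ⟨e, he, rfl⟩ := Finset.mem_image.1 hf
    induction e using Sym2.ind with
    | _ x y =>
      have hadj : T.Adj x y := by simpa using he
      have hadj' := hle hadj
      rw [mem_edgesIn]
      constructor
      · intro p hp
        simp only [Sym2.map_mk, Sym2.mem_iff] at hp
        rcases hp with rfl | rfl
        · exact x.2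
        · exact y.2
      · simpa using hadj'
  · change (pieceGraph S A).IsTree
    rw [hgraph]
    exact hT

open TreeDetAux in
/-- Stability of the spanning tree polynomial with the variables off `B` frozen to one. -/
theorem tree_poly_ne_zero {G : SimpleGraph ℕ} {S : Finset ℕ}
    (hS : (G.induce (S : Set ℕ)).Connected) (B : Finset (Sym2 ℕ)) (z : Sym2 ℕ → ℂ)
    (hz : ∀ f ∈ B, 0 < (z f).im) :
    ∑ A ∈ treesOf G S, ∏ f ∈ A ∩ B, z f ≠ 0 := by
  classical
  obtain ⟨⟨r, hr⟩⟩ := hS.nonempty
  have hr' : r ∈ S := by simpa using hr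
  intro h0
  set z' : Sym2 ℕ → ℂ := fun f => if f ∈ B then z f else 1 with hz'
  have hprod : ∀ A : Finset (Sym2 ℕ), ∏ f ∈ A, z' f = ∏ f ∈ A ∩ B, z f := fun A =>
    Finset.prod_ite_mem A B z
  have hdet := det_eq_tree_sum (G := G) hr' z'
  simp_rw [hprod] at hdet
  rw [h0] at hdet
  obtain ⟨v, hv0, hv⟩ := (Matrix.exists_mulVec_eq_zero_iff).2 hdet
  -- the linear forms
  set w : Sym2 ℕ → ℂ := fun f => ∑ j : (S.erase r), ((inc f j : ℤ) : ℂ) * v j with hw
  have hMv : ∀ i : (S.erase r), ∑ f ∈ edgesIn G S, z' f * ((inc f i : ℤ) : ℂ) * w f = 0 := by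
    intro i
    have := congrFun hv i
    simp only [Matrix.mulVec, dotProduct, Matrix.of_apply, Pi.zero_apply] at this
    rw [← this]
    simp only [hw, Finset.mul_sum, Finset.sum_mul]
    rw [Finset.sum_comm]
    refine Finset.sum_congr rfl fun j _ => Finset.sum_congr rfl fun f _ => ?_
    ring
  have hconj : ∀ f, (starRingEnd ℂ) (w f) =
      ∑ j : (S.erase r), ((inc f j : ℤ) : ℂ) * (starRingEnd ℂ) (v j) := by
    intro f
    simp only [hw, map_sum, map_mul, map_intCast]
  have hquad : ∑ f ∈ edgesIn G S, z' f * ((Complex.normSq (w f) : ℝ) : ℂ) = 0 := by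
    have h1 : ∑ i : (S.erase r), (starRingEnd ℂ) (v i) *
        ∑ f ∈ edgesIn G S, z' f * ((inc f i : ℤ) : ℂ) * w f = 0 := by
      simp [hMv]
    rw [← h1]
    simp only [Finset.mul_sum]
    rw [Finset.sum_comm]
    refine Finset.sum_congr rfl fun f _ => ?_
    rw [← Complex.mul_conj, hconj f, Finset.mul_sum, Finset.mul_sum]
    refine Finset.sum_congr rfl fun i _ => ?_
    ring
  have him := congrArg Complex.im hquad
  have hre := congrArg Complex.re hquad
  simp only [Complex.im_sum, Complex.re_sum, Complex.mul_im, Complex.mul_re, Complex.ofReal_re,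
    Complex.ofReal_im, mul_zero, add_zero, zero_add, sub_zero, Complex.zero_im, Complex.zero_re]
    at him hre
  have hnn : ∀ f, 0 ≤ Complex.normSq (w f) := fun f => Complex.normSq_nonneg _
  -- vanish on `B`
  have hB : ∀ f ∈ edgesIn G S, f ∈ B → w f = 0 := by
    intro f hf hfB
    have hterm : ∀ f ∈ edgesIn G S, 0 ≤ (z' f).im * Complex.normSq (w f) := by
      intro f _
      apply mul_nonneg _ (hnn f)
      by_cases hfB : f ∈ B
      · simp only [hz', if_pos hfB]; exact (hz f hfB).le
      · simp [hz', if_neg hfB]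
    have := (Finset.sum_eq_zero_iff_of_nonneg hterm).1 him f hf
    have hzf : 0 < (z' f).im := by simp only [hz', if_pos hfB]; exact hz f hfB
    have h2 : Complex.normSq (w f) = 0 := by
      rcases mul_eq_zero.1 this with h | h
      · exact absurd h hzf.ne'
      · exact h
    exact Complex.normSq_eq_zero.1 h2
  have hall : ∀ f ∈ edgesIn G S, w f = 0 := by
    intro f hf
    by_cases hfB : f ∈ B
    · exact hB f hf hfB
    have hterm : ∀ f ∈ edgesIn G S, 0 ≤ (z' f).re * Complex.normSq (w f) := by
      intro f hf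
      by_cases hfB : f ∈ B
      · rw [Complex.normSq_eq_zero.2 (hB f hf hfB)]; simp
      · simp only [hz', if_neg hfB, Complex.one_re, one_mul]; exact hnn f
    have := (Finset.sum_eq_zero_iff_of_nonneg hterm).1 hre f hf
    simp only [hz', if_neg hfB, Complex.one_re, one_mul] at this
    exact Complex.normSq_eq_zero.1 this
  -- propagate along the connected piece
  have hprop : ∀ p : ((S : Set ℕ) : Type), extv v (p : ℕ) = 0 := by
    intro p
    have hreach := hS.preconnected ⟨r, hr⟩ p
    rw [SimpleGraph.reachable_iff_reflTransGen] at hreach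
    induction hreach with
    | refl => exact extv_self v
    | @tail x y _ hxy ih =>
      have hadj : G.Adj (x : ℕ) (y : ℕ) := by simpa using hxy
      have hmem : s((x : ℕ), (y : ℕ)) ∈ edgesIn G S := by
        rw [mem_edgesIn]
        constructor
        · intro q hq
          simp only [Sym2.mem_iff] at hq
          rcases hq with rfl | rfl
          · exact x.2
          · exact y.2
        · simpa using hadj
      have := hall _ hmem
      simp only [hw, sum_inc_mul] at this
      have h3 := (sub_sup_inf_eq_zero (extv v) (x : ℕ) (y : ℕ)).1 this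
      rw [← h3, ih]
  apply hv0
  funext j
  have hj : (j : ℕ) ∈ S := (Finset.mem_erase.1 j.2).2
  have := hprop ⟨j, by simpa using hj⟩
  simp only [extv, j.2, dif_pos] at this
  simpa using this

end Crest.Agent.SRFactor
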