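import Crest.Agent.SRFactor.RayleighClass
import Crest.Agent.SRFactor.TreeDet

/-! The chance that the uniform spanning tree of a connected piece contains a given edge set
decreases when the piece grows. -/

set_option autoImplicit false

open Finset Crest.ProbabilityR.SpanningTrees

namespace Crest.Agent.SRFactor

variable {G : SimpleGraph ℕ} {S : Finset ℕ}

theorem mem_edgesIn_iff {f : Sym2 ℕ} : f ∈ edgesIn G S ↔ f ∈ S.sym2 ∧ f ∈ G.edgeSet := by
  simp [edgesIn]

theorem mk_mem_edgesIn_iff {a b : ℕ} : s(a, b) ∈ edgesIn G S ↔ a ∈ S ∧ b ∈ S ∧ G.Adj a b := by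
  simp [mem_edgesIn_iff, and_assoc]

theorem card_edgeSet_induce {A : Finset (Sym2 ℕ)} (hA : A ⊆ edgesIn G S) :
    Nat.card ((SimpleGraph.fromEdgeSet (A : Set (Sym2 ℕ))).induce (S : Set ℕ)).edgeSet = A.card := by
  set H := (SimpleGraph.fromEdgeSet (A : Set (Sym2 ℕ))).induce (S : Set ℕ) with hH
  have himg : Sym2.map (Subtype.val : ↥(S : Set ℕ) → ℕ) '' H.edgeSet = (A : Set (Sym2 ℕ)) := by
    ext f
    constructor
    · rintro ⟨e, he, rfl⟩
      induction e using Sym2.ind with
      | _ x y =>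
        have h1 : H.Adj x y := he
        have h2 : (SimpleGraph.fromEdgeSet (A : Set (Sym2 ℕ))).Adj x.1 y.1 := h1
        rw [SimpleGraph.fromEdgeSet_adj] at h2
        simpa using h2.1
    · intro hf
      induction f using Sym2.ind with
      | _ a b =>
        have h1 := mk_mem_edgesIn_iff.1 (hA hf)
        refine ⟨s(⟨a, h1.1⟩, ⟨b, h1.2.1⟩), ?_, by simp⟩
        show H.Adj _ _
        show (SimpleGraph.fromEdgeSet (A : Set (Sym2 ℕ))).Adj a b
        rw [SimpleGraph.fromEdgeSet_adj]
        exact ⟨hf, h1.2.2.ne⟩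
  have hinj : Set.InjOn (Sym2.map (Subtype.val : ↥(S : Set ℕ) → ℕ)) H.edgeSet :=
    (Sym2.map.injective Subtype.val_injective).injOn
  rw [Nat.card_coe_set_eq, ← hinj.ncard_image, himg, Set.ncard_coe_finset]

theorem isSpanningTreeOn_iff {A : Finset (Sym2 ℕ)} :
    IsSpanningTreeOn G S A ↔ A ⊆ edgesIn G S ∧
      ((SimpleGraph.fromEdgeSet (A : Set (Sym2 ℕ))).induce (S : Set ℕ)).Connected ∧
        A.card + 1 = S.card := by
  unfold IsSpanningTreeOn
  constructor
  · rintro ⟨h1, h2⟩
    rw [SimpleGraph.isTree_iff_connected_and_card, card_edgeSet_induce h1] at h2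
    refine ⟨h1, h2.1, ?_⟩
    rw [h2.2]; simp
  · rintro ⟨h1, h2, h3⟩
    refine ⟨h1, ?_⟩
    rw [SimpleGraph.isTree_iff_connected_and_card, card_edgeSet_induce h1]
    refine ⟨h2, ?_⟩
    rw [h3]; simp

theorem edgesIn_mono {S S' : Finset ℕ} (h : S ⊆ S') : edgesIn G S ⊆ edgesIn G S' := by
  intro f hf
  rw [mem_edgesIn_iff] at hf ⊢
  exact ⟨Finset.sym2_mono h hf.1, hf.2⟩

theorem leaf_insert {A : Finset (Sym2 ℕ)} (hA : IsSpanningTreeOn G S A) {u v : ℕ} (hv : v ∉ S)
    (hu : u ∈ S) (huv : G.Adj u v) : IsSpanningTreeOn G (insert v S) (insert s(u, v) A) := by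
  rw [isSpanningTreeOn_iff] at hA ⊢
  obtain ⟨h1, h2, h3⟩ := hA
  have hdA : s(u, v) ∉ A := by
    intro hc
    have := mk_mem_edgesIn_iff.1 (h1 hc)
    exact hv this.2.1
  refine ⟨?_, ?_, ?_⟩
  · intro f hf
    rcases Finset.mem_insert.1 hf with rfl | hf
    · exact mk_mem_edgesIn_iff.2 ⟨mem_insert_of_mem hu, mem_insert_self _ _, huv⟩
    · exact edgesIn_mono (subset_insert _ _) (h1 hf)
  · rw [SimpleGraph.connected_iff_exists_forall_reachable]
    have hu' : u ∈ ((insert v S : Finset ℕ) : Set ℕ) := by simp [hu]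
    refine ⟨⟨u, hu'⟩, ?_⟩
    set H' := (SimpleGraph.fromEdgeSet ((insert s(u, v) A : Finset (Sym2 ℕ)) : Set (Sym2 ℕ))).induce
      ((insert v S : Finset ℕ) : Set ℕ) with hH'
    set H := (SimpleGraph.fromEdgeSet (A : Set (Sym2 ℕ))).induce (S : Set ℕ) with hH
    have hsub : ∀ x : (S : Set ℕ), x.1 ∈ ((insert v S : Finset ℕ) : Set ℕ) := by
      intro x
      simp
    let φ : H →g H' :=
      { toFun := fun x => ⟨x.1, hsub x⟩
        map_rel' := by
          intro a b hab
          have h0 : (SimpleGraph.fromEdgeSet (A : Set (Sym2 ℕ))).Adj a.1 b.1 := hab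
          rw [SimpleGraph.fromEdgeSet_adj] at h0
          show (SimpleGraph.fromEdgeSet _).Adj a.1 b.1
          rw [SimpleGraph.fromEdgeSet_adj]
          exact ⟨by simpa using Or.inr h0.1, h0.2⟩ }
    rintro ⟨w, hw⟩
    have hw' : w = v ∨ w ∈ S := by simpa using hw
    rcases hw' with rfl | hwS
    · refine SimpleGraph.Adj.reachable ?_
      show (SimpleGraph.fromEdgeSet _).Adj u w
      rw [SimpleGraph.fromEdgeSet_adj]
      exact ⟨by simp, huv.ne⟩
    · have := (h2.preconnected ⟨u, hu⟩ ⟨w, hwS⟩).map φ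
      exact this
  · rw [card_insert_of_notMem hdA, card_insert_of_notMem hv, h3]

/-- The edges at `v` inside `insert v S` other than `s(u, v)`. -/
noncomputable def leafD (G : SimpleGraph ℕ) (S : Finset ℕ) (u v : ℕ) : Finset (Sym2 ℕ) :=
  (edgesIn G (insert v S)).filter (fun f => v ∈ f ∧ f ≠ s(u, v))

theorem leaf_erase {A : Finset (Sym2 ℕ)} {u v : ℕ} (hA : IsSpanningTreeOn G (insert v S) A)
    (hD : Disjoint A (leafD G S u v)) (hv : v ∉ S) (hu : u ∈ S) :
    s(u, v) ∈ A ∧ IsSpanningTreeOn G S (A.erase s(u, v)) := by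
  rw [isSpanningTreeOn_iff] at hA ⊢
  obtain ⟨h1, h2, h3⟩ := hA
  have hkey : ∀ f ∈ A, v ∈ f → f = s(u, v) := by
    intro f hf hvf
    by_contra hne
    refine (Finset.disjoint_left.1 hD hf) ?_
    exact Finset.mem_filter.2 ⟨h1 hf, hvf, hne⟩
  have hvs : ∀ w, s(v, w) ∈ A → w = u := by
    intro w hw
    have h0 := hkey _ hw (by simp)
    have hne : v ≠ u := fun h => hv (h ▸ hu)
    rw [Sym2.eq_iff] at h0
    rcases h0 with ⟨h, _⟩ | ⟨_, h⟩
    · exact absurd h hne
    · exact h
  have hd : s(u, v) ∈ A := by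
    have hv' : v ∈ ((insert v S : Finset ℕ) : Set ℕ) := by simp
    have hu' : u ∈ ((insert v S : Finset ℕ) : Set ℕ) := by simp [hu]
    obtain ⟨p⟩ := h2.preconnected ⟨v, hv'⟩ ⟨u, hu'⟩
    have hne : (⟨u, hu'⟩ : ((insert v S : Finset ℕ) : Set ℕ)).1 ≠ v := fun h => hv (h ▸ hu)
    obtain ⟨d, -, hd1, hd2⟩ := p.exists_boundary_dart {w | w.1 = v} rfl hne
    have h0 : (SimpleGraph.fromEdgeSet (A : Set (Sym2 ℕ))).Adj d.fst.1 d.snd.1 := d.adj
    have hd1' : d.fst.1 = v := hd1
    rw [SimpleGraph.fromEdgeSet_adj, hd1'] at h0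
    have h4 := hvs _ (by simpa using h0.1)
    have h5 := h0.1
    rw [h4, Sym2.eq_swap] at h5
    simpa using h5
  refine ⟨hd, ?_, ?_, ?_⟩
  · intro f hf
    have hfA := Finset.mem_of_mem_erase hf
    have hfne := Finset.ne_of_mem_erase hf
    have hfv : v ∉ f := fun hc => hfne (hkey f hfA hc)
    have := h1 hfA
    induction f using Sym2.ind with
    | _ a b =>
      have h5 := mk_mem_edgesIn_iff.1 this
      have ha : a ≠ v := fun h => hfv (by simp [h])
      have hb : b ≠ v := fun h => hfv (by simp [h])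
      exact mk_mem_edgesIn_iff.2 ⟨(Finset.mem_insert.1 h5.1).resolve_left ha,
        (Finset.mem_insert.1 h5.2.1).resolve_left hb, h5.2.2⟩
  · -- retraction
    set H' := (SimpleGraph.fromEdgeSet (A : Set (Sym2 ℕ))).induce
      ((insert v S : Finset ℕ) : Set ℕ) with hH'
    set H := (SimpleGraph.fromEdgeSet ((A.erase s(u, v) : Finset (Sym2 ℕ)) : Set (Sym2 ℕ))).induce
      (S : Set ℕ) with hH
    have hu'' : u ∈ (S : Set ℕ) := hu
    let r : ((insert v S : Finset ℕ) : Set ℕ) → (S : Set ℕ) := fun x =>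
      if h : x.1 ∈ S then ⟨x.1, h⟩ else ⟨u, hu''⟩
    have hx : ∀ x : ((insert v S : Finset ℕ) : Set ℕ), x.1 = v ∨ x.1 ∈ S := by
      intro x
      have := x.2
      simpa using this
    have hstep0 : ∀ x y : ((insert v S : Finset ℕ) : Set ℕ), x.1 ∈ S → y.1 ∈ S → H'.Adj x y →
        H.Adj (r x) (r y) := by
      intro x y hxS hyS hxy
      have h0 : (SimpleGraph.fromEdgeSet (A : Set (Sym2 ℕ))).Adj x.1 y.1 := hxy
      rw [SimpleGraph.fromEdgeSet_adj] at h0
      simp only [r, dif_pos hxS, dif_pos hyS]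
      show (SimpleGraph.fromEdgeSet _).Adj x.1 y.1
      rw [SimpleGraph.fromEdgeSet_adj]
      refine ⟨?_, h0.2⟩
      simp only [coe_erase, Set.mem_sdiff, mem_coe, Set.mem_singleton_iff]
      refine ⟨by simpa using h0.1, ?_⟩
      intro hc
      rw [Sym2.eq_iff] at hc
      rcases hc with ⟨_, h⟩ | ⟨h, _⟩
      · exact hv (h ▸ hyS)
      · exact hv (h ▸ hxS)
    have hstep : ∀ x y : ((insert v S : Finset ℕ) : Set ℕ), H'.Adj x y → H.Reachable (r x) (r y) := by
      intro x y hxy
      have h0 : (SimpleGraph.fromEdgeSet (A : Set (Sym2 ℕ))).Adj x.1 y.1 := hxy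
      rw [SimpleGraph.fromEdgeSet_adj] at h0
      by_cases hxS : x.1 ∈ S
      · by_cases hyS : y.1 ∈ S
        · exact (hstep0 x y hxS hyS hxy).reachable
        · have hyv : y.1 = v := (hx y).resolve_right hyS
          have : x.1 = u := hvs x.1 (by
            have := h0.1
            rw [hyv, Sym2.eq_swap] at this
            simpa using this)
          have e1 : r x = ⟨u, hu''⟩ := by
            simp only [r, dif_pos hxS]; exact Subtype.ext this
          have e2 : r y = ⟨u, hu''⟩ := by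
            simp only [r, dif_neg hyS]
          rw [e1, e2]
      · have hxv : x.1 = v := (hx x).resolve_right hxS
        have hyS : y.1 ∈ S := by
          refine (hx y).resolve_left ?_
          intro h
          exact h0.2 (hxv.trans h.symm)
        have : y.1 = u := hvs y.1 (by
          have := h0.1
          rw [hxv] at this
          simpa using this)
        have e1 : r y = ⟨u, hu''⟩ := by
          simp only [r, dif_pos hyS]; exact Subtype.ext this
        have e2 : r x = ⟨u, hu''⟩ := by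
          simp only [r, dif_neg hxS]
        rw [e1, e2]
    have hwalk : ∀ x y : ((insert v S : Finset ℕ) : Set ℕ), H'.Reachable x y →
        H.Reachable (r x) (r y) := by
      rintro x y ⟨p⟩
      induction p with
      | nil => exact SimpleGraph.Reachable.refl _
      | cons h _ ih => exact (hstep _ _ h).trans ih
    rw [SimpleGraph.connected_iff_exists_forall_reachable]
    refine ⟨⟨u, hu''⟩, ?_⟩
    rintro ⟨w, hw⟩
    have hwS : w ∈ S := hw
    have hw' : w ∈ ((insert v S : Finset ℕ) : Set ℕ) := by simp [hwS]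
    have hu' : u ∈ ((insert v S : Finset ℕ) : Set ℕ) := by simp [hu]
    have := hwalk ⟨u, hu'⟩ ⟨w, hw'⟩ (h2.preconnected _ _)
    have e1 : r ⟨u, hu'⟩ = ⟨u, hu''⟩ := by
      simp only [r, dif_pos hu]
    have e2 : r ⟨w, hw'⟩ = ⟨w, hw⟩ := by
      simp only [r, dif_pos hwS]
    rwa [e1, e2] at this
  · rw [Finset.card_erase_of_mem hd]
    rw [card_insert_of_notMem hv] at h3
    have : 0 < A.card := Finset.card_pos.2 ⟨_, hd⟩
    omega

/-- The indicator of spanning trees. -/
noncomputable def treeInd (G : SimpleGraph ℕ) (S : Finset ℕ) : Finset (Sym2 ℕ) → ℝ :=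
  open scoped Classical in fun A => if A ∈ treesOf G S then 1 else 0

theorem treesOf_subset {A : Finset (Sym2 ℕ)} (hA : A ∈ treesOf G S) : A ⊆ edgesIn G S :=
  (mem_treesOf.1 hA).1

theorem treeInd_nonneg (A : Finset (Sym2 ℕ)) : 0 ≤ treeInd G S A := by
  unfold treeInd; split_ifs <;> norm_num

open scoped Classical in
theorem cN_treeInd (C D : Finset (Sym2 ℕ)) :
    cN (edgesIn G S) (treeInd G S) C D =
      (((treesOf G S).filter (fun A => C ⊆ A ∧ Disjoint A D)).card : ℝ) := by
  unfold cN treeInd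
  rw [Finset.sum_ite, Finset.sum_const_zero, add_zero, Finset.sum_const, nsmul_one]
  congr 2
  ext A
  simp only [mem_filter, mem_powerset]
  constructor
  · rintro ⟨⟨_, h2⟩, h3⟩; exact ⟨h3, h2⟩
  · rintro ⟨h1, h2⟩; exact ⟨⟨treesOf_subset h1, h2⟩, h1⟩

theorem isSR_treeInd (hS : (G.induce (S : Set ℕ)).Connected) :
    IsSRFinite (edgesIn G S) (treeInd G S) := by
  classical
  intro z hz
  have h := tree_poly_ne_zero hS (edgesIn G S) z hz
  have e : ∑ T ∈ (edgesIn G S).powerset, ((treeInd G S T : ℝ) : ℂ) * ∏ i ∈ T, z i =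
      ∑ A ∈ treesOf G S, ∏ f ∈ A ∩ edgesIn G S, z f := by
    have hsub : treesOf G S ⊆ (edgesIn G S).powerset := by
      intro A hA; exact Finset.mem_powerset.2 (treesOf_subset hA)
    rw [← Finset.sum_subset hsub]
    · refine Finset.sum_congr rfl fun A hA => ?_
      have : treeInd G S A = 1 := by
        unfold treeInd; rw [if_pos hA]
      rw [this, Finset.inter_eq_left.2 (treesOf_subset hA)]
      simp
    · intro A _ hA
      have : treeInd G S A = 0 := by
        unfold treeInd; rw [if_neg hA]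
      rw [this]; simp
  rw [e]; exact h

theorem ncAll_treeInd (hS : (G.induce (S : Set ℕ)).Connected) :
    NCAll (edgesIn G S) (treeInd G S) := by
  intro y hy e he g hg heg
  exact rayleigh_of_sr treeInd_nonneg (isSR_treeInd hS) hy he hg heg

/-- The bijection between trees of `S` and trees of `insert v S` avoiding `leafD`. -/
theorem card_trees_leaf {u v : ℕ} (hv : v ∉ S) (hu : u ∈ S) (huv : G.Adj u v)
    {F : Finset (Sym2 ℕ)} (hF : F ⊆ edgesIn G S) :
    cN (edgesIn G (insert v S)) (treeInd G (insert v S)) F (leafD G S u v) =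
      (((treesOf G S).filter (fun A => F ⊆ A)).card : ℝ) := by
  classical
  rw [cN_treeInd]
  have hdnot : ∀ A, A ⊆ edgesIn G S → s(u, v) ∉ A := by
    intro A hA hc
    exact hv (mk_mem_edgesIn_iff.1 (hA hc)).2.1
  congr 1
  symm
  refine Finset.card_bij' (fun A _ => insert s(u, v) A) (fun A _ => A.erase s(u, v)) ?_ ?_ ?_ ?_
  · intro A hA
    simp only [mem_filter] at hA ⊢
    have hA1 := mem_treesOf.1 hA.1
    refine ⟨mem_treesOf.2 (leaf_insert hA1 hv hu huv), hA.2.trans (subset_insert _ _), ?_⟩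
    rw [Finset.disjoint_left]
    intro f hf hfD
    obtain ⟨hf1, hf2, hf3⟩ := Finset.mem_filter.1 hfD
    rcases Finset.mem_insert.1 hf with hf' | hf'
    · exact hf3 hf'
    · have := hA1.1 hf'
      induction f using Sym2.ind with
      | _ a b =>
        have h5 := mk_mem_edgesIn_iff.1 this
        rcases Sym2.mem_iff.1 hf2 with h | h
        · exact hv (h ▸ h5.1)
        · exact hv (h ▸ h5.2.1)
  · intro A hA
    simp only [mem_filter] at hA ⊢
    obtain ⟨hA1, hA2, hA3⟩ := hA
    have h := leaf_erase (mem_treesOf.1 hA1) hA3 hv hu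
    refine ⟨mem_treesOf.2 h.2, ?_⟩
    intro f hf
    refine Finset.mem_erase.2 ⟨?_, hA2 hf⟩
    intro hc
    exact hdnot F hF (hc ▸ hf)
  · intro A hA
    simp only [mem_filter] at hA
    exact Finset.erase_insert (hdnot A (mem_treesOf.1 hA.1).1)
  · intro A hA
    simp only [mem_filter] at hA
    obtain ⟨hA1, hA2, hA3⟩ := hA
    have h := leaf_erase (mem_treesOf.1 hA1) hA3 hv hu
    exact Finset.insert_erase h.1

theorem induce_insert_connected (hS : (G.induce (S : Set ℕ)).Connected) {u v : ℕ}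
    (hu : u ∈ S) (huv : G.Adj u v) : (G.induce ((insert v S : Finset ℕ) : Set ℕ)).Connected := by
  rw [SimpleGraph.connected_iff_exists_forall_reachable]
  have hu' : u ∈ ((insert v S : Finset ℕ) : Set ℕ) := by simp [hu]
  refine ⟨⟨u, hu'⟩, ?_⟩
  have hsub : ∀ x : (S : Set ℕ), x.1 ∈ ((insert v S : Finset ℕ) : Set ℕ) := by
    intro x
    simp
  let φ : G.induce (S : Set ℕ) →g G.induce ((insert v S : Finset ℕ) : Set ℕ) :=
    { toFun := fun x => ⟨x.1, hsub x⟩
      map_rel' := by
        intro a b hab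
        exact hab }
  rintro ⟨w, hw⟩
  have hw' : w = v ∨ w ∈ S := by simpa using hw
  rcases hw' with rfl | hwS
  · exact SimpleGraph.Adj.reachable huv
  · exact (hS.preconnected ⟨u, hu⟩ ⟨w, hwS⟩).map φ

/-- One step of the monotonicity: adding a vertex. -/
theorem ustContains_leaf_step (hS : (G.induce (S : Set ℕ)).Connected) {u v : ℕ} (hv : v ∉ S)
    (hu : u ∈ S) (huv : G.Adj u v) {F : Finset (Sym2 ℕ)} (hF : F ⊆ edgesIn G S) :
    ustContains G (insert v S) F ≤ ustContains G S F := by
  classical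
  have hS' := induce_insert_connected hS hu huv
  set B := edgesIn G (insert v S) with hB
  set m := treeInd G (insert v S) with hm
  set D := leafD G S u v with hD
  have hFB : F ⊆ B := hF.trans (edgesIn_mono (subset_insert _ _))
  have hDB : D ⊆ B := Finset.filter_subset _ _
  have hFD : Disjoint F D := by
    rw [Finset.disjoint_left]
    intro f hf hfD
    obtain ⟨hf1, hf2, hf3⟩ := Finset.mem_filter.1 hfD
    have := hF hf
    induction f using Sym2.ind with
    | _ a b =>
      have h5 := mk_mem_edgesIn_iff.1 this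
      rcases Sym2.mem_iff.1 hf2 with h | h
      · exact hv (h ▸ h5.1)
      · exact hv (h ▸ h5.2.1)
  have hpos0 : 0 < (((treesOf G S).filter (fun A => (∅ : Finset (Sym2 ℕ)) ⊆ A)).card : ℝ) := by
    have : (treesOf G S).filter (fun A => (∅ : Finset (Sym2 ℕ)) ⊆ A) = treesOf G S := by
      apply Finset.filter_true_of_mem; intro A _; exact Finset.empty_subset _
    rw [this]
    exact_mod_cast Finset.card_pos.2 (treesOf_nonempty hS)
  have e1 : cN B m ∅ D = (((treesOf G S).filter (fun A => (∅ : Finset (Sym2 ℕ)) ⊆ A)).card : ℝ) :=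
    card_trees_leaf hv hu huv (Finset.empty_subset _)
  have e2 : cN B m F D = (((treesOf G S).filter (fun A => F ⊆ A)).card : ℝ) :=
    card_trees_leaf hv hu huv hF
  have hposD : 0 < cN B m ∅ D := by rw [e1]; exact hpos0
  have hpos1 : 0 < cN B m ∅ ∅ := lt_of_lt_of_le hposD (cN_anti treeInd_nonneg (subset_refl _)
    (Finset.empty_subset _))
  have hmain := cN_absent treeInd_nonneg (ncAll_treeInd hS') hFB hDB hFD hposD
  have e3 : cN B m F ∅ = (((treesOf G (insert v S)).filter (fun A => F ⊆ A)).card : ℝ) := by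
    rw [cN_treeInd]
    congr 2
    ext A; simp
  have e4 : cN B m ∅ ∅ = ((treesOf G (insert v S)).card : ℝ) := by
    rw [cN_treeInd]
    congr 2
    ext A; simp
  have e5 : cN B m ∅ D = ((treesOf G S).card : ℝ) := by
    rw [e1]
    congr 2
    apply Finset.filter_true_of_mem; intro A _; exact Finset.empty_subset _
  rw [ustContains_eq, ustContains_eq, ← e3, ← e4, ← e2, ← e5]
  rw [div_le_div_iff₀ hpos1 hposD]
  exact hmain

/-- The key monotonicity: the chance of containing `F` decreases when the piece grows. -/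
theorem ustContains_anti_aux {S S' : Finset ℕ}
    (hS : (G.induce (S : Set ℕ)).Connected) (hS' : (G.induce (S' : Set ℕ)).Connected)
    (hSS' : S ⊆ S') {F : Finset (Sym2 ℕ)} (hF : F ⊆ edgesIn G S) :
    ustContains G S' F ≤ ustContains G S F := by
  induction hn : (S' \ S).card generalizing S with
  | zero =>
    have : S' \ S = ∅ := Finset.card_eq_zero.1 hn
    have : S' ⊆ S := Finset.sdiff_eq_empty_iff_subset.1 this
    have : S = S' := Finset.Subset.antisymm hSS' this
    rw [this]
  | succ n ih =>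
    have hne : (S' \ S).Nonempty := by
      rw [← Finset.card_pos]; omega
    obtain ⟨x, hx⟩ := hne
    obtain ⟨hxS', hxS⟩ := Finset.mem_sdiff.1 hx
    -- a base vertex in `S`
    obtain ⟨⟨u0, hu0⟩⟩ := hS.nonempty
    have hu0S : u0 ∈ S := hu0
    have hu0S' : u0 ∈ (S' : Set ℕ) := hSS' hu0S
    have hxS'' : x ∈ (S' : Set ℕ) := hxS'
    obtain ⟨p⟩ := hS'.preconnected ⟨u0, hu0S'⟩ ⟨x, hxS''⟩
    obtain ⟨d, -, hd1, hd2⟩ := p.exists_boundary_dart {w | w.1 ∈ S} hu0S hxS
    have hadj : G.Adj d.fst.1 d.snd.1 := d.adj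
    set u := d.fst.1 with hu
    set v := d.snd.1 with hv
    have huS : u ∈ S := hd1
    have hvS : v ∉ S := hd2
    have hvS' : v ∈ S' := d.snd.2
    have hconn := induce_insert_connected hS huS hadj
    have hsub : insert v S ⊆ S' := Finset.insert_subset hvS' hSS'
    have hcard : (S' \ insert v S).card = n := by
      have : S' \ S = insert v (S' \ insert v S) := by
        ext y
        simp only [mem_sdiff, mem_insert]
        by_cases hy : y = v
        · subst hy; simp [hvS', hvS]
        · simp [hy]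
      rw [this, card_insert_of_notMem (by simp)] at hn
      omega
    have h1 := ih hconn hsub (hF.trans (edgesIn_mono (subset_insert _ _))) hcard
    exact h1.trans (ustContains_leaf_step hS hvS huS hadj hF)

end Crest.Agent.SRFactor
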