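import Crest.Agent.SRFactor.TreeDet
import Crest.Agent.SRFactor.UstAnti
import Crest.Prelude.Def_GraphTables

/-! The free uniform spanning forest as a `Family` (blueprint (J), second part). -/

set_option autoImplicit false

open Crest.ProbabilityR.SpanningTrees Crest.ProbabilityR.GraphTables

namespace Crest.Agent.SRFactor

section UstFamilyAux

variable {α : Type*} [DecidableEq α]

/-- Fibres of `A ↦ A ∩ B` partition a finite family of finite sets. -/
theorem card_eq_sum_fibres (𝓣 : Finset (Finset α)) (B : Finset α) :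
    ∑ T ∈ B.powerset, ((𝓣.filter (fun A => A ∩ B = T)).card : ℝ) = (𝓣.card : ℝ) := by
  have h : 𝓣.card = ∑ T ∈ B.powerset, (𝓣.filter (fun A => A ∩ B = T)).card :=
    Finset.card_eq_sum_card_fiberwise (fun A _ => by
      simp only [Finset.coe_powerset, Set.mem_preimage, Set.mem_powerset_iff, Finset.coe_subset]
      exact Finset.inter_subset_right)
  rw [h]; push_cast; rfl

/-- Coarsening of fibres: the fibre of `A ↦ A ∩ A₀` over `S` is the union of fibres of
`A ↦ A ∩ B` over those `S'` with `S' ∩ A₀ = S`. -/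
theorem card_fibre_consistent (𝓣 : Finset (Finset α)) {A₀ B : Finset α} (hAB : A₀ ⊆ B)
    (S : Finset α) :
    ((𝓣.filter (fun A => A ∩ A₀ = S)).card : ℝ) =
      ∑ S' ∈ B.powerset.filter (fun S' => S' ∩ A₀ = S),
        ((𝓣.filter (fun A => A ∩ B = S')).card : ℝ) := by
  have h : (𝓣.filter (fun A => A ∩ A₀ = S)).card =
      ∑ S' ∈ B.powerset.filter (fun S' => S' ∩ A₀ = S),
        ((𝓣.filter (fun A => A ∩ A₀ = S)).filter (fun A => A ∩ B = S')).card := by
    apply Finset.card_eq_sum_card_fiberwise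
    intro A hA
    simp only [Finset.coe_filter, Finset.mem_filter, Set.mem_setOf_eq, Finset.mem_powerset] at hA ⊢
    refine ⟨Finset.inter_subset_right, ?_⟩
    rw [Finset.inter_assoc, Finset.inter_eq_right.mpr hAB]
    exact hA.2
  rw [h]; push_cast
  refine Finset.sum_congr rfl fun S' hS' => ?_
  congr 2
  ext A
  simp only [Finset.mem_filter, Finset.mem_powerset] at hS' ⊢
  constructor
  · rintro ⟨⟨h1, _⟩, h3⟩; exact ⟨h1, h3⟩
  · rintro ⟨h1, h3⟩
    refine ⟨⟨h1, ?_⟩, h3⟩
    have : A ∩ A₀ = (A ∩ B) ∩ A₀ := by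
      rw [Finset.inter_assoc, Finset.inter_eq_right.mpr hAB]
    rw [this, h3]; exact hS'.2

/-- The alternating sum over the interval `[T, W]` in the subset lattice. -/
theorem sum_interval_neg_one (T W : Finset α) (hTW : T ⊆ W) :
    ∑ U ∈ W.powerset.filter (fun U => T ⊆ U), (-1 : ℝ) ^ (U \ T).card =
      if W = T then 1 else 0 := by
  have h1 : ∑ U ∈ W.powerset.filter (fun U => T ⊆ U), (-1 : ℝ) ^ (U \ T).card =
      ∑ V ∈ (W \ T).powerset, (-1 : ℝ) ^ V.card := by
    refine Finset.sum_bij' (fun U _ => U \ T) (fun V _ => T ∪ V) ?_ ?_ ?_ ?_ ?_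
    · intro U hU
      simp only [Finset.mem_filter, Finset.mem_powerset] at hU ⊢
      exact Finset.sdiff_subset_sdiff hU.1 (le_refl _)
    · intro V hV
      simp only [Finset.mem_filter, Finset.mem_powerset] at hV ⊢
      refine ⟨Finset.union_subset hTW (hV.trans Finset.sdiff_subset), Finset.subset_union_left⟩
    · intro U hU
      simp only [Finset.mem_filter, Finset.mem_powerset] at hU
      exact Finset.union_sdiff_of_subset hU.2
    · intro V hV
      simp only [Finset.mem_powerset] at hV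
      rw [Finset.union_sdiff_left]
      apply Finset.sdiff_eq_self_of_disjoint
      exact Finset.disjoint_of_subset_left hV Finset.sdiff_disjoint
    · intro U _; rfl
  rw [h1]
  have h2 := Finset.sum_powerset_neg_one_pow_card (x := W \ T)
  have h3 : ∑ V ∈ (W \ T).powerset, (-1 : ℝ) ^ V.card =
      ((∑ V ∈ (W \ T).powerset, (-1 : ℤ) ^ V.card : ℤ) : ℝ) := by push_cast; rfl
  rw [h3, h2]
  by_cases hW : W = T
  · subst hW; simp
  · have : W \ T ≠ ∅ := by
      intro h0
      apply hW
      exact Finset.Subset.antisymm (Finset.sdiff_eq_empty_iff_subset.mp h0) hTW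
    simp [this, hW]

/-- Inclusion-exclusion for the fibres of `A ↦ A ∩ B`. -/
theorem card_fibre_incl_excl (𝓣 : Finset (Finset α)) (B T : Finset α) (hT : T ⊆ B) :
    ((𝓣.filter (fun A => A ∩ B = T)).card : ℝ) =
      ∑ U ∈ B.powerset.filter (fun U => T ⊆ U),
        (-1 : ℝ) ^ (U \ T).card * ((𝓣.filter (fun A => U ⊆ A)).card : ℝ) := by
  classical
  have h0 : ∀ U ∈ B.powerset.filter (fun U => T ⊆ U),
      (-1 : ℝ) ^ (U \ T).card * ((𝓣.filter (fun A => U ⊆ A)).card : ℝ) =
        ∑ A ∈ 𝓣, (if U ⊆ A then (-1 : ℝ) ^ (U \ T).card else 0) := by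
    intro U _
    rw [Finset.card_filter]
    push_cast
    rw [Finset.mul_sum]
    refine Finset.sum_congr rfl fun A _ => ?_
    split_ifs <;> simp
  rw [Finset.sum_congr rfl h0, Finset.sum_comm]
  rw [Finset.card_filter]
  push_cast
  refine Finset.sum_congr rfl fun A _ => ?_
  -- for fixed `A`: the sum over `U` with `T ⊆ U ⊆ B`, `U ⊆ A`
  rw [← Finset.sum_filter]
  by_cases hTA : T ⊆ A
  · have hfil : ((B.powerset.filter (fun U => T ⊆ U)).filter (fun U => U ⊆ A)) =
        (A ∩ B).powerset.filter (fun U => T ⊆ U) := by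
      ext U
      simp only [Finset.mem_filter, Finset.mem_powerset, Finset.subset_inter_iff]
      tauto
    rw [hfil, sum_interval_neg_one T (A ∩ B) (Finset.subset_inter hTA hT)]
  · have hfil : ((B.powerset.filter (fun U => T ⊆ U)).filter (fun U => U ⊆ A)) = ∅ := by
      ext U
      simp only [Finset.mem_filter, Finset.mem_powerset, Finset.notMem_empty, iff_false]
      rintro ⟨⟨_, h2⟩, h3⟩
      exact hTA (h2.trans h3)
    rw [hfil, Finset.sum_empty]
    rw [if_neg]
    intro h
    exact hTA (h ▸ Finset.inter_subset_left)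

end UstFamilyAux

/-- Family of the uniform spanning tree of a connected piece. -/
noncomputable def ustFamily {G : SimpleGraph ℕ} {S : Finset ℕ}
    (hS : (G.induce (S : Set ℕ)).Connected) : Family (Sym2 ℕ) where
  mass B T := (((treesOf G S).filter (fun A => A ∩ B = T)).card : ℝ) / ((treesOf G S).card : ℝ)
  nonneg := fun B T => by positivity
  sum_one := fun B => by
    have hN : ((treesOf G S).card : ℝ) ≠ 0 := by
      have := (treesOf_nonempty hS).card_pos
      positivity
    rw [← Finset.sum_div, card_eq_sum_fibres, div_self hN]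
  consistent := fun A B hAB S' _ => by
    rw [card_fibre_consistent (treesOf G S) hAB S', Finset.sum_div]

/-- Inclusion-exclusion for the finite level marginal. -/
theorem ustFamily_mass_eq {G : SimpleGraph ℕ} {S : Finset ℕ} (hS : (G.induce (S : Set ℕ)).Connected)
    (B T : Finset (Sym2 ℕ)) (hT : T ⊆ B) :
    (ustFamily hS).mass B T =
      ∑ U ∈ B.powerset.filter (fun U => T ⊆ U), (-1 : ℝ) ^ (U \ T).card * ustContains G S U := by
  change (((treesOf G S).filter (fun A => A ∩ B = T)).card : ℝ) / ((treesOf G S).card : ℝ) = _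
  rw [card_fibre_incl_excl (treesOf G S) B T hT, Finset.sum_div]
  refine Finset.sum_congr rfl fun U _ => ?_
  rw [ustContains_eq, mul_div_assoc]

/-- Each finite level is strongly Rayleigh on every finite window, hence `5/4`-Lipschitz. -/
theorem ustFamily_lip {G : SimpleGraph ℕ} {S : Finset ℕ} (hS : (G.induce (S : Set ℕ)).Connected) :
    (ustFamily hS).Lip (5 / 4) := by
  apply lip_of_sr
  intro B z hz
  have hN : ((treesOf G S).card : ℂ) ≠ 0 := by
    have := (treesOf_nonempty hS).card_pos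
    exact_mod_cast this.ne'
  have hkey : ∑ T ∈ B.powerset, (((ustFamily hS).mass B T : ℝ) : ℂ) * ∏ i ∈ T, z i =
      (∑ A ∈ treesOf G S, ∏ f ∈ A ∩ B, z f) / ((treesOf G S).card : ℂ) := by
    have h1 : ∀ T ∈ B.powerset, (((ustFamily hS).mass B T : ℝ) : ℂ) * ∏ i ∈ T, z i =
        (∑ A ∈ (treesOf G S).filter (fun A => A ∩ B = T), ∏ f ∈ A ∩ B, z f) /
          ((treesOf G S).card : ℂ) := by
      intro T _
      have h2 : ∑ A ∈ (treesOf G S).filter (fun A => A ∩ B = T), ∏ f ∈ A ∩ B, z f =
          ((treesOf G S).filter (fun A => A ∩ B = T)).card * ∏ i ∈ T, z i := by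
        rw [← nsmul_eq_mul, ← Finset.sum_const]
        refine Finset.sum_congr rfl fun A hA => ?_
        rw [(Finset.mem_filter.mp hA).2]
      rw [h2]
      change (((((treesOf G S).filter (fun A => A ∩ B = T)).card : ℝ) /
        ((treesOf G S).card : ℝ) : ℝ) : ℂ) * _ = _
      push_cast
      ring
    rw [Finset.sum_congr rfl h1, ← Finset.sum_div]
    congr 1
    have h3 := Finset.sum_fiberwise_of_maps_to (s := treesOf G S) (t := B.powerset)
      (g := fun A => A ∩ B) (f := fun A => ∏ f ∈ A ∩ B, z f)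
      (fun A _ => Finset.mem_powerset.mpr Finset.inter_subset_right)
    exact h3
  rw [hkey]
  exact div_ne_zero (tree_poly_ne_zero hS B z hz) hN

/-- The key monotonicity: the chance of containing `F` decreases when the piece grows. -/
theorem ustContains_anti {G : SimpleGraph ℕ} {S S' : Finset ℕ}
    (hS : (G.induce (S : Set ℕ)).Connected) (hS' : (G.induce (S' : Set ℕ)).Connected)
    (hSS' : S ⊆ S') {F : Finset (Sym2 ℕ)} (hF : F ⊆ edgesIn G S) :
    ustContains G S' F ≤ ustContains G S F := by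
  exact ustContains_anti_aux hS hS' hSS' hF

open scoped Classical in
/-- The limit of the chance of containing `F`, as an infimum over all connected pieces. -/
noncomputable def ustLim (G : SimpleGraph ℕ) (F : Finset (Sym2 ℕ)) : ℝ :=
  if (F : Set (Sym2 ℕ)) ⊆ G.edgeSet then
    ⨅ S : Finset ℕ, if (G.induce (S : Set ℕ)).Connected ∧ F ⊆ edgesIn G S then ustContains G S F else 1
  else 0

theorem tf_mem_edgesIn {G : SimpleGraph ℕ} {S : Finset ℕ} {e : Sym2 ℕ} :
    e ∈ edgesIn G S ↔ e ∈ S.sym2 ∧ e ∈ G.edgeSet := by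
  classical
  unfold edgesIn
  simp only [Finset.mem_filter]

theorem tf_ustContains_nonneg (G : SimpleGraph ℕ) (S : Finset ℕ) (F : Finset (Sym2 ℕ)) :
    0 ≤ ustContains G S F := by
  rw [ustContains_eq]; positivity

theorem tf_ustContains_le_one (G : SimpleGraph ℕ) (S : Finset ℕ) (F : Finset (Sym2 ℕ)) :
    ustContains G S F ≤ 1 := by
  rw [ustContains_eq]
  apply div_le_one_of_le₀ _ (by positivity)
  exact_mod_cast Finset.card_le_card (Finset.filter_subset _ _)

theorem tf_ustContains_eq_zero {G : SimpleGraph ℕ} {S : Finset ℕ} {F : Finset (Sym2 ℕ)}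
    (hF : ¬ (F : Set (Sym2 ℕ)) ⊆ G.edgeSet) : ustContains G S F = 0 := by
  rw [ustContains_eq]
  have h0 : (treesOf G S).filter (fun A => F ⊆ A) = ∅ := by
    apply Finset.filter_eq_empty_iff.2
    intro A hA hFA
    apply hF
    intro e he
    have h1 := (mem_treesOf.1 hA).1 (hFA he)
    exact (tf_mem_edgesIn.1 h1).2
  rw [h0]; simp

/-- Finite subsets are eventually contained in an exhaustion. -/
theorem tf_exists_sub {S : ℕ → Finset ℕ} (hm : Monotone S) (hex : ∀ v, ∃ n, v ∈ S n)
    (C : Finset ℕ) : ∃ N, C ⊆ S N := by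
  classical
  induction C using Finset.induction_on with
  | empty => exact ⟨0, Finset.empty_subset _⟩
  | insert a s _ ih =>
    obtain ⟨N, hN⟩ := ih
    obtain ⟨n, hn⟩ := hex a
    refine ⟨max N n, ?_⟩
    intro x hx
    rcases Finset.mem_insert.1 hx with rfl | hx
    · exact hm (le_max_right N n) hn
    · exact hm (le_max_left N n) (hN hx)

/-- The vertices of a finite set of edges. -/
def tfVerts (F : Finset (Sym2 ℕ)) : Finset ℕ := F.biUnion Sym2.toFinset

theorem tf_mem_sym2_tfVerts {F : Finset (Sym2 ℕ)} {e : Sym2 ℕ} (he : e ∈ F) :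
    e ∈ (tfVerts F).sym2 := by
  rw [Finset.mem_sym2_iff]
  intro a ha
  exact Finset.mem_biUnion.2 ⟨e, he, Sym2.mem_toFinset.2 ha⟩

theorem tf_sub_edgesIn {G : SimpleGraph ℕ} {F : Finset (Sym2 ℕ)}
    (hF : (F : Set (Sym2 ℕ)) ⊆ G.edgeSet) {S : Finset ℕ} (hS : tfVerts F ⊆ S) :
    F ⊆ edgesIn G S := by
  intro e he
  refine tf_mem_edgesIn.2 ⟨?_, hF he⟩
  have h1 := Finset.mem_sym2_iff.1 (tf_mem_sym2_tfVerts he)
  exact Finset.mem_sym2_iff.2 fun a ha => hS (h1 a ha)

/-- Convergence along any exhaustion. -/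
theorem tendsto_ustContains {G : SimpleGraph ℕ} (_hG : G.Connected)
    {S : ℕ → Finset ℕ} (hm : Monotone S) (hex : ∀ v, ∃ n, v ∈ S n)
    (hS : ∀ n, (G.induce (S n : Set ℕ)).Connected) (F : Finset (Sym2 ℕ)) :
    Filter.Tendsto (fun n => ustContains G (S n) F) Filter.atTop (nhds (ustLim G F)) := by
  classical
  by_cases hF : (F : Set (Sym2 ℕ)) ⊆ G.edgeSet
  · obtain ⟨N, hN⟩ := tf_exists_sub hm hex (tfVerts F)
    have hFn : ∀ n, N ≤ n → F ⊆ edgesIn G (S n) := fun n hn =>
      tf_sub_edgesIn hF (hN.trans (hm hn))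
    let v : ℕ → ℝ := fun n => ustContains G (S (n + N)) F
    have hv : Antitone v := antitone_nat_of_succ_le fun n =>
      ustContains_anti (hS _) (hS _) (hm (by omega)) (hFn _ (by omega))
    have hb : BddBelow (Set.range v) :=
      ⟨0, by rintro _ ⟨n, rfl⟩; exact tf_ustContains_nonneg _ _ _⟩
    have ht := tendsto_atTop_ciInf hv hb
    have hb' : BddBelow (Set.range fun S' : Finset ℕ =>
        if (G.induce (S' : Set ℕ)).Connected ∧ F ⊆ edgesIn G S' then ustContains G S' F else 1) := by
      refine ⟨0, ?_⟩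
      rintro _ ⟨S', rfl⟩
      dsimp only
      split_ifs
      · exact tf_ustContains_nonneg _ _ _
      · exact zero_le_one
    have hlim : (⨅ n, v n) = ustLim G F := by
      unfold ustLim
      rw [if_pos hF]
      apply le_antisymm
      · apply le_ciInf
        intro S'
        split_ifs with hS'
        · obtain ⟨n, hn⟩ := tf_exists_sub hm hex S'
          have h1 : v n ≤ ustContains G S' F := by
            refine ustContains_anti hS'.1 (hS _) (hn.trans (hm (by omega))) hS'.2
          exact (ciInf_le hb n).trans h1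
        · exact (ciInf_le hb 0).trans (tf_ustContains_le_one _ _ _)
      · apply le_ciInf
        intro n
        refine (ciInf_le hb' (S (n + N))).trans ?_
        rw [if_pos ⟨hS _, hFn _ (by omega)⟩]
    rw [← hlim]
    exact (Filter.tendsto_add_atTop_iff_nat N).1 ht
  · have h0 : ustLim G F = 0 := by
      unfold ustLim; rw [if_neg hF]
    rw [h0]
    simp only [tf_ustContains_eq_zero hF]
    exact tendsto_const_nhds

/-- Existence of an exhaustion of a connected graph by connected pieces. -/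
theorem exists_exhaustion {G : SimpleGraph ℕ} (hG : G.Connected) :
    ∃ S : ℕ → Finset ℕ, Monotone S ∧ (∀ v, ∃ n, v ∈ S n) ∧
      ∀ n, (G.induce (S n : Set ℕ)).Connected := by
  classical
  have hw : ∀ v : ℕ, ∃ s : Finset ℕ, 0 ∈ s ∧ v ∈ s ∧ (G.induce (s : Set ℕ)).Connected := by
    intro v
    obtain ⟨w⟩ := hG.preconnected 0 v
    refine ⟨w.support.toFinset, by simp, by simp, ?_⟩
    have h1 := w.connected_induce_support
    have h2 : ((w.support.toFinset : Finset ℕ) : Set ℕ) = {x | x ∈ w.support} := by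
      ext x; simp
    rw [h2]
    exact h1
  choose s h0 hv hc using hw
  let S : ℕ → Finset ℕ := fun n => Nat.rec (s 0) (fun n T => T ∪ s (n + 1)) n
  have hS0 : ∀ n, 0 ∈ S n := by
    intro n
    induction n with
    | zero => exact h0 0
    | succ n ih => exact Finset.mem_union_left _ ih
  refine ⟨S, monotone_nat_of_le_succ fun n => Finset.subset_union_left, ?_, ?_⟩
  · intro v
    cases v with
    | zero => exact ⟨0, hv 0⟩
    | succ v => exact ⟨v + 1, Finset.mem_union_right _ (hv (v + 1))⟩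
  · intro n
    induction n with
    | zero => exact hc 0
    | succ n ih =>
      change (G.induce ((S n ∪ s (n + 1) : Finset ℕ) : Set ℕ)).Connected
      rw [Finset.coe_union]
      refine SimpleGraph.induce_union_connected ih.preconnected (hc _).preconnected ?_
      exact ⟨0, Finset.mem_coe.2 (hS0 n), Finset.mem_coe.2 (h0 (n + 1))⟩

/-- The signed sum defining the marginals of the free family. -/
theorem tendsto_ustFamily_mass {G : SimpleGraph ℕ} (hG : G.Connected)
    {S : ℕ → Finset ℕ} (hm : Monotone S) (hex : ∀ v, ∃ n, v ∈ S n)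
    (hS : ∀ n, (G.induce (S n : Set ℕ)).Connected) (B T : Finset (Sym2 ℕ)) (hT : T ⊆ B) :
    Filter.Tendsto (fun n => (ustFamily (hS n)).mass B T) Filter.atTop
      (nhds (∑ U ∈ B.powerset.filter (fun U => T ⊆ U), (-1 : ℝ) ^ (U \ T).card * ustLim G U)) := by
  simp only [ustFamily_mass_eq (hS _) B T hT]
  exact tendsto_finsetSum _ fun U _ => (tendsto_ustContains hG hm hex hS U).const_mul _

theorem tf_free_nonneg {G : SimpleGraph ℕ} (hG : G.Connected) (B T : Finset (Sym2 ℕ)) :
    0 ≤ ∑ U ∈ B.powerset.filter (fun U => T ⊆ U), (-1 : ℝ) ^ (U \ T).card * ustLim G U := by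
  by_cases hT : T ⊆ B
  · obtain ⟨S, hm, hex, hS⟩ := exists_exhaustion hG
    exact ge_of_tendsto' (tendsto_ustFamily_mass hG hm hex hS B T hT)
      fun n => (ustFamily (hS n)).nonneg B T
  · have h0 : B.powerset.filter (fun U => T ⊆ U) = ∅ := by
      apply Finset.filter_eq_empty_iff.2
      intro U hU hTU
      exact hT (hTU.trans (Finset.mem_powerset.1 hU))
    rw [h0, Finset.sum_empty]

theorem tf_free_sum_one {G : SimpleGraph ℕ} (hG : G.Connected) (B : Finset (Sym2 ℕ)) :
    ∑ T ∈ B.powerset,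
      ∑ U ∈ B.powerset.filter (fun U => T ⊆ U), (-1 : ℝ) ^ (U \ T).card * ustLim G U = 1 := by
  obtain ⟨S, hm, hex, hS⟩ := exists_exhaustion hG
  have h1 : Filter.Tendsto (fun n => ∑ T ∈ B.powerset, (ustFamily (hS n)).mass B T) Filter.atTop
      (nhds (∑ T ∈ B.powerset,
        ∑ U ∈ B.powerset.filter (fun U => T ⊆ U), (-1 : ℝ) ^ (U \ T).card * ustLim G U)) :=
    tendsto_finsetSum _ fun T hT =>
      tendsto_ustFamily_mass hG hm hex hS B T (Finset.mem_powerset.1 hT)
  simp only [(ustFamily _).sum_one] at h1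
  exact tendsto_nhds_unique h1 tendsto_const_nhds

theorem tf_free_consistent {G : SimpleGraph ℕ} (hG : G.Connected) (A B : Finset (Sym2 ℕ))
    (hAB : A ⊆ B) (T : Finset (Sym2 ℕ)) (hT : T ⊆ A) :
    ∑ U ∈ A.powerset.filter (fun U => T ⊆ U), (-1 : ℝ) ^ (U \ T).card * ustLim G U =
      ∑ S' ∈ B.powerset.filter (fun S' => S' ∩ A = T),
        ∑ U ∈ B.powerset.filter (fun U => S' ⊆ U), (-1 : ℝ) ^ (U \ S').card * ustLim G U := by
  obtain ⟨S, hm, hex, hS⟩ := exists_exhaustion hG
  have h1 := tendsto_ustFamily_mass hG hm hex hS A T hT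
  have h2 : Filter.Tendsto
      (fun n => ∑ S' ∈ B.powerset.filter (fun S' => S' ∩ A = T), (ustFamily (hS n)).mass B S')
      Filter.atTop
      (nhds (∑ S' ∈ B.powerset.filter (fun S' => S' ∩ A = T),
        ∑ U ∈ B.powerset.filter (fun U => S' ⊆ U), (-1 : ℝ) ^ (U \ S').card * ustLim G U)) :=
    tendsto_finsetSum _ fun S' hS' =>
      tendsto_ustFamily_mass hG hm hex hS B S'
        (Finset.mem_powerset.1 (Finset.mem_filter.1 hS').1)
  simp only [← (ustFamily _).consistent A B hAB T hT] at h2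
  exact tendsto_nhds_unique h1 h2

open scoped Classical in
/-- The free uniform spanning forest as a family; trivial family for disconnected graphs. -/
noncomputable def freeFamily (G : SimpleGraph ℕ) : Family (Sym2 ℕ) where
  mass B T := if G.Connected then
      ∑ U ∈ B.powerset.filter (fun U => T ⊆ U), (-1 : ℝ) ^ (U \ T).card * ustLim G U
    else if T = ∅ then 1 else 0
  nonneg := by
    intro B T
    by_cases hG : G.Connected
    · rw [if_pos hG]; exact tf_free_nonneg hG B T
    · rw [if_neg hG]; split_ifs <;> norm_num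
  sum_one := by
    intro B
    by_cases hG : G.Connected
    · simp only [if_pos hG]; exact tf_free_sum_one hG B
    · simp only [if_neg hG]
      rw [Finset.sum_ite_eq' B.powerset ∅ (fun _ => (1 : ℝ))]
      simp
  consistent := by
    intro A B hAB T hT
    by_cases hG : G.Connected
    · simp only [if_pos hG]; exact tf_free_consistent hG A B hAB T hT
    · simp only [if_neg hG]
      rw [Finset.sum_ite_eq' (B.powerset.filter (fun S' => S' ∩ A = T)) ∅ (fun _ => (1 : ℝ))]
      by_cases hT0 : T = ∅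
      · subst hT0; simp
      · rw [if_neg hT0, if_neg]
        intro h
        exact hT0 (by simpa using (Finset.mem_filter.1 h).2.symm)

theorem freeFamily_mass_eq {G : SimpleGraph ℕ} (hG : G.Connected) (B T : Finset (Sym2 ℕ)) :
    (freeFamily G).mass B T =
      ∑ U ∈ B.powerset.filter (fun U => T ⊆ U), (-1 : ℝ) ^ (U \ T).card * ustLim G U := by
  simp only [freeFamily, if_pos hG]

open scoped Classical in
theorem freeFamily_mass_of_not {G : SimpleGraph ℕ} (hG : ¬ G.Connected) (B T : Finset (Sym2 ℕ)) :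
    (freeFamily G).mass B T = if T = ∅ then 1 else 0 := by
  simp only [freeFamily, if_neg hG]

theorem freeFamily_mass_self {G : SimpleGraph ℕ} (hG : G.Connected) (F : Finset (Sym2 ℕ)) :
    (freeFamily G).mass F F = ustLim G F := by
  rw [freeFamily_mass_eq hG]
  have h1 : F.powerset.filter (fun U => F ⊆ U) = {F} := by
    ext U
    simp only [Finset.mem_filter, Finset.mem_powerset, Finset.mem_singleton]
    constructor
    · rintro ⟨h1, h2⟩; exact Finset.Subset.antisymm h1 h2
    · rintro rfl; exact ⟨Finset.Subset.refl _, Finset.Subset.refl _⟩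
  rw [h1, Finset.sum_singleton]
  simp

theorem tendsto_post_ustFamily {G : SimpleGraph ℕ} (hG : G.Connected)
    {S : ℕ → Finset ℕ} (hm : Monotone S) (hex : ∀ v, ∃ n, v ∈ S n)
    (hS : ∀ n, (G.induce (S n : Set ℕ)).Connected) (B : Finset (Sym2 ℕ)) (lam : Sym2 ℕ → ℝ)
    (e : Sym2 ℕ) :
    Filter.Tendsto (fun n => post (ustFamily (hS n)) B lam e) Filter.atTop
      (nhds (post (freeFamily G) B lam e)) := by
  have hmass : ∀ T ∈ B.powerset, Filter.Tendsto (fun n => (ustFamily (hS n)).mass B T) Filter.atTop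
      (nhds ((freeFamily G).mass B T)) := by
    intro T hT
    rw [freeFamily_mass_eq hG]
    exact tendsto_ustFamily_mass hG hm hex hS B T (Finset.mem_powerset.1 hT)
  have hz : Filter.Tendsto (fun n => zfun (ustFamily (hS n)) B lam) Filter.atTop
      (nhds (zfun (freeFamily G) B lam)) :=
    tendsto_finsetSum _ fun T hT => (hmass T hT).mul_const _
  have hn : Filter.Tendsto (fun n => numer (ustFamily (hS n)) B lam e) Filter.atTop
      (nhds (numer (freeFamily G) B lam e)) :=
    tendsto_finsetSum _ fun T hT =>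
      (hmass T (Finset.mem_of_mem_filter _ hT)).mul_const _
  exact hn.div hz (zfun_pos _ _ _).ne'

theorem freeFamily_lip {G : SimpleGraph ℕ} (hG : G.Connected) : (freeFamily G).Lip (5 / 4) := by
  intro B lam lam' e c hc he
  obtain ⟨S, hm, hex, hS⟩ := exists_exhaustion hG
  have h1 := (tendsto_post_ustFamily hG hm hex hS B lam e).sub
    (tendsto_post_ustFamily hG hm hex hS B lam' e)
  exact le_of_tendsto' h1.abs fun n => ustFamily_lip (hS n) B lam lam' e c hc he

/-- The action of a permutation of vertices on unordered pairs. -/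
def symEmb (σ : Equiv.Perm ℕ) : Sym2 ℕ ↪ Sym2 ℕ :=
  ⟨Sym2.map σ, Sym2.map.injective σ.injective⟩

@[simp] theorem symEmb_mk (σ : Equiv.Perm ℕ) (a b : ℕ) : symEmb σ s(a, b) = s(σ a, σ b) := rfl

theorem tf_mem_edgeSet_comap (σ : Equiv.Perm ℕ) (G : SimpleGraph ℕ) (e : Sym2 ℕ) :
    e ∈ (G.comap σ).edgeSet ↔ symEmb σ e ∈ G.edgeSet := by
  induction e using Sym2.ind with
  | _ a b => simp

theorem tf_map_mem_sym2 (σ : Equiv.Perm ℕ) (S : Finset ℕ) (e : Sym2 ℕ) :
    symEmb σ e ∈ (S.map σ.toEmbedding).sym2 ↔ e ∈ S.sym2 := by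
  induction e using Sym2.ind with
  | _ a b =>
    simp only [symEmb_mk, Finset.mk_mem_sym2_iff, Finset.mem_map_equiv]
    simp

theorem tf_map_mem_edgesIn (σ : Equiv.Perm ℕ) (G : SimpleGraph ℕ) (S : Finset ℕ) (e : Sym2 ℕ) :
    symEmb σ e ∈ edgesIn G (S.map σ.toEmbedding) ↔ e ∈ edgesIn (G.comap σ) S := by
  rw [tf_mem_edgesIn, tf_mem_edgesIn, tf_map_mem_sym2, tf_mem_edgeSet_comap]

theorem tf_symEmb_surj (σ : Equiv.Perm ℕ) : Function.Surjective (symEmb σ) := by
  intro e
  induction e using Sym2.ind with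
  | _ a b => exact ⟨s(σ.symm a, σ.symm b), by simp⟩

theorem tf_map_sub_edgesIn (σ : Equiv.Perm ℕ) (G : SimpleGraph ℕ) (S : Finset ℕ)
    (F : Finset (Sym2 ℕ)) :
    F.map (symEmb σ) ⊆ edgesIn G (S.map σ.toEmbedding) ↔ F ⊆ edgesIn (G.comap σ) S := by
  constructor
  · intro h e he
    exact (tf_map_mem_edgesIn σ G S e).1 (h (Finset.mem_map_of_mem _ he))
  · intro h e he
    obtain ⟨e', he', rfl⟩ := Finset.mem_map.1 he
    exact (tf_map_mem_edgesIn σ G S e').2 (h he')

theorem tf_map_sub_edgeSet (σ : Equiv.Perm ℕ) (G : SimpleGraph ℕ) (F : Finset (Sym2 ℕ)) :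
    ((F.map (symEmb σ) : Finset (Sym2 ℕ)) : Set (Sym2 ℕ)) ⊆ G.edgeSet ↔
      (F : Set (Sym2 ℕ)) ⊆ (G.comap σ).edgeSet := by
  constructor
  · intro h e he
    exact (tf_mem_edgeSet_comap σ G e).2 (h (Finset.mem_coe.2 (Finset.mem_map_of_mem _ he)))
  · intro h e he
    obtain ⟨e', he', rfl⟩ := Finset.mem_map.1 (Finset.mem_coe.1 he)
    exact (tf_mem_edgeSet_comap σ G e').1 (h he')

theorem tf_connected_comap (σ : Equiv.Perm ℕ) (G : SimpleGraph ℕ) :
    (G.comap σ).Connected ↔ G.Connected := by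
  let e : G.comap σ ≃g G := ⟨σ, Iff.rfl⟩
  exact e.connected_iff

/-- The relabelling iso on finite pieces. -/
def tfPieceEquiv (σ : Equiv.Perm ℕ) (S : Finset ℕ) :
    (S : Set ℕ) ≃ (S.map σ.toEmbedding : Set ℕ) :=
  σ.subtypeEquiv (fun a => by simp)

theorem tf_connected_induce_comap (σ : Equiv.Perm ℕ) (G : SimpleGraph ℕ) (S : Finset ℕ) :
    ((G.comap σ).induce (S : Set ℕ)).Connected ↔
      (G.induce (S.map σ.toEmbedding : Set ℕ)).Connected := by
  let e : (G.comap σ).induce (S : Set ℕ) ≃g G.induce (S.map σ.toEmbedding : Set ℕ) :=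
    ⟨tfPieceEquiv σ S, Iff.rfl⟩
  exact e.connected_iff

theorem tf_isSpanningTreeOn_map (σ : Equiv.Perm ℕ) (G : SimpleGraph ℕ) (S : Finset ℕ)
    (A : Finset (Sym2 ℕ)) :
    IsSpanningTreeOn G (S.map σ.toEmbedding) (A.map (symEmb σ)) ↔
      IsSpanningTreeOn (G.comap σ) S A := by
  unfold IsSpanningTreeOn
  rw [tf_map_sub_edgesIn]
  refine and_congr_right fun _ => ?_
  let e : (SimpleGraph.fromEdgeSet (A : Set (Sym2 ℕ))).induce (S : Set ℕ) ≃g
      (SimpleGraph.fromEdgeSet ((A.map (symEmb σ) : Finset (Sym2 ℕ)) : Set (Sym2 ℕ))).induce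
        (S.map σ.toEmbedding : Set ℕ) :=
    ⟨tfPieceEquiv σ S, by
      intro a b
      have h1 : (tfPieceEquiv σ S a : ℕ) = σ a := rfl
      have h2 : (tfPieceEquiv σ S b : ℕ) = σ b := rfl
      simp only [SimpleGraph.comap_adj, Function.Embedding.subtype_apply,
        SimpleGraph.fromEdgeSet_adj, h1, h2]
      have h3 : s(σ (a : ℕ), σ (b : ℕ)) = symEmb σ s((a : ℕ), (b : ℕ)) := rfl
      rw [h3, Finset.mem_coe, Finset.mem_map', Finset.mem_coe]
      simp⟩
  exact e.isTree_iff.symm

theorem tf_ustContains_comap (σ : Equiv.Perm ℕ) (G : SimpleGraph ℕ) (S : Finset ℕ)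
    (F : Finset (Sym2 ℕ)) :
    ustContains (G.comap σ) S F = ustContains G (S.map σ.toEmbedding) (F.map (symEmb σ)) := by
  rw [ustContains_eq, ustContains_eq]
  have h1 : (treesOf (G.comap σ) S).card = (treesOf G (S.map σ.toEmbedding)).card := by
    refine Finset.card_bij (fun A _ => A.map (symEmb σ)) ?_ ?_ ?_
    · intro A hA
      exact mem_treesOf.2 ((tf_isSpanningTreeOn_map σ G S A).2 (mem_treesOf.1 hA))
    · intro A _ A' _ h
      exact Finset.map_injective _ h
    · intro A' hA'
      have h2 := (mem_treesOf.1 hA').1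
      have h3 : A' ⊆ (edgesIn (G.comap σ) S).map (symEmb σ) := by
        intro e he
        obtain ⟨e', rfl⟩ := tf_symEmb_surj σ e
        exact Finset.mem_map_of_mem _ ((tf_map_mem_edgesIn σ G S e').1 (h2 he))
      obtain ⟨A, _, rfl⟩ := Finset.subset_map_iff.1 h3
      exact ⟨A, mem_treesOf.2 ((tf_isSpanningTreeOn_map σ G S A).1 (mem_treesOf.1 hA')), rfl⟩
  have h2 : ((treesOf (G.comap σ) S).filter (fun A => F ⊆ A)).card =
      ((treesOf G (S.map σ.toEmbedding)).filter (fun A => F.map (symEmb σ) ⊆ A)).card := by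
    refine Finset.card_bij (fun A _ => A.map (symEmb σ)) ?_ ?_ ?_
    · intro A hA
      obtain ⟨hA1, hA2⟩ := Finset.mem_filter.1 hA
      exact Finset.mem_filter.2 ⟨mem_treesOf.2 ((tf_isSpanningTreeOn_map σ G S A).2
        (mem_treesOf.1 hA1)), Finset.map_subset_map.2 hA2⟩
    · intro A _ A' _ h
      exact Finset.map_injective _ h
    · intro A' hA'
      obtain ⟨hA1, hA2⟩ := Finset.mem_filter.1 hA'
      have h2 := (mem_treesOf.1 hA1).1
      have h3 : A' ⊆ (edgesIn (G.comap σ) S).map (symEmb σ) := by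
        intro e he
        obtain ⟨e', rfl⟩ := tf_symEmb_surj σ e
        exact Finset.mem_map_of_mem _ ((tf_map_mem_edgesIn σ G S e').1 (h2 he))
      obtain ⟨A, _, rfl⟩ := Finset.subset_map_iff.1 h3
      exact ⟨A, Finset.mem_filter.2 ⟨mem_treesOf.2 ((tf_isSpanningTreeOn_map σ G S A).1
        (mem_treesOf.1 hA1)), Finset.map_subset_map.1 hA2⟩, rfl⟩
  rw [h1, h2]

theorem tf_ustLim_comap (σ : Equiv.Perm ℕ) (G : SimpleGraph ℕ) (F : Finset (Sym2 ℕ)) :
    ustLim (G.comap σ) F = ustLim G (F.map (symEmb σ)) := by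
  unfold ustLim
  by_cases hF : (F : Set (Sym2 ℕ)) ⊆ (G.comap σ).edgeSet
  · rw [if_pos hF, if_pos ((tf_map_sub_edgeSet σ G F).2 hF)]
    refine Equiv.iInf_congr (σ.finsetCongr) fun S => ?_
    have e1 : ((G.induce ((S.map σ.toEmbedding : Finset ℕ) : Set ℕ)).Connected ∧
        F.map (symEmb σ) ⊆ edgesIn G (S.map σ.toEmbedding)) ↔
        (((G.comap σ).induce (S : Set ℕ)).Connected ∧ F ⊆ edgesIn (G.comap σ) S) := by
      rw [tf_map_sub_edgesIn, tf_connected_induce_comap]
    rw [Equiv.finsetCongr_apply, tf_ustContains_comap]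
    by_cases hc : ((G.comap σ).induce (S : Set ℕ)).Connected ∧ F ⊆ edgesIn (G.comap σ) S
    · rw [if_pos hc, if_pos (e1.2 hc)]
    · rw [if_neg hc, if_neg (fun h => hc (e1.1 h))]
  · rw [if_neg hF, if_neg (fun h => hF ((tf_map_sub_edgeSet σ G F).1 h))]

/-- Equivariance of the free family under relabelling by `σ`. -/
theorem freeFamily_comap (σ : Equiv.Perm ℕ) (G : SimpleGraph ℕ) (B T : Finset (Sym2 ℕ)) :
    (freeFamily (G.comap σ)).mass B T =
      (freeFamily G).mass (B.map (symEmb σ)) (T.map (symEmb σ)) := by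
  by_cases hG : G.Connected
  · rw [freeFamily_mass_eq ((tf_connected_comap σ G).2 hG), freeFamily_mass_eq hG]
    refine Finset.sum_bij (fun U _ => U.map (symEmb σ)) ?_ ?_ ?_ ?_
    · intro U hU
      simp only [Finset.mem_filter, Finset.mem_powerset] at hU ⊢
      exact ⟨Finset.map_subset_map.2 hU.1, Finset.map_subset_map.2 hU.2⟩
    · intro U _ U' _ h
      exact Finset.map_injective _ h
    · intro U' hU'
      simp only [Finset.mem_filter, Finset.mem_powerset] at hU'
      obtain ⟨U, hU, rfl⟩ := Finset.subset_map_iff.1 hU'.1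
      refine ⟨U, ?_, rfl⟩
      simp only [Finset.mem_filter, Finset.mem_powerset]
      exact ⟨hU, Finset.map_subset_map.1 hU'.2⟩
    · intro U _
      rw [← Finset.map_sdiff, Finset.card_map, tf_ustLim_comap]
  · have hG' : ¬ (G.comap σ).Connected := fun h => hG ((tf_connected_comap σ G).1 h)
    rw [freeFamily_mass_of_not hG', freeFamily_mass_of_not hG]
    by_cases hT : T = ∅
    · subst hT; simp
    · rw [if_neg hT, if_neg]
      intro h
      exact hT (Finset.map_eq_empty.1 h)

/-- A function of a table depending only on finitely many entries is measurable. -/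
theorem tf_measurable_of_finite_coords {X : Type*} [MeasurableSpace X] (C : Finset (ℕ × ℕ))
    (f : (ℕ → ℕ → Bool) → X) (hf : ∀ t t', (∀ p ∈ C, t p.1 p.2 = t' p.1 p.2) → f t = f t') :
    Measurable f := by
  classical
  let r : (ℕ → ℕ → Bool) → (C → Bool) := fun t c => t c.1.1 c.1.2
  let e : (C → Bool) → (ℕ → ℕ → Bool) :=
    fun c i j => if h : (i, j) ∈ C then c ⟨(i, j), h⟩ else false
  have hr : Measurable r :=
    measurable_pi_lambda _ fun c => (measurable_pi_apply _).comp (measurable_pi_apply _)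
  have h1 : f = (f ∘ e) ∘ r := by
    funext t
    apply hf
    intro p hp
    simp [e, r, hp]
  rw [h1]
  exact (Measurable.of_discrete).comp hr

theorem tf_adj_graphOfTable_congr {S : Finset ℕ} {t t' : ℕ → ℕ → Bool}
    (h : ∀ p ∈ S ×ˢ S, t p.1 p.2 = t' p.1 p.2) {a b : ℕ} (ha : a ∈ S) (hb : b ∈ S) :
    (graphOfTable t).Adj a b ↔ (graphOfTable t').Adj a b := by
  simp only [graphOfTable, SimpleGraph.fromRel_adj]
  rw [h (a, b) (Finset.mk_mem_product ha hb), h (b, a) (Finset.mk_mem_product hb ha)]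

theorem tf_edgesIn_congr {S : Finset ℕ} {t t' : ℕ → ℕ → Bool}
    (h : ∀ p ∈ S ×ˢ S, t p.1 p.2 = t' p.1 p.2) :
    edgesIn (graphOfTable t) S = edgesIn (graphOfTable t') S := by
  ext e
  induction e using Sym2.ind with
  | _ a b =>
    rw [tf_mem_edgesIn, tf_mem_edgesIn, Finset.mk_mem_sym2_iff, SimpleGraph.mem_edgeSet,
      SimpleGraph.mem_edgeSet]
    constructor
    · rintro ⟨⟨ha, hb⟩, h1⟩
      exact ⟨⟨ha, hb⟩, (tf_adj_graphOfTable_congr h ha hb).1 h1⟩
    · rintro ⟨⟨ha, hb⟩, h1⟩
      exact ⟨⟨ha, hb⟩, (tf_adj_graphOfTable_congr h ha hb).2 h1⟩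

theorem tf_induce_graphOfTable_congr {S : Finset ℕ} {t t' : ℕ → ℕ → Bool}
    (h : ∀ p ∈ S ×ˢ S, t p.1 p.2 = t' p.1 p.2) :
    (graphOfTable t).induce (S : Set ℕ) = (graphOfTable t').induce (S : Set ℕ) := by
  ext a b
  exact tf_adj_graphOfTable_congr h (Finset.mem_coe.1 a.2) (Finset.mem_coe.1 b.2)

theorem tf_ustContains_congr {G G' : SimpleGraph ℕ} {S : Finset ℕ} (F : Finset (Sym2 ℕ))
    (h : edgesIn G S = edgesIn G' S) : ustContains G S F = ustContains G' S F := by
  have h1 : treesOf G S = treesOf G' S := by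
    ext A
    rw [mem_treesOf, mem_treesOf]
    unfold IsSpanningTreeOn
    rw [h]
  rw [ustContains_eq, ustContains_eq, h1]

/-- The connectedness of `graphOfTable t` as a condition on finite pieces. -/
theorem tf_connected_iff (G : SimpleGraph ℕ) :
    G.Connected ↔ ∀ u v : ℕ, ∃ S : Finset ℕ, u ∈ S ∧ v ∈ S ∧ (G.induce (S : Set ℕ)).Connected := by
  classical
  constructor
  · intro hG u v
    obtain ⟨w⟩ := hG.preconnected u v
    refine ⟨w.support.toFinset, by simp, by simp, ?_⟩
    have h1 := w.connected_induce_support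
    have h2 : ((w.support.toFinset : Finset ℕ) : Set ℕ) = {x | x ∈ w.support} := by
      ext x; simp
    rw [h2]
    exact h1
  · intro h
    refine (SimpleGraph.connected_iff _).2 ⟨fun u v => ?_, ⟨0⟩⟩
    obtain ⟨S, hu, hv, hS⟩ := h u v
    have h1 := hS.preconnected ⟨u, Finset.mem_coe.2 hu⟩ ⟨v, Finset.mem_coe.2 hv⟩
    exact h1.map (SimpleGraph.Embedding.induce (S : Set ℕ)).toHom

theorem tf_measurableSet_connected :
    MeasurableSet {t : ℕ → ℕ → Bool | (graphOfTable t).Connected} := by
  simp only [tf_connected_iff, Set.ofPred_forall, Set.ofPred_exists]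
  refine MeasurableSet.iInter fun u => MeasurableSet.iInter fun v => MeasurableSet.iUnion fun S => ?_
  refine measurableSet_setOfPred.2 (tf_measurable_of_finite_coords (S ×ˢ S) _ fun t t' h => ?_)
  rw [tf_induce_graphOfTable_congr h]

open scoped Classical in
theorem tf_measurable_ustTerm (S : Finset ℕ) (F : Finset (Sym2 ℕ)) :
    Measurable fun t : ℕ → ℕ → Bool =>
      if ((graphOfTable t).induce (S : Set ℕ)).Connected ∧ F ⊆ edgesIn (graphOfTable t) S then
        ustContains (graphOfTable t) S F else 1 := by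
  refine tf_measurable_of_finite_coords (S ×ˢ S) _ fun t t' h => ?_
  have e1 : (((graphOfTable t).induce (S : Set ℕ)).Connected ∧ F ⊆ edgesIn (graphOfTable t) S) ↔
      (((graphOfTable t').induce (S : Set ℕ)).Connected ∧ F ⊆ edgesIn (graphOfTable t') S) := by
    rw [tf_induce_graphOfTable_congr h, tf_edgesIn_congr h]
  rw [tf_ustContains_congr F (tf_edgesIn_congr h)]
  by_cases hc : ((graphOfTable t').induce (S : Set ℕ)).Connected ∧ F ⊆ edgesIn (graphOfTable t') S
  · rw [if_pos hc, if_pos (e1.2 hc)]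
  · rw [if_neg hc, if_neg (fun h => hc (e1.1 h))]

theorem tf_measurable_ustLim (F : Finset (Sym2 ℕ)) :
    Measurable fun t : ℕ → ℕ → Bool => ustLim (graphOfTable t) F := by
  classical
  unfold ustLim
  refine Measurable.ite ?_ (Measurable.iInf fun S => ?_) measurable_const
  · refine measurableSet_setOfPred.2 (tf_measurable_of_finite_coords
      (tfVerts F ×ˢ tfVerts F) _ fun t t' h => ?_)
    have key : ∀ (t : ℕ → ℕ → Bool), ((F : Set (Sym2 ℕ)) ⊆ (graphOfTable t).edgeSet) ↔
        F ⊆ edgesIn (graphOfTable t) (tfVerts F) := by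
      intro t
      constructor
      · intro h1; exact tf_sub_edgesIn h1 (Finset.Subset.refl _)
      · intro h1 e he; exact (tf_mem_edgesIn.1 (h1 he)).2
    apply propext
    rw [key, key, tf_edgesIn_congr h]
  · exact tf_measurable_ustTerm S F

/-- Measurability in the graph. -/
theorem measurable_freeFamily (B T : Finset (Sym2 ℕ)) :
    Measurable fun A : ℕ → ℕ → Bool => (freeFamily (graphOfTable A)).mass B T := by
  classical
  simp only [freeFamily]
  refine Measurable.ite tf_measurableSet_connected ?_ measurable_const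
  refine Finset.measurable_sum _ fun U _ => ?_
  exact (tf_measurable_ustLim U).const_mul _

end Crest.Agent.SRFactor
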