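import Crest.Agent.SRFactor.WindowSel

/-! Comparison of two windows at the same mesh, with the same noise (blueprint (D)). -/

set_option autoImplicit false

open MeasureTheory ProbabilityTheory

namespace Crest.Agent.SRFactor

variable {E : Type*} [DecidableEq E]

namespace WindowAux

lemma hh_mul_T (T n : ℕ) : hh n * ((T * 2 ^ n : ℕ) : ℝ) = T := by
  unfold hh
  push_cast
  have : (2 : ℝ) ^ n ≠ 0 := by positivity
  rw [one_div, inv_pow]
  field_simp

/-- Time-averaged square-root window gap. -/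
noncomputable def tgap (ν : Family E) (B A : Finset E) (g : E) (T n : ℕ) : ℝ :=
  hh n * ∑ l ∈ Finset.range (T * 2 ^ n), Real.sqrt (Qv ν B g (l * hh n) - Qv ν A g (l * hh n))

lemma tgap_le (ν : Family E) {A B : Finset E} (hAB : A ⊆ B) {g : E} (hg : g ∈ A) (T n : ℕ) {δ : ℝ}
    (hδ : hh n * ∑ l ∈ Finset.range (T * 2 ^ n), (Qv ν B g (l * hh n) - Qv ν A g (l * hh n)) ≤ δ) :
    tgap ν B A g T n ≤ Real.sqrt (T * δ) := by
  have hh0 := hh_pos n
  set x : ℕ → ℝ := fun l => Qv ν B g (l * hh n) - Qv ν A g (l * hh n) with hxdef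
  have hx : ∀ l, 0 ≤ x l := fun l =>
    sub_nonneg.2 (Qv_mono_window ν hAB hg (mul_nonneg (Nat.cast_nonneg _) hh0.le))
  have hcs : ∑ l ∈ Finset.range (T * 2 ^ n), Real.sqrt (x l)
      ≤ Real.sqrt ((T * 2 ^ n : ℕ) : ℝ) * Real.sqrt (∑ l ∈ Finset.range (T * 2 ^ n), x l) := by
    have := Real.sum_sqrt_mul_sqrt_le (Finset.range (T * 2 ^ n)) (f := fun _ => (1 : ℝ)) (g := x)
      (fun _ => zero_le_one) hx
    simpa using this
  have hsum : 0 ≤ ∑ l ∈ Finset.range (T * 2 ^ n), x l := Finset.sum_nonneg fun l _ => hx l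
  unfold tgap
  calc hh n * ∑ l ∈ Finset.range (T * 2 ^ n), Real.sqrt (x l)
      ≤ hh n * (Real.sqrt ((T * 2 ^ n : ℕ) : ℝ) * Real.sqrt (∑ l ∈ Finset.range (T * 2 ^ n), x l)) :=
        mul_le_mul_of_nonneg_left hcs hh0.le
    _ = Real.sqrt (hh n * ((T * 2 ^ n : ℕ) : ℝ))
          * Real.sqrt (hh n * ∑ l ∈ Finset.range (T * 2 ^ n), x l) := by
        rw [Real.sqrt_mul hh0.le, Real.sqrt_mul hh0.le]
        have := Real.mul_self_sqrt hh0.le
        calc _ = (Real.sqrt (hh n) * Real.sqrt (hh n)) * (Real.sqrt ((T * 2 ^ n : ℕ) : ℝ)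
                * Real.sqrt (∑ l ∈ Finset.range (T * 2 ^ n), x l)) := by rw [this]
          _ = _ := by ring
    _ ≤ Real.sqrt T * Real.sqrt δ := by
        rw [hh_mul_T]
        exact mul_le_mul_of_nonneg_left (Real.sqrt_le_sqrt hδ) (Real.sqrt_nonneg _)
    _ = Real.sqrt (T * δ) := (Real.sqrt_mul (Nat.cast_nonneg T) δ).symm

/-- One generation: given the finite `W`, choose for each `g ∈ W` a window `A g` which captures
the posterior of `g` up to `c`, all inside a larger finite `W'`. -/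
lemma exists_generation (ν : Family E) (Dom : Set E) (T : ℕ) {c : ℝ} (hc : 0 < c) (W : Finset E)
    (hW : (W : Set E) ⊆ Dom) :
    ∃ (W' : Finset E) (A : E → Finset E) (m : ℕ), W ⊆ W' ∧ (W' : Set E) ⊆ Dom ∧
      ∀ g ∈ W, g ∈ A g ∧ A g ⊆ W' ∧ ∀ B : Finset E, A g ⊆ B → (B : Set E) ⊆ Dom →
        ∀ n, m ≤ n → tgap ν B (A g) g T n ≤ c := by
  classical
  set δ : ℝ := c ^ 2 / (T + 1) with hδdef
  have hδ : 0 < δ := by positivity
  have hTδ : Real.sqrt (T * δ) ≤ c := by
    rw [Real.sqrt_le_left hc.le]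
    rw [hδdef]
    have hT : (0 : ℝ) ≤ T := Nat.cast_nonneg T
    rw [← mul_div_assoc, div_le_iff₀ (by positivity)]
    nlinarith [sq_nonneg c]
  have key : ∀ g, g ∈ W → ∃ A : Finset E, g ∈ A ∧ (A : Set E) ⊆ Dom ∧ ∃ m : ℕ,
      ∀ B : Finset E, A ⊆ B → (B : Set E) ⊆ Dom → ∀ n, m ≤ n →
        hh n * ∑ l ∈ Finset.range (T * 2 ^ n), (Qv ν B g (l * hh n) - Qv ν A g (l * hh n)) ≤ δ :=
    fun g hg => exists_window_time ν Dom (hW hg) T hδ
  choose! A hgA hAD m hm using key
  refine ⟨W ∪ W.biUnion A, A, W.sup m, Finset.subset_union_left, ?_, fun g hg => ⟨hgA g hg, ?_, ?_⟩⟩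
  · intro x hx
    simp only [Finset.coe_union, Finset.coe_biUnion, Set.mem_union, Finset.mem_coe, Set.mem_iUnion,
      exists_prop] at hx
    rcases hx with hx | ⟨g, hg, hx⟩
    · exact hW hx
    · exact hAD g hg hx
  · intro x hx
    exact Finset.mem_union_right _ (Finset.mem_biUnion.2 ⟨g, hg, hx⟩)
  · intro B hAB hBD n hn
    exact (tgap_le ν hAB (hgA g hg) T n
      (hm g hg B hAB hBD n ((Finset.le_sup hg).trans hn))).trans hTδ

/-- The noise-cancelled discrepancy. -/
noncomputable def dd (ν : Family E) (B B' : Finset E) (h : ℝ) (K : ℕ) (y : Fin K → B' → ℝ)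
    (k : ℕ) (i : E) : ℝ :=
  euler ν B h (extY B' K y) k i - euler ν B' h (extY B' K y) k i

/-- The two window-truncation errors. -/
noncomputable def errT (ν : Family E) (B B' A : Finset E) (g : E) (h : ℝ) (K : ℕ)
    (y : Fin K → B' → ℝ) (l : ℕ) : ℝ :=
  |post ν B (fun i => euler ν B h (extY B' K y) l i - l * h / 2) g
      - post ν A (fun i => euler ν B h (extY B' K y) l i - l * h / 2) g|
    + |post ν B' (fun i => euler ν B' h (extY B' K y) l i - l * h / 2) g
      - post ν A (fun i => euler ν B' h (extY B' K y) l i - l * h / 2) g|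

lemma measurable_lam (ν : Family E) (B B' : Finset E) (h : ℝ) (K l : ℕ) :
    Measurable fun y : Fin K → B' → ℝ => fun i => euler ν B h (extY B' K y) l i - l * h / 2 :=
  measurable_pi_lambda _ fun i =>
    ((measurable_euler ν B h l i).comp (measurable_extY B' K)).sub_const _

lemma measurable_dd (ν : Family E) (B B' : Finset E) (h : ℝ) (K k : ℕ) (i : E) :
    Measurable fun y : Fin K → B' → ℝ => dd ν B B' h K y k i :=
  ((measurable_euler ν B h k i).comp (measurable_extY B' K)).sub
    ((measurable_euler ν B' h k i).comp (measurable_extY B' K))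

lemma dd_eq (ν : Family E) {B B' : Finset E} (hBB' : B ⊆ B') (h : ℝ) (K : ℕ)
    (y : Fin K → B' → ℝ) (k : ℕ) {g : E} (hg : g ∈ B) :
    dd ν B B' h K y k g = h * ∑ l ∈ Finset.range k,
      (post ν B (fun i => euler ν B h (extY B' K y) l i - l * h / 2) g
        - post ν B' (fun i => euler ν B' h (extY B' K y) l i - l * h / 2) g) := by
  unfold dd
  rw [euler_eq_sum ν B h _ k hg, euler_eq_sum ν B' h _ k (hBB' hg), Finset.sum_sub_distrib]
  ring

lemma abs_dd_le_sum (ν : Family E) {B B' : Finset E} (hBB' : B ⊆ B') {h : ℝ} (h0 : 0 < h) (K : ℕ)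
    (y : Fin K → B' → ℝ) (k : ℕ) {g : E} (hg : g ∈ B) :
    |dd ν B B' h K y k g| ≤ h * ∑ l ∈ Finset.range k,
      |post ν B (fun i => euler ν B h (extY B' K y) l i - l * h / 2) g
        - post ν B' (fun i => euler ν B' h (extY B' K y) l i - l * h / 2) g| := by
  rw [dd_eq ν hBB' h K y k hg, abs_mul, abs_of_pos h0]
  exact mul_le_mul_of_nonneg_left (Finset.abs_sum_le_sum_abs _ _) h0.le

lemma abs_dd_le (ν : Family E) {B B' : Finset E} (hBB' : B ⊆ B') {h : ℝ} (h0 : 0 < h) (K : ℕ)
    (y : Fin K → B' → ℝ) (k : ℕ) {g : E} (hg : g ∈ B) :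
    |dd ν B B' h K y k g| ≤ k * h := by
  refine (abs_dd_le_sum ν hBB' h0 K y k hg).trans ?_
  calc _ ≤ h * ∑ l ∈ Finset.range k, (1 : ℝ) :=
        mul_le_mul_of_nonneg_left (Finset.sum_le_sum fun l _ => abs_post_sub_le_one _ _ _ _ _ _ _ _)
          h0.le
    _ = k * h := by simp [mul_comm]

lemma post_triangle (ν : Family E) {κ : ℝ} (hL : ν.Lip κ) (B B' A : Finset E) (lam lam' : E → ℝ)
    {g : E} (hg : g ∈ A) {c : ℝ} (hc : ∀ i ∈ A, |lam i - lam' i| ≤ c) :
    |post ν B lam g - post ν B' lam' g| ≤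
      |post ν B lam g - post ν A lam g| + |post ν B' lam' g - post ν A lam' g| + κ * c := by
  have h1 := hL A lam lam' g c hc hg
  set a := post ν B lam g
  set b := post ν A lam g
  set d := post ν A lam' g
  set f := post ν B' lam' g
  calc |a - f| = |(a - b) - (f - d) + (b - d)| := by ring_nf
    _ ≤ |(a - b) - (f - d)| + |b - d| := abs_add_le _ _
    _ ≤ |a - b| + |f - d| + |b - d| := by gcongr; exact abs_sub _ _
    _ ≤ _ := by gcongr

lemma errT_nonneg (ν : Family E) (B B' A : Finset E) (g : E) (h : ℝ) (K : ℕ)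
    (y : Fin K → B' → ℝ) (l : ℕ) : 0 ≤ errT ν B B' A g h K y l :=
  add_nonneg (abs_nonneg _) (abs_nonneg _)

lemma errT_le (ν : Family E) (B B' A : Finset E) (g : E) (h : ℝ) (K : ℕ)
    (y : Fin K → B' → ℝ) (l : ℕ) : errT ν B B' A g h K y l ≤ 2 := by
  unfold errT
  have h1 := abs_post_sub_le_one ν ν B A (fun i => euler ν B h (extY B' K y) l i - l * h / 2)
    (fun i => euler ν B h (extY B' K y) l i - l * h / 2) g g
  have h2 := abs_post_sub_le_one ν ν B' A (fun i => euler ν B' h (extY B' K y) l i - l * h / 2)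
    (fun i => euler ν B' h (extY B' K y) l i - l * h / 2) g g
  linarith

lemma measurable_post_sub (ν : Family E) (B₁ A B B' : Finset E) (g : E) (h : ℝ) (K l : ℕ) :
    Measurable fun y : Fin K → B' → ℝ =>
      |post ν B₁ (fun i => euler ν B h (extY B' K y) l i - l * h / 2) g
        - post ν A (fun i => euler ν B h (extY B' K y) l i - l * h / 2) g| :=
  (((measurable_post ν B₁ g).comp (measurable_lam ν B B' h K l)).sub
    ((measurable_post ν A g).comp (measurable_lam ν B B' h K l))).abs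

lemma measurable_errT (ν : Family E) (B B' A : Finset E) (g : E) (h : ℝ) (K l : ℕ) :
    Measurable fun y : Fin K → B' → ℝ => errT ν B B' A g h K y l :=
  (measurable_post_sub ν B A B B' g h K l).add (measurable_post_sub ν B' A B' B' g h K l)

omit [DecidableEq E] in
lemma integrable_of_bdd {B' : Finset E} {K : ℕ} {f : (Fin K → B' → ℝ) → ℝ} (hf : Measurable f)
    {C : ℝ} (hC : ∀ y, |f y| ≤ C) : Integrable f (gaussMat B' K) :=
  Integrable.of_bound hf.aestronglyMeasurable C (Filter.Eventually.of_forall fun y => by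
    simpa using hC y)

lemma integrable_errT (ν : Family E) (B B' A : Finset E) (g : E) (h : ℝ) (K l : ℕ) :
    Integrable (fun y : Fin K → B' → ℝ => errT ν B B' A g h K y l) (gaussMat B' K) :=
  integrable_of_bdd (measurable_errT ν B B' A g h K l) (C := 2) fun y => by
    rw [abs_of_nonneg (errT_nonneg ν B B' A g h K y l)]
    exact errT_le ν B B' A g h K y l

/-- The sup over the generation `W` of the discrepancy. -/
noncomputable def MM (ν : Family E) (B B' : Finset E) (h : ℝ) (K : ℕ) (W : Finset E)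
    (hW : W.Nonempty) (y : Fin K → B' → ℝ) (k : ℕ) : ℝ :=
  W.sup' hW fun i => |dd ν B B' h K y k i|

lemma measurable_MM (ν : Family E) (B B' : Finset E) (h : ℝ) (K : ℕ) (W : Finset E)
    (hW : W.Nonempty) (k : ℕ) :
    Measurable fun y : Fin K → B' → ℝ => MM ν B B' h K W hW y k := by
  have : (fun y : Fin K → B' → ℝ => MM ν B B' h K W hW y k)
      = W.sup' hW (fun i => fun y : Fin K → B' → ℝ => |dd ν B B' h K y k i|) := by
    funext y
    simp [MM, Finset.sup'_apply]
  rw [this]
  exact Finset.measurable_sup' hW fun i _ => (measurable_dd ν B B' h K k i).abs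

lemma le_MM (ν : Family E) (B B' : Finset E) (h : ℝ) (K : ℕ) {W : Finset E}
    (hW : W.Nonempty) (y : Fin K → B' → ℝ) (k : ℕ) {i : E} (hi : i ∈ W) :
    |dd ν B B' h K y k i| ≤ MM ν B B' h K W hW y k :=
  Finset.le_sup' (fun i => |dd ν B B' h K y k i|) hi

lemma MM_nonneg (ν : Family E) (B B' : Finset E) (h : ℝ) (K : ℕ) {W : Finset E}
    (hW : W.Nonempty) (y : Fin K → B' → ℝ) (k : ℕ) : 0 ≤ MM ν B B' h K W hW y k := by
  obtain ⟨i, hi⟩ := hW
  exact (abs_nonneg _).trans (le_MM ν B B' h K ⟨i, hi⟩ y k hi)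

lemma MM_le (ν : Family E) {B B' : Finset E} (hBB' : B ⊆ B') {h : ℝ} (h0 : 0 < h) (K : ℕ)
    {W : Finset E} (hW : W.Nonempty) (hWB : W ⊆ B) (y : Fin K → B' → ℝ) (k : ℕ) :
    MM ν B B' h K W hW y k ≤ k * h :=
  Finset.sup'_le _ _ fun _ hi => abs_dd_le ν hBB' h0 K y k (hWB hi)

lemma integrable_MM (ν : Family E) {B B' : Finset E} (hBB' : B ⊆ B') {h : ℝ} (h0 : 0 < h) (K : ℕ)
    {W : Finset E} (hW : W.Nonempty) (hWB : W ⊆ B) (k : ℕ) :
    Integrable (fun y : Fin K → B' → ℝ => MM ν B B' h K W hW y k) (gaussMat B' K) :=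
  integrable_of_bdd (measurable_MM ν B B' h K W hW k) (C := k * h) fun y => by
    rw [abs_of_nonneg (MM_nonneg ν B B' h K hW y k)]
    exact MM_le ν hBB' h0 K hW hWB y k

/-- Pointwise recursion over one generation. -/
lemma MM_step (ν : Family E) {κ : ℝ} (hL : ν.Lip κ) {B B' : Finset E} (hBB' : B ⊆ B')
    {h : ℝ} (h0 : 0 < h) (K : ℕ) {W W' : Finset E} (hW : W.Nonempty) (hW' : W'.Nonempty)
    (hWB : W ⊆ B) {A : E → Finset E} (hA : ∀ g ∈ W, g ∈ A g ∧ A g ⊆ W')
    (y : Fin K → B' → ℝ) (k : ℕ) :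
    MM ν B B' h K W hW y k ≤ h * ∑ l ∈ Finset.range k,
      (∑ g ∈ W, errT ν B B' (A g) g h K y l + κ * MM ν B B' h K W' hW' y l) := by
  refine Finset.sup'_le _ _ fun g hg => ?_
  refine (abs_dd_le_sum ν hBB' h0 K y k (hWB hg)).trans ?_
  refine mul_le_mul_of_nonneg_left (Finset.sum_le_sum fun l _ => ?_) h0.le
  have h1 := post_triangle ν hL B B' (A g)
    (fun i => euler ν B h (extY B' K y) l i - l * h / 2)
    (fun i => euler ν B' h (extY B' K y) l i - l * h / 2) (hA g hg).1
    (c := MM ν B B' h K W' hW' y l) (fun i hi => by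
      have := le_MM ν B B' h K hW' y l ((hA g hg).2 hi)
      have heq : (euler ν B h (extY B' K y) l i - l * h / 2)
          - (euler ν B' h (extY B' K y) l i - l * h / 2) = dd ν B B' h K y l i := by
        unfold dd; ring
      simpa only [heq] using this)
  refine h1.trans ?_
  have h2 : errT ν B B' (A g) g h K y l ≤ ∑ g ∈ W, errT ν B B' (A g) g h K y l :=
    Finset.single_le_sum (f := fun g => errT ν B B' (A g) g h K y l)
      (fun g _ => errT_nonneg ν B B' (A g) g h K y l) hg
  unfold errT at h2 ⊢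
  linarith

/-- Integrated recursion over one generation. -/
lemma a_step (ν : Family E) {κ : ℝ} (hL : ν.Lip κ) {B B' : Finset E} (hBB' : B ⊆ B')
    {h : ℝ} (h0 : 0 < h) (K : ℕ) {W W' : Finset E} (hW : W.Nonempty) (hW' : W'.Nonempty)
    (hWB : W ⊆ B) (hW'B : W' ⊆ B) {A : E → Finset E} (hA : ∀ g ∈ W, g ∈ A g ∧ A g ⊆ W') (k : ℕ) :
    ∫ y, MM ν B B' h K W hW y k ∂gaussMat B' K ≤
      h * ∑ l ∈ Finset.range k, ∑ g ∈ W, ∫ y, errT ν B B' (A g) g h K y l ∂gaussMat B' K
        + κ * (h * ∑ l ∈ Finset.range k, ∫ y, MM ν B B' h K W' hW' y l ∂gaussMat B' K) := by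
  have hint1 : ∀ l, Integrable (fun y : Fin K → B' → ℝ => ∑ g ∈ W, errT ν B B' (A g) g h K y l)
      (gaussMat B' K) := fun l => integrable_finsetSum _ fun g _ => integrable_errT ν _ _ _ _ _ _ _
  have hint2 : ∀ l, Integrable (fun y : Fin K → B' → ℝ => MM ν B B' h K W' hW' y l)
      (gaussMat B' K) := fun l => integrable_MM ν hBB' h0 K hW' hW'B l
  have hint3 : ∀ l, Integrable (fun y : Fin K → B' → ℝ =>
      ∑ g ∈ W, errT ν B B' (A g) g h K y l + κ * MM ν B B' h K W' hW' y l) (gaussMat B' K) :=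
    fun l => (hint1 l).add ((hint2 l).const_mul κ)
  calc ∫ y, MM ν B B' h K W hW y k ∂gaussMat B' K
      ≤ ∫ y, h * ∑ l ∈ Finset.range k,
          (∑ g ∈ W, errT ν B B' (A g) g h K y l + κ * MM ν B B' h K W' hW' y l)
            ∂gaussMat B' K :=
        integral_mono (integrable_MM ν hBB' h0 K hW hWB k)
          ((integrable_finsetSum _ fun l _ => hint3 l).const_mul h)
          fun y => MM_step ν hL hBB' h0 K hW hW' hWB hA y k
    _ = h * ∑ l ∈ Finset.range k,
          (∑ g ∈ W, ∫ y, errT ν B B' (A g) g h K y l ∂gaussMat B' K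
            + κ * ∫ y, MM ν B B' h K W' hW' y l ∂gaussMat B' K) := by
        rw [integral_const_mul, integral_finsetSum _ fun l _ => hint3 l]
        congr 1
        refine Finset.sum_congr rfl fun l _ => ?_
        rw [integral_add (hint1 l) ((hint2 l).const_mul κ), integral_const_mul,
          integral_finsetSum _ fun g _ => integrable_errT ν _ _ _ _ _ _ _]
    _ = _ := by
        rw [Finset.sum_add_distrib, mul_add, ← Finset.mul_sum]
        ring

/-- Transfer of the noise from `B'` to the smaller `B`. -/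
lemma integral_transfer (ν : Family E) {B B' : Finset E} (hBB' : B ⊆ B') (h : ℝ) (K l : ℕ)
    (F : (E → ℝ) → ℝ) (hF : Measurable F) :
    ∫ y, F (fun i => euler ν B h (extY B' K y) l i - l * h / 2) ∂gaussMat B' K
      = ∫ y, F (fun i => euler ν B h (extY B K y) l i - l * h / 2) ∂gaussMat B K := by
  set f : B → B' := fun i => ⟨i.1, hBB' i.2⟩ with hf
  have hfi : Function.Injective f := fun a b hab => Subtype.ext (congrArg (fun x : B' => x.1) hab)
  have hmap := gaussMat_map_comp f hfi K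
  have hφ : Measurable fun y : Fin K → B' → ℝ => fun k => y k ∘ f :=
    measurable_pi_lambda _ fun k => measurable_pi_lambda _ fun i =>
      (measurable_pi_apply (f i)).comp (measurable_pi_apply k)
  have hG : AEStronglyMeasurable (fun y : Fin K → B → ℝ =>
      F (fun i => euler ν B h (extY B K y) l i - l * h / 2))
      ((gaussMat B' K).map (fun y k => y k ∘ f)) :=
    (hF.comp (measurable_lam ν B B h K l)).aestronglyMeasurable
  rw [← hmap, integral_map hφ.aemeasurable hG]
  refine integral_congr_ae (Filter.Eventually.of_forall fun y => ?_)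
  have hcongr : ∀ e, euler ν B h (extY B' K y) l e
      = euler ν B h (extY B K fun k => y k ∘ f) l e := by
    refine euler_congr ν B h l fun m _ e he => ?_
    unfold extY
    by_cases hm : m < K
    · simp [hm, he, hBB' he, hf]
    · simp [hm]
  simp only [hcongr]

/-- Expected truncation error for a pair of windows at a single step. -/
lemma integral_errT_le (ν : Family E) {A B B' : Finset E} (hAB : A ⊆ B) (hBB' : B ⊆ B') {g : E}
    (hg : g ∈ A) {h : ℝ} (h0 : 0 < h) {K l : ℕ} (hl : l ≤ K) :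
    ∫ y, errT ν B B' A g h K y l ∂gaussMat B' K ≤
      (Real.sqrt (Qv ν B g (l * h) - Qv ν A g (l * h)) + tvB h K B.card)
        + (Real.sqrt (Qv ν B' g (l * h) - Qv ν A g (l * h)) + tvB h K B'.card) := by
  have hm1 := measurable_post_sub ν B A B B' g h K l
  have hm2 := measurable_post_sub ν B' A B' B' g h K l
  have hi1 : Integrable (fun y : Fin K → B' → ℝ =>
      |post ν B (fun i => euler ν B h (extY B' K y) l i - l * h / 2) g
        - post ν A (fun i => euler ν B h (extY B' K y) l i - l * h / 2) g|) (gaussMat B' K) :=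
    integrable_of_bdd hm1 (C := 1) fun y => by
      rw [abs_abs]; exact abs_post_sub_le_one _ _ _ _ _ _ _ _
  have hi2 : Integrable (fun y : Fin K → B' → ℝ =>
      |post ν B' (fun i => euler ν B' h (extY B' K y) l i - l * h / 2) g
        - post ν A (fun i => euler ν B' h (extY B' K y) l i - l * h / 2) g|) (gaussMat B' K) :=
    integrable_of_bdd hm2 (C := 1) fun y => by
      rw [abs_abs]; exact abs_post_sub_le_one _ _ _ _ _ _ _ _
  unfold errT
  rw [integral_add hi1 hi2]
  refine add_le_add ?_ (euler_post_close ν (hAB.trans hBB') hg h0 hl)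
  have hF : Measurable fun lam : E → ℝ => |post ν B lam g - post ν A lam g| :=
    ((measurable_post ν B g).sub (measurable_post ν A g)).abs
  rw [integral_transfer ν hBB' h K l (fun lam => |post ν B lam g - post ν A lam g|) hF]
  exact euler_post_close ν hAB hg h0 hl

/-- Summed truncation error for a pair of windows. -/
lemma sum_integral_errT_le (ν : Family E) {A B B' : Finset E} (hAB : A ⊆ B) (hBB' : B ⊆ B') {g : E}
    (hg : g ∈ A) (T n : ℕ) :
    hh n * ∑ l ∈ Finset.range (T * 2 ^ n),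
        ∫ y, errT ν B B' A g (hh n) (T * 2 ^ n) y l ∂gaussMat B' (T * 2 ^ n) ≤
      tgap ν B A g T n + tgap ν B' A g T n
        + T * (tvB (hh n) (T * 2 ^ n) B.card + tvB (hh n) (T * 2 ^ n) B'.card) := by
  have hh0 := hh_pos n
  calc _ ≤ hh n * ∑ l ∈ Finset.range (T * 2 ^ n),
        (Real.sqrt (Qv ν B g (l * hh n) - Qv ν A g (l * hh n))
          + Real.sqrt (Qv ν B' g (l * hh n) - Qv ν A g (l * hh n))
          + (tvB (hh n) (T * 2 ^ n) B.card + tvB (hh n) (T * 2 ^ n) B'.card)) := by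
        refine mul_le_mul_of_nonneg_left (Finset.sum_le_sum fun l hl => ?_) hh0.le
        have := integral_errT_le ν hAB hBB' hg hh0 (Finset.mem_range.1 hl).le
        linarith
    _ = _ := by
        rw [Finset.sum_add_distrib, Finset.sum_add_distrib, Finset.sum_const, Finset.card_range,
          nsmul_eq_mul, mul_add, mul_add]
        unfold tgap
        rw [← mul_assoc (hh n), hh_mul_T]

end WindowAux

open WindowAux in
/-- (D) Window comparison. `B ⊆ B'`, same mesh, same noise (sampled on `B'`). -/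
theorem window_compare (ν : Family E) {κ : ℝ} (hκ : 0 ≤ κ) (hL : ν.Lip κ) (Dom : Set E) {e : E}
    (he : e ∈ Dom) (T : ℕ) {ε : ℝ} (hε : 0 < ε) :
    ∃ W0 : Finset E, (W0 : Set E) ⊆ Dom ∧ e ∈ W0 ∧
      ∀ B B' : Finset E, W0 ⊆ B → B ⊆ B' → (B' : Set E) ⊆ Dom → ∃ n1, ∀ n, n1 ≤ n →
        ∫ y, |euler ν B (hh n) (extY B' (T * 2 ^ n) y) (T * 2 ^ n) e
            - euler ν B' (hh n) (extY B' (T * 2 ^ n) y) (T * 2 ^ n) e|
          ∂gaussMat B' (T * 2 ^ n) ≤ ε := by
  classical
  -- number of generations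
  have hJ : ∃ J : ℕ, κ ^ J * (T : ℝ) ^ (J + 1) / (J + 1).factorial < ε / 3 := by
    have hlim := FloorSemiring.tendsto_pow_div_factorial_atTop (((κ + 1) * T : ℝ))
    have hlim' := (Filter.tendsto_add_atTop_iff_nat 1).2 hlim
    have hev := hlim'.eventually (gt_mem_nhds (show (0 : ℝ) < ε / 3 by positivity))
    obtain ⟨J, hJ⟩ := hev.exists
    refine ⟨J, lt_of_le_of_lt ?_ hJ⟩
    have hT : (0 : ℝ) ≤ T := Nat.cast_nonneg T
    have hfac : (0 : ℝ) < ((J + 1).factorial : ℝ) := by positivity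
    refine div_le_div_of_nonneg_right ?_ hfac.le
    rw [mul_pow]
    refine mul_le_mul_of_nonneg_right ?_ (by positivity)
    calc κ ^ J ≤ (κ + 1) ^ J := pow_le_pow_left₀ hκ (by linarith) J
      _ ≤ (κ + 1) ^ (J + 1) := pow_le_pow_right₀ (by linarith) (Nat.le_succ J)
  obtain ⟨J, hJ⟩ := hJ
  set E0 : ℝ := Real.exp (κ * T) with hE0
  have hE0pos : 0 < E0 := Real.exp_pos _
  set c0 : ℝ := ε / (6 * E0) with hc0
  have hc0pos : 0 < c0 := by positivity
  -- the generation step, as a function of the current generation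
  have step : ∀ W : Finset E, (W : Set E) ⊆ Dom →
      ∃ (W' : Finset E) (A : E → Finset E) (m : ℕ), W ⊆ W' ∧ (W' : Set E) ⊆ Dom ∧
        ∀ g ∈ W, g ∈ A g ∧ A g ⊆ W' ∧ ∀ B : Finset E, A g ⊆ B → (B : Set E) ⊆ Dom →
          ∀ n, m ≤ n → tgap ν B (A g) g T n ≤ c0 / (W.card + 1) := fun W hW =>
    exists_generation ν Dom T (by positivity) W hW
  choose! nxt Af mf hsub hdom hgen using step
  set W : ℕ → Finset E := fun j => nxt^[j] {e} with hWdef
  have hWsucc : ∀ j, W (j + 1) = nxt (W j) := fun j => by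
    simp only [hWdef, Function.iterate_succ_apply']
  have hWdom : ∀ j, (W j : Set E) ⊆ Dom := by
    intro j
    induction j with
    | zero => simpa [hWdef] using he
    | succ j ih => rw [hWsucc]; exact hdom _ ih
  have hWsub : ∀ j, W j ⊆ W (j + 1) := fun j => by rw [hWsucc]; exact hsub _ (hWdom j)
  have hWmono : Monotone W := monotone_nat_of_le_succ hWsub
  have heW : ∀ j, e ∈ W j := fun j => hWmono (Nat.zero_le j) (by simp [hWdef])
  have hne : ∀ j, (W j).Nonempty := fun j => ⟨e, heW j⟩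
  refine ⟨W J, hWdom J, heW J, fun B B' hWB hBB' hB' => ?_⟩
  have hB : (B : Set E) ⊆ Dom := (Finset.coe_subset.2 hBB').trans hB'
  -- mesh threshold
  have hlimtv : Filter.Tendsto (fun n : ℕ => ((W J).card : ℝ) * (T * (tvB (hh n) (T * 2 ^ n) B.card
      + tvB (hh n) (T * 2 ^ n) B'.card))) Filter.atTop (nhds 0) := by
    have h1 := (tendsto_tvB B.card T).add (tendsto_tvB B'.card T)
    have h2 := (h1.const_mul (T : ℝ)).const_mul ((W J).card : ℝ)
    simpa using h2
  have hev := hlimtv.eventually (gt_mem_nhds (show (0 : ℝ) < ε / (3 * E0) by positivity))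
  obtain ⟨n0, hn0⟩ := Filter.eventually_atTop.1 hev
  refine ⟨max n0 ((Finset.range J).sup fun j => mf (W j)), fun n hn => ?_⟩
  have hn0' : n0 ≤ n := (le_max_left _ _).trans hn
  have hnm : ∀ j < J, mf (W j) ≤ n := fun j hj =>
    (Finset.le_sup (f := fun j => mf (W j)) (Finset.mem_range.2 hj)).trans ((le_max_right _ _).trans hn)
  set K := T * 2 ^ n with hK
  set h := hh n with hh'
  have h0 : 0 < h := hh_pos n
  have hKh : (K : ℝ) * h = T := by rw [mul_comm]; exact hh_mul_T T n
  set η : ℝ := 2 * ε / (3 * E0) with hη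
  have hηpos : 0 ≤ η := by positivity
  have hWJB : ∀ j ≤ J, W j ⊆ B := fun j hj => (hWmono hj).trans hWB
  -- the sequence
  set a : ℕ → ℕ → ℝ := fun j k => ∫ y, MM ν B B' h K (W j) (hne j) y k ∂gaussMat B' K with ha
  have ha0 : ∀ j k, 0 ≤ a j k := fun j k => integral_nonneg fun y => MM_nonneg ν B B' h K (hne j) y k
  have herr : ∀ j < J, h * ∑ l ∈ Finset.range K, ∑ g ∈ W j,
      ∫ y, errT ν B B' (Af (W j) g) g h K y l ∂gaussMat B' K ≤ η := by
    intro j hj
    have hj' : j ≤ J := hj.le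
    have hsmall := hn0 n hn0'
    -- pairwise bound
    have hpair : ∀ g ∈ W j, h * ∑ l ∈ Finset.range K,
        ∫ y, errT ν B B' (Af (W j) g) g h K y l ∂gaussMat B' K
          ≤ 2 * (c0 / ((W j).card + 1))
            + T * (tvB h K B.card + tvB h K B'.card) := by
      intro g hg
      obtain ⟨hgA, hAW, hgap⟩ := hgen (W j) (hWdom j) g hg
      have hAWJ : Af (W j) g ⊆ W J := by
        refine hAW.trans ?_
        rw [← hWsucc]
        exact hWmono (Nat.succ_le_of_lt hj)
      have hAB : Af (W j) g ⊆ B := hAWJ.trans hWB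
      have h1 := sum_integral_errT_le ν hAB hBB' hgA T n
      have h2 := hgap B hAB hB n (hnm j hj)
      have h3 := hgap B' (hAB.trans hBB') hB' n (hnm j hj)
      linarith
    have htvnn : 0 ≤ tvB h K B.card + tvB h K B'.card :=
      add_nonneg (Real.sqrt_nonneg _) (Real.sqrt_nonneg _)
    have hcard : ((W j).card : ℝ) ≤ (W J).card := by
      exact_mod_cast Finset.card_le_card (hWmono hj')
    calc h * ∑ l ∈ Finset.range K, ∑ g ∈ W j,
          ∫ y, errT ν B B' (Af (W j) g) g h K y l ∂gaussMat B' K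
        = ∑ g ∈ W j, h * ∑ l ∈ Finset.range K,
            ∫ y, errT ν B B' (Af (W j) g) g h K y l ∂gaussMat B' K := by
          rw [Finset.sum_comm, Finset.mul_sum]
      _ ≤ ∑ g ∈ W j, (2 * (c0 / ((W j).card + 1))
            + T * (tvB h K B.card + tvB h K B'.card)) := Finset.sum_le_sum hpair
      _ = ((W j).card : ℝ) * (2 * (c0 / ((W j).card + 1)))
            + ((W j).card : ℝ) * (T * (tvB h K B.card + tvB h K B'.card)) := by
          rw [Finset.sum_const, nsmul_eq_mul, mul_add]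
      _ ≤ ε / (3 * E0) + ε / (3 * E0) := by
          refine add_le_add ?_ ?_
          · have hcp : (0 : ℝ) < ((W j).card : ℝ) + 1 := by positivity
            have h5 : ((W j).card : ℝ) / (((W j).card : ℝ) + 1) ≤ 1 :=
              (div_le_one hcp).2 (by linarith)
            have : ((W j).card : ℝ) * (2 * (c0 / ((W j).card + 1))) ≤ 2 * c0 := by
              calc ((W j).card : ℝ) * (2 * (c0 / ((W j).card + 1)))
                  = 2 * c0 * (((W j).card : ℝ) / (((W j).card : ℝ) + 1)) := by ring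
                _ ≤ 2 * c0 * 1 := by gcongr
                _ = 2 * c0 := by ring
            have h6 : 2 * c0 = ε / (3 * E0) := by rw [hc0]; field_simp; ring
            linarith
          · refine le_trans ?_ hsmall.le
            exact mul_le_mul_of_nonneg_right hcard (mul_nonneg (Nat.cast_nonneg T) htvnn)
      _ = η := by rw [hη]; ring
  have hstep : ∀ j < J, ∀ k ≤ K, a j k ≤ η + κ * (h * ∑ l ∈ Finset.range k, a (j + 1) l) := by
    intro j hj k hk
    have hAgen : ∀ g ∈ W j, g ∈ Af (W j) g ∧ Af (W j) g ⊆ W (j + 1) := fun g hg => by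
      obtain ⟨h1, h2, _⟩ := hgen (W j) (hWdom j) g hg
      exact ⟨h1, by rw [hWsucc]; exact h2⟩
    have h1 := a_step ν hL hBB' h0 K (hne j) (hne (j + 1)) (hWJB j hj.le)
      (hWJB (j + 1) (Nat.succ_le_of_lt hj)) hAgen k
    refine h1.trans (add_le_add ?_ le_rfl)
    refine le_trans ?_ (herr j hj)
    refine mul_le_mul_of_nonneg_left ?_ h0.le
    refine Finset.sum_le_sum_of_subset_of_nonneg (Finset.range_subset_range.2 hk) fun l _ _ => ?_
    exact Finset.sum_nonneg fun g _ => integral_nonneg fun y => errT_nonneg ν _ _ _ _ _ _ _ _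
  have htop : ∀ k ≤ K, a J k ≤ k * h := by
    intro k _
    calc a J k ≤ ∫ _y : Fin K → B' → ℝ, ((k : ℝ) * h) ∂gaussMat B' K :=
          integral_mono (integrable_MM ν hBB' h0 K (hne J) hWB k) (integrable_const _)
            fun y => MM_le ν hBB' h0 K (hne J) hWB y k
      _ = k * h := by simp
  have hfin := generations_bound h0 hκ hηpos a ha0 hstep htop
  rw [hKh] at hfin
  -- from the sup to the site `e`
  have hle : ∫ y, |euler ν B h (extY B' K y) K e - euler ν B' h (extY B' K y) K e| ∂gaussMat B' K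
      ≤ a 0 K := by
    refine integral_mono (WindowAux.integrable_of_bdd (measurable_dd ν B B' h K K e).abs (C := K * h) ?_)
      (integrable_MM ν hBB' h0 K (hne 0) (hWJB 0 (Nat.zero_le J)) K) fun y => ?_
    · intro y
      rw [abs_abs]
      exact abs_dd_le ν hBB' h0 K y K (hWJB 0 (Nat.zero_le J) (heW 0))
    · exact le_MM ν B B' h K (hne 0) y K (heW 0)
  refine hle.trans (hfin.trans ?_)
  have hηE : η * E0 = 2 * ε / 3 := by rw [hη]; field_simp
  have : η * Real.exp (κ * T) = 2 * ε / 3 := hηE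
  rw [this]
  linarith

end Crest.Agent.SRFactor
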