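import Crest.Agent.SRFactor.Bayes

/-! Choice of a finite window which captures the posterior of `g` uniformly in time and mesh. -/

set_option autoImplicit false

open MeasureTheory ProbabilityTheory

namespace Crest.Agent.SRFactor

variable {E : Type*} [DecidableEq E]

/-- A sum over `N * r` consecutive indices, split in `N` blocks of length `r`. -/
private lemma sum_range_mul_blocks (f : ℕ → ℝ) (N r : ℕ) :
    ∑ l ∈ Finset.range (N * r), f l
      = ∑ i ∈ Finset.range N, ∑ j ∈ Finset.range r, f (i * r + j) := by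
  induction N with
  | zero => simp
  | succ N ih =>
    rw [Nat.succ_mul, Finset.sum_range_add, ih, Finset.sum_range_succ]

/-- For a fixed time there is a finite window which almost attains the supremum of `Qv`. -/
private lemma exists_window_at (ν : Family E) (Dom : Set E) {g : E} (hg : g ∈ Dom) (t : ℝ) {ε : ℝ}
    (hε : 0 < ε) :
    ∃ A : Finset E, g ∈ A ∧ (A : Set E) ⊆ Dom ∧
      ∀ B : Finset E, g ∈ B → (B : Set E) ⊆ Dom → Qv ν B g t ≤ Qv ν A g t + ε := by
  classical
  set X : Set ℝ := {x | ∃ A : Finset E, g ∈ A ∧ (A : Set E) ⊆ Dom ∧ x = Qv ν A g t} with hX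
  have hne : X.Nonempty := ⟨_, {g}, by simp, by simpa using hg, rfl⟩
  have hbdd : BddAbove X := ⟨1, by
    rintro x ⟨A, -, -, rfl⟩
    exact Qv_le_one ν A g t⟩
  obtain ⟨x, ⟨A, hgA, hAD, rfl⟩, hx⟩ := exists_lt_of_lt_csSup hne (sub_lt_self (sSup X) hε)
  refine ⟨A, hgA, hAD, fun B hgB hBD => ?_⟩
  have : Qv ν B g t ≤ sSup X := le_csSup hbdd ⟨B, hgB, hBD, rfl⟩
  linarith

/-- Time-uniform selection of a finite window: on average over time (at any fine enough dyadic mesh)
`Qv` of any larger window exceeds that of `A` by at most `δ`. -/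
theorem exists_window_time (ν : Family E) (Dom : Set E) {g : E} (hg : g ∈ Dom) (T : ℕ) {δ : ℝ}
    (hδ : 0 < δ) :
    ∃ A : Finset E, g ∈ A ∧ (A : Set E) ⊆ Dom ∧ ∃ m : ℕ, ∀ B : Finset E, A ⊆ B → (B : Set E) ⊆ Dom →
      ∀ n, m ≤ n →
        hh n * ∑ l ∈ Finset.range (T * 2 ^ n),
          (Qv ν B g (l * hh n) - Qv ν A g (l * hh n)) ≤ δ := by
  classical
  -- the coarse mesh
  obtain ⟨m, hm⟩ : ∃ m : ℕ, (1 / 2 : ℝ) ^ m ≤ δ / 2 := by
    obtain ⟨m, hm⟩ := exists_pow_lt_of_lt_one (half_pos hδ) (by norm_num : (1 / 2 : ℝ) < 1)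
    exact ⟨m, hm.le⟩
  set Δ : ℝ := (1 / 2 : ℝ) ^ m with hΔ
  have hΔpos : 0 < Δ := by positivity
  set ε : ℝ := δ / (2 * T + 2) with hε
  have hεpos : 0 < ε := by positivity
  set N : ℕ := T * 2 ^ m with hN
  -- near-optimal windows at each coarse time
  have hchoice := fun i : ℕ => exists_window_at ν Dom hg ((i : ℝ) * Δ) hεpos
  choose Ai hgAi hAiD hAi using hchoice
  set A : Finset E := (Finset.range (N + 1)).biUnion Ai with hA
  have hgA : g ∈ A := Finset.mem_biUnion.2 ⟨0, by simp, hgAi 0⟩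
  have hAD : (A : Set E) ⊆ Dom := by
    intro x hx
    obtain ⟨i, -, hi⟩ := Finset.mem_biUnion.1 (Finset.mem_coe.1 hx)
    exact hAiD i (Finset.mem_coe.2 hi)
  refine ⟨A, hgA, hAD, m, fun B hAB hBD n hn => ?_⟩
  have hgB : g ∈ B := hAB hgA
  -- the block structure
  obtain ⟨d, rfl⟩ : ∃ d, n = m + d := ⟨n - m, by omega⟩
  set r : ℕ := 2 ^ d with hr
  have hrpos : (0 : ℝ) < r := by positivity
  have hhh : hh (m + d) * r = Δ := by
    simp only [hh, hr, hΔ, pow_add]
    push_cast
    have : ((1 / 2 : ℝ)) ^ d * (2 : ℝ) ^ d = 1 := by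
      rw [← mul_pow]; norm_num
    calc (1 / 2 : ℝ) ^ m * (1 / 2) ^ d * 2 ^ d = (1 / 2 : ℝ) ^ m * ((1 / 2) ^ d * 2 ^ d) := by ring
      _ = (1 / 2 : ℝ) ^ m := by rw [this, mul_one]
  have hhpos : 0 < hh (m + d) := by simp only [hh]; positivity
  have hsize : T * 2 ^ (m + d) = N * r := by
    simp only [hN, hr, pow_add]; ring
  rw [hsize, sum_range_mul_blocks]
  -- bound on each term of a block
  have hterm : ∀ i ∈ Finset.range N, ∀ j ∈ Finset.range r,
      Qv ν B g (((i * r + j : ℕ) : ℝ) * hh (m + d)) - Qv ν A g (((i * r + j : ℕ) : ℝ) * hh (m + d))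
        ≤ (Qv ν B g (((i + 1 : ℕ) : ℝ) * Δ) - Qv ν B g ((i : ℝ) * Δ)) + ε := by
    intro i hi j hj
    have hi' : i < N := Finset.mem_range.1 hi
    have hj' : j < r := Finset.mem_range.1 hj
    set t : ℝ := ((i * r + j : ℕ) : ℝ) * hh (m + d) with ht
    have ht_lo : (i : ℝ) * Δ ≤ t := by
      rw [ht, ← hhh]
      push_cast
      have : (0 : ℝ) ≤ (j : ℝ) * hh (m + d) := by positivity
      nlinarith
    have ht_hi : t ≤ ((i + 1 : ℕ) : ℝ) * Δ := by
      rw [ht, ← hhh]
      push_cast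
      have hj2 : (j : ℝ) ≤ r := by exact_mod_cast hj'.le
      have : (j : ℝ) * hh (m + d) ≤ r * hh (m + d) :=
        mul_le_mul_of_nonneg_right hj2 hhpos.le
      nlinarith
    have hi0 : (0 : ℝ) ≤ (i : ℝ) * Δ := by positivity
    have ht0 : 0 ≤ t := hi0.trans ht_lo
    have h1 : Qv ν B g t ≤ Qv ν B g (((i + 1 : ℕ) : ℝ) * Δ) := Qv_mono_time ν B hgB ht0 ht_hi
    have h2 : Qv ν A g ((i : ℝ) * Δ) ≤ Qv ν A g t := Qv_mono_time ν A hgA hi0 ht_lo
    have hiA : Ai i ⊆ A := Finset.subset_biUnion_of_mem Ai (Finset.mem_range.2 (by omega))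
    have h3 : Qv ν (Ai i) g ((i : ℝ) * Δ) ≤ Qv ν A g ((i : ℝ) * Δ) :=
      Qv_mono_window ν hiA (hgAi i) hi0
    have h4 := hAi i B hgB hBD
    linarith
  have hsum : ∑ i ∈ Finset.range N, ∑ j ∈ Finset.range r,
      (Qv ν B g (((i * r + j : ℕ) : ℝ) * hh (m + d)) - Qv ν A g (((i * r + j : ℕ) : ℝ) * hh (m + d)))
        ≤ ∑ i ∈ Finset.range N, (r : ℝ) *
            ((Qv ν B g (((i + 1 : ℕ) : ℝ) * Δ) - Qv ν B g ((i : ℝ) * Δ)) + ε) := by
    refine Finset.sum_le_sum fun i hi => ?_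
    calc _ ≤ ∑ _j ∈ Finset.range r,
            ((Qv ν B g (((i + 1 : ℕ) : ℝ) * Δ) - Qv ν B g ((i : ℝ) * Δ)) + ε) :=
          Finset.sum_le_sum (hterm i hi)
      _ = _ := by simp [Finset.sum_const]; ring
  have htel : ∑ i ∈ Finset.range N,
      ((Qv ν B g (((i + 1 : ℕ) : ℝ) * Δ) - Qv ν B g ((i : ℝ) * Δ)) + ε)
        ≤ 1 + N * ε := by
    rw [Finset.sum_add_distrib, Finset.sum_const, Finset.card_range, nsmul_eq_mul]
    have := Finset.sum_range_sub (fun i : ℕ => Qv ν B g ((i : ℝ) * Δ)) N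
    have h1 : Qv ν B g ((N : ℝ) * Δ) ≤ 1 := Qv_le_one ν B g _
    have h0 : 0 ≤ Qv ν B g (((0 : ℕ) : ℝ) * Δ) := Qv_nonneg ν B g _
    linarith
  have hNΔ : (N : ℝ) * Δ = T := by
    simp only [hN, hΔ]
    push_cast
    have : ((2 : ℝ)) ^ m * (1 / 2 : ℝ) ^ m = 1 := by
      rw [← mul_pow]; norm_num
    calc (T : ℝ) * 2 ^ m * (1 / 2 : ℝ) ^ m = T * (2 ^ m * (1 / 2 : ℝ) ^ m) := by ring
      _ = T := by rw [this, mul_one]
  calc hh (m + d) * ∑ i ∈ Finset.range N, ∑ j ∈ Finset.range r,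
        (Qv ν B g (((i * r + j : ℕ) : ℝ) * hh (m + d))
          - Qv ν A g (((i * r + j : ℕ) : ℝ) * hh (m + d)))
      ≤ hh (m + d) * ∑ i ∈ Finset.range N, (r : ℝ) *
            ((Qv ν B g (((i + 1 : ℕ) : ℝ) * Δ) - Qv ν B g ((i : ℝ) * Δ)) + ε) :=
        mul_le_mul_of_nonneg_left hsum hhpos.le
    _ = Δ * ∑ i ∈ Finset.range N,
            ((Qv ν B g (((i + 1 : ℕ) : ℝ) * Δ) - Qv ν B g ((i : ℝ) * Δ)) + ε) := by
        rw [← Finset.mul_sum, ← mul_assoc, hhh]
    _ ≤ Δ * (1 + N * ε) := mul_le_mul_of_nonneg_left htel hΔpos.le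
    _ = Δ + T * ε := by
        have : Δ * (1 + N * ε) = Δ + ((N : ℝ) * Δ) * ε := by ring
        rw [this, hNΔ]
    _ ≤ δ / 2 + δ / 2 := by
        refine add_le_add hm ?_
        have hT : (0 : ℝ) ≤ T := Nat.cast_nonneg T
        rw [hε, mul_div_assoc', div_le_div_iff₀ (by positivity) (by norm_num)]
        nlinarith
    _ = δ := by ring

/-- A power-sum bound: `h * ∑_{l<k} (l h)^m ≤ (k h)^(m+1)/(m+1)`. -/
private lemma sum_pow_le {h : ℝ} (h0 : 0 < h) (m k : ℕ) :
    h * ∑ l ∈ Finset.range k, ((l : ℝ) * h) ^ m ≤ ((k : ℝ) * h) ^ (m + 1) / (m + 1) := by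
  have key : ∀ x : ℝ, 0 ≤ x → ∀ m : ℕ, x ^ (m + 1) + (m + 1) * x ^ m ≤ (x + 1) ^ (m + 1) := by
    intro x hx m
    induction m with
    | zero => simp
    | succ m ih =>
      have h1 : (x + 1) ^ (m + 1 + 1) = (x + 1) ^ (m + 1) * (x + 1) := pow_succ _ _
      have h2 : (x ^ (m + 1) + (m + 1) * x ^ m) * (x + 1) ≤ (x + 1) ^ (m + 1) * (x + 1) :=
        mul_le_mul_of_nonneg_right ih (by linarith)
      have h3 : (0 : ℝ) ≤ (m + 1) * x ^ m := by positivity
      have h4 : x ^ (m + 1) = x ^ m * x := pow_succ _ _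
      have h5 : x ^ (m + 1 + 1) = x ^ m * x * x := by ring
      push_cast
      rw [h1]
      nlinarith
  have hm : (0 : ℝ) < (m : ℝ) + 1 := by positivity
  rw [le_div_iff₀ hm]
  induction k with
  | zero => simp
  | succ k ih =>
    rw [Finset.sum_range_succ]
    have hk : (0 : ℝ) ≤ k := Nat.cast_nonneg k
    have := key (k : ℝ) hk m
    have hp : (0 : ℝ) < h ^ (m + 1) := by positivity
    have h6 : (((k : ℝ) + 1) * h) ^ (m + 1) = ((k : ℝ) + 1) ^ (m + 1) * h ^ (m + 1) := mul_pow _ _ _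
    have h7 : ((k : ℝ) * h) ^ (m + 1) = (k : ℝ) ^ (m + 1) * h ^ (m + 1) := mul_pow _ _ _
    have h8 : ((k : ℝ) * h) ^ m * h = (k : ℝ) ^ m * h ^ (m + 1) := by
      rw [mul_pow, pow_succ h m]; ring
    have h9 : (k : ℝ) ^ (m + 1) * h ^ (m + 1) + ((m : ℝ) + 1) * ((k : ℝ) ^ m * h ^ (m + 1))
        ≤ ((k : ℝ) + 1) ^ (m + 1) * h ^ (m + 1) := by
      have := mul_le_mul_of_nonneg_right this hp.le
      nlinarith
    push_cast
    rw [h6]
    rw [h7] at ih
    calc h * (∑ l ∈ Finset.range k, ((l : ℝ) * h) ^ m + ((k : ℝ) * h) ^ m) * (↑m + 1)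
        = h * (∑ l ∈ Finset.range k, ((l : ℝ) * h) ^ m) * (↑m + 1)
            + ((m : ℝ) + 1) * (((k : ℝ) * h) ^ m * h) := by ring
      _ ≤ (k : ℝ) ^ (m + 1) * h ^ (m + 1) + ((m : ℝ) + 1) * ((k : ℝ) ^ m * h ^ (m + 1)) := by
          rw [h8]; linarith
      _ ≤ _ := h9

/-- Real sequence lemma at the heart of the window comparison: finitely many generations and
factorial decay. `a j k` bounds the expected discrepancy on generation `j` at step `k`. -/
theorem generations_bound {J : ℕ} {K : ℕ} {h κ η : ℝ} (hh0 : 0 < h) (hκ : 0 ≤ κ) (hη : 0 ≤ η)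
    (a : ℕ → ℕ → ℝ) (ha0 : ∀ j k, 0 ≤ a j k)
    (hstep : ∀ j < J, ∀ k ≤ K, a j k ≤ η + κ * (h * ∑ l ∈ Finset.range k, a (j + 1) l))
    (htop : ∀ k ≤ K, a J k ≤ k * h) :
    a 0 K ≤ η * Real.exp (κ * (K * h)) + κ ^ J * (K * h) ^ (J + 1) / (J + 1).factorial := by
  -- the inductive claim
  have claim : ∀ i ≤ J, ∀ k ≤ K, a (J - i) k ≤
      η * ∑ m ∈ Finset.range i, (κ * (k * h)) ^ m / m.factorial
        + κ ^ i * ((k : ℝ) * h) ^ (i + 1) / (i + 1).factorial := by
    intro i
    induction i with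
    | zero =>
      intro _ k hk
      simpa using htop k hk
    | succ i ih =>
      intro hi k hk
      have hj : J - (i + 1) < J := by omega
      have hj1 : J - (i + 1) + 1 = J - i := by omega
      have hs := hstep (J - (i + 1)) hj k hk
      rw [hj1] at hs
      -- termwise bound of the sum
      have hsum : h * ∑ l ∈ Finset.range k, a (J - i) l ≤
          η * ∑ m ∈ Finset.range i, κ ^ m / m.factorial * (((k : ℝ) * h) ^ (m + 1) / (m + 1))
            + κ ^ i / (i + 1).factorial * (((k : ℝ) * h) ^ (i + 2) / (i + 2)) := by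
        have h1 : ∑ l ∈ Finset.range k, a (J - i) l ≤ ∑ l ∈ Finset.range k,
            (η * ∑ m ∈ Finset.range i, κ ^ m / m.factorial * ((l : ℝ) * h) ^ m
              + κ ^ i / (i + 1).factorial * ((l : ℝ) * h) ^ (i + 1)) := by
          refine Finset.sum_le_sum fun l hl => ?_
          have hl' : l ≤ K := (Finset.mem_range.1 hl).le.trans hk
          refine (ih (by omega) l hl').trans (le_of_eq ?_)
          congr 1
          · congr 1
            refine Finset.sum_congr rfl fun m _ => ?_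
            rw [mul_pow]; ring
          · ring
        have h2 : h * ∑ l ∈ Finset.range k,
            (η * ∑ m ∈ Finset.range i, κ ^ m / m.factorial * ((l : ℝ) * h) ^ m
              + κ ^ i / (i + 1).factorial * ((l : ℝ) * h) ^ (i + 1))
            = η * ∑ m ∈ Finset.range i, κ ^ m / m.factorial *
                  (h * ∑ l ∈ Finset.range k, ((l : ℝ) * h) ^ m)
              + κ ^ i / (i + 1).factorial * (h * ∑ l ∈ Finset.range k, ((l : ℝ) * h) ^ (i + 1)) := by
          have e1 : ∑ m ∈ Finset.range i, κ ^ m / m.factorial *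
                  (h * ∑ l ∈ Finset.range k, ((l : ℝ) * h) ^ m)
              = h * ∑ l ∈ Finset.range k, ∑ m ∈ Finset.range i,
                  κ ^ m / m.factorial * ((l : ℝ) * h) ^ m := by
            simp only [Finset.mul_sum]
            rw [Finset.sum_comm]
            exact Finset.sum_congr rfl fun _ _ => Finset.sum_congr rfl fun _ _ => by ring
          rw [e1, Finset.sum_add_distrib, ← Finset.mul_sum, ← Finset.mul_sum]
          ring
        calc h * ∑ l ∈ Finset.range k, a (J - i) l ≤ _ := mul_le_mul_of_nonneg_left h1 hh0.le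
          _ = _ := h2
          _ ≤ _ := by
            refine add_le_add ?_ ?_
            · refine mul_le_mul_of_nonneg_left ?_ hη
              refine Finset.sum_le_sum fun m _ => ?_
              refine mul_le_mul_of_nonneg_left ?_ (by positivity)
              simpa using sum_pow_le hh0 m k
            · refine mul_le_mul_of_nonneg_left ?_ (by positivity)
              have h' : ((i : ℝ) + 2) = ((i + 1 : ℕ) : ℝ) + 1 := by push_cast; ring
              rw [h']
              exact sum_pow_le hh0 (i + 1) k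
      have hκs := mul_le_mul_of_nonneg_left hsum hκ
      refine hs.trans ?_
      -- combine
      have hfact : ∀ m : ℕ, ((m + 1).factorial : ℝ) = (m + 1) * m.factorial := by
        intro m; rw [Nat.factorial_succ]; push_cast; ring
      have hsplit : η * ∑ m ∈ Finset.range (i + 1), (κ * (k * h)) ^ m / m.factorial
          = η + κ * (η * ∑ m ∈ Finset.range i, κ ^ m / m.factorial *
              (((k : ℝ) * h) ^ (m + 1) / (m + 1))) := by
        rw [Finset.sum_range_succ']
        simp only [pow_zero, Nat.factorial_zero, Nat.cast_one, div_one]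
        rw [mul_add, mul_one, add_comm]
        congr 1
        simp only [Finset.mul_sum]
        refine Finset.sum_congr rfl fun m _ => ?_
        rw [hfact m, mul_pow]
        have h1 : ((m : ℝ) + 1) ≠ 0 := by positivity
        have h2 : (m.factorial : ℝ) ≠ 0 := by positivity
        field_simp
        ring
      have hlast : κ ^ (i + 1) * ((k : ℝ) * h) ^ (i + 1 + 1) / (i + 1 + 1).factorial
          = κ * (κ ^ i / (i + 1).factorial * (((k : ℝ) * h) ^ (i + 2) / (i + 2))) := by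
        rw [hfact (i + 1)]
        have h1 : ((((i + 1 : ℕ) : ℝ)) + 1) ≠ 0 := by positivity
        have h2 : ((i + 1).factorial : ℝ) ≠ 0 := by positivity
        have h3 : ((i : ℝ) + 2) ≠ 0 := by positivity
        push_cast at h1 ⊢
        field_simp
        ring
      rw [hsplit, hlast]
      have := hκs
      rw [mul_add] at this
      linarith
  have hfin := claim J le_rfl K le_rfl
  rw [Nat.sub_self] at hfin
  refine hfin.trans ?_
  have hexp : ∑ m ∈ Finset.range J, (κ * (K * h)) ^ m / m.factorial ≤ Real.exp (κ * (K * h)) :=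
    Real.sum_le_exp_of_nonneg (by positivity) J
  have := mul_le_mul_of_nonneg_left hexp hη
  linarith

end Crest.Agent.SRFactor
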